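import Vale.Agent.P164.Defs

/-!
# P164 Fld

The truncated field, the smooth step and the exponents. Lipschitz constant `6 / η ^ 2`:
`√(den η x ·)` is `1`-Lipschitz (norm of `(re - x, max |im| η)`), `‖ζ - x‖ ^ 2 ≤ den`, `η ^ 2 ≤ den`.
-/

open MeasureTheory ProbabilityTheory Set Filter Topology Complex Function
open scoped NNReal ENNReal ComplexConjugate

noncomputable section

namespace Vale.Agent.P164

variable {η x : ℝ} {ζ : ℂ} {w : ℝ → ℝ}

theorem sq_le_den (hη : 0 ≤ η) (x : ℝ) (ζ : ℂ) : η ^ 2 ≤ den η x ζ := by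
  have h := pow_le_pow_left₀ hη (le_max_right |ζ.im| η) 2
  unfold den
  linarith [sq_nonneg (ζ.re - x)]

theorem den_pos (hη : 0 < η) (x : ℝ) (ζ : ℂ) : 0 < den η x ζ := by
  exact (pow_pos hη 2).trans_le (sq_le_den hη.le x ζ)

theorem normSq_le_den (η x : ℝ) (ζ : ℂ) : (ζ.re - x) ^ 2 + ζ.im ^ 2 ≤ den η x ζ := by
  have h := pow_le_pow_left₀ (abs_nonneg ζ.im) (le_max_left |ζ.im| η) 2
  rw [sq_abs] at h
  unfold den
  linarith

theorem Fld_norm (η x : ℝ) (ζ : ℂ) : ‖ζ - x‖ ≤ √(den η x ζ) := by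
  refine Real.le_sqrt_of_sq_le (le_trans (le_of_eq ?_) (normSq_le_den η x ζ))
  rw [Complex.sq_norm, Complex.normSq_apply]
  simp [sq]

theorem Fld_lip (η x : ℝ) (ζ ζ' : ℂ) : |√(den η x ζ) - √(den η x ζ')| ≤ ‖ζ - ζ'‖ := by
  have e : ∀ ξ : ℂ, √(den η x ξ) = ‖(⟨ξ.re - x, max |ξ.im| η⟩ : ℂ)‖ := fun ξ => by
    rw [Complex.norm_eq_sqrt_sq_add_sq, den]
  rw [e, e]
  refine (abs_norm_sub_norm_le _ _).trans ?_
  rw [Complex.norm_eq_sqrt_sq_add_sq, Complex.norm_eq_sqrt_sq_add_sq]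
  refine Real.sqrt_le_sqrt ?_
  have h := sq_le_sq.2 ((abs_max_sub_max_le_abs |ζ.im| |ζ'.im| η).trans
    (abs_abs_sub_abs_le_abs_sub ζ.im ζ'.im))
  simp only [Complex.sub_re, Complex.sub_im, sub_sub_sub_cancel_right]
  linarith

theorem den_eq (h : η ≤ |ζ.im|) : den η x ζ = (ζ.re - x) ^ 2 + ζ.im ^ 2 := by
  rw [den, max_eq_left h, sq_abs]

theorem fld_eq (hη : 0 < η) (h : η ≤ |ζ.im|) : fld η x ζ = 2 / (ζ - x) := by
  have h1 : ζ - x ≠ 0 := by
    intro h2
    have h3 : ζ.im = 0 := by simpa using congrArg Complex.im h2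
    rw [h3, abs_zero] at h
    linarith
  have h4 : ((den η x ζ : ℝ) : ℂ) = (ζ - x) * conj (ζ - x) := by
    rw [Complex.mul_conj, den_eq h, Complex.normSq_apply]
    simp [sq]
  have h5 : conj (ζ - x) ≠ 0 := (map_ne_zero _).2 h1
  rw [fld, h4]
  field_simp

theorem fld_re (η x : ℝ) (ζ : ℂ) : (fld η x ζ).re = 2 * (ζ.re - x) / den η x ζ := by
  rw [fld, Complex.div_ofReal_re]
  simp

theorem fld_im (η x : ℝ) (ζ : ℂ) : (fld η x ζ).im = -2 * ζ.im / den η x ζ := by
  rw [fld, Complex.div_ofReal_im]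
  simp

theorem norm_fld_le (η x : ℝ) (ζ : ℂ) : ‖fld η x ζ‖ ≤ 2 / √(den η x ζ) := by
  have h0 : 0 ≤ den η x ζ := by
    unfold den
    positivity
  have h1 := Fld_norm η x ζ
  rw [fld, norm_div, norm_mul, Complex.norm_conj, Complex.norm_real, Real.norm_of_nonneg h0,
    Complex.norm_two]
  rcases h0.eq_or_lt with h2 | h2
  · simp [← h2]
  · have h3 := Real.sqrt_pos.2 h2
    rw [div_le_div_iff₀ h2 h3]
    have h4 := mul_le_mul_of_nonneg_right h1 h3.le
    rw [Real.mul_self_sqrt h0] at h4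
    linarith

theorem norm_fld_le' (hη : 0 < η) (x : ℝ) (ζ : ℂ) : ‖fld η x ζ‖ ≤ 2 / η := by
  exact (norm_fld_le η x ζ).trans
    (div_le_div_of_nonneg_left zero_le_two hη (Real.le_sqrt_of_sq_le (sq_le_den hη.le x ζ)))

theorem continuous_den : Continuous fun q : ℝ × ℝ × ℂ => den q.1 q.2.1 q.2.2 := by
  unfold den
  fun_prop

theorem continuous_fld (hη : 0 < η) : Continuous fun q : ℝ × ℂ => fld η q.1 q.2 := by
  have h1 : Continuous fun q : ℝ × ℂ => den η q.1 q.2 :=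
    continuous_den.comp (continuous_const.prodMk continuous_id)
  unfold fld
  refine Continuous.div (by fun_prop) (Complex.continuous_ofReal.comp h1) fun q => ?_
  exact Complex.ofReal_ne_zero.2 (den_pos hη _ _).ne'

theorem measurable_fld : Measurable fun q : ℝ × ℝ × ℂ => fld q.1 q.2.1 q.2.2 := by
  unfold fld
  refine Measurable.div (Continuous.measurable (by fun_prop))
    (Complex.continuous_ofReal.comp continuous_den).measurable

theorem lip_fld (hη : 0 < η) (x : ℝ) : LipschitzWith (6 / η ^ 2).toNNReal (fld η x) := by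
  refine LipschitzWith.of_dist_le_mul fun ζ ζ' => ?_
  rw [dist_eq_norm, dist_eq_norm, Real.coe_toNNReal _ (by positivity)]
  have d1 := den_pos hη x ζ
  have d2 := den_pos hη x ζ'
  have e1 : η ≤ √(den η x ζ) := Real.le_sqrt_of_sq_le (sq_le_den hη.le x ζ)
  have e2 : η ≤ √(den η x ζ') := Real.le_sqrt_of_sq_le (sq_le_den hη.le x ζ')
  have n2 := Fld_norm η x ζ'
  have l := Fld_lip η x ζ ζ'
  have s1 := Real.sq_sqrt d1.le
  have s2 := Real.sq_sqrt d2.le
  have e : fld η x ζ - fld η x ζ' = ((2 / den η x ζ : ℝ) : ℂ) * conj (ζ - ζ') +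
      ((2 * (1 / den η x ζ - 1 / den η x ζ') : ℝ) : ℂ) * conj (ζ' - x) := by
    simp only [fld, map_sub]
    push_cast
    ring
  rw [e]
  refine (norm_add_le _ _).trans ?_
  rw [norm_mul, norm_mul, Complex.norm_conj, Complex.norm_conj, Complex.norm_real,
    Complex.norm_real, Real.norm_of_nonneg (by positivity), Real.norm_eq_abs, ← s1, ← s2]
  generalize √(den η x ζ) = D at e1 l
  generalize √(den η x ζ') = D' at e2 n2 l
  have p1 : 0 < D := hη.trans_le e1
  have p2 : 0 < D' := hη.trans_le e2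
  have q1 : 1 / D ^ 2 ≤ 1 / η ^ 2 :=
    one_div_le_one_div_of_le (by positivity) (pow_le_pow_left₀ hη.le e1 2)
  have q2 : 1 / (D * D') ≤ 1 / η ^ 2 :=
    one_div_le_one_div_of_le (by positivity) (by nlinarith)
  have q3 : |2 * (1 / D ^ 2 - 1 / D' ^ 2)| * D' = 2 * |D - D'| * (1 / D ^ 2 + 1 / (D * D')) := by
    have q4 : 2 * (1 / D ^ 2 - 1 / D' ^ 2) = (D' - D) * (2 * (D + D') / (D ^ 2 * D' ^ 2)) := by
      field_simp
      ring
    rw [q4, abs_mul, abs_sub_comm, abs_of_pos (by positivity : 0 < 2 * (D + D') / (D ^ 2 * D' ^ 2))]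
    field_simp
    ring
  have q5 := mul_le_mul_of_nonneg_left n2 (abs_nonneg (2 * (1 / D ^ 2 - 1 / D' ^ 2)))
  have q6 := mul_le_mul l (add_le_add q1 q2) (by positivity) (norm_nonneg _)
  have q7 := mul_le_mul_of_nonneg_right q1 (norm_nonneg (ζ - ζ'))
  have q8 : 2 / D ^ 2 = 2 * (1 / D ^ 2) := by ring
  have q9 : 6 / η ^ 2 = 6 * (1 / η ^ 2) := by ring
  rw [q8, q9]
  linarith

/-- `fld η x ζ = fld η 0 (ζ - x)`, so this follows from `lip_fld` -/
theorem fld_sub_le (hη : 0 < η) (x x' : ℝ) (ζ : ℂ) :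
    ‖fld η x ζ - fld η x' ζ‖ ≤ 6 / η ^ 2 * |x - x'| := by
  have e : ∀ y : ℝ, fld η y ζ = fld η 0 (ζ - y) := fun y => by simp [fld, den]
  have h := (lip_fld hη 0).dist_le_mul (ζ - x) (ζ - x')
  rw [dist_eq_norm, dist_eq_norm, Real.coe_toNNReal _ (by positivity), sub_sub_sub_cancel_left,
    ← Complex.ofReal_sub, Complex.norm_real, Real.norm_eq_abs, abs_sub_comm] at h
  rw [e x, e x']
  exact h

theorem nice_fld (hη : 0 < η) (hw : Continuous w) : Nice fun s => fld η (w s) := by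
  exact ⟨(continuous_fld hη).comp ((hw.comp continuous_fst).prodMk continuous_snd),
    ⟨_, fun s => lip_fld hη (w s)⟩, ⟨_, fun s ζ => norm_fld_le' hη (w s) ζ⟩⟩

theorem nice_neg_fld (hη : 0 < η) (hw : Continuous w) : Nice fun s ξ => -fld η (w s) ξ := by
  exact ⟨((continuous_fld hη).comp ((hw.comp continuous_fst).prodMk continuous_snd)).neg,
    ⟨_, fun s => (lip_fld hη (w s)).neg⟩,
    ⟨_, fun s ζ => (norm_neg _).trans_le (norm_fld_le' hη (w s) ζ)⟩⟩

theorem stp_zero {u : ℝ} (h : u ≤ 1) : stp u = 0 := by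
  exact Real.smoothTransition.zero_of_nonpos (by linarith)

theorem stp_one {u : ℝ} (h : 2 ≤ u) : stp u = 1 := by
  exact Real.smoothTransition.one_of_one_le (by linarith)

theorem stp_nonneg (u : ℝ) : 0 ≤ stp u := by
  exact Real.smoothTransition.nonneg _

theorem stp_le_one (u : ℝ) : stp u ≤ 1 := by
  exact Real.smoothTransition.le_one _

theorem stp_mono : Monotone stp := by
  exact fun u v h => Real.smoothTransition.monotone (by linarith)

theorem contDiff_stp : ContDiff ℝ 1 stp := by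
  exact Real.smoothTransition.contDiff.comp (contDiff_id.sub contDiff_const)

theorem deriv_stp_nonneg (u : ℝ) : 0 ≤ deriv stp u := by
  exact stp_mono.deriv_nonneg

/-- at the end points use continuity of the derivative, or `IsLocalMin.deriv_eq_zero` -/
theorem deriv_stp_ne {u : ℝ} (h : deriv stp u ≠ 0) : 1 < u ∧ u < 2 := by
  refine ⟨not_le.1 fun h1 => h ?_, not_le.1 fun h1 => h ?_⟩
  · refine IsLocalMin.deriv_eq_zero (Eventually.of_forall fun v => ?_)
    rw [stp_zero h1]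
    exact stp_nonneg v
  · refine IsLocalMax.deriv_eq_zero (Eventually.of_forall fun v => ?_)
    rw [stp_one h1]
    exact stp_le_one v

theorem deriv_stp_le : ∃ B : ℝ, 0 < B ∧ ∀ u, deriv stp u ≤ B := by
  obtain ⟨B, hB⟩ := (isCompact_Icc (a := (1 : ℝ)) (b := 2)).exists_bound_of_continuousOn
    (contDiff_stp.continuous_deriv le_rfl).continuousOn
  refine ⟨max B 1, lt_max_of_lt_right one_pos, fun u => ?_⟩
  by_cases h : deriv stp u = 0
  · rw [h]
    exact le_max_of_le_right zero_le_one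
  · obtain ⟨h1, h2⟩ := deriv_stp_ne h
    exact le_max_of_le_left ((le_abs_self _).trans (hB u ⟨h1.le, h2.le⟩))

variable {κ : ℝ}

theorem be_pos (h8 : κ < 8) : 0 < be κ := by
  unfold be
  linarith

theorem be_lt_one (h0 : 0 < κ) : be κ < 1 := by
  unfold be
  linarith

theorem dd_add_be (κ : ℝ) : dd κ + be κ = 2 := by
  unfold dd be
  ring

theorem be_lt_al (h0 : 0 < κ) (h8 : κ < 8) : be κ < al κ := by
  unfold be al
  rw [lt_sub_iff_add_lt, lt_div_iff₀ h0]
  nlinarith [sq_pos_of_pos (sub_pos.2 h8)]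

theorem aa_pos (h0 : 0 < κ) (h8 : κ < 8) : 0 < aa κ := by
  exact lt_min (sub_pos.2 (be_lt_al h0 h8)) one_pos

theorem aa_lt_al (h8 : κ < 8) : aa κ < al κ := by
  exact (min_le_left _ _).trans_lt (sub_lt_self _ (be_pos h8))

theorem aa_le (κ : ℝ) : aa κ ≤ al κ - be κ ∧ aa κ ≤ 1 := by
  exact ⟨min_le_left _ _, min_le_right _ _⟩

/-- the Green function martingale and its relatives -/
theorem II_al (h0 : 0 < κ) (p b S : ℝ) : II κ p (al κ) b S = -2 * b - 4 * S ^ 2 * (p + be κ) := by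
  unfold II al be
  field_simp
  ring

/-- `II` is affine in `S ^ 2`, negative at `S = 0` and at `S = 1` -/
theorem II_aa (h0 : 0 < κ) (h8 : κ < 8) :
    ∃ c, 0 < c ∧ ∀ S, 0 ≤ S → S ≤ 1 → II κ 0 (aa κ) 0 S ≤ -c := by
  have h1 := aa_pos h0 h8
  have h2 := aa_lt_al h8
  rw [al, lt_sub_iff_add_lt, lt_div_iff₀ h0] at h2
  have h3 : 0 < aa κ * (4 - κ * (aa κ + 1) / 2) := mul_pos h1 (by linarith)
  have h4 : 0 < κ * aa κ / 2 := by positivity
  refine ⟨min (aa κ * (4 - κ * (aa κ + 1) / 2)) (κ * aa κ / 2), lt_min h3 h4, fun S h5 h6 => ?_⟩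
  have h7 : S ^ 2 ≤ 1 := pow_le_one₀ h5 h6
  have h8 := mul_le_mul_of_nonneg_left
    (min_le_left (aa κ * (4 - κ * (aa κ + 1) / 2)) (κ * aa κ / 2)) (sub_nonneg.2 h7)
  have h9 := mul_le_mul_of_nonneg_left
    (min_le_right (aa κ * (4 - κ * (aa κ + 1) / 2)) (κ * aa κ / 2)) (sq_nonneg S)
  unfold II
  linarith

end Vale.Agent.P164
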