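import Vale.Agent.P164.ODE
import Vale.Agent.P164.Fld

/-!
# P164 BackA

The backward flow. Its height increases, so the truncation at `im ζ` is never active.
The difference `D` of two solutions solves `D' = 2 D / ((h - w)(h' - w))`, which gives `bf_sub`;
continuity in the initial point (from `bf_sub` applied at time `s`, `|exp| ≤ exp (2 s / y ^ 2)`)
and dominated convergence give the complex derivative.
-/

open MeasureTheory ProbabilityTheory Set Filter Topology Complex Function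
open scoped NNReal ENNReal ComplexConjugate

noncomputable section

namespace Vale.Agent.P164

variable {w w' : ℝ → ℝ} {ζ ζ' : ℂ} {t s : ℝ}

theorem BackA_nice {η : ℝ} (hη : 0 < η) (hw : Continuous w) (t : ℝ) :
    Nice fun s ξ => -fld η (w (t - s)) ξ :=
  nice_neg_fld (w := fun s => w (t - s)) hη (hw.comp (continuous_const.sub continuous_id))

theorem BackA_raw (hw : Continuous w) (hζ : 0 < ζ.im) (t s : ℝ) :
    HasDerivAt (bk w t ζ) (-fld ζ.im (w (t - s)) (bk w t ζ s)) s :=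
  (BackA_nice hζ hw t).hasDerivAt ζ s

theorem BackA_im (hw : Continuous w) (hζ : 0 < ζ.im) (t s : ℝ) :
    HasDerivAt (fun s => (bk w t ζ s).im)
      (2 / den ζ.im (w (t - s)) (bk w t ζ s) * (bk w t ζ s).im) s := by
  have h := imCLM.hasFDerivAt.comp_hasDerivAt s (BackA_raw hw hζ t s)
  refine HasDerivAt.congr_deriv (f := fun s => (bk w t ζ s).im) h ?_
  rw [imCLM_apply, neg_im, fld_im]
  ring

theorem BackA_facR {D k : ℝ → ℝ} (hk : Continuous k) (hD : HasDerivAt D (k s * D s) s) :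
    HasDerivAt (fun u => D u * Real.exp (-∫ v in (0 : ℝ)..u, k v)) 0 s := by
  have h := hD.mul (hk.integral_hasStrictDerivAt 0 s).hasDerivAt.neg.exp
  refine HasDerivAt.congr_deriv h ?_
  simp only [Pi.neg_apply]
  ring

theorem BackA_facC {D k : ℝ → ℂ} (hk : Continuous k) (hD : HasDerivAt D (k s * D s) s) :
    HasDerivAt (fun u => D u * exp (-∫ v in (0 : ℝ)..u, k v)) 0 s := by
  have h := hD.mul (hk.integral_hasStrictDerivAt 0 s).hasDerivAt.neg.cexp
  refine HasDerivAt.congr_deriv h ?_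
  simp only [Pi.neg_apply]
  ring

theorem bk_zero (hw : Continuous w) (hζ : 0 < ζ.im) (t : ℝ) : bk w t ζ 0 = ζ := by
  exact (BackA_nice hζ hw t).sol_zero ζ

theorem bk_cont (hw : Continuous w) (hζ : 0 < ζ.im) (t : ℝ) : Continuous (bk w t ζ) := by
  exact continuous_iff_continuousAt.2 fun s => (BackA_raw hw hζ t s).continuousAt

theorem BackA_pos (hw : Continuous w) (hζ : 0 < ζ.im) (t s : ℝ) : 0 < (bk w t ζ s).im := by
  have hk : Continuous fun s => 2 / den ζ.im (w (t - s)) (bk w t ζ s) :=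
    continuous_const.div (continuous_den.comp (continuous_const.prodMk
      ((hw.comp (continuous_const.sub continuous_id)).prodMk (bk_cont hw hζ t))))
      fun s => (den_pos hζ _ _).ne'
  have h := fun s => BackA_facR hk (BackA_im hw hζ t s)
  have h1 := is_const_of_deriv_eq_zero (fun s => (h s).differentiableAt) (fun s => (h s).deriv) s 0
  simp only [bk_zero hw hζ, intervalIntegral.integral_same, neg_zero, Real.exp_zero,
    mul_one] at h1
  rw [← h1] at hζ
  exact (mul_pos_iff_of_pos_right (Real.exp_pos _)).1 hζ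

theorem BackA_ne (hw : Continuous w) (hζ : 0 < ζ.im) (t s x : ℝ) : bk w t ζ s - x ≠ 0 := by
  intro h
  have h1 := congrArg im h
  have h2 := BackA_pos hw hζ t s
  simp only [sub_im, ofReal_im, sub_zero, zero_im] at h1
  linarith

theorem bk_im_mono (hw : Continuous w) (hζ : 0 < ζ.im) (t : ℝ) :
    Monotone fun s => (bk w t ζ s).im := by
  refine monotone_of_deriv_nonneg (fun s => (BackA_im hw hζ t s).differentiableAt) fun s => ?_
  rw [(BackA_im hw hζ t s).deriv]
  exact mul_nonneg (div_nonneg (by norm_num) (den_pos hζ _ _).le) (BackA_pos hw hζ t s).le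

theorem bk_im_ge (hw : Continuous w) (hζ : 0 < ζ.im) (t : ℝ) (hs : 0 ≤ s) :
    ζ.im ≤ (bk w t ζ s).im := by
  have h := bk_im_mono hw hζ t hs
  simpa only [bk_zero hw hζ] using h

theorem bk_deriv (hw : Continuous w) (hζ : 0 < ζ.im) (t : ℝ) (hs : 0 ≤ s) :
    HasDerivAt (bk w t ζ) (-2 / (bk w t ζ s - w (t - s))) s := by
  have h := BackA_raw hw hζ t s
  rwa [fld_eq hζ ((bk_im_ge hw hζ t hs).trans (le_abs_self _)), ← neg_div] at h

theorem bk_im_sq_le (hw : Continuous w) (hζ : 0 < ζ.im) (t : ℝ) (hs : 0 ≤ s) :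
    (bk w t ζ s).im ^ 2 ≤ ζ.im ^ 2 + 4 * s := by
  have hd := fun u => ((hasDerivAt_id u).const_mul (4 : ℝ)).sub ((BackA_im hw hζ t u).pow 2)
  have hm : Monotone fun u => 4 * u - (bk w t ζ u).im ^ 2 := by
    refine monotone_of_deriv_nonneg (fun u => (hd u).differentiableAt) fun u => ?_
    refine le_of_le_of_eq ?_ (hd u).deriv.symm
    have h1 := normSq_le_den ζ.im (w (t - u)) (bk w t ζ u)
    have h2 := den_pos hζ (w (t - u)) (bk w t ζ u)
    have h3 : (bk w t ζ u).im ^ 2 / den ζ.im (w (t - u)) (bk w t ζ u) ≤ 1 :=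
      (div_le_one h2).2 (by nlinarith [sq_nonneg ((bk w t ζ u).re - w (t - u))])
    have h4 : ((2 : ℕ) : ℝ) * (bk w t ζ u).im ^ (2 - 1) *
        (2 / den ζ.im (w (t - u)) (bk w t ζ u) * (bk w t ζ u).im) =
        4 * ((bk w t ζ u).im ^ 2 / den ζ.im (w (t - u)) (bk w t ζ u)) := by
      push_cast
      ring
    rw [h4]
    linarith
  have h := hm hs
  simp only [bk_zero hw hζ] at h
  linarith

/-- the height of `g` increases, so `g` solves the truncated equation -/
theorem bk_unique (hw : Continuous w) {g : ℝ → ℂ} {T : ℝ} (t : ℝ) (hc : ContinuousOn g (Icc 0 T))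
    (hp : ∀ s ∈ Icc 0 T, 0 < (g s).im)
    (hd : ∀ s ∈ Ico 0 T, HasDerivWithinAt g (-2 / (g s - w (t - s))) (Ici s) s) :
    ∀ s ∈ Icc 0 T, g s = bk w t (g 0) s := by
  intro s hs
  have h0 : 0 < (g 0).im := hp 0 ⟨le_rfl, hs.1.trans hs.2⟩
  have hge : ∀ u ∈ Icc 0 T, (g 0).im ≤ (g u).im := by
    refine image_le_of_deriv_right_le_deriv_boundary (f := fun _ => (g 0).im) (f' := fun _ => 0)
      (B := fun u => (g u).im) (B' := fun u => (-2 / (g u - w (t - u))).im)
      continuousOn_const (fun u _ => hasDerivWithinAt_const _ _ _) le_rfl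
      (continuous_im.comp_continuousOn hc)
      (fun u hu => imCLM.hasFDerivAt.comp_hasDerivWithinAt u (hd u hu)) fun u hu => ?_
    have h1 := hp u (Ico_subset_Icc_self hu)
    have h2 := normSq_nonneg (g u - w (t - u))
    have e : (-2 / (g u - w (t - u))).im = 2 * (g u).im / normSq (g u - w (t - u)) := by
      rw [div_im]
      simp
      ring
    rw [e]
    positivity
  refine (BackA_nice h0 hw t).unique hc (fun u hu => ?_) s hs
  have h := hd u hu
  rwa [neg_div, ← fld_eq h0 ((hge u (Ico_subset_Icc_self hu)).trans (le_abs_self _))] at h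

theorem bf_zero (hw : Continuous w) (hζ : 0 < ζ.im) : bf w 0 ζ = ζ := by
  exact bk_zero hw hζ 0

theorem bf_im_ge (hw : Continuous w) (hζ : 0 < ζ.im) (ht : 0 ≤ t) : ζ.im ≤ (bf w t ζ).im := by
  exact bk_im_ge hw hζ t ht

theorem bk_sub (hw : Continuous w) (hζ : 0 < ζ.im) (hζ' : 0 < ζ'.im) (t : ℝ) (hs : 0 ≤ s) :
    bk w t ζ' s - bk w t ζ s = (ζ' - ζ) * exp (∫ u in (0 : ℝ)..s,
      2 / ((bk w t ζ u - w (t - u)) * (bk w t ζ' u - w (t - u)))) := by
  have hwc : Continuous fun u : ℝ => ((w (t - u) : ℝ) : ℂ) :=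
    continuous_ofReal.comp (hw.comp (continuous_const.sub continuous_id))
  have hk : Continuous fun u => 2 / ((bk w t ζ u - w (t - u)) * (bk w t ζ' u - w (t - u))) :=
    continuous_const.div (((bk_cont hw hζ t).sub hwc).mul ((bk_cont hw hζ' t).sub hwc))
      fun u => mul_ne_zero (BackA_ne hw hζ t u _) (BackA_ne hw hζ' t u _)
  have hD : ∀ u, 0 ≤ u → HasDerivAt (fun u => bk w t ζ' u - bk w t ζ u)
      (2 / ((bk w t ζ u - w (t - u)) * (bk w t ζ' u - w (t - u))) *
        (bk w t ζ' u - bk w t ζ u)) u := by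
    intro u hu
    refine HasDerivAt.congr_deriv ((bk_deriv hw hζ' t hu).sub (bk_deriv hw hζ t hu)) ?_
    have h1 := BackA_ne hw hζ t u (w (t - u))
    have h2 := BackA_ne hw hζ' t u (w (t - u))
    field_simp
    ring
  have h := fun u hu => BackA_facC hk (hD u hu)
  have h1 := constant_of_has_deriv_right_zero (a := 0) (b := s)
    (fun u hu => (h u hu.1).continuousAt.continuousWithinAt)
    (fun u hu => (h u hu.1).hasDerivWithinAt) s ⟨hs, le_rfl⟩
  simp only [bk_zero hw hζ, bk_zero hw hζ', intervalIntegral.integral_same, neg_zero, exp_zero,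
    mul_one] at h1
  rw [← h1, mul_assoc, ← exp_add, neg_add_cancel, exp_zero, mul_one]

theorem BackA_int (hw : Continuous w) {y : ℝ} (hy : 0 < y) (h : y ≤ ζ.im) (h' : y ≤ ζ'.im)
    (ht : 0 ≤ t) : |(∫ u in (0 : ℝ)..t,
      2 / ((bk w t ζ u - w (t - u)) * (bk w t ζ' u - w (t - u)))).re| ≤ 2 * t / y ^ 2 := by
  have hn : ∀ {ξ : ℂ}, y ≤ ξ.im → ∀ u : ℝ, 0 ≤ u → y ≤ ‖bk w t ξ u - w (t - u)‖ := by
    intro ξ hξ u hu
    refine le_trans ?_ (im_le_norm _)
    rw [sub_im, ofReal_im, sub_zero]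
    exact hξ.trans (bk_im_ge hw (hy.trans_le hξ) t hu)
  refine (abs_re_le_norm _).trans ((intervalIntegral.norm_integral_le_of_norm_le_const
    (C := 2 / y ^ 2) fun u hu => ?_).trans (le_of_eq ?_))
  · rw [uIoc_of_le ht] at hu
    rw [norm_div, norm_mul, Complex.norm_two, sq]
    exact div_le_div_of_nonneg_left (by norm_num) (mul_pos hy hy)
      (mul_le_mul (hn h u hu.1.le) (hn h' u hu.1.le) hy.le (norm_nonneg _))
  · rw [sub_zero, abs_of_nonneg ht]
    ring

theorem bf_lip (hw : Continuous w) {y : ℝ} (hy : 0 < y) (h : y ≤ ζ.im) (h' : y ≤ ζ'.im)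
    (ht : 0 ≤ t) : ‖bf w t ζ' - bf w t ζ‖ ≤ ‖ζ' - ζ‖ * Real.exp (2 * t / y ^ 2) := by
  unfold bf
  rw [bk_sub hw (hy.trans_le h) (hy.trans_le h') t ht, norm_mul, norm_exp]
  exact mul_le_mul_of_nonneg_left
    (Real.exp_le_exp.2 (abs_le.1 (BackA_int hw hy h h' ht)).2) (norm_nonneg _)

theorem bf_colip (hw : Continuous w) {y : ℝ} (hy : 0 < y) (h : y ≤ ζ.im) (h' : y ≤ ζ'.im)
    (ht : 0 ≤ t) : ‖ζ' - ζ‖ * Real.exp (-2 * t / y ^ 2) ≤ ‖bf w t ζ' - bf w t ζ‖ := by
  unfold bf
  rw [bk_sub hw (hy.trans_le h) (hy.trans_le h') t ht, norm_mul, norm_exp, neg_mul, neg_div]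
  exact mul_le_mul_of_nonneg_left
    (Real.exp_le_exp.2 (abs_le.1 (BackA_int hw hy h h' ht)).1) (norm_nonneg _)

end Vale.Agent.P164
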