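import Vale.Agent.P164.ODE
import Vale.Agent.P164.Fld
import Vale.Agent.P164.BackA

/-!
# P164 Back

The backward flow. Its height increases, so the truncation at `im ζ` is never active.
The difference `D` of two solutions solves `D' = 2 D / ((h - w)(h' - w))`, which gives `bf_sub`;
continuity in the initial point (from `bf_sub` applied at time `s`, `|exp| ≤ exp (2 s / y ^ 2)`)
and dominated convergence give the complex derivative.
-/

open MeasureTheory ProbabilityTheory Set Filter Topology Complex Function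
open scoped NNReal ENNReal ComplexConjugate

noncomputable section

namespace Vale.Agent.P164

variable {w w' : ℝ → ℝ} {ζ ζ' : ℂ} {t s : ℝ}

theorem Back_bk_eq (w : ℝ → ℝ) (t u : ℝ) (ζ : ℂ) :
    bk w t ζ u = bf (fun v => w (v + (t - u))) u ζ := by
  have h1 : ∀ s, u - s + (t - u) = t - s := fun s => by ring
  unfold bf bk
  simp only [h1]

theorem Back_le_norm (hw : Continuous w) (hζ : 0 < ζ.im) (t : ℝ) (hs : 0 ≤ s) :
    ζ.im ≤ ‖bk w t ζ s - w (t - s)‖ := by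
  have h1 := bk_im_ge hw hζ t hs
  have h2 := im_le_norm (bk w t ζ s - w (t - s))
  rw [sub_im, ofReal_im, sub_zero] at h2
  exact h1.trans h2

theorem Back_ne (hw : Continuous w) (hζ : 0 < ζ.im) (t : ℝ) (hs : 0 ≤ s) :
    bk w t ζ s - w (t - s) ≠ 0 :=
  norm_pos_iff.1 (hζ.trans_le (Back_le_norm hw hζ t hs))

theorem Back_cont (hw : Continuous w) (hζ : 0 < ζ.im) (t : ℝ) :
    Continuous fun s => bk w t ζ s - w (t - s) := by
  have h1 := bk_cont hw hζ t
  fun_prop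

theorem Back_half (hζ : 0 < ζ.im) : ∀ᶠ ξ in 𝓝 ζ, ζ.im / 2 ≤ ξ.im :=
  (continuous_im.tendsto ζ).eventually (le_mem_nhds (half_lt_self hζ))

theorem Back_tendsto (hw : Continuous w) (hζ : 0 < ζ.im) (t : ℝ) (hs : 0 ≤ s) :
    Tendsto (fun ξ => bk w t ξ s) (𝓝 ζ) (𝓝 (bk w t ζ s)) := by
  rw [tendsto_iff_norm_sub_tendsto_zero]
  have h1 : Tendsto (fun ξ => ‖ξ - ζ‖ * Real.exp (2 * s / (ζ.im / 2) ^ 2)) (𝓝 ζ) (𝓝 0) := by
    have h2 : Continuous fun ξ => ‖ξ - ζ‖ * Real.exp (2 * s / (ζ.im / 2) ^ 2) := by fun_prop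
    have h3 := h2.tendsto ζ
    rwa [sub_self, norm_zero, zero_mul] at h3
  refine squeeze_zero' (Eventually.of_forall fun _ => norm_nonneg _) ?_ h1
  filter_upwards [Back_half hζ] with ξ hξ
  rw [Back_bk_eq w t s ξ, Back_bk_eq w t s ζ]
  exact bf_lip (by fun_prop) (half_pos hζ) (half_le_self hζ.le) hξ hs

theorem bf_hasDerivAt (hw : Continuous w) (hζ : 0 < ζ.im) (ht : 0 ≤ t) :
    HasDerivAt (bf w t) (exp (∫ u in (0 : ℝ)..t, 2 / (bk w t ζ u - w (t - u)) ^ 2)) ζ := by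
  rw [hasDerivAt_iff_tendsto_slope]
  have h1 := intervalIntegral.tendsto_integral_filter_of_dominated_convergence (μ := volume)
    (a := 0) (b := t) (l := 𝓝 ζ)
    (F := fun ξ u => 2 / ((bk w t ζ u - w (t - u)) * (bk w t ξ u - w (t - u))))
    (f := fun u => 2 / (bk w t ζ u - w (t - u)) ^ 2) (fun _ => 2 / (ζ.im * (ζ.im / 2))) ?_ ?_
    intervalIntegrable_const ?_
  · refine (((continuous_exp.tendsto _).comp h1).mono_left nhdsWithin_le_nhds).congr' ?_
    filter_upwards [self_mem_nhdsWithin, nhdsWithin_le_nhds (Back_half hζ)] with ξ hne hξ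
    have h2 : ξ - ζ ≠ 0 := sub_ne_zero.2 hne
    rw [slope_def_field]
    unfold bf
    rw [bk_sub hw hζ ((half_pos hζ).trans_le hξ) t ht, mul_div_cancel_left₀ _ h2]
    rfl
  · filter_upwards [Back_half hζ] with ξ hξ
    exact (measurable_const.div ((Back_cont hw hζ t).mul
      (Back_cont hw ((half_pos hζ).trans_le hξ) t)).measurable).aestronglyMeasurable
  · filter_upwards [Back_half hζ] with ξ hξ
    refine Eventually.of_forall fun u hu => ?_
    rw [uIoc_of_le ht] at hu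
    rw [norm_div, norm_mul, Complex.norm_ofNat]
    refine div_le_div_of_nonneg_left zero_le_two (mul_pos hζ (half_pos hζ)) ?_
    exact mul_le_mul (Back_le_norm hw hζ t hu.1.le)
      (hξ.trans (Back_le_norm hw ((half_pos hζ).trans_le hξ) t hu.1.le)) (half_pos hζ).le
      (norm_nonneg _)
  · refine Eventually.of_forall fun u hu => ?_
    rw [uIoc_of_le ht] at hu
    rw [sq]
    exact tendsto_const_nhds.div (((Back_tendsto hw hζ t hu.1.le).sub_const _).const_mul _)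
      (mul_ne_zero (Back_ne hw hζ t hu.1.le) (Back_ne hw hζ t hu.1.le))

theorem measurable_bf' (hw : Continuous w) (t : ℝ) : Measurable (bf w t) := by
  refine measurable_sol (V := fun (p : ℂ) s ξ => -fld p.im (w (t - s)) ξ) (z := fun p => p)
    (τ := fun _ => t) ?_ measurable_id measurable_const
  have h1 : Measurable fun q : ℂ × ℝ × ℂ => (q.1.im, w (t - q.2.1), q.2.2) :=
    Continuous.measurable (by fun_prop)
  exact (measurable_fld.comp h1).neg

theorem bf_univ (hw : Continuous w) (ht : 0 ≤ t) : Univ (bf w t) := by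
  refine ⟨fun Z hZ => (bf_hasDerivAt hw hZ ht).differentiableAt.differentiableWithinAt,
    fun Z hZ Z' hZ' h => ?_, fun Z hZ => ?_, measurable_bf' hw t⟩
  · have h1 := bf_colip hw (lt_min hZ hZ') (min_le_left Z.im Z'.im) (min_le_right Z.im Z'.im) ht
    rw [h, sub_self, norm_zero] at h1
    have h2 := nonpos_of_mul_nonpos_left h1 (Real.exp_pos _)
    exact (sub_eq_zero.1 (norm_le_zero_iff.1 h2)).symm
  · rw [(bf_hasDerivAt hw hZ ht).deriv]
    exact exp_ne_zero _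

theorem deriv_FF (hw : Continuous w) (ht : 0 ≤ t) {Z : ℂ} (hZ : 0 < Z.im) :
    deriv (FF w t) Z = deriv (bf w t) (w t + Z) := by
  exact deriv_comp_const_add (bf w t) (w t : ℂ) Z

theorem FF_univ (hw : Continuous w) (ht : 0 ≤ t) : Univ (FF w t) := by
  have h := bf_univ hw ht
  have hm : ∀ Z ∈ HH, (w t : ℂ) + Z ∈ HH := fun Z hZ => by
    have h1 : 0 < Z.im := hZ
    show 0 < ((w t : ℂ) + Z).im
    simpa using h1
  refine ⟨h.diff.comp (differentiableOn_id.const_add _) hm, fun Z hZ Z' hZ' e => ?_,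
    fun Z hZ => ?_, h.meas.comp (measurable_id.const_add _)⟩
  · exact add_left_cancel (h.inj (hm Z hZ) (hm Z' hZ') e)
  · rw [deriv_FF hw ht hZ]
    exact h.ne _ (hm Z hZ)

theorem Back_re (Z : ℂ) (hZ : Z ≠ 0) :
    (2 / Z ^ 2).re = 2 / ‖Z‖ ^ 2 - 4 * Z.im ^ 2 / ‖Z‖ ^ 4 := by
  have h1 : ‖Z‖ ^ 2 = Z.re ^ 2 + Z.im ^ 2 := by
    rw [Complex.sq_norm, normSq_apply]
    ring
  have h2 : ‖Z‖ ^ 4 = (Z.re ^ 2 + Z.im ^ 2) ^ 2 := by
    rw [← h1]
    ring
  have h3 : 0 < Z.re ^ 2 + Z.im ^ 2 := by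
    rw [← h1]
    positivity
  have h4 : normSq (Z ^ 2) = (Z.re ^ 2 + Z.im ^ 2) ^ 2 := by
    rw [map_pow, normSq_apply]
    ring
  rw [h2, h1, div_re, h4, sq Z]
  simp only [re_ofNat, im_ofNat, mul_re, mul_im]
  field_simp
  ring

theorem Back_im (Z : ℂ) : (-2 / Z).im = 2 * Z.im / ‖Z‖ ^ 2 := by
  rw [div_im, Complex.sq_norm]
  simp only [neg_im, im_ofNat, neg_re, re_ofNat]
  ring

theorem Back_int1 (hw : Continuous w) (hζ : 0 < ζ.im) (ht : 0 ≤ t) :
    IntervalIntegrable (fun u => 2 / ‖bk w t ζ u - w (t - u)‖ ^ 2) volume 0 t := by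
  refine ContinuousOn.intervalIntegrable_of_Icc ht (continuousOn_const.div
    ((Back_cont hw hζ t).norm.pow 2).continuousOn fun u hu => ?_)
  exact pow_ne_zero _ (norm_ne_zero_iff.2 (Back_ne hw hζ t hu.1))

theorem Back_int2 (hw : Continuous w) (hζ : 0 < ζ.im) (ht : 0 ≤ t) :
    IntervalIntegrable (fun u => 4 * (bk w t ζ u).im ^ 2 / ‖bk w t ζ u - w (t - u)‖ ^ 4)
      volume 0 t := by
  have h1 := bk_cont hw hζ t
  refine ContinuousOn.intervalIntegrable_of_Icc ht (ContinuousOn.div (by fun_prop)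
    ((Back_cont hw hζ t).norm.pow 4).continuousOn fun u hu => ?_)
  exact pow_ne_zero _ (norm_ne_zero_iff.2 (Back_ne hw hζ t hu.1))

theorem Back_int3 (hw : Continuous w) (hζ : 0 < ζ.im) (ht : 0 ≤ t) :
    IntervalIntegrable (fun u => 2 / (bk w t ζ u - w (t - u)) ^ 2) volume 0 t := by
  refine ContinuousOn.intervalIntegrable_of_Icc ht (continuousOn_const.div
    ((Back_cont hw hζ t).pow 2).continuousOn fun u hu => ?_)
  exact pow_ne_zero _ (Back_ne hw hζ t hu.1)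

theorem Back_im_eq (hw : Continuous w) (hζ : 0 < ζ.im) (ht : 0 ≤ t) :
    (bf w t ζ).im = ζ.im * Real.exp (∫ u in (0 : ℝ)..t, 2 / ‖bk w t ζ u - w (t - u)‖ ^ 2) := by
  have h1 := intervalIntegral.integral_eq_sub_of_hasDerivAt
    (f := fun u => Real.log (bk w t ζ u).im) (fun u hu => ?_) (Back_int1 hw hζ ht)
  · rw [h1, bk_zero hw hζ, Real.exp_sub, Real.exp_log hζ,
      Real.exp_log (hζ.trans_le (bk_im_ge hw hζ t ht)), mul_div_cancel₀ _ hζ.ne']
    rfl
  · rw [uIcc_of_le ht] at hu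
    have h2 : 0 < (bk w t ζ u).im := hζ.trans_le (bk_im_ge hw hζ t hu.1)
    have h3 : HasDerivAt (fun u => (bk w t ζ u).im) (-2 / (bk w t ζ u - w (t - u))).im u :=
      imCLM.hasFDerivAt.comp_hasDerivAt u (bk_deriv hw hζ t hu.1)
    refine (h3.log h2.ne').congr_deriv ?_
    rw [Back_im, sub_im, ofReal_im, sub_zero]
    field_simp

/-- `log im` has derivative `2 / |Z| ^ 2` and `re (2 / Z ^ 2) = 2 / |Z| ^ 2 - 4 Y ^ 2 / |Z| ^ 4` -/
theorem cr_eq (hw : Continuous w) (hζ : 0 < ζ.im) (ht : 0 ≤ t) :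
    cr w t ζ = (bf w t ζ).im * Real.exp (-∫ u in (0 : ℝ)..t,
      4 * (bk w t ζ u).im ^ 2 / ‖bk w t ζ u - w (t - u)‖ ^ 4) := by
  have h1 : (∫ u in (0 : ℝ)..t, 2 / (bk w t ζ u - w (t - u)) ^ 2).re =
      ∫ u in (0 : ℝ)..t, (2 / (bk w t ζ u - w (t - u)) ^ 2).re :=
    (reCLM.intervalIntegral_comp_comm (Back_int3 hw hζ ht)).symm
  have h2 : ∫ u in (0 : ℝ)..t, (2 / (bk w t ζ u - w (t - u)) ^ 2).re =
      ∫ u in (0 : ℝ)..t, (2 / ‖bk w t ζ u - w (t - u)‖ ^ 2 -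
        4 * (bk w t ζ u).im ^ 2 / ‖bk w t ζ u - w (t - u)‖ ^ 4) := by
    refine intervalIntegral.integral_congr fun u hu => ?_
    rw [uIcc_of_le ht] at hu
    rw [Back_re _ (Back_ne hw hζ t hu.1), sub_im, ofReal_im, sub_zero]
  unfold cr
  rw [(bf_hasDerivAt hw hζ ht).deriv, norm_exp, h1, h2,
    intervalIntegral.integral_sub (Back_int1 hw hζ ht) (Back_int2 hw hζ ht), Back_im_eq hw hζ ht,
    sub_eq_add_neg, Real.exp_add, mul_assoc]

theorem cr_pos (hw : Continuous w) (hζ : 0 < ζ.im) (ht : 0 ≤ t) : 0 < cr w t ζ := by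
  rw [cr_eq hw hζ ht]
  exact mul_pos (hζ.trans_le (bf_im_ge hw hζ ht)) (Real.exp_pos _)

theorem cr_le_im (hw : Continuous w) (hζ : 0 < ζ.im) (ht : 0 ≤ t) : cr w t ζ ≤ (bf w t ζ).im := by
  rw [cr_eq hw hζ ht]
  refine mul_le_of_le_one_right (hζ.le.trans (bf_im_ge hw hζ ht)) (Real.exp_le_one_iff.2 ?_)
  exact neg_nonpos.2 (intervalIntegral.integral_nonneg ht fun u _ => by positivity)

theorem cr_lt_im (hw : Continuous w) (hζ : 0 < ζ.im) (ht : 0 < t) : cr w t ζ < (bf w t ζ).im := by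
  rw [cr_eq hw hζ ht.le]
  refine mul_lt_of_lt_one_right (hζ.trans_le (bf_im_ge hw hζ ht.le)) (Real.exp_lt_one_iff.2 ?_)
  refine neg_lt_zero.2 (intervalIntegral.intervalIntegral_pos_of_pos_on (Back_int2 hw hζ ht.le)
    (fun u hu => ?_) ht)
  have h1 : 0 < (bk w t ζ u).im := hζ.trans_le (bk_im_ge hw hζ t hu.1.le)
  have h2 := norm_pos_iff.2 (Back_ne hw hζ t hu.1.le)
  positivity

theorem norm_deriv_bf_le (hw : Continuous w) (hζ : 0 < ζ.im) (ht : 0 ≤ t) :
    ‖deriv (bf w t) ζ‖ ≤ √(1 + 4 * t / ζ.im ^ 2) := by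
  have h1 := cr_le_im hw hζ ht
  have h2 : (bf w t ζ).im ^ 2 ≤ ζ.im ^ 2 + 4 * t := bk_im_sq_le hw hζ t ht
  unfold cr at h1
  have h3 : (ζ.im * ‖deriv (bf w t) ζ‖) ^ 2 ≤ ζ.im ^ 2 + 4 * t :=
    (pow_le_pow_left₀ (by positivity) h1 2).trans h2
  refine Real.le_sqrt_of_sq_le ?_
  rw [add_div' _ _ _ (by positivity), le_div_iff₀ (by positivity)]
  linarith

end Vale.Agent.P164
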