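import Vale.Agent.P164.Back

/-!
# P164 BackB

Semigroup property and scaling of the backward maps (by `bk_unique`), monotonicity of the conformal
radius, regularity in time.
-/

open MeasureTheory ProbabilityTheory Set Filter Topology Complex Function
open scoped NNReal ENNReal ComplexConjugate

noncomputable section

namespace Vale.Agent.P164

variable {w w' : ℝ → ℝ} {ζ ζ' : ℂ} {t s T : ℝ}

theorem bf_congr (hw : Continuous w) (hw' : Continuous w') (h : Agr T w w') (hζ : 0 < ζ.im)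
    (ht : t ∈ Icc 0 T) : bf w t ζ = bf w' t ζ := by
  have key := bk_unique hw (g := bk w' t ζ) (T := t) t (bk_cont hw' hζ t).continuousOn
    (fun s _ => BackA_pos hw' hζ t s) (fun s hs => by
      have e : w (t - s) = w' (t - s) := h _ ⟨by linarith [hs.2], by linarith [hs.1, ht.2]⟩
      rw [e]
      exact (bk_deriv hw' hζ t hs.1).hasDerivWithinAt) t ⟨ht.1, le_rfl⟩
  rw [bk_zero hw' hζ] at key
  exact key.symm

theorem BackB_nhds (hζ : 0 < ζ.im) : ∀ᶠ ξ in 𝓝 ζ, 0 < ξ.im :=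
  (isOpen_lt continuous_const Complex.continuous_im).mem_nhds hζ

theorem deriv_bf_congr (hw : Continuous w) (hw' : Continuous w') (h : Agr T w w') (hζ : 0 < ζ.im)
    (ht : t ∈ Icc 0 T) : deriv (bf w t) ζ = deriv (bf w' t) ζ := by
  apply Filter.EventuallyEq.deriv_eq
  filter_upwards [BackB_nhds hζ] with ξ hξ
  exact bf_congr hw hw' h hξ ht

/-- the flow property of the backward flow -/
theorem BackB_semi {a r : ℝ} (hw : Continuous w) (hζ : 0 < ζ.im) (t : ℝ) (ha : 0 ≤ a)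
    (hr : 0 ≤ r) : bk w t ζ (a + r) = bk w (t - a) (bk w t ζ a) r := by
  have hc : Continuous fun r => bk w t ζ (a + r) :=
    (bk_cont hw hζ t).comp (continuous_const.add continuous_id)
  have key := bk_unique hw (g := fun r => bk w t ζ (a + r)) (T := r) (t - a) hc.continuousOn
    (fun s _ => BackA_pos hw hζ t _) (fun s hs => by
      have e : t - a - s = t - (a + s) := by ring
      rw [e]
      have h1 := bk_deriv hw hζ t (s := a + s) (by linarith [hs.1])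
      exact (h1.comp_const_add a s).hasDerivWithinAt) r ⟨hr, le_rfl⟩
  simpa using key

theorem BackB_im {ρ : ℝ} (x : ℝ) (ξ : ℂ) : ((x : ℂ) + ρ * ξ).im = ρ * ξ.im := by
  simp

/-- scaling of the backward flow -/
theorem BackB_scale {ρ u : ℝ} {ξ : ℂ} (hw : Continuous w) (hw' : Continuous w')
    (hρ : 0 < ρ) (h : ShS s ρ T w w') (hu : u ∈ Icc 0 T) (hξ : 0 < ξ.im) :
    bk w (s + ρ ^ 2 * u) (w s + ρ * ξ) (ρ ^ 2 * u) = w s + ρ * bf w' u ξ := by
  have hρ2 : 0 < ρ ^ 2 := by positivity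
  have hρc : (ρ : ℂ) ≠ 0 := by exact_mod_cast hρ.ne'
  have hc : Continuous fun r : ℝ => (w s : ℂ) + ρ * bk w' u ξ (r / ρ ^ 2) :=
    continuous_const.add (continuous_const.mul
      ((bk_cont hw' hξ u).comp (continuous_id.div_const _)))
  have key := bk_unique hw (g := fun r : ℝ => (w s : ℂ) + ρ * bk w' u ξ (r / ρ ^ 2))
    (T := ρ ^ 2 * u) (s + ρ ^ 2 * u) hc.continuousOn
    (fun r _ => by
      rw [BackB_im]
      exact mul_pos hρ (BackA_pos hw' hξ u _))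
    (fun r hr => by
      have h0 : 0 ≤ r / ρ ^ 2 := div_nonneg hr.1 hρ2.le
      have h1 : r / ρ ^ 2 ≤ u := by
        rw [div_le_iff₀ hρ2]
        linarith [hr.2]
      have h2 := bk_deriv hw' hξ u h0
      have h3 : HasDerivAt (fun r : ℝ => r / ρ ^ 2) (1 / ρ ^ 2) r :=
        (hasDerivAt_id r).div_const _
      have h4 := (((h2.scomp r h3).const_mul (ρ : ℂ)).const_add (w s : ℂ)).hasDerivWithinAt
        (s := Ici r)
      have e1 : w' (u - r / ρ ^ 2) = (w (s + ρ ^ 2 * u - r) - w s) / ρ := by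
        rw [h _ ⟨by linarith, by linarith [hu.2]⟩]
        have : s + ρ ^ 2 * (u - r / ρ ^ 2) = s + ρ ^ 2 * u - r := by
          field_simp
          ring
        rw [this]
      have hne := BackA_ne hw' hξ u (r / ρ ^ 2) (w' (u - r / ρ ^ 2))
      have e2 : (w s : ℂ) + ρ * bk w' u ξ (r / ρ ^ 2) - w (s + ρ ^ 2 * u - r)
          = ρ * (bk w' u ξ (r / ρ ^ 2) - w' (u - r / ρ ^ 2)) := by
        rw [e1]
        push_cast
        field_simp
        ring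
      have e3 : -2 / ((w s : ℂ) + ρ * bk w' u ξ (r / ρ ^ 2) - w (s + ρ ^ 2 * u - r))
          = ρ * ((1 / ρ ^ 2 : ℝ) • (-2 / (bk w' u ξ (r / ρ ^ 2) - w' (u - r / ρ ^ 2)))) := by
        rw [e2, Complex.real_smul]
        push_cast
        field_simp
      rw [e3]
      exact h4)
    (ρ ^ 2 * u) ⟨mul_nonneg hρ2.le hu.1, le_rfl⟩
  have e : ρ ^ 2 * u / ρ ^ 2 = u := by field_simp
  simp only [zero_div, bk_zero hw' hξ, e] at key
  exact key.symm

/-- on `[0, ρ ^ 2 u]` the backward flow from time `s + ρ ^ 2 u` is `w s + ρ * bk w' u ξ (· / ρ ^ 2)`,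
afterwards it is the backward flow from time `s` -/
theorem bf_shs {ρ u : ℝ} {ξ : ℂ} (hw : Continuous w) (hw' : Continuous w') (hs : 0 ≤ s)
    (hρ : 0 < ρ) (h : ShS s ρ T w w') (hu : u ∈ Icc 0 T) (hξ : 0 < ξ.im) :
    bf w (s + ρ ^ 2 * u) (w s + ρ * ξ) = bf w s (w s + ρ * bf w' u ξ) := by
  have h0 : 0 < ((w s : ℂ) + ρ * ξ).im := by
    rw [BackB_im]
    exact mul_pos hρ hξ
  have ha : 0 ≤ ρ ^ 2 * u := mul_nonneg (by positivity) hu.1
  have key := BackB_semi hw h0 (s + ρ ^ 2 * u) ha hs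
  rw [BackB_scale hw hw' hρ h hu hξ] at key
  have e1 : s + ρ ^ 2 * u - ρ ^ 2 * u = s := by ring
  have e2 : ρ ^ 2 * u + s = s + ρ ^ 2 * u := by ring
  rw [e1, e2] at key
  exact key

/-- chain rule in `bf_shs` -/
theorem cr_shs {ρ u : ℝ} {ξ : ℂ} (hw : Continuous w) (hw' : Continuous w') (hs : 0 ≤ s)
    (hρ : 0 < ρ) (h : ShS s ρ T w w') (hu : u ∈ Icc 0 T) (hξ : 0 < ξ.im) :
    cr w (s + ρ ^ 2 * u) (w s + ρ * ξ)
      = ρ * ‖deriv (bf w s) (w s + ρ * bf w' u ξ)‖ * cr w' u ξ := by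
  have hρc : (ρ : ℂ) ≠ 0 := by exact_mod_cast hρ.ne'
  have h0 : 0 < ((w s : ℂ) + ρ * ξ).im := by
    rw [BackB_im]
    exact mul_pos hρ hξ
  have h1 : 0 < ((w s : ℂ) + ρ * bf w' u ξ).im := by
    rw [BackB_im]
    exact mul_pos hρ (hξ.trans_le (bf_im_ge hw' hξ hu.1))
  have ht : 0 ≤ s + ρ ^ 2 * u := add_nonneg hs (mul_nonneg (by positivity) hu.1)
  have d1 := (bf_hasDerivAt hw h0 ht).differentiableAt.hasDerivAt
  have d2 := (bf_hasDerivAt hw h1 hs).differentiableAt.hasDerivAt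
  have d3 := (bf_hasDerivAt hw' hξ hu.1).differentiableAt.hasDerivAt
  have a1 : HasDerivAt (fun ξ : ℂ => (w s : ℂ) + ρ * ξ) (ρ * 1) ξ :=
    ((hasDerivAt_id ξ).const_mul (ρ : ℂ)).const_add _
  have a2 : HasDerivAt (fun ξ : ℂ => (w s : ℂ) + ρ * bf w' u ξ) (ρ * deriv (bf w' u) ξ) ξ :=
    (d3.const_mul (ρ : ℂ)).const_add _
  have c1 := HasDerivAt.comp ξ (h₂ := bf w (s + ρ ^ 2 * u)) d1 a1
  have c2 := HasDerivAt.comp ξ (h₂ := bf w s) d2 a2
  have ev : (bf w (s + ρ ^ 2 * u) ∘ fun ξ : ℂ => (w s : ℂ) + ρ * ξ)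
      =ᶠ[𝓝 ξ] (bf w s ∘ fun ξ : ℂ => (w s : ℂ) + ρ * bf w' u ξ) := by
    filter_upwards [BackB_nhds hξ] with ξ' hξ'
    exact bf_shs hw hw' hs hρ h hu hξ'
  have e := c1.unique (c2.congr_of_eventuallyEq ev)
  have e' : deriv (bf w (s + ρ ^ 2 * u)) (w s + ρ * ξ)
      = deriv (bf w s) (w s + ρ * bf w' u ξ) * deriv (bf w' u) ξ := by
    apply mul_right_cancel₀ hρc
    linear_combination e
  unfold cr
  rw [e', BackB_im, norm_mul]
  ring

/-- the domains decrease -/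
theorem bf_image_anti (hw : Continuous w) (hs : 0 ≤ s) (hst : s ≤ t) :
    bf w t '' HH ⊆ bf w s '' HH := by
  rintro _ ⟨ζ, hζ, rfl⟩
  have key := BackB_semi hw hζ t (a := t - s) (by linarith) hs
  have e1 : t - s + s = t := by ring
  have e2 : t - (t - s) = s := by ring
  rw [e1, e2] at key
  exact ⟨bk w t ζ (t - s), BackA_pos hw hζ t _, key.symm⟩

/-- `cr_shs` with `ρ = 1`, injectivity and `cr_le_im` -/
theorem cr_anti (hw : Continuous w) (hs : 0 ≤ s) (hst : s ≤ t) (hζ : 0 < ζ.im) (hζ' : 0 < ζ'.im)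
    (h : bf w s ζ' = bf w t ζ) : cr w t ζ ≤ cr w s ζ' := by
  have hw' : Continuous fun u => (w (s + 1 ^ 2 * u) - w s) / 1 := by fun_prop
  have hS : ShS s 1 (t - s) w fun u => (w (s + 1 ^ 2 * u) - w s) / 1 := fun _ _ => rfl
  set v : ℝ → ℝ := fun u => (w (s + 1 ^ 2 * u) - w s) / 1
  have hu : t - s ∈ Icc 0 (t - s) := ⟨by linarith, le_rfl⟩
  have hξ : 0 < (ζ - w s).im := by simpa using hζ
  have k1 := bf_shs hw hw' hs one_pos hS hu hξ
  have k2 := cr_shs hw hw' hs one_pos hS hu hξ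
  have e1 : s + 1 ^ 2 * (t - s) = t := by ring
  have e2 : (w s : ℂ) + (1 : ℝ) * (ζ - w s) = ζ := by
    push_cast
    ring
  rw [e1, e2] at k1 k2
  have h1 : 0 < ((w s : ℂ) + (1 : ℝ) * bf v (t - s) (ζ - w s)).im := by
    rw [BackB_im]
    exact mul_pos one_pos (hξ.trans_le (bf_im_ge hw' hξ hu.1))
  have e3 : ζ' = (w s : ℂ) + (1 : ℝ) * bf v (t - s) (ζ - w s) :=
    (bf_univ hw hs).inj hζ' h1 (h.trans k1)
  have k3 := cr_le_im hw' hξ hu.1
  have e4 : ζ'.im = (bf v (t - s) (ζ - w s)).im := by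
    rw [e3, BackB_im, one_mul]
  rw [k2, ← e3, one_mul]
  unfold cr at k3 ⊢
  rw [e4, mul_comm]
  exact mul_le_mul_of_nonneg_right k3 (norm_nonneg _)

theorem ever_mono {t' e e' : ℝ} (ht : t ≤ t') (he : e ≤ e') : Ever w t e ⊆ Ever w t' e' := by
  rintro z ⟨s, hs, ζ, hζ, h1, h2⟩
  exact ⟨s, ⟨hs.1, hs.2.trans ht⟩, ζ, hζ, h1, h2.trans_le he⟩

theorem BackB_sub (hw : Continuous w) (hw' : Continuous w') (h : Agr T w w') (e : ℝ) :
    Ever w T e ⊆ Ever w' T e := by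
  rintro z ⟨s, hs, ζ, hζ, h1, h2⟩
  refine ⟨s, hs, ζ, hζ, by rw [← bf_congr hw hw' h hζ hs, h1], ?_⟩
  unfold cr at h2 ⊢
  rw [← deriv_bf_congr hw hw' h hζ hs]
  exact h2

theorem ever_congr (hw : Continuous w) (hw' : Continuous w') (h : Agr T w w') (e : ℝ) :
    Ever w T e = Ever w' T e :=
  (BackB_sub hw hw' h e).antisymm (BackB_sub hw' hw (fun s hs => (h s hs).symm) e)

theorem ever_sub (hw : Continuous w) (t e : ℝ) : Ever w t e ⊆ HH := by
  rintro z ⟨s, hs, ζ, hζ, h1, -⟩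
  rw [← h1]
  exact hζ.trans_le (bf_im_ge hw hζ hs.1)

theorem not_mem_ever (hw : Continuous w) (hs : 0 ≤ s) (hζ : 0 < ζ.im) {e : ℝ}
    (h : e ≤ cr w s ζ) : bf w s ζ ∉ Ever w s e := by
  rintro ⟨r, hr, ξ, hξ, h1, h2⟩
  have := cr_anti hw hr.1 hr.2 hζ hξ h1
  have := hs
  linarith

theorem ever_shs {ρ e Λ : ℝ} {ξ : ℂ} (hw : Continuous w) (hw' : Continuous w') (hs : 0 ≤ s)
    (hρ : 0 < ρ) (h : ShS s ρ T w w') (hξ : ξ ∈ Ever w' T e)
    (hΛ : ρ * ‖deriv (bf w s) (w s + ρ * ξ)‖ ≤ Λ) :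
    bf w s (w s + ρ * ξ) ∈ Ever w (s + ρ ^ 2 * T) (Λ * e) := by
  have hH : 0 < ξ.im := ever_sub hw' T e hξ
  obtain ⟨u, hu, ξ₀, h0, rfl, h2⟩ := hξ
  have hρ2 : 0 < ρ ^ 2 := by positivity
  have h1 : 0 < ((w s : ℂ) + ρ * bf w' u ξ₀).im := by
    rw [BackB_im]
    exact mul_pos hρ hH
  have hΛ0 : 0 < Λ :=
    (mul_pos hρ (norm_pos_iff.2 ((bf_univ hw hs).ne _ h1))).trans_le hΛ
  refine ⟨s + ρ ^ 2 * u, ⟨add_nonneg hs (mul_nonneg hρ2.le hu.1), by nlinarith [hu.2]⟩,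
    w s + ρ * ξ₀, ?_, bf_shs hw hw' hs hρ h hu h0, ?_⟩
  · rw [BackB_im]
    exact mul_pos hρ h0
  · rw [cr_shs hw hw' hs hρ h hu h0]
    exact (mul_le_mul_of_nonneg_right hΛ (cr_pos hw' h0 hu.1).le).trans_lt
      (mul_lt_mul_of_pos_left h2 hΛ0)

end Vale.Agent.P164
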