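import Vale.Agent.P164.BackB

/-!
# P164 BackT

Regularity of `f_t` in time. Joint continuity: `bf_lip` in `ζ`; in `t` use `bf_shs` with `ρ = 1`:
`bf w (s + u) ζ = bf w s (k)`, `‖k - ζ‖ ≤ 2 u / im ζ`, and `bf_lip` again (uniformly for bounded times).
Derivatives: joint continuity on an open set gives locally uniform convergence, use
`TendstoLocallyUniformlyOn.deriv` or the Cauchy formula on a small circle.
-/

open MeasureTheory ProbabilityTheory Set Filter Topology Complex Function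
open scoped NNReal ENNReal ComplexConjugate

noncomputable section

namespace Vale.Agent.P164

variable {w : ℝ → ℝ} {t : ℝ}

theorem BackT_split (hw : Continuous w) (ht : 0 ≤ t) {u : ℝ} (hu : 0 ≤ u) {ζ : ℂ}
    (hζ : 0 < ζ.im) : bf w (t + u) ζ = bf w t (bk w (t + u) ζ u) := by
  have hc := bk_cont hw hζ (t + u)
  have h := bk_unique hw (g := fun v => bk w (t + u) ζ (u + v)) (T := t) t
    (Continuous.continuousOn (by fun_prop)) (fun v _ => BackA_pos hw hζ _ _)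
    (fun v hv => by
      have h1 := (bk_deriv hw hζ (t + u) (add_nonneg hu hv.1)).comp_const_add u v
      have h2 : t + u - (u + v) = t - v := by ring
      rw [h2] at h1
      exact h1.hasDerivWithinAt) t ⟨ht, le_rfl⟩
  simp only [add_zero] at h
  unfold bf
  rw [← h, add_comm u t]

theorem BackT_mv (hw : Continuous w) {ζ : ℂ} (hζ : 0 < ζ.im) (t : ℝ) {u : ℝ} (hu : 0 ≤ u) (c : ℂ)
    {ε : ℝ} (h : ∀ v ∈ Icc 0 u, ‖-2 / (bk w t ζ v - w (t - v)) - c‖ ≤ ε) :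
    ‖bk w t ζ u - ζ - u • c‖ ≤ ε * u := by
  have hc := bk_cont hw hζ t
  have h1 := norm_image_sub_le_of_norm_deriv_right_le_segment
    (f := fun v : ℝ => bk w t ζ v - v • c)
    (f' := fun v => -2 / (bk w t ζ v - w (t - v)) - c) (a := 0) (b := u) (C := ε)
    (Continuous.continuousOn (by fun_prop))
    (fun v hv => by
      have h2 := (hasDerivAt_id v).smul_const c
      rw [one_smul] at h2
      exact ((bk_deriv hw hζ t hv.1).sub h2).hasDerivWithinAt)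
    (fun v hv => h v ⟨hv.1, hv.2.le⟩) u ⟨hu, le_rfl⟩
  rw [bk_zero hw hζ, zero_smul, sub_zero, sub_zero, sub_right_comm] at h1
  exact h1

theorem BackT_near (hw : Continuous w) {ζ : ℂ} {y : ℝ} (hy : 0 < y) (hζ : y ≤ ζ.im) (t : ℝ) {u : ℝ}
    (hu : 0 ≤ u) : ‖bk w t ζ u - ζ‖ ≤ 2 / y * u := by
  have h := BackT_mv hw (hy.trans_le hζ) t hu 0 (ε := 2 / y) fun v hv => by
    have h1 := Back_le_norm hw (hy.trans_le hζ) t hv.1
    rw [sub_zero, norm_div, norm_neg, Complex.norm_ofNat]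
    exact div_le_div_of_nonneg_left (by norm_num) hy (hζ.trans h1)
  rwa [smul_zero, sub_zero] at h

theorem BackT_lip (hw : Continuous w) {ζ : ℂ} {y s T : ℝ} (hy : 0 < y) (hζ : y ≤ ζ.im) (hs : 0 ≤ s)
    (hst : s ≤ t) (hT : s ≤ T) :
    ‖bf w t ζ - bf w s ζ‖ ≤ 2 / y * (t - s) * Real.exp (2 * T / y ^ 2) := by
  have hu : 0 ≤ t - s := sub_nonneg.2 hst
  have h1 := BackT_split hw hs hu (hy.trans_le hζ)
  rw [add_sub_cancel] at h1
  rw [h1]
  refine (bf_lip hw hy hζ (hζ.trans (bk_im_ge hw (hy.trans_le hζ) t hu)) hs).trans ?_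
  refine mul_le_mul (BackT_near hw hy hζ t hu) (Real.exp_le_exp.2 ?_) (Real.exp_pos _).le
    (by positivity)
  gcongr

theorem BackT_lip' (hw : Continuous w) {ζ : ℂ} {y s T : ℝ} (hy : 0 < y) (hζ : y ≤ ζ.im)
    (hs : s ∈ Icc 0 T) (ht : t ∈ Icc 0 T) :
    ‖bf w t ζ - bf w s ζ‖ ≤ 2 / y * |t - s| * Real.exp (2 * T / y ^ 2) := by
  rcases le_total s t with h | h
  · rw [abs_of_nonneg (sub_nonneg.2 h)]
    exact BackT_lip hw hy hζ hs.1 h hs.2
  · rw [abs_sub_comm, abs_of_nonneg (sub_nonneg.2 h), norm_sub_rev]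
    exact BackT_lip hw hy hζ ht.1 h ht.2

theorem bf_contOn (hw : Continuous w) :
    ContinuousOn (fun q : ℝ × ℂ => bf w q.1 q.2) (Ici 0 ×ˢ HH) := by
  rintro ⟨s, ζ⟩ ⟨hs, hζ⟩
  have hs : 0 ≤ s := hs
  have hζ : 0 < ζ.im := hζ
  have hy : 0 < ζ.im / 2 := half_pos hζ
  unfold ContinuousWithinAt
  rw [tendsto_iff_norm_sub_tendsto_zero]
  have h1 : Tendsto (fun q : ℝ × ℂ => (‖q.2 - ζ‖ + 2 / (ζ.im / 2) * |q.1 - s|) *
      Real.exp (2 * (s + 1) / (ζ.im / 2) ^ 2)) (𝓝 (s, ζ)) (𝓝 0) := by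
    have h2 : Continuous fun q : ℝ × ℂ => (‖q.2 - ζ‖ + 2 / (ζ.im / 2) * |q.1 - s|) *
      Real.exp (2 * (s + 1) / (ζ.im / 2) ^ 2) := by fun_prop
    have h3 := h2.tendsto (s, ζ)
    simpa using h3
  refine squeeze_zero' (Eventually.of_forall fun _ => norm_nonneg _) ?_
    (h1.mono_left nhdsWithin_le_nhds)
  have h4 : ∀ᶠ q : ℝ × ℂ in 𝓝 (s, ζ), ζ.im / 2 ≤ q.2.im :=
    (continuous_snd.tendsto (s, ζ)).eventually (Back_half hζ)
  have h5 : ∀ᶠ q : ℝ × ℂ in 𝓝 (s, ζ), q.1 ≤ s + 1 :=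
    (continuous_fst.tendsto (s, ζ)).eventually (ge_mem_nhds (lt_add_one s))
  filter_upwards [h4.filter_mono nhdsWithin_le_nhds, h5.filter_mono nhdsWithin_le_nhds,
    self_mem_nhdsWithin] with q hq hq' hq0
  have hq0 : 0 ≤ q.1 := hq0.1
  have h6 := bf_lip hw hy (half_le_self hζ.le) hq hq0
  have h7 := BackT_lip' hw hy (half_le_self hζ.le) (s := s) (T := s + 1)
    ⟨hs, (lt_add_one s).le⟩ ⟨hq0, hq'⟩
  have h8 : Real.exp (2 * q.1 / (ζ.im / 2) ^ 2) ≤ Real.exp (2 * (s + 1) / (ζ.im / 2) ^ 2) := by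
    gcongr
  calc ‖bf w q.1 q.2 - bf w s ζ‖ ≤ ‖bf w q.1 q.2 - bf w q.1 ζ‖ + ‖bf w q.1 ζ - bf w s ζ‖ :=
        norm_sub_le_norm_sub_add_norm_sub _ _ _
    _ ≤ _ := by
      rw [add_mul]
      exact add_le_add (h6.trans (mul_le_mul_of_nonneg_left h8 (norm_nonneg _))) h7

theorem BackT_open : IsOpen HH := isOpen_lt continuous_const continuous_im

theorem BackT_deriv {F : ℝ → ℂ → ℂ} (hc : ContinuousOn (fun q : ℝ × ℂ => F q.1 q.2) (Ici 0 ×ˢ HH))
    (hd : ∀ t, 0 ≤ t → DifferentiableOn ℂ (F t) HH) :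
    ContinuousOn (fun q : ℝ × ℂ => deriv (F q.1) q.2) (Ici 0 ×ˢ HH) := by
  rintro ⟨s, ζ⟩ ⟨hs, hζ⟩
  have hs : 0 ≤ s := hs
  have h1 : TendstoLocallyUniformlyOn (fun q : ℝ × ℂ => F q.1) (F s)
      (𝓝[Ici 0 ×ˢ HH] (s, ζ)) HH := by
    rw [tendstoLocallyUniformlyOn_iff_forall_tendsto]
    intro x hx
    refine Tendsto.mono_right ?_ (nhds_le_uniformity (F s x))
    refine Tendsto.prodMk_nhds (Tendsto.comp ((hd s hs).continuousOn x hx) tendsto_snd) ?_
    refine Tendsto.comp (hc (s, x) ⟨hs, hx⟩)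
      (f := fun y : (ℝ × ℂ) × ℂ => (y.1.1, y.2)) ?_
    rw [nhdsWithin_prod_eq, nhdsWithin_prod_eq]
    exact (tendsto_fst.comp tendsto_fst).prodMk tendsto_snd
  have h2 := h1.deriv (by
    filter_upwards [self_mem_nhdsWithin] with q hq
    exact hd q.1 hq.1) BackT_open
  refine h2.tendsto_comp (((hd s hs).deriv BackT_open).continuousOn ζ hζ) hζ ?_
  rw [nhdsWithin_prod_eq]
  exact tendsto_snd

theorem deriv_bf_contOn (hw : Continuous w) :
    ContinuousOn (fun q : ℝ × ℂ => deriv (bf w q.1) q.2) (Ici 0 ×ˢ HH) :=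
  BackT_deriv (F := bf w) (bf_contOn hw) fun _ ht => (bf_univ hw ht).diff

theorem deriv2_bf_contOn (hw : Continuous w) :
    ContinuousOn (fun q : ℝ × ℂ => deriv (deriv (bf w q.1)) q.2) (Ici 0 ×ˢ HH) :=
  BackT_deriv (F := fun t => deriv (bf w t)) (deriv_bf_contOn hw)
    fun _ ht => (bf_univ hw ht).diff.deriv BackT_open

theorem BackT_k (hw : Continuous w) {ζ : ℝ → ℂ} (hζ : 0 < (ζ t).im)
    (hc : ContinuousWithinAt ζ (Ici t) t) :
    HasDerivWithinAt (fun s => bk w s (ζ s) (s - t) - ζ s) (-2 / (ζ t - w t)) (Ici t) t := by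
  have hy : 0 < (ζ t).im / 2 := half_pos hζ
  have hne : ζ t - w t ≠ 0 := fun h => by
    have := congrArg im h
    simp only [sub_im, ofReal_im, sub_zero, zero_im] at this
    exact hζ.ne' this
  rw [hasDerivWithinAt_iff_isLittleO, Asymptotics.isLittleO_iff]
  intro ε hε
  have h1 : ContinuousAt (fun z : ℂ => -2 / z) (ζ t - w t) := continuousAt_const.div continuousAt_id hne
  obtain ⟨δ, hδ, h2⟩ := Metric.continuousAt_iff.1 h1 ε hε
  obtain ⟨δ', hδ', h3⟩ := Metric.continuousAt_iff.1 (hw.continuousAt (x := t)) (δ / 3) (by positivity)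
  have h4 : ∀ᶠ s in 𝓝[Ici t] t, (ζ t).im / 2 ≤ (ζ s).im := hc.eventually (Back_half hζ)
  have h5 : ∀ᶠ s in 𝓝[Ici t] t, dist (ζ s) (ζ t) < δ / 3 :=
    hc.eventually (Metric.ball_mem_nhds _ (by positivity))
  have h6 : ∀ᶠ s in 𝓝 t, s - t < δ' :=
    ((continuous_id.sub continuous_const).tendsto t).eventually
      (gt_mem_nhds (by simpa using hδ'))
  have h7 : ∀ᶠ s in 𝓝 t, 2 / ((ζ t).im / 2) * (s - t) < δ / 3 :=
    ((continuous_const.mul (continuous_id.sub continuous_const)).tendsto t).eventually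
      (gt_mem_nhds (by simpa using hδ))
  filter_upwards [h4, h5, h6.filter_mono nhdsWithin_le_nhds, h7.filter_mono nhdsWithin_le_nhds,
    self_mem_nhdsWithin] with s a4 a5 a6 a7 hs
  have hu : 0 ≤ s - t := sub_nonneg.2 hs
  rw [sub_self, bk_zero hw hζ, sub_self, sub_zero, Real.norm_of_nonneg hu]
  refine BackT_mv hw (hy.trans_le a4) s hu _ fun v hv => ?_
  rw [← dist_eq_norm]
  refine (h2 ?_).le
  have b1 := BackT_near hw hy a4 s hv.1
  have b2 : 2 / ((ζ t).im / 2) * v ≤ 2 / ((ζ t).im / 2) * (s - t) :=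
    mul_le_mul_of_nonneg_left hv.2 (by positivity)
  have b3 : dist (w (s - v)) (w t) < δ / 3 := h3 (by
    rw [Real.dist_eq, abs_lt]
    constructor <;> linarith [hv.1, hv.2])
  have b4 : ‖((w (s - v) : ℝ) : ℂ) - w t‖ < δ / 3 := by
    rw [← ofReal_sub, Complex.norm_real, ← dist_eq_norm]
    exact b3
  rw [dist_eq_norm] at a5 ⊢
  have b5 : bk w s (ζ s) v - w (s - v) - (ζ t - w t) =
      (bk w s (ζ s) v - ζ s) + (ζ s - ζ t) - ((w (s - v) : ℝ) - w t) := by ring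
  rw [b5]
  have b6 := norm_sub_le ((bk w s (ζ s) v - ζ s) + (ζ s - ζ t)) (((w (s - v) : ℝ) : ℂ) - w t)
  have b7 := norm_add_le (bk w s (ζ s) v - ζ s) (ζ s - ζ t)
  linarith

/-- for `s ≥ t`, `bf w s (ζ s) = bf w t (k s)` with `k s = bk w s (ζ s) (s - t)
= ζ s - ∫ u in 0..(s - t), 2 / (bk w s (ζ s) u - w (s - u))`, whose right derivative at `t` is
`ζ' - 2 / (ζ t - w t)` -/
theorem bf_time (hw : Continuous w) (ht : 0 ≤ t) {ζ : ℝ → ℂ} {ζ' : ℂ} (hζ : 0 < (ζ t).im)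
    (hd : HasDerivWithinAt ζ ζ' (Ici t) t) :
    HasDerivWithinAt (fun s => bf w s (ζ s))
      (deriv (bf w t) (ζ t) * (-2 / (ζ t - w t) + ζ')) (Ici t) t := by
  have h1 := (BackT_k hw hζ hd.continuousWithinAt).add hd
  have h0 : ((fun s => bk w s (ζ s) (s - t) - ζ s) + ζ) t = ζ t := by
    simp only [Pi.add_apply, sub_self, bk_zero hw hζ, zero_add]
  have h2 : HasDerivAt (bf w t) (deriv (bf w t) (ζ t))
      (((fun s => bk w s (ζ s) (s - t) - ζ s) + ζ) t) := by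
    rw [h0]
    exact (bf_hasDerivAt hw hζ ht).differentiableAt.hasDerivAt
  refine (h2.comp_hasDerivWithinAt t h1).congr_of_eventuallyEq ?_ ?_
  · filter_upwards [hd.continuousWithinAt.eventually (Back_half hζ), self_mem_nhdsWithin]
      with s hs hst
    have h3 := BackT_split hw ht (sub_nonneg.2 hst) ((half_pos hζ).trans_le hs)
    rw [add_sub_cancel] at h3
    simp only [comp_apply, Pi.add_apply, sub_add_cancel]
    exact h3
  · rw [comp_apply, h0]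

end Vale.Agent.P164
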