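import Vale.Agent.P164.Defs

/-!
# P164 DetB

Tools for the deterministic inequalities.
-/

open MeasureTheory ProbabilityTheory Set Filter Topology Complex Function
open scoped NNReal ENNReal ComplexConjugate

noncomputable section

namespace Vale.Agent.P164

variable {F : ℂ → ℂ} {x₀ : ℂ} {R A η : ℝ}

theorem measurableSet_bulk : MeasurableSet {q : ℂ × ℂ | Bulk q.1 q.2} := by
  refine IsClosed.measurableSet ?_
  simp only [Bulk, ofPred_and]
  exact (isClosed_le (by fun_prop) (by fun_prop)).inter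
    ((isClosed_le (by fun_prop) (by fun_prop)).inter (isClosed_le (by fun_prop) (by fun_prop)))

theorem DetB_left (Z' : ℂ) : MeasurableSet {Z : ℂ | Bulk Z Z'} :=
  measurableSet_bulk.preimage (f := fun Z => (Z, Z')) (by fun_prop)

theorem DetB_right (Z : ℂ) : MeasurableSet {Z' : ℂ | Bulk Z Z'} :=
  measurableSet_bulk.preimage (f := fun Z' => (Z, Z')) (by fun_prop)

theorem DetB_half (η : ℝ) : MeasurableSet {Z : ℂ | η < Z.im} :=
  (isOpen_lt continuous_const Complex.continuous_im).measurableSet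

theorem DetB_rect (Z : ℂ) : volume {Z' : ℂ | Bulk Z Z'} = ENNReal.ofReal (2 * ‖Z‖ ^ 2) := by
  have e : {Z' : ℂ | Bulk Z Z'} =
      Complex.measurableEquivRealProd ⁻¹' (Icc (-‖Z‖) ‖Z‖ ×ˢ Icc ‖Z‖ (2 * ‖Z‖)) := by
    ext Z'
    simp only [Bulk, abs_le, mem_ofPred_eq, mem_preimage, mem_prod, mem_Icc,
      Complex.measurableEquivRealProd_apply]
    tauto
  have h0 := norm_nonneg Z
  rw [e, Complex.volume_preserving_equiv_real_prod.measure_preimage
    (measurableSet_Icc.prod measurableSet_Icc).nullMeasurableSet, Measure.volume_eq_prod,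
    Measure.prod_prod, Real.volume_Icc, Real.volume_Icc, ← ENNReal.ofReal_mul (by linarith)]
  congr 1
  ring

theorem DetB_inner {Z : ℂ} (hη : 0 < η) (hZ : η < Z.im) :
    ENNReal.ofReal (1 / ‖Z‖ ^ 2) ≤ 10 * ∫⁻ Z' in {Z' : ℂ | η < Z'.im},
      {Z' | Bulk Z Z'}.indicator (fun Z' => ENNReal.ofReal (1 / (Z'.im ^ 2 * ‖Z'‖ ^ 2))) Z' := by
  have h1 : Z.im ≤ ‖Z‖ := Complex.im_le_norm Z
  have h0 : 0 < ‖Z‖ := by linarith
  have hs : {Z' : ℂ | Bulk Z Z'} ∩ {Z' : ℂ | η < Z'.im} = {Z' : ℂ | Bulk Z Z'} :=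
    inter_eq_left.2 fun Z' h => lt_of_lt_of_le (hZ.trans_le h1) h.1
  rw [lintegral_indicator (DetB_right Z), Measure.restrict_restrict (DetB_right Z), hs]
  have h2 : ∫⁻ _ in {Z' : ℂ | Bulk Z Z'}, ENNReal.ofReal (1 / (20 * ‖Z‖ ^ 4)) ≤
      ∫⁻ Z' in {Z' : ℂ | Bulk Z Z'}, ENNReal.ofReal (1 / (Z'.im ^ 2 * ‖Z'‖ ^ 2)) := by
    refine setLIntegral_mono' (DetB_right Z) fun Z' h => ENNReal.ofReal_le_ofReal ?_
    obtain ⟨a1, a2, a3⟩ := h
    have b0 : 0 < Z'.im := by linarith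
    have b1 : 0 < ‖Z'‖ := b0.trans_le (Complex.im_le_norm Z')
    have b2 : Z'.im ^ 2 ≤ 4 * ‖Z‖ ^ 2 := by nlinarith
    have b3 : Z'.re ^ 2 ≤ ‖Z‖ ^ 2 := sq_le_sq' (abs_le.1 a3).1 (abs_le.1 a3).2
    have b4 : ‖Z'‖ ^ 2 ≤ 5 * ‖Z‖ ^ 2 := by
      rw [Complex.sq_norm, Complex.normSq_apply]
      nlinarith
    refine one_div_le_one_div_of_le (by positivity) ?_
    calc _ ≤ 4 * ‖Z‖ ^ 2 * (5 * ‖Z‖ ^ 2) := by gcongr
      _ = _ := by ring
  refine le_trans (le_of_eq ?_) (mul_le_mul_right h2 10)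
  rw [setLIntegral_const, DetB_rect, ← ENNReal.ofReal_mul (by positivity),
    ← ENNReal.ofReal_ofNat 10, ← ENNReal.ofReal_mul (by positivity)]
  congr 1
  field_simp
  ring

/-- on `{Bulk · Z'}` we have `im Z' / 2 ≤ ‖Z‖ ≤ im Z'` -/
theorem ann_vol (Z' : ℂ) : ∫⁻ Z in {Z | 0 < Z.im ∧ Bulk Z Z'}, ENNReal.ofReal (1 / ‖Z‖ ^ 2) ≤ 16 := by
  by_cases hy : 0 < Z'.im
  · have hm : MeasurableSet {Z : ℂ | 0 < Z.im ∧ Bulk Z Z'} := (DetB_half 0).inter (DetB_left Z')
    calc _ ≤ ∫⁻ _ in {Z : ℂ | 0 < Z.im ∧ Bulk Z Z'}, ENNReal.ofReal (4 / Z'.im ^ 2) := by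
          refine setLIntegral_mono' hm fun Z h => ENNReal.ofReal_le_ofReal ?_
          obtain ⟨a0, a1, a2, -⟩ := h
          have b0 : 0 < ‖Z‖ := by linarith
          rw [div_le_div_iff₀ (by positivity) (by positivity)]
          nlinarith
      _ ≤ ENNReal.ofReal (4 / Z'.im ^ 2) * volume (Metric.closedBall (0 : ℂ) Z'.im) := by
          rw [setLIntegral_const]
          refine mul_le_mul_right (measure_mono fun Z h => ?_) _
          exact mem_closedBall_zero_iff.2 h.2.1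
      _ = ENNReal.ofReal (4 * Real.pi) := by
          rw [Complex.volume_closedBall, ← ENNReal.ofReal_pow hy.le, ← NNReal.coe_real_pi,
            ← ENNReal.ofReal_coe_nnreal, ← ENNReal.ofReal_mul (by positivity),
            ← ENNReal.ofReal_mul (by positivity)]
          congr 1
          field_simp
      _ ≤ 16 := by
          rw [← ENNReal.ofReal_ofNat 16]
          exact ENNReal.ofReal_le_ofReal (by linarith [Real.pi_le_four])
  · have e : {Z : ℂ | 0 < Z.im ∧ Bulk Z Z'} = ∅ := by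
      refine eq_empty_of_forall_notMem fun Z h => hy ?_
      exact (h.1.trans_le (Complex.im_le_norm Z)).trans_le h.2.1
    simp [e]

/-- the set `{Z' | Bulk Z Z'}` is a rectangle of area `2 ρ ^ 2` on which
`im Z' ^ 2 ‖Z'‖ ^ 2 ≤ 20 ρ ^ 4`; Tonelli -/
theorem collect {k b : ℂ → ℝ≥0∞} (hk : Measurable k) (hη : 0 < η)
    (h : ∀ Z' : ℂ, η < Z'.im → ∫⁻ Z in {Z | η < Z.im ∧ Bulk Z Z'}, k Z ≤ b Z') :
    ∫⁻ Z in {Z : ℂ | η < Z.im}, k Z * ENNReal.ofReal (1 / ‖Z‖ ^ 2)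
      ≤ 10 * ∫⁻ Z' in {Z' : ℂ | η < Z'.im}, b Z' * ENNReal.ofReal (1 / (Z'.im ^ 2 * ‖Z'‖ ^ 2)) := by
  obtain ⟨c, hc⟩ : ∃ c : ℂ → ℝ≥0∞, c = fun Z' => ENNReal.ofReal (1 / (Z'.im ^ 2 * ‖Z'‖ ^ 2)) :=
    ⟨_, rfl⟩
  have hcm : Measurable c := by
    rw [hc]
    fun_prop
  have hm : Measurable (uncurry fun Z Z' : ℂ => k Z * {Z' | Bulk Z Z'}.indicator c Z') :=
    (hk.comp measurable_fst).mul ((hcm.comp measurable_snd).indicator measurableSet_bulk)
  calc _ ≤ ∫⁻ Z in {Z : ℂ | η < Z.im}, 10 * ∫⁻ Z' in {Z' : ℂ | η < Z'.im},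
          k Z * {Z' | Bulk Z Z'}.indicator c Z' := by
        refine setLIntegral_mono' (DetB_half η) fun Z hZ => ?_
        rw [lintegral_const_mul _ (hcm.indicator (DetB_right Z)), mul_left_comm, hc]
        exact mul_le_mul_right (DetB_inner hη hZ) _
    _ = 10 * ∫⁻ Z' in {Z' : ℂ | η < Z'.im}, ∫⁻ Z in {Z : ℂ | η < Z.im},
          k Z * {Z' | Bulk Z Z'}.indicator c Z' := by
        rw [lintegral_const_mul' _ _ (by simp), lintegral_lintegral_swap hm.aemeasurable]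
    _ ≤ _ := by
        refine mul_le_mul_right (setLIntegral_mono' (DetB_half η) fun Z' hZ' => ?_) _
        have e : ∀ Z, k Z * {Z' | Bulk Z Z'}.indicator c Z' =
            {Z | Bulk Z Z'}.indicator k Z * c Z' := fun Z => by
          by_cases hB : Bulk Z Z' <;> simp [indicator, hB]
        simp only [e]
        rw [lintegral_mul_const _ (hk.indicator (DetB_left Z')), lintegral_indicator (DetB_left Z'),
          Measure.restrict_restrict (DetB_left Z'), inter_comm, hc]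
        exact mul_le_mul_left (h Z' hZ') _

end Vale.Agent.P164
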