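import Vale.Agent.P164.Defs

/-!
# P164 DynkA

Dynkin's formula. Fix `s` and `A` determined at `s`. The function
`u t = ∫ w in A, (N t w - N s w - ∫ s..t d)` is continuous on `[s,T]` with right derivative `0`
(`constant_of_has_deriv_right_zero`). Split `N (t+h) - N t` into
`Ψ (t+h) (w (t+h)) - Ψ t (w (t+h))` (mean value inequality in time and dominated convergence) and
`Ψ t (w (t+h)) - Ψ t (w t) = Ψ1 Δ + Ψ2 Δ ^ 2 / 2 + R` (independence of `Δ` from the past).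
-/

open MeasureTheory ProbabilityTheory Set Filter Topology Complex Function
open scoped NNReal ENNReal ComplexConjugate

noncomputable section

namespace Vale.Agent.P164

variable {κ T K : ℝ} {μ : Measure Path}

lemma DynkA_mv {Ψ Ψ0 Ψ1 Ψ2 : ℝ → ℝ → ℝ} (h : Jet T Ψ Ψ0 Ψ1 Ψ2) {s t : ℝ} (ht : 0 ≤ t)
    (hts : t ≤ s) (hs : s ≤ T) (y c C : ℝ) (hb : ∀ u ∈ Ico t s, |Ψ0 u y - c| ≤ C) :
    |Ψ s y - Ψ t y - (s - t) * c| ≤ C * (s - t) := by
  have h1 : ContinuousOn (fun u => Ψ u y) (Icc t s) :=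
    h.c.comp (f := fun u => (u, y)) (by fun_prop) fun u hu =>
      ⟨⟨ht.trans hu.1, hu.2.trans hs⟩, mem_univ _⟩
  have h2 := norm_image_sub_le_of_norm_deriv_right_le_segment (f := fun u => Ψ u y - u * c)
    (f' := fun u => Ψ0 u y - c) (C := C) (a := t) (b := s) (h1.sub (by fun_prop))
    (fun u hu => by
      have := (h.d0 u ⟨ht.trans hu.1, hu.2.trans_le hs⟩ y).fun_sub
        ((hasDerivWithinAt_id u (Ici u)).mul_const c)
      simpa using this) hb s ⟨hts, le_rfl⟩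
  rw [Real.norm_eq_abs] at h2
  rwa [show Ψ s y - Ψ t y - (s - t) * c = Ψ s y - s * c - (Ψ t y - t * c) by ring]

lemma DynkA_lim {P : Type} [MeasurableSpace P] {l : Filter ℝ} [l.NeBot] [l.IsCountablyGenerated]
    {S : Set ℝ} (hS : S ∈ l) {f : ℝ → P → ℝ} {g : P → ℝ} (hf : ∀ i ∈ S, Measurable (f i))
    (hg : ∀ p, Tendsto (fun i => f i p) l (𝓝 (g p))) : Measurable g := by
  classical
  refine measurable_of_tendsto_metrizable' (f := fun i p => if i ∈ S then f i p else 0) l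
    (fun i => ?_) (tendsto_pi_nhds.2 fun p => (hg p).congr' ?_)
  · by_cases hi : i ∈ S
    · simpa [hi] using hf i hi
    · simp [hi]
  · filter_upwards [hS] with i hi
    simp [hi]

lemma DynkA_der {P : Type} [MeasurableSpace P] {G : P → ℝ → ℝ} {g : P → ℝ} {y : ℝ} {S : Set ℝ}
    (hS : S ∈ 𝓝[>] y) (hG : ∀ i ∈ S, Measurable fun p => G p i) (hy : Measurable fun p => G p y)
    (hd : ∀ p, HasDerivWithinAt (G p) (g p) (Ici y) y) : Measurable g := by
  refine DynkA_lim hS (f := fun i p => slope (G p) y i) (fun i hi => ?_) fun p => ?_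
  · simp only [slope_def_field]
    exact ((hG i hi).sub hy).div_const _
  · have := hasDerivWithinAt_iff_tendsto_slope.1 (hd p)
    rwa [Ici_sdiff_left] at this

lemma DynkA_car {P : Type} [MeasurableSpace P] {G : P → ℝ → ℝ → ℝ} {t : ℝ} (ht : t ∈ Icc 0 T)
    (hc : ∀ p, ContinuousOn (uncurry (G p)) (Icc 0 T ×ˢ univ))
    (hG : ∀ y, Measurable fun p => G p t y) {x : P → ℝ} (hx : Measurable x) :
    Measurable fun p => G p t (x p) := by
  have h1 : Measurable (uncurry fun y p => G p t y) :=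
    measurable_uncurry_of_continuous_of_measurable (fun p => continuousOn_univ.1
      ((hc p).comp (f := fun y => (t, y)) (by fun_prop) fun y _ => ⟨ht, mem_univ _⟩)) hG
  exact h1.comp (hx.prodMk measurable_id)


/-- the time part: `image_norm_le`-type mean value inequality for right derivatives applied to
`s ↦ Ψ s x - (s - t) Ψ0 t x₀` and joint continuity of `Ψ0` -/
theorem Jet.time_tendsto {Ψ Ψ0 Ψ1 Ψ2 : ℝ → ℝ → ℝ} (h : Jet T Ψ Ψ0 Ψ1 Ψ2) {t : ℝ}
    (ht : t ∈ Ico 0 T) {x : ℝ → ℝ} (hx : ContinuousAt x t) :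
    Tendsto (fun s => (Ψ s (x s) - Ψ t (x s)) / (s - t)) (𝓝[>] t) (𝓝 (Ψ0 t (x t))) := by
  refine Metric.tendsto_nhds.2 fun ε hε => ?_
  obtain ⟨δ, hδ, hd⟩ := Metric.continuousWithinAt_iff.1
    (h.c0 (t, x t) ⟨Ico_subset_Icc_self ht, mem_univ _⟩) (ε / 2) (by positivity)
  have e1 : ∀ᶠ s in 𝓝[>] t, dist (x s) (x t) < δ :=
    nhdsWithin_le_nhds (Metric.tendsto_nhds.1 hx δ hδ)
  filter_upwards [e1, Ioo_mem_nhdsGT ht.2, Ioo_mem_nhdsGT (lt_add_of_pos_right t hδ)]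
    with s h1 h2 h3
  have hp : 0 < s - t := sub_pos.2 h2.1
  have := DynkA_mv h ht.1 h2.1.le h2.2.le (x s) (Ψ0 t (x t)) (ε / 2) fun u hu => by
    refine (hd (x := (u, x s)) ⟨⟨ht.1.trans hu.1, (hu.2.trans h2.2).le⟩, mem_univ _⟩ ?_).le
    rw [Prod.dist_eq, max_lt_iff, Real.dist_eq, abs_lt]
    exact ⟨⟨by linarith [hu.1], by linarith [hu.2, h3.2]⟩, h1⟩
  rw [Real.dist_eq, div_sub' hp.ne', abs_div, abs_of_pos hp, div_lt_iff₀ hp]
  nlinarith

theorem Jet.time_lip {Ψ Ψ0 Ψ1 Ψ2 : ℝ → ℝ → ℝ} (h : Jet T Ψ Ψ0 Ψ1 Ψ2) (hB : JBd T K Ψ Ψ0 Ψ1 Ψ2)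
    {s t : ℝ} (ht : 0 ≤ t) (hts : t ≤ s) (hs : s ≤ T) (x : ℝ) : |Ψ s x - Ψ t x| ≤ K * (s - t) := by
  simpa using DynkA_mv h ht hts hs x 0 K fun u hu => by
    simpa using (hB u ⟨ht.trans hu.1, (hu.2.trans_le hs).le⟩ x).2.1

/-- derivatives of measurable families are measurable (limits of difference quotients; at `t = T` use
the continuity of `Ψ0` from the left) -/
theorem Jet.measurable {P : Type} [MeasurableSpace P] {Ψ Ψ0 Ψ1 Ψ2 : P → ℝ → ℝ → ℝ} (hT : 0 < T)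
    (h : ∀ p, Jet T (Ψ p) (Ψ0 p) (Ψ1 p) (Ψ2 p))
    (hm : ∀ t ∈ Icc 0 T, ∀ x, Measurable fun p => Ψ p t x) {t : ℝ} (ht : t ∈ Icc 0 T) {x : P → ℝ}
    (hx : Measurable x) : Measurable (fun p => Ψ p t (x p)) ∧ Measurable (fun p => Ψ0 p t (x p)) ∧
      Measurable (fun p => Ψ1 p t (x p)) ∧ Measurable (fun p => Ψ2 p t (x p)) := by
  have a0 : ∀ s ∈ Ico 0 T, ∀ y, Measurable fun p => Ψ0 p s y := fun s hs y =>
    DynkA_der (G := fun p u => Ψ p u y) (S := Icc 0 T)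
      (mem_of_superset (Ioo_mem_nhdsGT hs.2) fun u hu => ⟨hs.1.trans hu.1.le, hu.2.le⟩)
      (fun i hi => hm i hi y) (hm s (Ico_subset_Icc_self hs) y) fun p => (h p).d0 s hs y
  have b0 : ∀ y, Measurable fun p => Ψ0 p t y := fun y => by
    rcases ht.2.lt_or_eq with h1 | h1
    · exact a0 t ⟨ht.1, h1⟩ y
    · subst h1
      refine DynkA_lim (l := 𝓝[<] t) (S := Ico 0 t) (Ico_mem_nhdsLT hT)
        (f := fun s p => Ψ0 p s y) (fun s hs => a0 s hs y) fun p => ?_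
      have h2 : ContinuousOn (fun s => Ψ0 p s y) (Icc 0 t) :=
        (h p).c0.comp (f := fun u => (u, y)) (by fun_prop) fun u hu => ⟨hu, mem_univ _⟩
      exact (h2 t ht).mono_of_mem_nhdsWithin (Icc_mem_nhdsLT hT)
  have b1 : ∀ y, Measurable fun p => Ψ1 p t y := fun y =>
    DynkA_der (G := fun p => Ψ p t) univ_mem (fun i _ => hm t ht i) (hm t ht y)
      fun p => ((h p).d1 t ht y).hasDerivWithinAt
  have b2 : ∀ y, Measurable fun p => Ψ2 p t y := fun y =>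
    DynkA_der (G := fun p => Ψ1 p t) univ_mem (fun i _ => b1 i) (b1 y)
      fun p => ((h p).d2 t ht y).hasDerivWithinAt
  exact ⟨DynkA_car ht (fun p => (h p).c) (hm t ht) hx, DynkA_car ht (fun p => (h p).c0) b0 hx,
    DynkA_car ht (fun p => (h p).c1) b1 hx, DynkA_car ht (fun p => (h p).c2) b2 hx⟩

end Vale.Agent.P164
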