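import Vale.Agent.P164.Wiener

/-!
# P164 DynkB

Dynkin's formula. Fix `s` and `A` determined at `s`. The function
`u t = ∫ w in A, (N t w - N s w - ∫ s..t d)` is continuous on `[s,T]` with right derivative `0`
(`constant_of_has_deriv_right_zero`). Split `N (t+h) - N t` into
`Ψ (t+h) (w (t+h)) - Ψ t (w (t+h))` (mean value inequality in time and dominated convergence) and
`Ψ t (w (t+h)) - Ψ t (w t) = Ψ1 Δ + Ψ2 Δ ^ 2 / 2 + R` (independence of `Δ` from the past).
-/

open MeasureTheory ProbabilityTheory Set Filter Topology Complex Function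
open scoped NNReal ENNReal ComplexConjugate

noncomputable section

namespace Vale.Agent.P164

variable {κ T K : ℝ} {μ : Measure Path}

theorem DynkB_quad {ψ ψ1 ψ2 : ℝ → ℝ} (h1 : ∀ u, HasDerivAt ψ (ψ1 u) u)
    (h2 : ∀ u, HasDerivAt ψ1 (ψ2 u) u) (h0 : ψ 0 = 0) (h0' : ψ1 0 = 0) {c δ : ℝ} (hc : 0 ≤ c)
    (hb : ∀ u, |u| ≤ |δ| → |ψ2 u| ≤ c) : |ψ δ| ≤ c * δ ^ 2 := by
  have hcv : Convex ℝ (Metric.closedBall (0 : ℝ) |δ|) := convex_closedBall _ _
  have hz : (0 : ℝ) ∈ Metric.closedBall (0 : ℝ) |δ| := Metric.mem_closedBall_self (abs_nonneg _)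
  have ha : ∀ u ∈ Metric.closedBall (0 : ℝ) |δ|, ‖ψ1 u‖ ≤ c * |δ| := by
    intro u hu
    have h3 := hcv.norm_image_sub_le_of_norm_hasDerivWithin_le
      (fun y _ => (h2 y).hasDerivWithinAt) (fun y hy => hb y (by simpa using hy)) hz hu
    rw [h0', sub_zero, sub_zero] at h3
    refine h3.trans (mul_le_mul_of_nonneg_left ?_ hc)
    simpa using hu
  have h4 := hcv.norm_image_sub_le_of_norm_hasDerivWithin_le
    (fun y _ => (h1 y).hasDerivWithinAt) ha hz (y := δ) (by simp)
  rw [h0, sub_zero, sub_zero, Real.norm_eq_abs, Real.norm_eq_abs, mul_assoc, abs_mul_abs_self] at h4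
  rwa [sq]

section Gauss

variable {φ φ1 φ2 : ℝ → ℝ}

theorem DynkB_shift (h1 : ∀ u, HasDerivAt φ (φ1 u) u) (x u : ℝ) :
    HasDerivAt (fun y => φ (x + y)) (φ1 (x + u)) u :=
  HasDerivAt.comp_const_add x u (h1 (x + u))

theorem DynkB_crude (h1 : ∀ u, HasDerivAt φ (φ1 u) u) (h2 : ∀ u, HasDerivAt φ1 (φ2 u) u)
    (hB : ∀ u, |φ2 u| ≤ K) (x δ : ℝ) : |φ (x + δ) - φ x - φ1 x * δ| ≤ K * δ ^ 2 := by
  refine DynkB_quad (ψ := fun y => φ (x + y) - φ x - φ1 x * y) (ψ1 := fun y => φ1 (x + y) - φ1 x)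
    (ψ2 := fun y => φ2 (x + y)) (fun u => ?_) (fun u => ?_) (by simp) (by simp)
    ((abs_nonneg _).trans (hB 0)) fun u _ => hB _
  · have h3 := ((DynkB_shift h1 x u).sub_const (φ x)).sub ((hasDerivAt_id u).const_mul (φ1 x))
    rw [mul_one] at h3
    exact h3
  · exact (DynkB_shift h2 x u).sub_const _

theorem DynkB_fine (h1 : ∀ u, HasDerivAt φ (φ1 u) u) (h2 : ∀ u, HasDerivAt φ1 (φ2 u) u)
    (x δ : ℝ) {c : ℝ} (hc : 0 ≤ c) (hb : ∀ u, |u| ≤ |δ| → |φ2 (x + u) - φ2 x| ≤ c) :
    |φ (x + δ) - φ x - φ1 x * δ - φ2 x / 2 * δ ^ 2| ≤ c * δ ^ 2 := by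
  refine DynkB_quad (ψ := fun y => φ (x + y) - φ x - φ1 x * y - φ2 x / 2 * y ^ 2)
    (ψ1 := fun y => φ1 (x + y) - φ1 x - φ2 x * y)
    (ψ2 := fun y => φ2 (x + y) - φ2 x) (fun u => ?_) (fun u => ?_) (by simp) (by simp) hc hb
  · have h3 := (((DynkB_shift h1 x u).sub_const (φ x)).sub
      ((hasDerivAt_id u).const_mul (φ1 x))).sub ((hasDerivAt_pow 2 u).const_mul (φ2 x / 2))
    refine HasDerivAt.congr_deriv h3 ?_
    simp only [Nat.cast_ofNat, Nat.add_one_sub_one, pow_one]
    ring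
  · have h3 := ((DynkB_shift h2 x u).sub_const (φ1 x)).sub ((hasDerivAt_id u).const_mul (φ2 x))
    rw [mul_one] at h3
    exact h3

theorem DynkB_point (h1 : ∀ u, HasDerivAt φ (φ1 u) u) (h2 : ∀ u, HasDerivAt φ1 (φ2 u) u)
    (hc : Continuous φ2) (x y : ℝ) :
    Tendsto (fun h => (φ (x + √h * y) - φ x - φ1 x * (√h * y)) / h) (𝓝[>] 0)
      (𝓝 (φ2 x / 2 * y ^ 2)) := by
  rw [Metric.tendsto_nhds]
  intro ε hε
  have hε' : 0 < ε / (y ^ 2 + 1) := by positivity
  obtain ⟨r, hr, hr'⟩ := Metric.continuous_iff.1 hc x _ hε'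
  have ht : Tendsto (fun h : ℝ => |√h * y|) (𝓝[>] 0) (𝓝 0) := by
    have h3 : Continuous fun h : ℝ => |√h * y| := by fun_prop
    have h4 := h3.tendsto 0
    simp only [Real.sqrt_zero, zero_mul, abs_zero] at h4
    exact h4.mono_left nhdsWithin_le_nhds
  filter_upwards [ht.eventually (gt_mem_nhds hr), self_mem_nhdsWithin] with h hh hpos
  have hpos' : 0 < h := hpos
  have h5 := DynkB_fine h1 h2 x (√h * y) hε'.le fun u hu => by
    have h6 := hr' (x + u) (by simpa [Real.dist_eq] using hu.trans_lt hh)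
    exact (Real.dist_eq _ _ ▸ h6).le
  have h7 : (√h * y) ^ 2 = h * y ^ 2 := by rw [mul_pow, Real.sq_sqrt hpos'.le]
  rw [h7] at h5
  rw [Real.dist_eq]
  have h8 : (φ (x + √h * y) - φ x - φ1 x * (√h * y)) / h - φ2 x / 2 * y ^ 2 =
      (φ (x + √h * y) - φ x - φ1 x * (√h * y) - φ2 x / 2 * (h * y ^ 2)) / h := by
    field_simp
  rw [h8, abs_div, abs_of_pos hpos', div_lt_iff₀ hpos']
  refine h5.trans_lt ?_
  rw [div_mul_eq_mul_div, div_lt_iff₀ (by positivity)]
  nlinarith [mul_pos hε hpos']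

theorem DynkB_sq (v : ℝ≥0) : ∫ y, y ^ 2 ∂gaussianReal 0 v = v := by
  have h1 := variance_of_integral_eq_zero (μ := gaussianReal 0 v) (X := fun y : ℝ => y)
    aemeasurable_id' integral_id_gaussianReal
  rw [variance_fun_id_gaussianReal] at h1
  exact h1.symm

theorem DynkB_int_sq (v : ℝ≥0) : Integrable (fun y : ℝ => y ^ 2) (gaussianReal 0 v) :=
  (memLp_id_gaussianReal' 2 (by simp)).integrable_sq

theorem DynkB_int_id (v : ℝ≥0) : Integrable (fun y : ℝ => y) (gaussianReal 0 v) :=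
  (memLp_id_gaussianReal' 1 (by simp)).integrable le_rfl

theorem DynkB_rew (h1 : ∀ u, HasDerivAt φ (φ1 u) u) (hB : ∀ u, |φ u| ≤ K) (v : ℝ≥0) (x h : ℝ) :
    (∫ y, (φ (x + √h * y) - φ x) ∂gaussianReal 0 v) / h =
      ∫ y, (φ (x + √h * y) - φ x - φ1 x * (√h * y)) / h ∂gaussianReal 0 v := by
  have hφ : Continuous φ := continuous_iff_continuousAt.2 fun u => (h1 u).continuousAt
  have hi : Integrable (fun y => φ (x + √h * y) - φ x) (gaussianReal 0 v) := by
    refine Integrable.of_bound (C := K + K) (by fun_prop) (Eventually.of_forall fun y => ?_)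
    exact (abs_sub _ _).trans (add_le_add (hB _) (hB _))
  rw [integral_div, integral_sub hi (((DynkB_int_id v).const_mul _).const_mul _),
    integral_const_mul, integral_const_mul, integral_id_gaussianReal, mul_zero, mul_zero, sub_zero]

theorem DynkB_bound (h1 : ∀ u, HasDerivAt φ (φ1 u) u) (h2 : ∀ u, HasDerivAt φ1 (φ2 u) u)
    (hB : ∀ u, |φ2 u| ≤ K) (x y : ℝ) {h : ℝ} (hh : 0 < h) :
    ‖(φ (x + √h * y) - φ x - φ1 x * (√h * y)) / h‖ ≤ K * y ^ 2 := by
  have h3 := DynkB_crude h1 h2 hB x (√h * y)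
  rw [mul_pow, Real.sq_sqrt hh.le] at h3
  rw [Real.norm_eq_abs, abs_div, abs_of_pos hh, div_le_iff₀ hh]
  linarith

theorem DynkB_gauss (h1 : ∀ u, HasDerivAt φ (φ1 u) u) (h2 : ∀ u, HasDerivAt φ1 (φ2 u) u)
    (hc : Continuous φ2) (hB : ∀ u, |φ u| ≤ K) (hB2 : ∀ u, |φ2 u| ≤ K) (v : ℝ≥0) (x : ℝ) :
    Tendsto (fun h => (∫ y, (φ (x + √h * y) - φ x) ∂gaussianReal 0 v) / h) (𝓝[>] 0)
      (𝓝 (v / 2 * φ2 x)) := by
  have hφ : Continuous φ := continuous_iff_continuousAt.2 fun u => (h1 u).continuousAt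
  simp only [DynkB_rew h1 hB]
  have h3 := tendsto_integral_filter_of_dominated_convergence (μ := gaussianReal 0 v)
    (l := 𝓝[>] (0 : ℝ)) (F := fun h y => (φ (x + √h * y) - φ x - φ1 x * (√h * y)) / h)
    (f := fun y => φ2 x / 2 * y ^ 2) (fun y => K * y ^ 2)
    (Eventually.of_forall fun h => by fun_prop)
    (by
      filter_upwards [self_mem_nhdsWithin] with h hh
      exact Eventually.of_forall fun y => DynkB_bound h1 h2 hB2 x y hh)
    ((DynkB_int_sq v).const_mul K) (Eventually.of_forall fun y => DynkB_point h1 h2 hc x y)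
  rw [integral_const_mul, DynkB_sq] at h3
  have h4 : φ2 x / 2 * v = v / 2 * φ2 x := by ring
  rwa [h4] at h3

theorem DynkB_gauss_le (h1 : ∀ u, HasDerivAt φ (φ1 u) u) (h2 : ∀ u, HasDerivAt φ1 (φ2 u) u)
    (hB : ∀ u, |φ u| ≤ K) (hB2 : ∀ u, |φ2 u| ≤ K) (v : ℝ≥0) (x : ℝ) {h : ℝ} (hh : 0 < h) :
    ‖(∫ y, (φ (x + √h * y) - φ x) ∂gaussianReal 0 v) / h‖ ≤ K * v := by
  rw [DynkB_rew h1 hB, ← DynkB_sq v, ← integral_const_mul]
  exact norm_integral_le_of_norm_le ((DynkB_int_sq v).const_mul K)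
    (Eventually.of_forall fun y => DynkB_bound h1 h2 hB2 x y hh)

end Gauss

/-- the path stopped at time `t` -/
def DynkB_stop (t : ℝ) (w : Path) : Path :=
  ⟨fun u => w.1 (min u t.toNNReal), w.2.comp (continuous_id.min continuous_const)⟩

theorem DynkB_agr (t : ℝ) (w : Path) : Agr t (pf w) (pf (DynkB_stop t w)) := by
  intro s hs
  unfold pf DynkB_stop
  simp only
  rw [min_eq_left (Real.toNNReal_le_toNNReal hs.2)]

theorem DynkB_det {t : ℝ} (ht : 0 ≤ t) : Det (fun _ => t) (DynkB_stop t) := by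
  refine ⟨?_, fun w w' h => ?_⟩
  · refine Measurable.subtype_mk (measurable_pi_lambda _ fun u => ?_)
    exact (measurable_pi_apply _).comp measurable_subtype_coe
  · refine Subtype.ext (funext fun u => ?_)
    have h1 := h ((min u t.toNNReal : ℝ≥0) : ℝ) ⟨NNReal.coe_nonneg _, by
      rw [← Real.le_toNNReal_iff_coe_le ht]
      exact min_le_right _ _⟩
    unfold pf at h1
    rw [Real.toNNReal_coe] at h1
    exact h1.symm

theorem DynkB_fubini (hμ : IsW κ μ) {t ρ C : ℝ} (ht : 0 ≤ t) (hρ : 0 < ρ) {F : Path × ℝ → ℝ}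
    (hF : Measurable F) (hb : ∀ p, |F p| ≤ C)
    (hd : ∀ w w' y, Agr t (pf w) (pf w') → F (w', y) = F (w, y)) :
    ∫ w, F (w, (pf w (t + ρ ^ 2) - pf w t) / ρ) ∂μ =
      ∫ w, ∫ y, F (w, y) ∂gaussianReal 0 κ.toNNReal ∂μ := by
  have := hμ.prob
  have hE : Measurable fun w : Path => pf w (0 + 1) - pf w 0 :=
    (measurable_pf measurable_id measurable_const).sub (measurable_pf measurable_id measurable_const)
  have hsh : Measurable (shs t ρ) := measurable_shs measurable_const measurable_const measurable_id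
  have hS := (DynkB_det ht).meas
  have hY : ∀ w, pf (shs t ρ w) (0 + 1) - pf (shs t ρ w) 0 = (pf w (t + ρ ^ 2) - pf w t) / ρ := by
    intro w
    rw [pf_shs t ρ w (by norm_num), pf_shs t ρ w le_rfl]
    simp
  have hind : IndepFun (DynkB_stop t) (fun w => pf (shs t ρ w) (0 + 1) - pf (shs t ρ w) 0) μ :=
    (hμ.indep ht ρ (DynkB_det ht)).comp measurable_id hE
  have hlaw : μ.map (fun w => pf (shs t ρ w) (0 + 1) - pf (shs t ρ w) 0) =
      gaussianReal 0 κ.toNNReal := by
    have h1 := (hμ.law (s := 0) (u := 1) le_rfl zero_le_one).map_eq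
    rw [mul_one, ← hμ.map_shs ht hρ, Measure.map_map hE hsh] at h1
    exact h1
  have hYm : Measurable fun w => pf (shs t ρ w) (0 + 1) - pf (shs t ρ w) 0 := hE.comp hsh
  have hprod := hind.map_prod_eq_prod_map_map hS.aemeasurable hYm.aemeasurable
  rw [hlaw] at hprod
  have hint : Integrable F ((μ.map (DynkB_stop t)).prod (gaussianReal 0 κ.toNNReal)) :=
    Integrable.of_bound hF.aestronglyMeasurable C (Eventually.of_forall hb)
  calc ∫ w, F (w, (pf w (t + ρ ^ 2) - pf w t) / ρ) ∂μ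
      = ∫ w, F (DynkB_stop t w, pf (shs t ρ w) (0 + 1) - pf (shs t ρ w) 0) ∂μ := by
        refine integral_congr_ae (Eventually.of_forall fun w => ?_)
        simp only
        rw [hY, hd _ _ _ (DynkB_agr t w)]
    _ = ∫ p, F p ∂(μ.map (DynkB_stop t)).prod (gaussianReal 0 κ.toNNReal) := by
        rw [← hprod, integral_map (hS.prodMk hYm).aemeasurable hF.aestronglyMeasurable]
    _ = ∫ w, ∫ y, F (DynkB_stop t w, y) ∂gaussianReal 0 κ.toNNReal ∂μ := by
        rw [integral_prod _ hint, integral_map hS.aemeasurable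
          hF.stronglyMeasurable.integral_prod_right'.aestronglyMeasurable]
    _ = _ := by
        refine integral_congr_ae (Eventually.of_forall fun w => ?_)
        simp only [hd _ _ _ (DynkB_agr t w)]

/-- the space part: Taylor remainder `|R| ≤ Δ ^ 2 r` with `r ≤ 2 K`, `r → 0` pointwise, and
`Δ ^ 2 r / h ≤ λ Δ ^ 4 / h ^ 2 + r ^ 2 / (4 λ)`, fourth Gaussian moment `3 κ ^ 2 h ^ 2` (any bound
`C h ^ 2` by scaling of `gaussianReal`) -/
theorem space_tendsto (hμ : IsW κ μ) {t : ℝ} (ht : 0 ≤ t) {A : Set Path}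
    (hA : DetS (fun _ => t) A) {g g1 g2 : Path → ℝ → ℝ}
    (h1 : ∀ w x, HasDerivAt (g w) (g1 w x) x) (h2 : ∀ w x, HasDerivAt (g1 w) (g2 w x) x)
    (hc : ∀ w, Continuous (g2 w)) (hB : ∀ w x, |g w x| ≤ K ∧ |g1 w x| ≤ K ∧ |g2 w x| ≤ K)
    (hm : ∀ x, Det (fun _ => t) fun w => g w x) :
    Tendsto (fun s => (∫ w in A, (g w (pf w s) - g w (pf w t)) ∂μ) / (s - t)) (𝓝[>] t)
      (𝓝 (∫ w in A, κ / 2 * g2 w (pf w t) ∂μ)) := by
  have := hμ.prob
  have hg : ∀ w, Continuous (g w) := fun w =>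
    continuous_iff_continuousAt.2 fun u => (h1 w u).continuousAt
  have hj : Measurable (uncurry fun x w => g w x) :=
    measurable_uncurry_of_continuous_of_measurable hg fun x => (hm x).meas
  have hpf : Measurable fun w : Path => pf w t := measurable_pf measurable_id measurable_const
  have hG : ∀ h : ℝ, Measurable fun p : Path × ℝ =>
      g p.1 (pf p.1 t + √h * p.2) - g p.1 (pf p.1 t) := by
    intro h
    refine Measurable.sub ?_ ?_
    · exact hj.comp (((hpf.comp measurable_fst).add (measurable_snd.const_mul _)).prodMk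
        measurable_fst)
    · exact hj.comp ((hpf.comp measurable_fst).prodMk measurable_fst)
  have key : ∀ s, t < s → (∫ w in A, (g w (pf w s) - g w (pf w t)) ∂μ) / (s - t) =
      ∫ w in A, (∫ y, (g w (pf w t + √(s - t) * y) - g w (pf w t)) ∂gaussianReal 0 κ.toNNReal) /
        (s - t) ∂μ := by
    intro s hs
    have hρ : 0 < √(s - t) := Real.sqrt_pos.2 (sub_pos.2 hs)
    have h3 := DynkB_fubini hμ ht hρ (C := K + K) (F := (Prod.fst ⁻¹' A).indicator fun p =>
      g p.1 (pf p.1 t + √(s - t) * p.2) - g p.1 (pf p.1 t))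
      ((hG _).indicator (measurable_fst hA.meas)) (fun p => ?_) (fun w w' y hw => ?_)
    · rw [integral_div, ← integral_indicator hA.meas, ← integral_indicator hA.meas]
      congr 1
      refine Eq.trans (integral_congr_ae (Eventually.of_forall fun w => ?_))
        (h3.trans (integral_congr_ae (Eventually.of_forall fun w => ?_)))
      · by_cases hw : w ∈ A
        · simp only [indicator, mem_preimage, hw, if_true]
          rw [Real.sq_sqrt (sub_pos.2 hs).le, mul_div_cancel₀ _ hρ.ne', add_sub_cancel,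
            add_sub_cancel]
        · simp only [indicator, mem_preimage, hw, if_false]
      · by_cases hw : w ∈ A
        · simp only [indicator, mem_preimage, hw, if_true]
        · simp only [indicator, mem_preimage, hw, if_false, integral_zero]
    · have hK : 0 ≤ K := (abs_nonneg _).trans (hB p.1 0).1
      by_cases hp : p ∈ Prod.fst ⁻¹' A
      · rw [indicator_of_mem hp]
        exact (abs_sub _ _).trans (add_le_add (hB _ _).1 (hB _ _).1)
      · rw [indicator_of_notMem hp, abs_zero]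
        positivity
    · have e1 : pf w' t = pf w t := (hw t ⟨ht, le_rfl⟩).symm
      have e2 : ∀ x, g w' x = g w x := fun x => (hm x).eq w w' hw
      have e3 : w' ∈ A ↔ w ∈ A := ⟨hA.mem w' w hw.symm, hA.mem w w' hw⟩
      by_cases hw : w ∈ A
      · rw [indicator_of_mem (show (w', y) ∈ Prod.fst ⁻¹' A from e3.2 hw),
          indicator_of_mem (show (w, y) ∈ Prod.fst ⁻¹' A from hw)]
        simp only [e1, e2]
      · rw [indicator_of_notMem (show (w', y) ∉ Prod.fst ⁻¹' A from fun h => hw (e3.1 h)),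
          indicator_of_notMem (show (w, y) ∉ Prod.fst ⁻¹' A from hw)]
  have hsub : Tendsto (fun s => s - t) (𝓝[>] t) (𝓝[>] 0) := by
    refine tendsto_nhdsWithin_iff.2 ⟨?_, ?_⟩
    · have h3 : Continuous fun s : ℝ => s - t := by fun_prop
      have h4 := h3.tendsto t
      rw [sub_self] at h4
      exact h4.mono_left nhdsWithin_le_nhds
    · filter_upwards [self_mem_nhdsWithin] with s hs
      exact sub_pos.2 (show t < s from hs)
  have h5 := tendsto_integral_filter_of_dominated_convergence (μ := μ.restrict A) (l := 𝓝[>] t)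
    (F := fun s w => (∫ y, (g w (pf w t + √(s - t) * y) - g w (pf w t))
      ∂gaussianReal 0 κ.toNNReal) / (s - t))
    (f := fun w => κ / 2 * g2 w (pf w t)) (fun _ => K * κ.toNNReal)
    (Eventually.of_forall fun s =>
      (((hG (s - t)).stronglyMeasurable.integral_prod_right'
        (ν := gaussianReal 0 κ.toNNReal)).measurable.div_const _).aestronglyMeasurable)
    (by
      filter_upwards [self_mem_nhdsWithin] with s hs
      exact Eventually.of_forall fun w => DynkB_gauss_le (h1 w) (h2 w) (fun u => (hB w u).1)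
        (fun u => (hB w u).2.2) _ _ (sub_pos.2 hs))
    (integrable_const _)
    (Eventually.of_forall fun w => by
      have h6 := (DynkB_gauss (h1 w) (h2 w) (hc w) (fun u => (hB w u).1) (fun u => (hB w u).2.2)
        κ.toNNReal (pf w t)).comp hsub
      rw [Real.coe_toNNReal _ hμ.pos.le] at h6
      exact h6)
  refine h5.congr' ?_
  filter_upwards [self_mem_nhdsWithin] with s hs
  exact (key s hs).symm

end Vale.Agent.P164
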