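import Vale.Agent.P164.Wiener
import Vale.Agent.P164.DynkA
import Vale.Agent.P164.DynkB

/-!
# P164 Dynkin

Dynkin's formula. Fix `s` and `A` determined at `s`. The function
`u t = ∫ w in A, (N t w - N s w - ∫ s..t d)` is continuous on `[s,T]` with right derivative `0`
(`constant_of_has_deriv_right_zero`). Split `N (t+h) - N t` into
`Ψ (t+h) (w (t+h)) - Ψ t (w (t+h))` (mean value inequality in time and dominated convergence) and
`Ψ t (w (t+h)) - Ψ t (w t) = Ψ1 Δ + Ψ2 Δ ^ 2 / 2 + R` (independence of `Δ` from the past).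
-/

open MeasureTheory ProbabilityTheory Set Filter Topology Complex Function
open scoped NNReal ENNReal ComplexConjugate

noncomputable section

namespace Vale.Agent.P164

variable {κ T K : ℝ} {μ : Measure Path}

theorem Dynkin_int {ν : Measure Path} [IsFiniteMeasure ν] {f : Path → ℝ} (hm : Measurable f)
    (hb : ∀ w, |f w| ≤ K) : Integrable f ν :=
  Integrable.of_bound hm.aestronglyMeasurable K (Eventually.of_forall hb)

theorem Dynkin_cont {ν : Measure Path} [IsFiniteMeasure ν] {N : ℝ → Path → ℝ}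
    (hc : ∀ w, ContinuousOn (fun t => N t w) (Icc 0 T)) (hm : ∀ t ∈ Icc 0 T, Measurable (N t))
    (hb : ∀ t ∈ Icc 0 T, ∀ w, |N t w| ≤ K) : ContinuousOn (fun t => ∫ w, N t w ∂ν) (Icc 0 T) :=
  continuousOn_of_dominated (bound := fun _ => K) (fun t ht => (hm t ht).aestronglyMeasurable)
    (fun t ht => Eventually.of_forall (hb t ht)) (integrable_const K) (Eventually.of_forall hc)

theorem Dynkin_swap {ν : Measure Path} [IsFiniteMeasure ν] {d : ℝ → Path → ℝ}
    (hc : ∀ w, ContinuousOn (fun t => d t w) (Icc 0 T)) (hm : ∀ t ∈ Icc 0 T, Measurable (d t))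
    (hb : ∀ t ∈ Icc 0 T, ∀ w, |d t w| ≤ K) {s t : ℝ} (hs : 0 ≤ s) (hst : s ≤ t) (ht : t ≤ T) :
    Integrable (fun w => ∫ u in s..t, d u w) ν ∧
      ∫ w, (∫ u in s..t, d u w) ∂ν = ∫ u in s..t, ∫ w, d u w ∂ν := by
  have hT : 0 ≤ T := hs.trans (hst.trans ht)
  have hcl : ∀ u : ℝ, max 0 (min u T) ∈ Icc 0 T := fun u =>
    ⟨le_max_left _ _, max_le hT (min_le_right _ _)⟩
  have he : ∀ u ∈ uIcc s t, max 0 (min u T) = u := fun u hu => by
    rw [uIcc_of_le hst] at hu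
    rw [min_eq_left (hu.2.trans ht), max_eq_right (hs.trans hu.1)]
  have hme : Measurable fun p : ℝ × Path => d (max 0 (min p.1 T)) p.2 :=
    measurable_at hc hm measurable_snd (by fun_prop) fun p => hcl p.1
  have hfin : IsFiniteMeasure ((volume : Measure ℝ).restrict (uIoc s t)) := by
    rw [uIoc_of_le hst]
    infer_instance
  have hi : Integrable (uncurry fun u w => d (max 0 (min u T)) w)
      ((volume.restrict (uIoc s t)).prod ν) :=
    Integrable.of_bound hme.aestronglyMeasurable K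
      (Eventually.of_forall fun p => hb _ (hcl p.1) p.2)
  have e1 : ∀ w, ∫ u in s..t, d u w = ∫ u in s..t, d (max 0 (min u T)) w := fun w =>
    intervalIntegral.integral_congr fun u hu => by simp only [he u hu]
  have e2 : ∫ u in s..t, ∫ w, d u w ∂ν = ∫ u in s..t, ∫ w, d (max 0 (min u T)) w ∂ν :=
    intervalIntegral.integral_congr fun u hu => by simp only [he u hu]
  simp only [e1, e2]
  refine ⟨?_, (intervalIntegral_integral_swap hi).symm⟩
  have h1 := hi.integral_prod_right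
  rw [uIoc_of_le hst] at h1
  simp only [intervalIntegral.integral_of_le hst]
  exact h1

theorem Dynkin_abs {ν : Measure Path} [IsFiniteMeasure ν] {N d : ℝ → Path → ℝ}
    (cN : ∀ w, ContinuousOn (fun t => N t w) (Icc 0 T))
    (cd : ∀ w, ContinuousOn (fun t => d t w) (Icc 0 T)) (mN : ∀ t ∈ Icc 0 T, Measurable (N t))
    (md : ∀ t ∈ Icc 0 T, Measurable (d t))
    (hb : ∀ t ∈ Icc 0 T, ∀ w, |N t w| ≤ K ∧ |d t w| ≤ K) {s t : ℝ} (hs : 0 ≤ s) (hst : s ≤ t)
    (ht : t ≤ T) (hD : ∀ u ∈ Ioo s t, Tendsto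
      (fun v => (∫ w, N v w ∂ν - ∫ w, N u w ∂ν) / (v - u)) (𝓝[>] u) (𝓝 (∫ w, d u w ∂ν))) :
    ∫ w, (N t w - N s w - ∫ u in s..t, d u w) ∂ν = 0 := by
  have hsub : Icc s t ⊆ Icc 0 T := Icc_subset_Icc hs ht
  have hs' : s ∈ Icc 0 T := ⟨hs, hst.trans ht⟩
  have ht' : t ∈ Icc 0 T := ⟨hs.trans hst, ht⟩
  obtain ⟨i1, e1⟩ := Dynkin_swap (ν := ν) cd md (fun t ht w => (hb t ht w).2) hs hst ht
  have iN : ∀ u ∈ Icc 0 T, Integrable (N u) ν := fun u hu =>
    Dynkin_int (mN u hu) fun w => (hb u hu w).1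
  have c1 := (Dynkin_cont (ν := ν) cN mN fun t ht w => (hb t ht w).1).mono hsub
  have c2 := (Dynkin_cont (ν := ν) cd md fun t ht w => (hb t ht w).2).mono hsub
  have e2 : ∫ u in s..t, ∫ w, d u w ∂ν = ∫ w, N t w ∂ν - ∫ w, N s w ∂ν := by
    refine intervalIntegral.integral_eq_sub_of_hasDeriv_right_of_le hst c1 (fun u hu => ?_)
      (ContinuousOn.intervalIntegrable_of_Icc hst c2)
    rw [hasDerivWithinAt_iff_tendsto_slope' (by simp)]
    exact (hD u hu).congr fun v => (slope_def_field _ _ _).symm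
  have i2 : Integrable (fun w => N t w - N s w) ν := (iN t ht').sub (iN s hs')
  rw [integral_sub i2 i1, integral_sub (iN t ht') (iN s hs'), e1, e2, sub_self]

theorem Dynkin_comp {F : ℝ → ℝ → ℝ} (h : ContinuousOn (uncurry F) (Icc 0 T ×ˢ univ)) (w : Path) :
    ContinuousOn (fun t => F t (pf w t)) (Icc 0 T) :=
  h.comp (f := fun t => (t, pf w t)) (continuous_id.prodMk (continuous_pf w)).continuousOn
    fun _ ht => ⟨ht, mem_univ _⟩

theorem dynkin (hμ : IsW κ μ) (hT : 0 < T) {Ψ Ψ0 Ψ1 Ψ2 : Path → ℝ → ℝ → ℝ}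
    (hJ : ∀ w, Jet T (Ψ w) (Ψ0 w) (Ψ1 w) (Ψ2 w)) (hB : ∀ w, JBd T K (Ψ w) (Ψ0 w) (Ψ1 w) (Ψ2 w))
    (hm : ∀ t ∈ Icc 0 T, ∀ x, Det (fun _ => t) fun w => Ψ w t x) :
    Mart μ T (fun t w => Ψ w t (pf w t))
      fun t w => Ψ0 w t (pf w t) + κ / 2 * Ψ2 w t (pf w t) := by
  have := hμ.prob
  have hκ := hμ.pos
  have hme : ∀ t ∈ Icc 0 T, ∀ v : ℝ, Measurable (fun w => Ψ w t (pf w v)) ∧
      Measurable (fun w => Ψ0 w t (pf w v)) ∧ Measurable (fun w => Ψ1 w t (pf w v)) ∧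
      Measurable (fun w => Ψ2 w t (pf w v)) := fun t ht v =>
    Jet.measurable hT hJ (fun t ht x => (hm t ht x).meas) ht
      (measurable_pf measurable_id measurable_const)
  have cN : ∀ w, ContinuousOn (fun t => Ψ w t (pf w t)) (Icc 0 T) := fun w =>
    Dynkin_comp (hJ w).c w
  have cd : ∀ w, ContinuousOn (fun t => Ψ0 w t (pf w t) + κ / 2 * Ψ2 w t (pf w t)) (Icc 0 T) :=
    fun w => (Dynkin_comp (hJ w).c0 w).add (continuousOn_const.mul (Dynkin_comp (hJ w).c2 w))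
  have mN : ∀ t ∈ Icc 0 T, Measurable fun w => Ψ w t (pf w t) := fun t ht => (hme t ht t).1
  have md : ∀ t ∈ Icc 0 T, Measurable fun w => Ψ0 w t (pf w t) + κ / 2 * Ψ2 w t (pf w t) :=
    fun t ht => (hme t ht t).2.1.add ((hme t ht t).2.2.2.const_mul _)
  have h2 : ∀ t ∈ Icc 0 T, ∀ w x, |κ / 2 * Ψ2 w t x| ≤ κ / 2 * K := fun t ht w x => by
    rw [abs_mul, abs_of_pos (half_pos hκ)]
    exact mul_le_mul_of_nonneg_left (hB w t ht x).2.2.2 (half_pos hκ).le
  have hb : ∀ t ∈ Icc 0 T, ∀ w, |Ψ w t (pf w t)| ≤ K + κ / 2 * K ∧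
      |Ψ0 w t (pf w t) + κ / 2 * Ψ2 w t (pf w t)| ≤ K + κ / 2 * K := fun t ht w => by
    have h3 := h2 t ht w (pf w t)
    have h4 := hB w t ht (pf w t)
    exact ⟨by linarith [abs_nonneg (κ / 2 * Ψ2 w t (pf w t)), h4.1],
      (abs_add_le _ _).trans (add_le_add h4.2.1 h3)⟩
  refine ⟨cN, cd, mN, md, ⟨_, hb⟩, fun s t hs hst ht A hA => ?_⟩
  refine Dynkin_abs (ν := μ.restrict A) cN cd mN md hb hs hst ht fun u hu => ?_
  have hu0 : 0 ≤ u := hs.trans hu.1.le
  have huT : u < T := hu.2.trans_le ht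
  have hu' : u ∈ Icc 0 T := ⟨hu0, huT.le⟩
  have hev : ∀ᶠ v in 𝓝[>] u, v ∈ Ioo u T := Ioo_mem_nhdsGT huT
  have t1 : Tendsto (fun v => ∫ w in A, (Ψ w v (pf w v) - Ψ w u (pf w v)) / (v - u) ∂μ) (𝓝[>] u)
      (𝓝 (∫ w in A, Ψ0 w u (pf w u) ∂μ)) := by
    refine tendsto_integral_filter_of_dominated_convergence (fun _ => K) ?_ ?_ (integrable_const K)
      (Eventually.of_forall fun w =>
        (hJ w).time_tendsto ⟨hu0, huT⟩ (continuous_pf w).continuousAt)
    · filter_upwards [hev] with v hv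
      exact (((hme v ⟨hu0.trans hv.1.le, hv.2.le⟩ v).1.sub
        (hme u hu' v).1).div_const _).aestronglyMeasurable
    · filter_upwards [hev] with v hv
      refine Eventually.of_forall fun w => ?_
      have h5 : 0 < v - u := sub_pos.2 hv.1
      rw [Real.norm_eq_abs, abs_div, abs_of_pos h5, div_le_iff₀ h5]
      exact (hJ w).time_lip (hB w) hu0 hv.1.le hv.2.le _
  have t2 := space_tendsto (K := K) hμ hu0 (hA.mono fun _ _ => hu.1.le) (g := fun w => Ψ w u)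
    (g1 := fun w => Ψ1 w u) (g2 := fun w => Ψ2 w u) (fun w x => (hJ w).d1 u hu' x)
    (fun w x => (hJ w).d2 u hu' x)
    (fun w => (hJ w).c2.comp_continuous (f := fun x => (u, x)) (by fun_prop)
      fun x => ⟨hu', mem_univ _⟩)
    (fun w x => ⟨(hB w u hu' x).1, (hB w u hu' x).2.2.1, (hB w u hu' x).2.2.2⟩) (hm u hu')
  have iΨ : ∀ r ∈ Icc 0 T, ∀ v, Integrable (fun w => Ψ w r (pf w v)) (μ.restrict A) :=
    fun r hr v => Dynkin_int (hme r hr v).1 fun w => (hB w r hr _).1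
  rw [integral_add (Dynkin_int (hme u hu' u).2.1 fun w => (hB w u hu' _).2.1)
    (Dynkin_int ((hme u hu' u).2.2.2.const_mul _) fun w => h2 u hu' w _)]
  refine (t1.add t2).congr' ?_
  filter_upwards [hev] with v hv
  have hv' : v ∈ Icc 0 T := ⟨hu0.trans hv.1.le, hv.2.le⟩
  rw [integral_div, integral_sub (iΨ v hv' v) (iΨ u hu' v), integral_sub (iΨ u hu' v) (iΨ u hu' u)]
  ring

end Vale.Agent.P164
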