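import Vale.Agent.P164.OP

/-!
# P164 FirstA

Lower bound for the first moment. Put `M = pv (-β) α 0`, `θ c = stp (c / e)`. By `mart_pw`
`E ∫ M kil θ'(c) c clk = M 0 - E [M kil θ](T) - E ∫ M kilD θ`. For `z` in the ball, a.s. `w 0 = 0`,
`1/2 ≤ im z ≤ 3/2`, `S 0 ≥ 1/3`.
-/

open MeasureTheory ProbabilityTheory Set Filter Topology Complex Function
open scoped NNReal ENNReal ComplexConjugate

noncomputable section

namespace Vale.Agent.P164

variable {κ : ℝ}

section Aux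

variable {η e T : ℝ} {w : ℝ → ℝ} {z : ℂ}

theorem FirstA_ball (hz : z ∈ Metric.ball I (1 / 2)) : 1 / 2 ≤ z.im ∧ ‖z‖ ≤ 3 / 2 := by
  rw [mem_ball_iff_norm] at hz
  have h1 := (abs_le.1 ((abs_im_le_norm (z - I)).trans hz.le)).1
  have h2 := norm_add_le (z - I) I
  rw [sub_add_cancel, norm_I] at h2
  rw [sub_im, I_im] at h1
  exact ⟨by linarith, by linarith⟩

theorem FirstA_os {μ : Measure Path} [IsFiniteMeasure μ] {N d : ℝ → Path → ℝ} (h : Mart μ T N d)
    (hT : 0 ≤ T) : ∫ w, (∫ u in (0 : ℝ)..T, d u w) ∂μ = ∫ w, N T w ∂μ - ∫ w, N 0 w ∂μ := by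
  have := h.os (Stp.const ⟨le_rfl, hT⟩) (Stp.const ⟨hT, le_rfl⟩) (DetS.univ _) fun _ _ => hT
  simp only [Measure.restrict_univ] at this
  linarith

theorem FirstA_int {μ : Measure Path} [IsFiniteMeasure μ] {k : ℝ → Path → ℝ} (hT : 0 ≤ T)
    (hc : ∀ w, ContinuousOn (fun t => k t w) (Icc 0 T)) (hk : ∀ t ∈ Icc 0 T, Measurable (k t))
    {K : ℝ} (hK : ∀ t ∈ Icc 0 T, ∀ w, |k t w| ≤ K) :
    Integrable (fun w => ∫ u in (0 : ℝ)..T, k u w) μ :=
  integrable_int hc hk hK measurable_const (fun _ => ⟨le_rfl, hT⟩) measurable_const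
    fun _ => ⟨hT, le_rfl⟩

theorem FirstA_mono {μ : Measure Path} {k g : ℝ → Path → ℝ} (hT : 0 ≤ T)
    (hk : ∀ w, ContinuousOn (fun t => k t w) (Icc 0 T))
    (hg : ∀ w, ContinuousOn (fun t => g t w) (Icc 0 T))
    (hi : Integrable (fun w => ∫ u in (0 : ℝ)..T, g u w) μ) (c : ℝ)
    (h0 : ∀ t ∈ Icc 0 T, ∀ w, 0 ≤ k t w) (h : ∀ t ∈ Icc 0 T, ∀ w, k t w ≤ c * g t w) :
    ∫ w, (∫ u in (0 : ℝ)..T, k u w) ∂μ ≤ c * ∫ w, (∫ u in (0 : ℝ)..T, g u w) ∂μ := by
  rw [← integral_const_mul]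
  refine integral_mono_of_nonneg (Eventually.of_forall fun w => ?_) (hi.const_mul c)
    (Eventually.of_forall fun w => ?_)
  · exact intervalIntegral.integral_nonneg hT fun t ht => h0 t ht w
  · simp only
    rw [← intervalIntegral.integral_const_mul]
    exact intervalIntegral.integral_mono_on hT (Mart_ii (hk w) ⟨le_rfl, hT⟩ ⟨hT, le_rfl⟩)
      ((Mart_ii (hg w) ⟨le_rfl, hT⟩ ⟨hT, le_rfl⟩).const_mul c) fun t ht => h t ht w

theorem FirstA_im_cont (hη : 0 < η) (hw : Continuous w) (z : ℂ) :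
    Continuous fun t => (fl η w z t).im := continuous_im.comp (fl_cont hη hw z)

theorem FirstA_pv_cont (hη : 0 < η) (hw : Continuous w) (hz : 0 < z.im) (p a b : ℝ) :
    Continuous (pv η w z p a b) := by
  have e : pv η w z p a b = fun t => cc η w z t ^ p * (fl η w z t).im ^ b * sn η w z t ^ a :=
    funext fun t => pv_eq hη hw hz p a b t
  rw [e]
  exact (((cc_cont hη hw z).rpow_const fun t => Or.inl (cc_pos hz η w t).ne').mul
    ((FirstA_im_cont hη hw z).rpow_const fun t => Or.inl (fl_im_pos hη hw hz t).ne')).mul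
    ((sn_cont hη hw hz).rpow_const fun t => Or.inl (sn_pos hη hw hz t).ne')

theorem FirstA_kil_cont (hη : 0 < η) (hw : Continuous w) (z : ℂ) : Continuous (kil η w z) :=
  contDiff_stp.continuous.comp ((FirstA_im_cont hη hw z).div_const η)

theorem FirstA_dstp : Continuous (deriv stp) := contDiff_stp.continuous_deriv le_rfl

theorem FirstA_th_cont (hη : 0 < η) (hw : Continuous w) (z : ℂ) (e : ℝ) :
    Continuous fun t => stp (cc η w z t / e) :=
  contDiff_stp.continuous.comp ((cc_cont hη hw z).div_const e)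

theorem FirstA_pv_pos (hη : 0 < η) (hw : Continuous w) (hz : 0 < z.im) (p a b t : ℝ) :
    0 < pv η w z p a b t := pw_pos hη hw hz p a b t _

theorem FirstA_pv0 (hη : 0 < η) (hw : Continuous w) (hz : 0 < z.im) (p a t : ℝ) :
    pv η w z p a 0 t = cc η w z t ^ p * sn η w z t ^ a := by
  rw [pv_eq hη hw hz, Real.rpow_zero, mul_one]

/-- the killing rate -/
def FirstA_k (κ η e : ℝ) (w : ℝ → ℝ) (z : ℂ) (t : ℝ) : ℝ :=
  pv η w z (-be κ) (al κ) 0 t * kilD η w z t * stp (cc η w z t / e)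

/-- the weight rate -/
def FirstA_w (κ η e : ℝ) (w : ℝ → ℝ) (z : ℂ) (a t : ℝ) : ℝ :=
  pv η w z (-be κ) a 0 t * kil η w z t *
    (deriv stp (cc η w z t / e) * (cc η w z t / e)) * clk η w z t

/-- the rate of `op_rate` -/
def FirstA_r (κ η e : ℝ) (w : ℝ → ℝ) (z : ℂ) (t : ℝ) : ℝ :=
  e ^ 2 * pv η w z (-2) (aa κ) 0 t * kil η w z t * stp (cc η w z t / e) / r2 η w z t (w t)

theorem FirstA_k_cont (hη : 0 < η) (hw : Continuous w) (hz : 0 < z.im) :
    Continuous (FirstA_k κ η e w z) :=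
  ((FirstA_pv_cont hη hw hz _ _ _).mul (kilD_cont hη hw hz)).mul (FirstA_th_cont hη hw z e)

theorem FirstA_w_cont (hη : 0 < η) (hw : Continuous w) (hz : 0 < z.im) (a : ℝ) :
    Continuous (FirstA_w κ η e w z a) :=
  (((FirstA_pv_cont hη hw hz _ _ _).mul (FirstA_kil_cont hη hw z)).mul
    ((FirstA_dstp.comp ((cc_cont hη hw z).div_const e)).mul ((cc_cont hη hw z).div_const e))).mul
    ((continuous_const.mul ((sn_cont hη hw hz).pow 2)).div (r2_cont hη hw z)
      fun t => (r2_pos hη hw hz t _).ne')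

theorem FirstA_r_cont (hη : 0 < η) (hw : Continuous w) (hz : 0 < z.im) :
    Continuous (FirstA_r κ η e w z) :=
  (((continuous_const.mul (FirstA_pv_cont hη hw hz _ _ _)).mul (FirstA_kil_cont hη hw z)).mul
    (FirstA_th_cont hη hw z e)).div (r2_cont hη hw z) fun t => (r2_pos hη hw hz t _).ne'

theorem FirstA_k_nonneg (hη : 0 < η) (hw : Continuous w) (hz : 0 < z.im) (t : ℝ) :
    0 ≤ FirstA_k κ η e w z t :=
  mul_nonneg (mul_nonneg (FirstA_pv_pos hη hw hz _ _ _ _).le (kilD_nonneg hη w z t))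
    (stp_nonneg _)

theorem FirstA_W_nonneg (he : 0 < e) (hη : 0 < η) (hw : Continuous w) (hz : 0 < z.im) (t : ℝ) :
    0 ≤ kil η w z t * (deriv stp (cc η w z t / e) * (cc η w z t / e)) * clk η w z t :=
  mul_nonneg (mul_nonneg (stp_nonneg _)
    (mul_nonneg (deriv_stp_nonneg _) (div_pos (cc_pos hz η w t) he).le))
    (div_nonneg (by positivity) (r2_pos hη hw hz t _).le)

theorem FirstA_w_eq (a t : ℝ) : FirstA_w κ η e w z a t = pv η w z (-be κ) a 0 t *
    (kil η w z t * (deriv stp (cc η w z t / e) * (cc η w z t / e)) * clk η w z t) := by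
  unfold FirstA_w
  ring

theorem FirstA_w_nonneg (he : 0 < e) (hη : 0 < η) (hw : Continuous w) (hz : 0 < z.im) (a t : ℝ) :
    0 ≤ FirstA_w κ η e w z a t := by
  rw [FirstA_w_eq]
  exact mul_nonneg (FirstA_pv_pos hη hw hz _ _ _ _).le (FirstA_W_nonneg he hη hw hz t)

theorem FirstA_r_nonneg (hη : 0 < η) (hw : Continuous w) (hz : 0 < z.im) (t : ℝ) :
    0 ≤ FirstA_r κ η e w z t :=
  div_nonneg (mul_nonneg (mul_nonneg (mul_nonneg (sq_nonneg e)
    (FirstA_pv_pos hη hw hz _ _ _ _).le) (stp_nonneg _)) (stp_nonneg _)) (r2_pos hη hw hz t _).le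

theorem FirstA_k_meas (hη : 0 < η) (hz : 0 < z.im) {t : ℝ} (ht : t ∈ Icc 0 T) :
    Measurable fun w : Path => FirstA_k κ η e (pf w) z t := by
  have h1 := ((adp_pv hη hz (-be κ) (al κ) 0 T).det t ht).meas
  have h2 := ((adp_im hη z T).det t ht).meas
  have h3 := ((adp_cc hη z T).det t ht).meas
  have h4 := ((adp_r2 hη z T).det t ht).meas
  exact (h1.mul ((FirstA_dstp.measurable.comp (h2.div_const η)).mul
    ((h2.const_mul 2).div (h4.const_mul η)))).mul
    (contDiff_stp.continuous.measurable.comp (h3.div_const e))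

theorem FirstA_w_meas (hη : 0 < η) (hz : 0 < z.im) (a : ℝ) {t : ℝ} (ht : t ∈ Icc 0 T) :
    Measurable fun w : Path => FirstA_w κ η e (pf w) z a t := by
  have h1 := ((adp_pv hη hz (-be κ) a 0 T).det t ht).meas
  have h2 := ((adp_im hη z T).det t ht).meas
  have h3 := ((adp_cc hη z T).det t ht).meas
  have h4 := ((adp_r2 hη z T).det t ht).meas
  have h5 := ((adp_sn hη hz T).det t ht).meas
  exact ((h1.mul (contDiff_stp.continuous.measurable.comp (h2.div_const η))).mul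
    ((FirstA_dstp.measurable.comp (h3.div_const e)).mul (h3.div_const e))).mul
    (((h5.pow_const 2).const_mul 4).div h4)

theorem FirstA_r_meas (hη : 0 < η) (hz : 0 < z.im) {t : ℝ} (ht : t ∈ Icc 0 T) :
    Measurable fun w : Path => FirstA_r κ η e (pf w) z t := by
  have h1 := ((adp_pv hη hz (-2) (aa κ) 0 T).det t ht).meas
  have h2 := ((adp_im hη z T).det t ht).meas
  have h3 := ((adp_cc hη z T).det t ht).meas
  have h4 := ((adp_r2 hη z T).det t ht).meas
  exact (((h1.const_mul (e ^ 2)).mul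
    (contDiff_stp.continuous.measurable.comp (h2.div_const η))).mul
    (contDiff_stp.continuous.measurable.comp (h3.div_const e))).div h4

theorem FirstA_neg_two {c : ℝ} (hc : 0 < c) : c ^ (-2 : ℝ) = (c ^ 2)⁻¹ := by
  rw [Real.rpow_neg hc.le, Real.rpow_two]

theorem FirstA_r_le (h0 : 0 < κ) (h8 : κ < 8) (he : 0 < e) (hη : 0 < η) (hw : Continuous w)
    (hz : 0 < z.im) (t : ℝ) : FirstA_r κ η e w z t ≤ 1 / η ^ 2 := by
  unfold FirstA_r
  by_cases h1 : cc η w z t / e ≤ 1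
  · rw [stp_zero h1, mul_zero, zero_div]
    positivity
  by_cases h2 : (fl η w z t).im / η ≤ 1
  · rw [kil, stp_zero h2, mul_zero, zero_mul, zero_div]
    positivity
  rw [not_le, lt_div_iff₀ (by assumption), one_mul] at h1 h2
  have hc := cc_pos hz η w t
  refine div_le_div₀ zero_le_one ?_ (by positivity) ?_
  · have a1 : e ^ 2 * pv η w z (-2) (aa κ) 0 t ≤ 1 := by
      rw [FirstA_pv0 hη hw hz, FirstA_neg_two hc, ← mul_assoc]
      refine mul_le_one₀ ?_ (Real.rpow_nonneg (sn_pos hη hw hz t).le _)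
        (Real.rpow_le_one (sn_pos hη hw hz t).le (sn_le_one η w z t) (aa_pos h0 h8).le)
      rw [mul_inv_le_iff₀ (by positivity), one_mul]
      exact pow_le_pow_left₀ he.le h1.le 2
    exact mul_le_one₀ (mul_le_one₀ a1 (stp_nonneg _) (stp_le_one _)) (stp_nonneg _) (stp_le_one _)
  · have := pow_le_pow_left₀ hη.le h2.le 2
    have := sq_nonneg ((fl η w z t).re - w t)
    unfold r2
    linarith

theorem FirstA_w_le (h8 : κ < 8) {B : ℝ} (hB0 : 0 < B) (hB : ∀ u, deriv stp u ≤ B) (he : 0 < e)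
    (hη : 0 < η) (hw : Continuous w) (hz : 0 < z.im) (t : ℝ) :
    FirstA_w κ η e w z (aa κ) t ≤ 128 * B * e ^ (-be κ) * FirstA_r κ η (e / 2) w z t := by
  by_cases h : deriv stp (cc η w z t / e) = 0
  · have h1 : FirstA_w κ η e w z (aa κ) t = 0 := by
      rw [FirstA_w, h, zero_mul, mul_zero, zero_mul]
    rw [h1]
    exact mul_nonneg (by positivity) (FirstA_r_nonneg hη hw hz t)
  obtain ⟨h1, h2⟩ := deriv_stp_ne h
  have hc := cc_pos hz η w t
  have hr := r2_pos hη hw hz t (w t)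
  have h1' : e < cc η w z t := by rwa [lt_div_iff₀ he, one_mul] at h1
  have h2' : cc η w z t < 2 * e := by rwa [div_lt_iff₀ he] at h2
  have h3 : stp (cc η w z t / (e / 2)) = 1 := by
    refine stp_one ?_
    rw [le_div_iff₀ (by positivity)]
    linarith
  have hS := sn_pos hη hw hz t
  have hS1 := sn_le_one η w z t
  have hk : 0 ≤ kil η w z t := stp_nonneg _
  have a1 : cc η w z t ^ (-be κ) ≤ e ^ (-be κ) :=
    Real.rpow_le_rpow_of_nonpos he h1'.le (by linarith [be_pos h8])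
  have a2 : deriv stp (cc η w z t / e) * (cc η w z t / e) ≤ B * 2 :=
    mul_le_mul (hB _) h2.le (by positivity) hB0.le
  have a3 : 4 * sn η w z t ^ 2 ≤ 4 := by nlinarith
  have a4 : 1 ≤ 16 * ((e / 2) ^ 2 * (cc η w z t ^ 2)⁻¹) := by
    rw [← mul_assoc, le_mul_inv_iff₀ (by positivity)]
    nlinarith
  have a0 : 0 ≤ deriv stp (cc η w z t / e) * (cc η w z t / e) :=
    mul_nonneg (deriv_stp_nonneg _) (by positivity)
  have a5 : cc η w z t ^ (-be κ) * (deriv stp (cc η w z t / e) * (cc η w z t / e)) *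
      (4 * sn η w z t ^ 2) * 1 ≤ e ^ (-be κ) * (B * 2) * 4 *
        (16 * ((e / 2) ^ 2 * (cc η w z t ^ 2)⁻¹)) := by
    gcongr
  have a6 := mul_le_mul_of_nonneg_right a5
    (by positivity : 0 ≤ sn η w z t ^ aa κ * kil η w z t / r2 η w z t (w t))
  unfold FirstA_w FirstA_r clk
  rw [FirstA_pv0 hη hw hz, FirstA_pv0 hη hw hz, FirstA_neg_two hc, h3]
  refine le_of_eq_of_le ?_ (a6.trans_eq ?_) <;> ring

theorem FirstA_r_int {μ : Measure Path} [IsFiniteMeasure μ] (h0 : 0 < κ) (h8 : κ < 8) (he : 0 < e)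
    (hη : 0 < η) (hz : 0 < z.im) (hT : 0 ≤ T) :
    Integrable (fun w : Path => ∫ t in (0 : ℝ)..T, FirstA_r κ η e (pf w) z t) μ :=
  FirstA_int hT (fun w => (FirstA_r_cont hη (continuous_pf w) hz).continuousOn)
    (fun _ ht => FirstA_r_meas hη hz ht) (K := 1 / η ^ 2) fun t _ w => by
      rw [abs_of_nonneg (FirstA_r_nonneg hη (continuous_pf w) hz t)]
      exact FirstA_r_le h0 h8 he hη (continuous_pf w) hz t

theorem FirstA_w_int {μ : Measure Path} [IsFiniteMeasure μ] (h0 : 0 < κ) (h8 : κ < 8) (he : 0 < e)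
    (hη : 0 < η) (hz : 0 < z.im) (hT : 0 ≤ T) :
    Integrable (fun w : Path => ∫ t in (0 : ℝ)..T, FirstA_w κ η e (pf w) z (aa κ) t) μ := by
  obtain ⟨B, hB0, hB⟩ := deriv_stp_le
  refine FirstA_int hT (fun w => (FirstA_w_cont hη (continuous_pf w) hz _).continuousOn)
    (fun _ ht => FirstA_w_meas hη hz _ ht) (K := 128 * B * e ^ (-be κ) * (1 / η ^ 2))
    fun t _ w => ?_
  rw [abs_of_nonneg (FirstA_w_nonneg he hη (continuous_pf w) hz _ t)]
  exact (FirstA_w_le h8 hB0 hB he hη (continuous_pf w) hz t).trans (mul_le_mul_of_nonneg_left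
    (FirstA_r_le h0 h8 (by positivity) hη (continuous_pf w) hz t) (by positivity))

theorem FirstA_k_le (h8 : κ < 8) {c : ℝ} (hc : 0 < c)
    (hII : ∀ S, 0 ≤ S → S ≤ 1 → II κ 0 (aa κ) 0 S ≤ -c) (he : 0 < e) (hη : 0 < η)
    (hw : Continuous w) (hz : 0 < z.im) (t : ℝ) : FirstA_k κ η e w z t ≤
      -((2 * η) ^ (c / 2) * e ^ (-be κ)) * drf κ η w z 0 (aa κ) (-(c / 2)) (fun _ => 1) t := by
  have hS := sn_pos hη hw hz t
  have hS1 := sn_le_one η w z t
  have hY := fl_im_pos hη hw hz t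
  have hp := FirstA_pv_pos hη hw hz 0 (aa κ) (-(c / 2)) t
  have hD := kilD_nonneg hη w z t
  have h1 : drf κ η w z 0 (aa κ) (-(c / 2)) (fun _ => 1) t ≤
      -(pv η w z 0 (aa κ) (-(c / 2)) t * kilD η w z t) := by
    have a1 : II κ 0 (aa κ) (-(c / 2)) (sn η w z t) ≤ 0 := by
      have := hII _ hS.le hS1
      unfold II at this ⊢
      linarith
    have a2 : kil η w z t * 1 * II κ 0 (aa κ) (-(c / 2)) (sn η w z t) / r2 η w z t (w t) ≤ 0 :=
      div_nonpos_of_nonpos_of_nonneg (mul_nonpos_of_nonneg_of_nonpos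
        (mul_nonneg (stp_nonneg _) zero_le_one) a1) (r2_pos hη hw hz t _).le
    have a3 := mul_le_mul_of_nonneg_left a2 hp.le
    simp only [drf, deriv_const]
    linarith
  have h2 : FirstA_k κ η e w z t ≤ (2 * η) ^ (c / 2) * e ^ (-be κ) *
      (pv η w z 0 (aa κ) (-(c / 2)) t * kilD η w z t) := by
    by_cases a1 : cc η w z t / e ≤ 1
    · rw [FirstA_k, stp_zero a1, mul_zero]
      positivity
    by_cases a2 : deriv stp ((fl η w z t).im / η) = 0
    · rw [FirstA_k, kilD, a2]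
      simp
    have a3 := (deriv_stp_ne a2).2
    rw [div_lt_iff₀ hη] at a3
    rw [not_le, lt_div_iff₀ he, one_mul] at a1
    have b1 : cc η w z t ^ (-be κ) ≤ e ^ (-be κ) :=
      Real.rpow_le_rpow_of_nonpos he a1.le (by linarith [be_pos h8])
    have b2 : sn η w z t ^ al κ ≤ sn η w z t ^ aa κ :=
      Real.rpow_le_rpow_of_exponent_ge hS hS1 (aa_lt_al h8).le
    have b3 : 1 ≤ (2 * η) ^ (c / 2) * (fl η w z t).im ^ (-(c / 2)) := by
      rw [Real.rpow_neg hY.le, le_mul_inv_iff₀ (by positivity), one_mul]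
      exact Real.rpow_le_rpow hY.le a3.le (by positivity)
    have b4 := stp_le_one (cc η w z t / e)
    have b5 := stp_nonneg (cc η w z t / e)
    have b6 := cc_pos hz η w t
    have b7 : cc η w z t ^ (-be κ) * sn η w z t ^ al κ * kilD η w z t * stp (cc η w z t / e) * 1 ≤
        e ^ (-be κ) * sn η w z t ^ aa κ * kilD η w z t * 1 *
          ((2 * η) ^ (c / 2) * (fl η w z t).im ^ (-(c / 2))) := by
      gcongr
    rw [FirstA_k, FirstA_pv0 hη hw hz, pv_eq hη hw hz, Real.rpow_zero]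
    refine le_of_eq_of_le ?_ (b7.trans_eq ?_) <;> ring
  have h3 := mul_le_mul_of_nonneg_left h1 (by positivity : 0 ≤ (2 * η) ^ (c / 2) * e ^ (-be κ))
  linarith

end Aux

/-- `N₂ = pv (k - β) a (-b)` has `II ≤ 0` for `b` small and `k` large; where `kilD θ ≠ 0` we have
`Y ≤ 2 η`, `e ≤ cc`, so `M ≤ N₂ (2 η) ^ b e ^ (-k)`, and `E ∫ N₂ kilD θ ≤ N₂ 0` -/
theorem fm_kill (h0 : 0 < κ) (h8 : κ < 8) : ∃ b k C : ℝ, 0 < b ∧ ∀ (μ : Measure Path) (η e T : ℝ)
    (z : ℂ), IsW κ μ → 0 < η → 0 < e → 0 < T → z ∈ Metric.ball I (1 / 2) →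
    ∫ w, (∫ t in (0 : ℝ)..T, pv η (pf w) z (-be κ) (al κ) 0 t * kilD η (pf w) z t *
      stp (cc η (pf w) z t / e)) ∂μ ≤ C * η ^ b * e ^ (-k) := by
  obtain ⟨c, hc, hII⟩ := II_aa h0 h8
  refine ⟨c / 2, be κ, 2 ^ (c / 2) * (1 / 2) ^ (-(c / 2)), by positivity,
    fun μ η e T z hμ hη he hT hz => ?_⟩
  have := hμ.prob
  have hz1 := (FirstA_ball hz).1
  have hz0 : 0 < z.im := by linarith
  have hM := mart_pw hμ hη hz0 hT 0 (aa_pos h0 h8).le (-(c / 2)) (θ := fun _ => 1) contDiff_const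
  obtain ⟨K, hK⟩ := hM.bdd
  have h1 := FirstA_mono (μ := μ) (k := fun t w => FirstA_k κ η e (pf w) z t) hT.le
    (fun w => (FirstA_k_cont hη (continuous_pf w) hz0).continuousOn) hM.cd
    (FirstA_int hT.le hM.cd hM.md fun t ht w => (hK t ht w).2) _
    (fun t _ w => FirstA_k_nonneg hη (continuous_pf w) hz0 t)
    fun t _ w => FirstA_k_le h8 hc hII he hη (continuous_pf w) hz0 t
  rw [FirstA_os hM hT.le] at h1
  have h2 : 0 ≤ ∫ w, pv η (pf w) z 0 (aa κ) (-(c / 2)) T * kil η (pf w) z T * 1 ∂μ :=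
    integral_nonneg fun w => mul_nonneg (mul_nonneg
      (FirstA_pv_pos hη (continuous_pf w) hz0 _ _ _ _).le (stp_nonneg _)) zero_le_one
  have h3 : ∫ w, pv η (pf w) z 0 (aa κ) (-(c / 2)) 0 * kil η (pf w) z 0 * 1 ∂μ ≤
      (1 / 2) ^ (-(c / 2)) := by
    have a1 := integral_mono_of_nonneg (μ := μ)
      (f := fun w => pv η (pf w) z 0 (aa κ) (-(c / 2)) 0 * kil η (pf w) z 0 * 1)
      (g := fun _ => (1 / 2 : ℝ) ^ (-(c / 2))) (Eventually.of_forall fun w => mul_nonneg (mul_nonneg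
      (FirstA_pv_pos hη (continuous_pf w) hz0 _ _ _ _).le (stp_nonneg _)) zero_le_one)
      (integrable_const _) (Eventually.of_forall fun w => ?_)
    · simpa using a1
    have a2 := pw_le hη (continuous_pf w) hz0 0 (aa_pos h0 h8).le (-(c / 2)) 0 (pf w 0)
    rw [Real.rpow_zero, one_mul, fl_zero hη (continuous_pf w)] at a2
    have a3 : z.im ^ (-(c / 2)) ≤ (1 / 2) ^ (-(c / 2)) :=
      Real.rpow_le_rpow_of_nonpos (by norm_num) hz1 (by linarith)
    simp only [mul_one]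
    exact (mul_le_of_le_one_right (FirstA_pv_pos hη (continuous_pf w) hz0 _ _ _ _).le
      (stp_le_one _)).trans (a2.trans a3)
  have h4 : 0 ≤ (2 * η) ^ (c / 2) * e ^ (-be κ) := by positivity
  have h5 := mul_le_mul_of_nonneg_left h3 h4
  have h6 := mul_nonneg h4 h2
  rw [Real.mul_rpow (by norm_num) hη.le] at h1 h5 h6
  refine le_trans h1 ?_
  linarith

/-- `op_rate` with `e / 2` and `σ = 0` -/
theorem fm_weight (h0 : 0 < κ) (h8 : κ < 8) : ∃ C : ℝ, ∀ (μ : Measure Path) (η e T : ℝ) (z : ℂ),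
    IsW κ μ → 0 < η → 0 < e → e ≤ 1 → 0 < T → z ∈ Metric.ball I (1 / 2) →
    ∫ w, (∫ t in (0 : ℝ)..T, pv η (pf w) z (-be κ) (aa κ) 0 t * kil η (pf w) z t *
      (deriv stp (cc η (pf w) z t / e) * (cc η (pf w) z t / e)) * clk η (pf w) z t) ∂μ ≤ C := by
  obtain ⟨B, hB0, hB⟩ := deriv_stp_le
  obtain ⟨C, hC, hop⟩ := op_rate h0 h8
  refine ⟨128 * B * (C * 3), fun μ η e T z hμ hη he he1 hT hz => ?_⟩
  have := hμ.prob
  have hz1 := (FirstA_ball hz).1
  have hz0 : 0 < z.im := by linarith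
  have he2 : 0 < e / 2 := by positivity
  have hβ := be_pos h8
  have hβ1 := be_lt_one h0
  have h1 := FirstA_mono (μ := μ) (k := fun t w => FirstA_w κ η e (pf w) z (aa κ) t) hT.le
    (fun w => (FirstA_w_cont hη (continuous_pf w) hz0 _).continuousOn)
    (fun w => (FirstA_r_cont hη (continuous_pf w) hz0).continuousOn)
    (FirstA_r_int h0 h8 he2 hη hz0 hT.le) _
    (fun t _ w => FirstA_w_nonneg he hη (continuous_pf w) hz0 _ t)
    fun t _ w => FirstA_w_le h8 hB0 hB he hη (continuous_pf w) hz0 t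
  have h2 := hop μ η (e / 2) T z (fun _ => 0) univ hμ hη he2 hT hz0 (Stp.const ⟨le_rfl, hT.le⟩)
    (DetS.univ _)
  simp only [Measure.restrict_univ] at h2
  have h3 : ∫ w, ((e / 2 / cc η (pf w) z 0) ^ 2 + (e / 2) ^ be κ * NN κ η z 0 w) ∂μ ≤
      3 * e ^ be κ := by
    have a1 := integral_mono_of_nonneg (μ := μ)
      (f := fun w => (e / 2 / cc η (pf w) z 0) ^ 2 + (e / 2) ^ be κ * NN κ η z 0 w)
      (g := fun _ => 3 * e ^ be κ) (Eventually.of_forall fun w => add_nonneg (sq_nonneg _)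
        (mul_nonneg (by positivity) (NN_nonneg κ hη hz0 0 w)))
      (integrable_const _) (Eventually.of_forall fun w => ?_)
    · simpa using a1
    have a2 := pw_le hη (continuous_pf w) hz0 (-be κ) (a := al κ)
      (by linarith [be_lt_al h0 h8]) 0 0 (pf w 0)
    rw [Real.rpow_zero, mul_one, cc_zero] at a2
    have a3 : z.im ^ (-be κ) ≤ 2 := by
      calc z.im ^ (-be κ) ≤ (1 / 2) ^ (-be κ) :=
            Real.rpow_le_rpow_of_nonpos (by norm_num) hz1 (by linarith)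
        _ ≤ (1 / 2) ^ (-1 : ℝ) :=
            Real.rpow_le_rpow_of_exponent_ge (by norm_num) (by norm_num) (by linarith)
        _ = 2 := by rw [Real.rpow_neg_one]; norm_num
    have a4 : NN κ η z 0 w ≤ 2 :=
      (mul_le_of_le_one_right (FirstA_pv_pos hη (continuous_pf w) hz0 _ _ _ _).le
        (stp_le_one _)).trans (a2.trans a3)
    have a5 : (e / 2) ^ be κ ≤ e ^ be κ := Real.rpow_le_rpow he2.le (by linarith) hβ.le
    have a6 := mul_le_mul a5 a4 (NN_nonneg κ hη hz0 0 w) (by positivity)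
    have a7 : (e / 2 / z.im) ^ 2 ≤ e ^ be κ := by
      calc (e / 2 / z.im) ^ 2 ≤ e ^ 2 := by
            refine pow_le_pow_left₀ (by positivity) ?_ 2
            rw [div_le_iff₀ hz0]
            nlinarith
        _ = e ^ (2 : ℝ) := (Real.rpow_two e).symm
        _ ≤ e ^ be κ := Real.rpow_le_rpow_of_exponent_ge he he1 (by linarith)
    simp only [cc_zero]
    linarith
  have h4 := h2.trans (mul_le_mul_of_nonneg_left h3 hC.le)
  refine h1.trans ((mul_le_mul_of_nonneg_left h4 (by positivity)).trans_eq ?_)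
  have h5 : e ^ (-be κ) * e ^ be κ = 1 := by
    rw [← Real.rpow_add he, neg_add_cancel, Real.rpow_zero]
  linear_combination 128 * B * (C * 3) * h5

end Vale.Agent.P164
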