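import Vale.Agent.P164.OP

/-!
# P164 FirstB

Lower bound for the first moment. Put `M = pv (-β) α 0`, `θ c = stp (c / e)`. By `mart_pw`
`E ∫ M kil θ'(c) c clk = M 0 - E [M kil θ](T) - E ∫ M kilD θ`. For `z` in the ball, a.s. `w 0 = 0`,
`1/2 ≤ im z ≤ 3/2`, `S 0 ≥ 1/3`.
-/

open MeasureTheory ProbabilityTheory Set Filter Topology Complex Function
open scoped NNReal ENNReal ComplexConjugate

noncomputable section

namespace Vale.Agent.P164

variable {κ : ℝ}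

/-- deterministic: with `g = α - a`, if `Y ^ (g / 2) S ^ (-g) ≤ Λ` on `[0,T]` and `η ≤ Y T` then
`ρ ^ 2 ≤ Λ ^ (2 / g) Y`, so `Y' = -2 Y / ρ ^ 2 ≤ -2 Λ ^ (-2 / g)` -/
theorem fm_det {η T g Λ : ℝ} {w : ℝ → ℝ} {z : ℂ} (hη : 0 < η) (hT : 0 ≤ T) (hg : 0 < g) (hΛ : 0 < Λ)
    (hw : Continuous w) (hz : 0 < z.im) (hY : η ≤ (fl η w z T).im)
    (h : ∀ t ∈ Icc 0 T, pv η w z 0 (-g) (g / 2) t ≤ Λ) : 2 * T ≤ Λ ^ (2 / g) * z.im := by
  have hL : 0 < Λ ^ (2 / g) := Real.rpow_pos_of_pos hΛ _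
  have hd : ∀ t, HasDerivAt (fun s => Λ ^ (2 / g) * (fl η w z s).im + 2 * s)
      (Λ ^ (2 / g) * (fld η (w t) (fl η w z t)).im + 2 * 1) t := fun t =>
    ((fl_im_deriv hη hw z t).const_mul _).fun_add ((hasDerivAt_id' t).const_mul 2)
  have hanti : AntitoneOn (fun s => Λ ^ (2 / g) * (fl η w z s).im + 2 * s) (Icc 0 T) := by
    refine antitoneOn_of_deriv_nonpos (convex_Icc 0 T)
      (fun t _ => (hd t).continuousAt.continuousWithinAt)
      (fun t _ => (hd t).differentiableAt.differentiableWithinAt) fun t ht => ?_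
    have ht' : t ∈ Icc 0 T := interior_subset ht
    have hYt : η ≤ (fl η w z t).im := hY.trans (fl_im_anti hη hw hz ht'.2)
    have hp := fl_im_pos hη hw hz t
    have hr := r2_pos hη hw hz t (w t)
    rw [(hd t).deriv, fld_im, den_alive hη hYt]
    have h1 : pv η w z 0 (-g) (g / 2) t = (r2 η w z t (w t) / (fl η w z t).im) ^ (g / 2) := by
      unfold pv pw
      rw [Real.rpow_zero, one_mul, show -g + g / 2 = -(g / 2) by ring, show - -g / 2 = g / 2 by ring,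
        Real.div_rpow hr.le hp.le, Real.rpow_neg hp.le, div_eq_mul_inv (r2 η w z t (w t) ^ (g / 2)),
        mul_comm]
    have h2 := h t ht'
    rw [h1] at h2
    have h3 := Real.rpow_le_rpow (by positivity) h2 (show 0 ≤ 2 / g by positivity)
    rw [← Real.rpow_mul (by positivity), show g / 2 * (2 / g) = 1 by field_simp, Real.rpow_one,
      div_le_iff₀ hp] at h3
    have h4 : Λ ^ (2 / g) * (-2 * (fl η w z t).im / r2 η w z t (w t)) + 2 * 1
        = 2 * (r2 η w z t (w t) - Λ ^ (2 / g) * (fl η w z t).im) / r2 η w z t (w t) := by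
      field_simp
      ring
    rw [h4]
    exact div_nonpos_of_nonpos_of_nonneg (by linarith) hr.le
  have h5 := hanti (left_mem_Icc.2 hT) (right_mem_Icc.2 hT) hT
  simp only [fl_zero hη hw, mul_zero, add_zero] at h5
  have h6 := mul_pos hL (fl_im_pos hη hw hz T)
  linarith

theorem FirstB_II (h0 : 0 < κ) (h8 : κ < 8) : ∃ C : ℝ, 0 < C ∧ ∀ S : ℝ, 0 < S → S ≤ 1 →
    S ^ aa κ * II κ (-be κ) (aa κ) ((al κ - aa κ) / 2) S
      + C * (S ^ al κ * II κ (-be κ) (al κ) ((al κ - aa κ) / 2) S) ≤ 0 := by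
  obtain ⟨g, hgd⟩ : ∃ g, g = al κ - aa κ := ⟨_, rfl⟩
  have hg : 0 < g := by
    have := aa_lt_al h8
    linarith
  obtain ⟨c, hc, hII⟩ := II_aa h0 h8
  have hb := be_pos h8
  have hb1 := be_lt_one h0
  have hq : 0 < (g / 4) ^ g := Real.rpow_pos_of_pos (by positivity) _
  refine ⟨4 / (g * (g / 4) ^ g), by positivity, fun S hS hS1 => ?_⟩
  rw [← hgd, II_al h0]
  have h1 : II κ (-be κ) (aa κ) (g / 2) S = II κ 0 (aa κ) 0 S - g + 4 * be κ * S ^ 2 := by
    unfold II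
    ring
  have h2 : S ^ al κ = S ^ aa κ * S ^ g := by
    rw [← Real.rpow_add hS, hgd]
    ring_nf
  have h3 := hII S hS.le hS1
  have hSa : 0 < S ^ aa κ := Real.rpow_pos_of_pos hS _
  have hSg : 0 < S ^ g := Real.rpow_pos_of_pos hS _
  have h4 : II κ 0 (aa κ) 0 S - g + 4 * be κ * S ^ 2 - 4 / (g / 4) ^ g * S ^ g ≤ 0 := by
    have h5 : 0 ≤ 4 / (g / 4) ^ g * S ^ g := by positivity
    have h6 : S ^ 2 ≤ S := by nlinarith
    have h7 : be κ * S ^ 2 ≤ S := by nlinarith [sq_nonneg S]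
    rcases le_total (4 * S) g with h8 | h8
    · nlinarith
    · have h9 : (g / 4) ^ g ≤ S ^ g := Real.rpow_le_rpow (by positivity) (by linarith) hg.le
      have h10 : 4 ≤ 4 / (g / 4) ^ g * S ^ g := by
        rw [div_mul_eq_mul_div, le_div_iff₀ hq]
        linarith
      nlinarith
  have h11 : S ^ aa κ * II κ (-be κ) (aa κ) (g / 2) S + 4 / (g * (g / 4) ^ g) *
      (S ^ al κ * (-2 * (g / 2) - 4 * S ^ 2 * (-be κ + be κ)))
      = S ^ aa κ * (II κ 0 (aa κ) 0 S - g + 4 * be κ * S ^ 2 - 4 / (g / 4) ^ g * S ^ g) := by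
    rw [h1, h2]
    field_simp
    ring
  rw [h11]
  exact mul_nonpos_of_nonneg_of_nonpos hSa.le h4

/-- the auxiliary supermartingale -/
def FirstB_N (κ C η : ℝ) (z : ℂ) (t : ℝ) (w : Path) : ℝ :=
  (pv η (pf w) z (-be κ) (aa κ) ((al κ - aa κ) / 2) t
    + C * pv η (pf w) z (-be κ) (al κ) ((al κ - aa κ) / 2) t) * kil η (pf w) z t

theorem FirstB_mart (h0 : 0 < κ) (h8 : κ < 8) : ∃ C : ℝ, 0 < C ∧ ∀ (μ : Measure Path) (η T : ℝ)
    (z : ℂ), IsW κ μ → 0 < η → 0 < T → 0 < z.im →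
    ∃ d : ℝ → Path → ℝ, Mart μ T (FirstB_N κ C η z) d ∧ ∀ t w, d t w ≤ 0 := by
  obtain ⟨C, hC, hII⟩ := FirstB_II h0 h8
  refine ⟨C, hC, fun μ η T z hμ hη hT hz => ?_⟩
  have := hμ.prob
  have ha := aa_pos h0 h8
  have hal : 0 < al κ := ha.trans (aa_lt_al h8)
  have m1 := mart_pw hμ hη hz hT (-be κ) ha.le ((al κ - aa κ) / 2) (θ := fun _ => 1) contDiff_const
  have m2 := mart_pw hμ hη hz hT (-be κ) hal.le ((al κ - aa κ) / 2) (θ := fun _ => 1) contDiff_const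
  have m3 := m1.add (m2.smul C)
  have e : FirstB_N κ C η z = fun t w =>
      pv η (pf w) z (-be κ) (aa κ) ((al κ - aa κ) / 2) t * kil η (pf w) z t * 1
        + C * (pv η (pf w) z (-be κ) (al κ) ((al κ - aa κ) / 2) t * kil η (pf w) z t * 1) := by
    funext t w
    unfold FirstB_N
    ring
  refine ⟨_, e ▸ m3, fun t w => ?_⟩
  have hw := continuous_pf w
  have hS := sn_pos hη hw hz t
  have h1 := hII _ hS (sn_le_one η (pf w) z t)
  have hr := r2_pos hη hw hz t (pf w t)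
  have hk : 0 ≤ kil η (pf w) z t := stp_nonneg _
  have hD := kilD_nonneg hη (pf w) z t
  have hP : 0 < cc η (pf w) z t ^ (-be κ) * (fl η (pf w) z t).im ^ ((al κ - aa κ) / 2) :=
    mul_pos (Real.rpow_pos_of_pos (cc_pos hz _ _ _) _) (Real.rpow_pos_of_pos (fl_im_pos hη hw hz t) _)
  have hSa : 0 < sn η (pf w) z t ^ aa κ := Real.rpow_pos_of_pos hS _
  have hSb : 0 < sn η (pf w) z t ^ al κ := Real.rpow_pos_of_pos hS _
  unfold drf
  rw [pv_eq hη hw hz, pv_eq hη hw hz, deriv_const]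
  generalize cc η (pf w) z t ^ (-be κ) * (fl η (pf w) z t).im ^ ((al κ - aa κ) / 2) = P at *
  generalize II κ (-be κ) (aa κ) ((al κ - aa κ) / 2) (sn η (pf w) z t) = I₁ at *
  generalize II κ (-be κ) (al κ) ((al κ - aa κ) / 2) (sn η (pf w) z t) = I₂ at *
  generalize sn η (pf w) z t ^ aa κ = Sa at *
  generalize sn η (pf w) z t ^ al κ = Sb at *
  generalize kil η (pf w) z t = k at *
  generalize kilD η (pf w) z t = D at *
  generalize r2 η (pf w) z t (pf w t) = r at *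
  have h2 : P * (k / r) * (Sa * I₁ + C * (Sb * I₂)) ≤ 0 :=
    mul_nonpos_of_nonneg_of_nonpos (by positivity) h1
  have h3 : 0 ≤ P * D * (Sa + C * Sb) := by positivity
  refine le_of_eq_of_le ?_ (sub_nonpos.2 (h2.trans h3))
  ring

theorem FirstB_zero (h0 : 0 < κ) (h8 : κ < 8) {C η : ℝ} (hC : 0 < C) (hη : 0 < η) {z : ℂ}
    (h1 : 1 / 2 ≤ z.im) (h2 : z.im ≤ 3 / 2) (w : Path) :
    FirstB_N κ C η z 0 w ≤ (1 + C) * ((1 / 2) ^ (-be κ) * (3 / 2) ^ ((al κ - aa κ) / 2)) := by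
  have hz : 0 < z.im := by linarith
  have hw := continuous_pf w
  have ha := aa_pos h0 h8
  have hlt := aa_lt_al h8
  have hb := be_pos h8
  have key : ∀ a : ℝ, 0 ≤ a → pv η (pf w) z (-be κ) a ((al κ - aa κ) / 2) 0
      ≤ (1 / 2) ^ (-be κ) * (3 / 2) ^ ((al κ - aa κ) / 2) := by
    intro a ha
    refine (pw_le hη hw hz _ ha _ _ _).trans ?_
    rw [cc_zero, fl_zero hη hw]
    exact mul_le_mul (Real.rpow_le_rpow_of_nonpos (by norm_num) h1 (by linarith))
      (Real.rpow_le_rpow hz.le h2 (by linarith)) (by positivity) (by positivity)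
  have k1 := key _ ha.le
  have k2 := key (al κ) (by linarith)
  have p1 : 0 < pv η (pf w) z (-be κ) (aa κ) ((al κ - aa κ) / 2) 0 := pw_pos hη hw hz _ _ _ _ _
  have p2 : 0 < pv η (pf w) z (-be κ) (al κ) ((al κ - aa κ) / 2) 0 := pw_pos hη hw hz _ _ _ _ _
  have hk : kil η (pf w) z 0 ≤ 1 := stp_le_one _
  unfold FirstB_N
  refine (mul_le_of_le_one_right (by positivity) hk).trans ?_
  have := mul_le_mul_of_nonneg_left k2 hC.le
  linarith

theorem FirstB_cmp {C η Λ t : ℝ} (hC : 0 < C) (hη : 0 < η) {z : ℂ} (hz : 0 < z.im) (w : Path)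
    (h : Λ ≤ pv η (pf w) z 0 (-(al κ - aa κ)) ((al κ - aa κ) / 2) t) :
    Λ * NN κ η z t w ≤ FirstB_N κ C η z t w := by
  have hw := continuous_pf w
  have hS := sn_pos hη hw hz t
  have e : pv η (pf w) z (-be κ) (aa κ) ((al κ - aa κ) / 2) t
      = pv η (pf w) z 0 (-(al κ - aa κ)) ((al κ - aa κ) / 2) t * pv η (pf w) z (-be κ) (al κ) 0 t := by
    have e1 : sn η (pf w) z t ^ aa κ
        = sn η (pf w) z t ^ (-(al κ - aa κ)) * sn η (pf w) z t ^ al κ := by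
      rw [← Real.rpow_add hS]
      ring_nf
    rw [pv_eq hη hw hz, pv_eq hη hw hz, pv_eq hη hw hz, Real.rpow_zero, Real.rpow_zero, e1]
    ring
  have p1 : 0 < pv η (pf w) z (-be κ) (al κ) 0 t := pw_pos hη hw hz _ _ _ _ _
  have p2 : 0 < pv η (pf w) z (-be κ) (al κ) ((al κ - aa κ) / 2) t := pw_pos hη hw hz _ _ _ _ _
  have hk : 0 ≤ kil η (pf w) z t := stp_nonneg _
  unfold FirstB_N NN
  rw [← mul_assoc, e]
  refine mul_le_mul_of_nonneg_right ?_ hk
  have := mul_le_mul_of_nonneg_right h p1.le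
  have := mul_pos hC p2
  linarith

theorem FirstB_nonneg {C η t : ℝ} (hC : 0 < C) (hη : 0 < η) {z : ℂ} (hz : 0 < z.im) (w : Path) :
    0 ≤ FirstB_N κ C η z t w := by
  have hw := continuous_pf w
  have p1 : 0 < pv η (pf w) z (-be κ) (aa κ) ((al κ - aa κ) / 2) t := pw_pos hη hw hz _ _ _ _ _
  have p2 : 0 < pv η (pf w) z (-be κ) (al κ) ((al κ - aa κ) / 2) t := pw_pos hη hw hz _ _ _ _ _
  have hk : 0 ≤ kil η (pf w) z t := stp_nonneg _
  unfold FirstB_N
  positivity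

/-- `N₁ = (pv (-β) a (g / 2) + C' pv (-β) α (g / 2)) kil` is a supermartingale (`g = α - a`); let `σ` be
the first time `pv 0 (-g) (g / 2) ≥ Λ`. On `{σ not attained}` `kil T = 0` by `fm_det`; on the other event
`E [M kil θ](T) ≤ E [M kil θ](σ) ≤ E N₁(σ) / Λ ≤ N₁ 0 / Λ` -/
theorem fm_time (h0 : 0 < κ) (h8 : κ < 8) {ε : ℝ} (hε : 0 < ε) : ∃ T : ℝ, 0 < T ∧
    ∀ (μ : Measure Path) (η e : ℝ) (z : ℂ), IsW κ μ → 0 < η → 0 < e → z ∈ Metric.ball I (1 / 2) →
    ∫ w, NN κ η z T w * stp (cc η (pf w) z T / e) ∂μ ≤ ε := by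
  obtain ⟨C, hC, hm⟩ := FirstB_mart h0 h8
  obtain ⟨g, hgd⟩ : ∃ g, g = al κ - aa κ := ⟨_, rfl⟩
  have hg : 0 < g := by
    have := aa_lt_al h8
    linarith
  obtain ⟨K, hK⟩ : ∃ K : ℝ, K = (1 + C) * ((1 / 2) ^ (-be κ) * (3 / 2) ^ ((al κ - aa κ) / 2)) :=
    ⟨_, rfl⟩
  have hK0 : 0 < K := by
    rw [hK]
    positivity
  obtain ⟨Λ, hΛd⟩ : ∃ Λ : ℝ, Λ = K / ε := ⟨_, rfl⟩
  have hΛ : 0 < Λ := by
    rw [hΛd]
    positivity
  obtain ⟨T, hTd⟩ : ∃ T : ℝ, T = Λ ^ (2 / g) := ⟨_, rfl⟩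
  have hT : 0 < T := by
    rw [hTd]
    positivity
  refine ⟨T, hT, fun μ η e z hμ hη he hzb => ?_⟩
  have := hμ.prob
  have him : |z.im - 1| ≤ 1 / 2 := by
    have h1 := Complex.abs_im_le_norm (z - I)
    rw [mem_ball_iff_norm] at hzb
    simp only [sub_im, I_im] at h1
    linarith
  have z1 : 1 / 2 ≤ z.im := by linarith [(abs_le.1 him).1]
  have z2 : z.im ≤ 3 / 2 := by linarith [(abs_le.1 him).2]
  have hz : 0 < z.im := by linarith
  obtain ⟨d, md, hd⟩ := mart_NN hμ h8 hη hz hT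
  obtain ⟨d', md', hd'⟩ := hm μ η T z hμ hη hT hz
  obtain ⟨X, hX⟩ : ∃ X : ℝ → Path → ℝ, X = fun t w => Λ - pv η (pf w) z 0 (-g) (g / 2) t := ⟨_, rfl⟩
  have hXa : Adp T X := by
    rw [hX]
    exact (adp_pv hη hz 0 (-g) (g / 2) T).comp (φ := fun u => Λ - u) (by fun_prop)
  have hσ := hXa.stp_hit hT.le
  obtain ⟨A, hA⟩ : ∃ A : Set Path, A = (fun w => X (hit T X w) w) ⁻¹' Iic 0 := ⟨_, rfl⟩
  have hAd : DetS (hit T X) A := hA ▸ (hXa.det_at hσ).preimage measurableSet_Iic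
  have hTT : Stp T fun _ => T := Stp.const (right_mem_Icc.2 hT.le)
  have h00 : Stp T fun _ => (0 : ℝ) := Stp.const (left_mem_Icc.2 hT.le)
  have hoff : ∀ w, w ∉ A → NN κ η z T w = 0 := by
    intro w hw
    have h1 : ∀ t ∈ Icc 0 T, pv η (pf w) z 0 (-g) (g / 2) t ≤ Λ := by
      intro t ht
      by_contra hc
      refine hw (hA ▸ hit_spec (hXa.cont w) ht ?_)
      rw [hX]
      push Not at hc
      exact sub_nonpos.2 hc.le
    have h2 : (fl η (pf w) z T).im < η := by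
      by_contra hc
      push Not at hc
      have h3 := fm_det hη hT.le hg hΛ (continuous_pf w) hz hc h1
      rw [← hTd] at h3
      nlinarith
    unfold NN kil
    rw [stp_zero ((div_le_one hη).2 h2.le), mul_zero]
  have iT : Integrable (fun w => NN κ η z T w) μ := md.integrable_at hTT.det.meas hTT.mem
  have iσ : Integrable (fun w => NN κ η z (hit T X w) w) μ := md.integrable_at hσ.det.meas hσ.mem
  have iσ' : Integrable (fun w => FirstB_N κ C η z (hit T X w) w) μ :=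
    md'.integrable_at hσ.det.meas hσ.mem
  have i0 : Integrable (fun w => FirstB_N κ C η z 0 w) μ := md'.integrable_at h00.det.meas h00.mem
  have s1 : ∫ w, NN κ η z T w * stp (cc η (pf w) z T / e) ∂μ ≤ ∫ w, NN κ η z T w ∂μ :=
    integral_mono_of_nonneg
      (Eventually.of_forall fun w => mul_nonneg (NN_nonneg κ hη hz T w) (stp_nonneg _)) iT
      (Eventually.of_forall fun w => mul_le_of_le_one_right (NN_nonneg κ hη hz T w) (stp_le_one _))
  have s2 : ∫ w in A, NN κ η z T w ∂μ = ∫ w, NN κ η z T w ∂μ :=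
    setIntegral_eq_integral_of_forall_compl_eq_zero hoff
  have s3 : ∫ w in A, NN κ η z T w ∂μ ≤ ∫ w in A, NN κ η z (hit T X w) w ∂μ :=
    md.os_le hσ hTT hAd (fun w _ => (hσ.mem w).2) fun w _ u _ => hd u w
  have s4 : ∫ w in A, Λ * NN κ η z (hit T X w) w ∂μ
      ≤ ∫ w in A, FirstB_N κ C η z (hit T X w) w ∂μ := by
    refine setIntegral_mono_on (iσ.const_mul Λ).integrableOn iσ'.integrableOn hAd.meas
      fun w hw => FirstB_cmp hC hη hz w ?_
    rw [hA, mem_preimage, mem_Iic] at hw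
    have h1 : X (hit T X w) w = Λ - pv η (pf w) z 0 (-g) (g / 2) (hit T X w) := by
      generalize hit T X w = s
      rw [hX]
    rw [← hgd]
    linarith
  have s5 : ∫ w in A, FirstB_N κ C η z (hit T X w) w ∂μ ≤ ∫ w, FirstB_N κ C η z (hit T X w) w ∂μ :=
    setIntegral_le_integral iσ' (Eventually.of_forall fun w => FirstB_nonneg hC hη hz w)
  have s6 := md'.os_le h00 hσ (DetS.univ _) (fun w _ => (hσ.mem w).1) fun w _ u _ => hd' u w
  rw [Measure.restrict_univ] at s6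
  have s7 : ∫ w, FirstB_N κ C η z 0 w ∂μ ≤ K := by
    have h1 := integral_mono i0 (integrable_const K) fun w => hK ▸ FirstB_zero h0 h8 hC hη z1 z2 w
    simpa using h1
  rw [integral_const_mul] at s4
  have s8 : Λ * ∫ w in A, NN κ η z (hit T X w) w ∂μ ≤ Λ * ε := by
    have h1 : Λ * ε = K := by
      rw [hΛd]
      field_simp
    linarith
  have s9 := le_of_mul_le_mul_left s8 hΛ
  linarith

end Vale.Agent.P164
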