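import Vale.Agent.P164.OP
import Vale.Agent.P164.FirstA
import Vale.Agent.P164.FirstB

/-!
# P164 First

Lower bound for the first moment. Put `M = pv (-β) α 0`, `θ c = stp (c / e)`. By `mart_pw`
`E ∫ M kil θ'(c) c clk = M 0 - E [M kil θ](T) - E ∫ M kilD θ`. For `z` in the ball, a.s. `w 0 = 0`,
`1/2 ≤ im z ≤ 3/2`, `S 0 ≥ 1/3`.
-/

open MeasureTheory ProbabilityTheory Set Filter Topology Complex Function
open scoped NNReal ENNReal ComplexConjugate

noncomputable section

namespace Vale.Agent.P164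

variable {κ : ℝ}

section Aux

variable {η e T : ℝ} {w : ℝ → ℝ} {z : ℂ}

theorem First_pow {S s a α : ℝ} (hS : 0 < S) (hs : 0 < s) (ha : a ≤ α) :
    s ^ (40 : ℝ) * (S ^ α - s ^ (α - a) * S ^ a) ≤ S ^ (α + 40) := by
  by_cases h : s ≤ S
  · have h1 : s ^ (40 : ℝ) ≤ S ^ (40 : ℝ) := Real.rpow_le_rpow hs.le h (by norm_num)
    have h2 : S ^ α - s ^ (α - a) * S ^ a ≤ S ^ α := by
      have : 0 ≤ s ^ (α - a) * S ^ a := by positivity
      linarith
    calc _ ≤ s ^ (40 : ℝ) * S ^ α := mul_le_mul_of_nonneg_left h2 (by positivity)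
      _ ≤ S ^ (40 : ℝ) * S ^ α := mul_le_mul_of_nonneg_right h1 (by positivity)
      _ = _ := by rw [Real.rpow_add hS, mul_comm]
  · have h1 : S ^ (α - a) ≤ s ^ (α - a) :=
      Real.rpow_le_rpow hS.le (not_le.1 h).le (by linarith)
    have h2 : S ^ α = S ^ (α - a) * S ^ a := by rw [← Real.rpow_add hS, sub_add_cancel]
    have h3 := mul_le_mul_of_nonneg_right h1 (by positivity : 0 ≤ S ^ a)
    exact (mul_nonpos_of_nonneg_of_nonpos (by positivity) (by linarith)).trans (by positivity)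

theorem First_drf (h0 : 0 < κ) (t : ℝ) :
    drf κ η w z (-be κ) (al κ) 0 (fun c => stp (c / e)) t =
      -FirstA_k κ η e w z t - FirstA_w κ η e w z (al κ) t := by
  have h1 : deriv (fun c => stp (c / e)) (cc η w z t) = deriv stp (cc η w z t / e) / e := by
    have h2 := (contDiff_stp.differentiable one_ne_zero (cc η w z t / e)).hasDerivAt.comp
      (cc η w z t) ((hasDerivAt_id (cc η w z t)).div_const e)
    rw [div_eq_mul_one_div (deriv stp _)]
    exact h2.deriv
  unfold drf FirstA_k FirstA_w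
  rw [II_al h0, h1]
  ring

theorem First_pay (h0 : 0 < κ) (h8 : κ < 8) (he : 0 < e) (hη : 0 < η) (hw : Continuous w)
    (hz : 0 < z.im) {s : ℝ} (hs : 0 < s) (t : ℝ) :
    s ^ (40 : ℝ) * (-drf κ η w z (-be κ) (al κ) 0 (fun c => stp (c / e)) t -
      FirstA_k κ η e w z t - s ^ (al κ - aa κ) * FirstA_w κ η e w z (aa κ) t) ≤
      pay κ η e w z t := by
  have e1 : pay κ η e w z t = FirstA_w κ η e w z (al κ + 40) t := rfl
  have h1 := First_pow (sn_pos hη hw hz t) hs (aa_lt_al h8).le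
  have h2 := mul_le_mul_of_nonneg_right h1 (mul_nonneg
    (Real.rpow_nonneg (cc_pos hz η w t).le (-be κ)) (FirstA_W_nonneg he hη hw hz t))
  rw [e1, First_drf h0]
  simp only [FirstA_w_eq, FirstA_pv0 hη hw hz]
  refine le_of_eq_of_le ?_ (h2.trans_eq ?_) <;> ring

theorem First_start (h0 : 0 < κ) (h8 : κ < 8) (he : 0 < e) (he1 : e ≤ 1 / 4) (hη : 0 < η)
    (hη1 : η ≤ 1 / 4) (hw : Continuous w) (hz : z ∈ Metric.ball I (1 / 2)) (hw0 : w 0 = 0) :
    (3 / 2) ^ (-be κ) * (1 / 3) ^ al κ ≤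
      pv η w z (-be κ) (al κ) 0 0 * kil η w z 0 * stp (cc η w z 0 / e) := by
  obtain ⟨h1, h2⟩ := FirstA_ball hz
  have hz0 : 0 < z.im := by linarith
  have h3 : z.im ≤ 3 / 2 := (le_abs_self _).trans ((abs_im_le_norm z).trans h2)
  have a1 : kil η w z 0 = 1 := by
    rw [kil, fl_zero hη hw]
    refine stp_one ?_
    rw [le_div_iff₀ hη]
    linarith
  have a2 : stp (cc η w z 0 / e) = 1 := by
    rw [cc_zero]
    refine stp_one ?_
    rw [le_div_iff₀ he]
    linarith
  have a3 : 1 / 3 ≤ sn η w z 0 := by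
    have hn : 0 < ‖z‖ := lt_of_lt_of_le hz0 ((le_abs_self _).trans (abs_im_le_norm z))
    rw [sn_eq, ZZ, fl_zero hη hw, hw0, ofReal_zero, sub_zero, sS, le_div_iff₀ hn]
    linarith
  rw [a1, a2, mul_one, mul_one, FirstA_pv0 hη hw hz0, cc_zero]
  exact mul_le_mul (Real.rpow_le_rpow_of_nonpos hz0 h3 (by linarith [be_pos h8]))
    (Real.rpow_le_rpow (by norm_num) a3 (by linarith [be_lt_al h0 h8, be_pos h8]))
    (by positivity) (by positivity)

theorem First_small {C b m : ℝ} (hb : 0 < b) (hm : 0 < m) :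
    ∃ s : ℝ, 0 < s ∧ ∀ η, 0 < η → η ≤ s → C * η ^ b ≤ m := by
  have hC : 0 < |C| + 1 := by positivity
  refine ⟨(m / (|C| + 1)) ^ b⁻¹, by positivity, fun η hη h => ?_⟩
  have h1 := Real.rpow_le_rpow hη.le h hb.le
  rw [Real.rpow_inv_rpow (by positivity) hb.ne', le_div_iff₀ hC] at h1
  have h2 : C * η ^ b ≤ (|C| + 1) * η ^ b :=
    mul_le_mul_of_nonneg_right (by linarith [le_abs_self C]) (by positivity)
  linarith

theorem First_low {μ : Measure Path} (hμ : IsW κ μ) (h8 : κ < 8) (he : 0 < e) (hη : 0 < η)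
    (hz : 0 < z.im) (hT : 0 < T) {s : ℝ} (hs : 0 < s) :
    s ^ (40 : ℝ) * (∫ w, NN κ η z 0 w * stp (cc η (pf w) z 0 / e) ∂μ -
      ∫ w, NN κ η z T w * stp (cc η (pf w) z T / e) ∂μ -
      ∫ w, (∫ t in (0 : ℝ)..T, FirstA_k κ η e (pf w) z t) ∂μ -
      s ^ (al κ - aa κ) * ∫ w, (∫ t in (0 : ℝ)..T, FirstA_w κ η e (pf w) z (aa κ) t) ∂μ) ≤
      ∫ w, Pay κ η e (pf w) T z ∂μ := by
  have := hμ.prob
  have h0 := hμ.pos
  have hM := mart_pw hμ hη hz hT (-be κ) (a := al κ) (by linarith [be_lt_al h0 h8, be_pos h8]) 0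
    (θ := fun c => stp (c / e)) (contDiff_stp.comp (contDiff_id.div_const e))
  obtain ⟨K, hK⟩ := hM.bdd
  have i1 := FirstA_int (μ := μ) hT.le hM.cd hM.md fun t ht w => (hK t ht w).2
  have i2 : Integrable (fun w : Path => ∫ t in (0 : ℝ)..T, FirstA_k κ η e (pf w) z t) μ := by
    refine FirstA_int hT.le (fun w => (FirstA_k_cont hη (continuous_pf w) hz).continuousOn)
      (fun _ ht => FirstA_k_meas hη hz ht) (K := K) fun t ht w => ?_
    have a1 := (abs_le.1 (hK t ht w).2).1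
    have a2 := FirstA_w_nonneg (κ := κ) he hη (continuous_pf w) hz (al κ) t
    rw [First_drf h0] at a1
    rw [abs_of_nonneg (FirstA_k_nonneg hη (continuous_pf w) hz t)]
    linarith
  have i3 := FirstA_w_int (μ := μ) h0 h8 he hη hz hT.le
  have i4 : Integrable (fun w : Path => Pay κ η e (pf w) T z) μ := by
    refine Integrable.of_bound (measurable_Pay κ e measurable_const measurable_id measurable_const
      measurable_const).aestronglyMeasurable (e ^ (-be κ)) (Eventually.of_forall fun w => ?_)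
    rw [Real.norm_eq_abs, abs_of_nonneg (Pay_nonneg κ he hη (continuous_pf w) hz hT.le)]
    exact Pay_le h0 h8 he hη (continuous_pf w) hz hT.le
  have h1 := integral_mono ((((i1.neg.sub i2).sub (i3.const_mul (s ^ (al κ - aa κ))))).const_mul
    (s ^ (40 : ℝ))) i4 fun w => ?_
  · rw [integral_const_mul, integral_sub' (i1.neg.sub i2) (i3.const_mul _),
      integral_sub' i1.neg i2, integral_neg', integral_const_mul, FirstA_os hM hT.le, neg_sub] at h1
    exact h1
  · have c1 := Mart_ii (hM.cd w) ⟨le_rfl, hT.le⟩ ⟨hT.le, le_rfl⟩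
    have c2 := (FirstA_k_cont (κ := κ) (e := e) hη (continuous_pf w) hz).intervalIntegrable
      (μ := volume) 0 T
    have c3 := (FirstA_w_cont (κ := κ) (e := e) hη (continuous_pf w) hz (aa κ)).intervalIntegrable
      (μ := volume) 0 T
    have c4 := (pay_cont κ e hη (continuous_pf w) hz).intervalIntegrable (μ := volume) 0 T
    have c5 := intervalIntegral.integral_mono_on hT.le
      (((c1.neg.sub c2).sub (c3.const_mul (s ^ (al κ - aa κ)))).const_mul (s ^ (40 : ℝ))) c4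
      fun t _ => First_pay h0 h8 he hη (continuous_pf w) hz hs t
    rw [intervalIntegral.integral_const_mul,
      intervalIntegral.integral_sub (c1.neg.sub c2) (c3.const_mul _),
      intervalIntegral.integral_sub c1.neg c2, intervalIntegral.integral_const_mul] at c5
    simp only [Pi.neg_apply, intervalIntegral.integral_neg] at c5
    exact c5

end Aux

/-- `S ^ (α + 40) ≥ s ^ 40 (S ^ α - s ^ (α - a) S ^ a)` -/
theorem first_moment (h0 : 0 < κ) (h8 : κ < 8) : ∃ T c : ℝ, 0 < T ∧ 0 < c ∧ ∀ e : ℝ, 0 < e →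
    e ≤ 1 / 4 → ∃ η₀ : ℝ, 0 < η₀ ∧ ∀ (μ : Measure Path) (η : ℝ) (z : ℂ), IsW κ μ → 0 < η → η ≤ η₀ →
    z ∈ Metric.ball I (1 / 2) → c ≤ ∫ w, Pay κ η e (pf w) T z ∂μ := by
  have hm : 0 < (3 / 2 : ℝ) ^ (-be κ) * (1 / 3) ^ al κ := by positivity
  generalize hm' : (3 / 2 : ℝ) ^ (-be κ) * (1 / 3) ^ al κ = m at hm
  obtain ⟨T, hT, htime⟩ := fm_time h0 h8 (ε := m / 4) (by positivity)
  obtain ⟨b, k, C, hb, hkill⟩ := fm_kill h0 h8
  obtain ⟨C', hwt⟩ := fm_weight h0 h8
  obtain ⟨s, hs, hs'⟩ := First_small (C := C') (sub_pos.2 (aa_lt_al h8)) (m := m / 4)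
    (by positivity)
  refine ⟨T, s ^ (40 : ℝ) * (m / 4), hT, by positivity, fun e he he1 => ?_⟩
  obtain ⟨η₁, hη₁, hη'⟩ := First_small (C := C * e ^ (-k)) hb (m := m / 4) (by positivity)
  refine ⟨min η₁ (1 / 4), by positivity, fun μ η z hμ hη hη0 hz => ?_⟩
  have := hμ.prob
  have hz0 : 0 < z.im := by linarith [(FirstA_ball hz).1]
  refine le_trans (mul_le_mul_of_nonneg_left ?_ (by positivity)) (First_low hμ h8 he hη hz0 hT hs)
  have h1 := htime μ η e z hμ hη he hz
  have h2 : ∫ w, (∫ t in (0 : ℝ)..T, FirstA_k κ η e (pf w) z t) ∂μ ≤ _ :=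
    hkill μ η e T z hμ hη he hT hz
  have h3 : ∫ w, (∫ t in (0 : ℝ)..T, FirstA_w κ η e (pf w) z (aa κ) t) ∂μ ≤ _ :=
    hwt μ η e T z hμ hη he (by linarith) hT hz
  have h4 := hη' η hη (hη0.trans (min_le_left _ _))
  have h5 := hs' s hs le_rfl
  have h6 := mul_le_mul_of_nonneg_left h3 (Real.rpow_nonneg hs.le (al κ - aa κ))
  have h7 : m ≤ ∫ w, NN κ η z 0 w * stp (cc η (pf w) z 0 / e) ∂μ := by
    have hM := mart_pw hμ hη hz0 hT (-be κ) (a := al κ)
      (by linarith [be_lt_al h0 h8, be_pos h8]) 0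
      (θ := fun c => stp (c / e)) (contDiff_stp.comp (contDiff_id.div_const e))
    have a1 := integral_mono_ae (integrable_const m)
      (hM.integrable_at (τ := fun _ => 0) measurable_const fun _ => ⟨le_rfl, hT.le⟩)
      (hμ.ae_zero.mono fun w hw => hm' ▸ First_start h0 h8 he he1 hη
        (hη0.trans (min_le_right _ _)) (continuous_pf w) hz hw)
    rw [integral_const, probReal_univ, one_smul] at a1
    exact a1
  linarith

end Vale.Agent.P164
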