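import Vale.Agent.P164.ODE
import Vale.Agent.P164.Fld

/-!
# P164 Flow

The truncated forward flow. `Y = im` solves the linear equation `Y' = -2 Y / den`, so
`Y t = Y 0 * exp (-∫ 2 / den)`.
-/

open MeasureTheory ProbabilityTheory Set Filter Topology Complex Function
open scoped NNReal ENNReal ComplexConjugate

noncomputable section

namespace Vale.Agent.P164

variable {η : ℝ} {w : ℝ → ℝ} {z : ℂ} {t : ℝ}

theorem fl_zero (hη : 0 < η) (hw : Continuous w) (z : ℂ) : fl η w z 0 = z := by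
  exact (nice_fld hη hw).sol_zero z

theorem fl_deriv (hη : 0 < η) (hw : Continuous w) (z : ℂ) (t : ℝ) :
    HasDerivAt (fl η w z) (fld η (w t) (fl η w z t)) t := by
  exact (nice_fld hη hw).hasDerivAt z t

theorem fl_cont (hη : 0 < η) (hw : Continuous w) (z : ℂ) : Continuous (fl η w z) := by
  exact continuous_iff_continuousAt.2 fun t => (fl_deriv hη hw z t).continuousAt

theorem fl_re_deriv (hη : 0 < η) (hw : Continuous w) (z : ℂ) (t : ℝ) :
    HasDerivAt (fun s => (fl η w z s).re) (fld η (w t) (fl η w z t)).re t := by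
  exact reCLM.hasFDerivAt.comp_hasDerivAt t (fl_deriv hη hw z t)

theorem fl_im_deriv (hη : 0 < η) (hw : Continuous w) (z : ℂ) (t : ℝ) :
    HasDerivAt (fun s => (fl η w z s).im) (fld η (w t) (fl η w z t)).im t := by
  exact imCLM.hasFDerivAt.comp_hasDerivAt t (fl_deriv hη hw z t)

theorem Flow_den (hη : 0 < η) (hw : Continuous w) (z : ℂ) :
    Continuous fun t => den η (w t) (fl η w z t) :=
  continuous_den.comp (continuous_const.prodMk (hw.prodMk (fl_cont hη hw z)))

theorem Flow_im (hη : 0 < η) (hw : Continuous w) (z : ℂ) : Continuous fun t => (fl η w z t).im :=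
  continuous_im.comp (fl_cont hη hw z)

theorem Flow_int {k : ℝ → ℝ} (hk : Continuous k) {c : ℝ} (ht : 0 ≤ t)
    (h : ∀ s ∈ Icc 0 t, k s ≤ c) : ∫ s in (0 : ℝ)..t, k s ≤ t * c := by
  simpa using intervalIntegral.integral_mono_on ht (hk.intervalIntegrable 0 t)
    (continuous_const.intervalIntegrable (μ := volume) 0 t) h

theorem Flow_k (hη : 0 < η) (hw : Continuous w) (z : ℂ) :
    Continuous fun s => 2 / den η (w s) (fl η w z s) :=
  continuous_const.div (Flow_den hη hw z) fun _ => (den_pos hη _ _).ne'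

theorem Flow_k' (hη : 0 < η) (hw : Continuous w) (z : ℂ) :
    Continuous fun s => 4 * (fl η w z s).im ^ 2 / den η (w s) (fl η w z s) ^ 2 :=
  (continuous_const.mul ((Flow_im hη hw z).pow 2)).div ((Flow_den hη hw z).pow 2)
    fun _ => (pow_pos (den_pos hη _ _) 2).ne'

theorem Flow_im_eq (hη : 0 < η) (hw : Continuous w) (z : ℂ) (t : ℝ) :
    (fl η w z t).im = z.im * Real.exp (-∫ s in (0 : ℝ)..t, 2 / den η (w s) (fl η w z s)) := by
  have hd : ∀ t, HasDerivAt (fun t => (fl η w z t).im *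
      Real.exp (∫ s in (0 : ℝ)..t, 2 / den η (w s) (fl η w z s))) 0 t := fun t => by
    refine ((fl_im_deriv hη hw z t).mul
      ((Flow_k hη hw z).integral_hasStrictDerivAt 0 t).hasDerivAt.exp).congr_deriv ?_
    rw [fld_im]
    ring
  have e := is_const_of_deriv_eq_zero (fun t => (hd t).differentiableAt) (fun t => (hd t).deriv) t 0
  simp only [fl_zero hη hw, intervalIntegral.integral_same, Real.exp_zero, mul_one] at e
  rw [← e, mul_assoc, ← Real.exp_add, add_neg_cancel, Real.exp_zero, mul_one]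

theorem Flow_sq (η x : ℝ) (ζ : ℂ) : ζ.im ^ 2 ≤ den η x ζ := by
  linarith [normSq_le_den η x ζ, sq_nonneg (ζ.re - x)]

theorem Flow_le (hη : 0 < η) (x : ℝ) (ζ : ℂ) {c : ℝ} (hc : 0 < c) (h : c ≤ den η x ζ) :
    4 * ζ.im ^ 2 / den η x ζ ^ 2 ≤ 4 / c := by
  have h1 := den_pos hη x ζ
  rw [div_le_div_iff₀ (by positivity) hc]
  nlinarith [mul_le_mul (Flow_sq η x ζ) h hc.le h1.le]

theorem fl_im_pos (hη : 0 < η) (hw : Continuous w) (hz : 0 < z.im) (t : ℝ) :
    0 < (fl η w z t).im := by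
  rw [Flow_im_eq hη hw]
  exact mul_pos hz (Real.exp_pos _)

theorem fl_im_anti (hη : 0 < η) (hw : Continuous w) (hz : 0 < z.im) :
    Antitone fun t => (fl η w z t).im := by
  refine antitone_of_hasDerivAt_nonpos (fl_im_deriv hη hw z) fun t => ?_
  have h1 := fl_im_pos hη hw hz t
  simp only [fld_im, Pi.zero_apply]
  exact div_nonpos_of_nonpos_of_nonneg (by linarith) (den_pos hη _ _).le

theorem fl_im_ge (hη : 0 < η) (hw : Continuous w) (hz : 0 < z.im) (ht : 0 ≤ t) :
    z.im * Real.exp (-2 * t / η ^ 2) ≤ (fl η w z t).im := by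
  rw [Flow_im_eq hη hw]
  refine mul_le_mul_of_nonneg_left (Real.exp_le_exp.2 ?_) hz.le
  have h := Flow_int (c := 2 / η ^ 2) (Flow_k hη hw z) ht fun s _ =>
    div_le_div_of_nonneg_left zero_le_two (by positivity) (sq_le_den hη.le _ _)
  calc -2 * t / η ^ 2 = -(t * (2 / η ^ 2)) := by ring
    _ ≤ _ := neg_le_neg h

theorem fl_im_sq_ge (hη : 0 < η) (hw : Continuous w) (z : ℂ) (ht : 0 ≤ t) :
    z.im ^ 2 - 4 * t ≤ (fl η w z t).im ^ 2 := by
  have hd := fun t => ((fl_im_deriv hη hw z t).pow 2).add ((hasDerivAt_id t).const_mul 4)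
  have hm := monotone_of_hasDerivAt_nonneg hd (fun t => by
    have h1 := den_pos hη (w t) (fl η w z t)
    have h2 := (div_le_one h1).2 (Flow_sq η (w t) (fl η w z t))
    simp only [fld_im, Pi.zero_apply]
    calc (0 : ℝ) ≤ 4 * (1 - (fl η w z t).im ^ 2 / den η (w t) (fl η w z t)) := by linarith
      _ = _ := by norm_num; ring) ht
  simp only [Pi.add_apply, Pi.pow_apply, fl_zero hη hw, id] at hm
  linarith

theorem norm_fl_sub_le (hη : 0 < η) (hw : Continuous w) (hz : 0 < z.im) (ht : 0 ≤ t) :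
    ‖fl η w z t - z‖ ≤ 2 * t / (fl η w z t).im := by
  have h := norm_image_sub_le_of_norm_deriv_le_segment' (C := 2 / (fl η w z t).im)
    (fun s _ => (fl_deriv hη hw z s).hasDerivWithinAt) (fun s hs => (norm_fld_le _ _ _).trans
      (div_le_div_of_nonneg_left zero_le_two (fl_im_pos hη hw hz t)
        ((fl_im_anti hη hw hz hs.2.le).trans (Real.le_sqrt_of_sq_le (Flow_sq _ _ _))))) t
    (right_mem_Icc.2 ht)
  rw [fl_zero hη hw] at h
  exact h.trans_eq (by ring)

theorem cc_zero (η : ℝ) (w : ℝ → ℝ) (z : ℂ) : cc η w z 0 = z.im := by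
  simp [cc]

theorem cc_deriv (hη : 0 < η) (hw : Continuous w) (z : ℂ) (t : ℝ) :
    HasDerivAt (cc η w z)
      (-(cc η w z t * (4 * (fl η w z t).im ^ 2 / den η (w t) (fl η w z t) ^ 2))) t := by
  refine (((Flow_k' hη hw z).integral_hasStrictDerivAt 0 t).hasDerivAt.neg.exp.const_mul
    z.im).congr_deriv ?_
  simp only [cc, Pi.neg_apply]
  ring

theorem cc_cont (hη : 0 < η) (hw : Continuous w) (z : ℂ) : Continuous (cc η w z) := by
  exact continuous_iff_continuousAt.2 fun t => (cc_deriv hη hw z t).continuousAt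

theorem cc_pos (hz : 0 < z.im) (η : ℝ) (w : ℝ → ℝ) (t : ℝ) : 0 < cc η w z t := by
  exact mul_pos hz (Real.exp_pos _)

theorem cc_anti (hη : 0 < η) (hw : Continuous w) (hz : 0 < z.im) : Antitone (cc η w z) := by
  refine antitone_of_hasDerivAt_nonpos (cc_deriv hη hw z) fun t => ?_
  have h1 := cc_pos hz η w t
  exact neg_nonpos.2 (by positivity)

theorem cc_ge (hη : 0 < η) (hw : Continuous w) (hz : 0 < z.im) (ht : 0 ≤ t) :
    z.im * Real.exp (-4 * t / η ^ 2) ≤ cc η w z t := by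
  refine mul_le_mul_of_nonneg_left (Real.exp_le_exp.2 ?_) hz.le
  have h := Flow_int (c := 4 / η ^ 2) (Flow_k' hη hw z) ht fun s _ =>
    Flow_le hη _ _ (by positivity) (sq_le_den hη.le _ _)
  calc -4 * t / η ^ 2 = -(t * (4 / η ^ 2)) := by ring
    _ ≤ _ := neg_le_neg h

theorem cc_ge' (hη : 0 < η) (hw : Continuous w) (hz : 0 < z.im) (ht : 0 ≤ t) :
    z.im * Real.exp (-4 * t / (fl η w z t).im ^ 2) ≤ cc η w z t := by
  refine mul_le_mul_of_nonneg_left (Real.exp_le_exp.2 ?_) hz.le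
  have h1 := fl_im_pos hη hw hz t
  have h := Flow_int (c := 4 / (fl η w z t).im ^ 2) (Flow_k' hη hw z) ht fun s hs =>
    Flow_le hη _ _ (by positivity)
      ((pow_le_pow_left₀ h1.le (fl_im_anti hη hw hz hs.2) 2).trans (Flow_sq _ _ _))
  calc -4 * t / (fl η w z t).im ^ 2 = -(t * (4 / (fl η w z t).im ^ 2)) := by ring
    _ ≤ _ := neg_le_neg h

theorem r2_pos (hη : 0 < η) (hw : Continuous w) (hz : 0 < z.im) (t x : ℝ) :
    0 < r2 η w z t x := by
  have h1 := fl_im_pos hη hw hz t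
  unfold r2
  positivity

theorem r2_eq (η : ℝ) (w : ℝ → ℝ) (z : ℂ) (t : ℝ) : r2 η w z t (w t) = ‖ZZ η w z t‖ ^ 2 := by
  rw [Complex.sq_norm, normSq_apply, r2, ZZ]
  simp [sq]

theorem ZZ_im (η : ℝ) (w : ℝ → ℝ) (z : ℂ) (t : ℝ) : (ZZ η w z t).im = (fl η w z t).im := by
  simp [ZZ]

theorem sn_eq (η : ℝ) (w : ℝ → ℝ) (z : ℂ) (t : ℝ) : sn η w z t = sS (ZZ η w z t) := by
  rw [sn, sS, r2_eq, ZZ_im, Real.sqrt_sq (norm_nonneg _)]

theorem sn_pos (hη : 0 < η) (hw : Continuous w) (hz : 0 < z.im) (t : ℝ) : 0 < sn η w z t := by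
  exact div_pos (fl_im_pos hη hw hz t) (Real.sqrt_pos.2 (r2_pos hη hw hz t _))

theorem sn_le_one (η : ℝ) (w : ℝ → ℝ) (z : ℂ) (t : ℝ) : sn η w z t ≤ 1 := by
  rw [sn_eq]
  exact div_le_one_of_le₀ (im_le_norm _) (norm_nonneg _)

theorem sn_cont (hη : 0 < η) (hw : Continuous w) (hz : 0 < z.im) : Continuous (sn η w z) := by
  have h : Continuous fun t => r2 η w z t (w t) :=
    (((continuous_re.comp (fl_cont hη hw z)).sub hw).pow 2).add ((Flow_im hη hw z).pow 2)
  exact (Flow_im hη hw z).div h.sqrt fun t => (Real.sqrt_pos.2 (r2_pos hη hw hz t _)).ne'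

theorem r2_cont (hη : 0 < η) (hw : Continuous w) (z : ℂ) :
    Continuous fun t => r2 η w z t (w t) := by
  exact (((continuous_re.comp (fl_cont hη hw z)).sub hw).pow 2).add ((Flow_im hη hw z).pow 2)

theorem pv_eq (hη : 0 < η) (hw : Continuous w) (hz : 0 < z.im) (p a b t : ℝ) :
    pv η w z p a b t = cc η w z t ^ p * (fl η w z t).im ^ b * sn η w z t ^ a := by
  have h1 := fl_im_pos hη hw hz t
  have h2 := r2_pos hη hw hz t (w t)
  rw [pv, pw, sn, Real.rpow_add h1, Real.div_rpow h1.le (Real.sqrt_nonneg _), Real.sqrt_eq_rpow,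
    ← Real.rpow_mul h2.le, neg_div, Real.rpow_neg h2.le, show 1 / 2 * a = a / 2 by ring]
  ring

theorem den_alive (hη : 0 < η) (h : η ≤ (fl η w z t).im) :
    den η (w t) (fl η w z t) = r2 η w z t (w t) := by
  exact den_eq (h.trans (le_abs_self _))

theorem clk_alive (hη : 0 < η) (h : η ≤ (fl η w z t).im) :
    clk η w z t = 4 * (fl η w z t).im ^ 2 / den η (w t) (fl η w z t) ^ 2 := by
  rw [den_alive hη h, clk, sn, div_pow, Real.sq_sqrt (by unfold r2; positivity)]
  ring

theorem kil_deriv (hη : 0 < η) (hw : Continuous w) (z : ℂ) (t : ℝ) :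
    HasDerivAt (kil η w z) (-kilD η w z t) t := by
  refine (((contDiff_stp.differentiable one_ne_zero) _).hasDerivAt.comp t
    ((fl_im_deriv hη hw z t).div_const η)).congr_deriv ?_
  rw [kilD]
  by_cases h : deriv stp ((fl η w z t).im / η) = 0
  · simp [h]
  · rw [fld_im, den_alive hη ((one_le_div hη).1 (deriv_stp_ne h).1.le)]
    ring

theorem kilD_nonneg (hη : 0 < η) (w : ℝ → ℝ) (z : ℂ) (t : ℝ) : 0 ≤ kilD η w z t := by
  rw [kilD]
  by_cases h : deriv stp ((fl η w z t).im / η) = 0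
  · simp [h]
  · have h1 := hη.le.trans ((one_le_div hη).1 (deriv_stp_ne h).1.le)
    exact mul_nonneg (deriv_stp_nonneg _) (by unfold r2; positivity)

theorem kilD_cont (hη : 0 < η) (hw : Continuous w) (hz : 0 < z.im) : Continuous (kilD η w z) := by
  exact ((contDiff_stp.continuous_deriv le_rfl).comp ((Flow_im hη hw z).div_const η)).mul
    ((continuous_const.mul (Flow_im hη hw z)).div (continuous_const.mul (r2_cont hη hw z))
      fun t => (mul_pos hη (r2_pos hη hw hz t _)).ne')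

end Vale.Agent.P164
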