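import Vale.Agent.P164.Flow

/-!
# P164 FlowS

Dependence of the forward flow on the driving function and on the truncation; shift and scaling.
All by uniqueness (`Nice.unique`, `Nice.congr`).
-/

open MeasureTheory ProbabilityTheory Set Filter Topology Complex Function
open scoped NNReal ENNReal ComplexConjugate

noncomputable section

namespace Vale.Agent.P164

variable {η : ℝ} {w w' : ℝ → ℝ} {z : ℂ} {t T : ℝ}

theorem FlowS_den {ρ : ℝ} (hρ : 0 < ρ) (η x a : ℝ) (ζ : ℂ) :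
    den (η / ρ) ((x - a) / ρ) ((ζ - a) / ρ) = den η x ζ / ρ ^ 2 := by
  simp only [den, div_ofReal_re, div_ofReal_im, sub_re, sub_im, ofReal_re, ofReal_im, sub_zero,
    abs_div, abs_of_pos hρ, max_div_div_right hρ.le]
  field_simp
  ring

theorem FlowS_fld {ρ : ℝ} (hρ : 0 < ρ) (η x a : ℝ) (ζ : ℂ) :
    fld (η / ρ) ((x - a) / ρ) ((ζ - a) / ρ) = ρ * fld η x ζ := by
  have h1 : (ρ : ℂ) ≠ 0 := ofReal_ne_zero.2 hρ.ne'
  have h2 : (ζ - a) / ρ - (((x - a) / ρ : ℝ) : ℂ) = (ζ - x) / ρ := by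
    push_cast
    ring
  rw [fld, fld, FlowS_den hρ, h2, map_div₀, conj_ofReal, ofReal_div, ofReal_pow, div_div_eq_mul_div,
    ← mul_div_assoc (ρ : ℂ)]
  refine congrArg (· / _) ?_
  field_simp

theorem fl_congr (hη : 0 < η) (hw : Continuous w) (hw' : Continuous w') (h : Agr T w w') (z : ℂ)
    (ht : t ∈ Icc 0 T) : fl η w z t = fl η w' z t := by
  exact (nice_fld hη hw).congr (nice_fld hη hw') (fun s hs => by rw [h s hs]) z t ht

theorem cc_congr (hη : 0 < η) (hw : Continuous w) (hw' : Continuous w') (h : Agr T w w') (z : ℂ)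
    (ht : t ∈ Icc 0 T) : cc η w z t = cc η w' z t := by
  rw [cc, cc, intervalIntegral.integral_congr fun s hs => ?_]
  rw [uIcc_of_le ht.1] at hs
  have h1 : s ∈ Icc 0 T := ⟨hs.1, hs.2.trans ht.2⟩
  simp only [fl_congr hη hw hw' h z h1, h s h1]

theorem Pay_congr (κ e : ℝ) (hη : 0 < η) (hw : Continuous w) (hw' : Continuous w') (h : Agr T w w')
    (z : ℂ) (ht : t ∈ Icc 0 T) : Pay κ η e w t z = Pay κ η e w' t z := by
  refine intervalIntegral.integral_congr fun s hs => ?_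
  rw [uIcc_of_le ht.1] at hs
  have h1 : s ∈ Icc 0 T := ⟨hs.1, hs.2.trans ht.2⟩
  simp only [pay, pv, pw, kil, clk, sn, r2, fl_congr hη hw hw' h z h1, cc_congr hη hw hw' h z h1,
    h s h1]

/-- as long as the height is at least `max η η'` the two truncations agree -/
theorem fl_eta {η' : ℝ} (hη : 0 < η) (hη' : 0 < η') (hw : Continuous w) (hz : 0 < z.im) (ht : 0 ≤ t)
    (h : η ≤ (fl η w z t).im) (h' : η' ≤ (fl η w z t).im) :
    fl η' w z t = fl η w z t ∧ cc η' w z t = cc η w z t := by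
  have hd : ∀ s ∈ Icc 0 t, den η' (w s) (fl η w z s) = den η (w s) (fl η w z s) := fun s hs => by
    have h1 := (fl_im_anti hη hw hz hs.2).trans (le_abs_self _)
    rw [den_eq (h.trans h1), den_eq (h'.trans h1)]
  have e : ∀ s ∈ Icc 0 t, fl η' w z s = fl η w z s := fun s hs => by
    have h1 := (nice_fld hη' hw).unique (fl_cont hη hw z).continuousOn (fun s hs => by
      rw [fld, hd s (Ico_subset_Icc_self hs)]
      exact (fl_deriv hη hw z s).hasDerivWithinAt) s hs
    rw [fl_zero hη hw] at h1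
    exact h1.symm
  refine ⟨e t ⟨ht, le_rfl⟩, ?_⟩
  rw [cc, cc, intervalIntegral.integral_congr fun s hs => ?_]
  rw [uIcc_of_le ht] at hs
  simp only [e s hs, hd s hs]

/-- `u ↦ (fl η w z (s + ρ ^ 2 u) - w s) / ρ` solves the equation driven by `w'` -/
theorem fl_shs {s ρ u : ℝ} (hη : 0 < η) (hρ : 0 < ρ) (hw : Continuous w) (hw' : Continuous w')
    (h : ShS s ρ T w w') (z : ℂ) (hu : u ∈ Icc 0 T) :
    fl η w z (s + ρ ^ 2 * u) = w s + ρ * fl (η / ρ) w' ((fl η w z s - w s) / ρ) u := by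
  have h1 : (ρ : ℂ) ≠ 0 := ofReal_ne_zero.2 hρ.ne'
  have hd : ∀ v, HasDerivAt (fun v => (fl η w z (s + ρ ^ 2 * v) - w s) / ρ)
      (ρ * fld η (w (s + ρ ^ 2 * v)) (fl η w z (s + ρ ^ 2 * v))) v := fun v => by
    refine ((((fl_deriv hη hw z (s + ρ ^ 2 * v)).scomp v
      (((hasDerivAt_id v).const_mul (ρ ^ 2)).const_add s)).sub_const _).div_const _).congr_deriv ?_
    rw [real_smul]
    push_cast
    field_simp
  have h2 := (nice_fld (div_pos hη hρ) hw').unique
    (fun v _ => (hd v).continuousAt.continuousWithinAt) (fun v hv => by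
      rw [h v (Ico_subset_Icc_self hv), FlowS_fld hρ]
      exact (hd v).hasDerivWithinAt) u hu
  rw [mul_zero, add_zero] at h2
  rw [fl.eq_1 (η / ρ), ← h2, mul_div_cancel₀ _ h1, add_sub_cancel]

theorem cc_shs {s ρ u : ℝ} (hη : 0 < η) (hρ : 0 < ρ) (hw : Continuous w) (hw' : Continuous w')
    (h : ShS s ρ T w w') (hz : 0 < z.im) (hu : u ∈ Icc 0 T) :
    cc η w z (s + ρ ^ 2 * u) * (fl η w z s).im
      = cc η w z s * (ρ * cc (η / ρ) w' ((fl η w z s - w s) / ρ) u) := by
  have h1 : (ρ : ℂ) ≠ 0 := ofReal_ne_zero.2 hρ.ne'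
  have hc : Continuous fun v => 4 * (fl η w z v).im ^ 2 / den η (w v) (fl η w z v) ^ 2 :=
    (((continuous_im.comp (fl_cont hη hw z)).pow 2).const_mul 4).div
      ((continuous_den.comp (continuous_const.prodMk (hw.prodMk (fl_cont hη hw z)))).pow 2)
      fun v => pow_ne_zero _ (den_pos hη _ _).ne'
  have e : ∫ v in (0 : ℝ)..u, 4 * (fl (η / ρ) w' ((fl η w z s - w s) / ρ) v).im ^ 2 /
      den (η / ρ) (w' v) (fl (η / ρ) w' ((fl η w z s - w s) / ρ) v) ^ 2 =
      ∫ v in s..s + ρ ^ 2 * u, 4 * (fl η w z v).im ^ 2 / den η (w v) (fl η w z v) ^ 2 := by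
    have h2 := intervalIntegral.mul_integral_comp_add_mul (a := 0) (b := u) (c := ρ ^ 2) (d := s)
      (f := fun v => 4 * (fl η w z v).im ^ 2 / den η (w v) (fl η w z v) ^ 2)
    rw [mul_zero, add_zero] at h2
    rw [← h2, ← intervalIntegral.integral_const_mul]
    refine intervalIntegral.integral_congr fun v hv => ?_
    rw [uIcc_of_le hu.1] at hv
    have h3 : v ∈ Icc 0 T := ⟨hv.1, hv.2.trans hu.2⟩
    have h4 : fl (η / ρ) w' ((fl η w z s - w s) / ρ) v =
        (fl η w z (s + ρ ^ 2 * v) - w s) / ρ := by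
      rw [fl_shs hη hρ hw hw' h z h3, add_sub_cancel_left, mul_div_cancel_left₀ _ h1]
    simp only [h4, h v h3, FlowS_den hρ, div_ofReal_im, sub_im, ofReal_im, sub_zero]
    field_simp
  rw [cc, cc, cc, e, ← intervalIntegral.integral_add_adjacent_intervals
    (hc.intervalIntegrable 0 s) (hc.intervalIntegrable s _), neg_add, Real.exp_add, div_ofReal_im,
    sub_im, ofReal_im, sub_zero]
  field_simp

end Vale.Agent.P164
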