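import Vale.Agent.P164.Flow
import Vale.Agent.P164.FlowS

/-!
# P164 FlowB

Dependence of the forward flow on the driving function and on the truncation; shift and scaling.
All by uniqueness (`Nice.unique`, `Nice.congr`).
-/

open MeasureTheory ProbabilityTheory Set Filter Topology Complex Function
open scoped NNReal ENNReal ComplexConjugate

noncomputable section

namespace Vale.Agent.P164

variable {η : ℝ} {w w' : ℝ → ℝ} {z : ℂ} {t T : ℝ}

theorem pay_cont (κ e : ℝ) (hη : 0 < η) (hw : Continuous w) (hz : 0 < z.im) :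
    Continuous (pay κ η e w z) := by
  have h1 := cc_cont hη hw z
  have h2 := sn_cont hη hw hz
  have h3 : Continuous fun t => (fl η w z t).im := continuous_im.comp (fl_cont hη hw z)
  have h4 : Continuous (pv η w z (-be κ) (al κ + 40) 0) := by
    have h5 : pv η w z (-be κ) (al κ + 40) 0 = fun t =>
        cc η w z t ^ (-be κ) * (fl η w z t).im ^ (0 : ℝ) * sn η w z t ^ (al κ + 40) :=
      funext fun t => pv_eq hη hw hz _ _ _ t
    rw [h5]
    exact ((h1.rpow_const fun t => Or.inl (cc_pos hz η w t).ne').mul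
      (h3.rpow_const fun t => Or.inr le_rfl)).mul
      (h2.rpow_const fun t => Or.inl (sn_pos hη hw hz t).ne')
  have h5 : Continuous (kil η w z) := contDiff_stp.continuous.comp (h3.div_const η)
  have h6 : Continuous fun t => deriv stp (cc η w z t / e) :=
    (contDiff_stp.continuous_deriv le_rfl).comp (h1.div_const e)
  have h7 : Continuous (clk η w z) :=
    ((h2.pow 2).const_mul 4).div (r2_cont hη hw z) fun t => (r2_pos hη hw hz t _).ne'
  exact ((h4.mul h5).mul (h6.mul (h1.div_const e))).mul h7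

theorem pay_nonneg (κ : ℝ) {e : ℝ} (he : 0 < e) (η : ℝ) (w : ℝ → ℝ) (hη : 0 < η)
    (hw : Continuous w) (hz : 0 < z.im) (t : ℝ) : 0 ≤ pay κ η e w z t := by
  have h1 := cc_pos hz η w t
  have h2 := sn_pos hη hw hz t
  have h3 := fl_im_pos hη hw hz t
  have h4 := r2_pos hη hw hz t (w t)
  have h5 := stp_nonneg ((fl η w z t).im / η)
  have h6 := deriv_stp_nonneg (cc η w z t / e)
  rw [pay, pv_eq hη hw hz, kil, clk]
  positivity

theorem pay_ne {κ e : ℝ} (he : 0 < e) (hη : 0 < η) (h : pay κ η e w z t ≠ 0) :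
    η < (fl η w z t).im ∧ e < cc η w z t ∧ cc η w z t < 2 * e := by
  have h1 : kil η w z t ≠ 0 := fun h0 => h (by rw [pay, h0]; ring)
  have h2 : deriv stp (cc η w z t / e) ≠ 0 := fun h0 => h (by rw [pay, h0]; ring)
  obtain ⟨h3, h4⟩ := deriv_stp_ne h2
  refine ⟨?_, (one_lt_div he).1 h3, (div_lt_iff₀ he).1 h4⟩
  by_contra h5
  exact h1 (stp_zero ((div_le_one hη).2 (not_lt.1 h5)))

theorem Pay_nonneg (κ : ℝ) {e : ℝ} (he : 0 < e) (hη : 0 < η) (hw : Continuous w) (hz : 0 < z.im)
    (hT : 0 ≤ T) : 0 ≤ Pay κ η e w T z := by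
  exact intervalIntegral.integral_nonneg hT fun u _ => pay_nonneg κ he η w hη hw hz u

/-- `pay ≤ e ^ (-β) * (- d/dt stp (cc / e))` -/
theorem Pay_le {κ e : ℝ} (h0 : 0 < κ) (h8 : κ < 8) (he : 0 < e) (hη : 0 < η) (hw : Continuous w)
    (hz : 0 < z.im) (hT : 0 ≤ T) : Pay κ η e w T z ≤ e ^ (-be κ) := by
  have hc : Continuous fun v => 4 * (fl η w z v).im ^ 2 / den η (w v) (fl η w z v) ^ 2 :=
    (((continuous_im.comp (fl_cont hη hw z)).pow 2).const_mul 4).div
      ((continuous_den.comp (continuous_const.prodMk (hw.prodMk (fl_cont hη hw z)))).pow 2)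
      fun v => pow_ne_zero _ (den_pos hη _ _).ne'
  have h1 := cc_cont hη hw z
  have h6 : Continuous fun t => deriv stp (cc η w z t / e) :=
    (contDiff_stp.continuous_deriv le_rfl).comp (h1.div_const e)
  have hD : Continuous fun t => deriv stp (cc η w z t / e) * (cc η w z t / e) *
      (4 * (fl η w z t).im ^ 2 / den η (w t) (fl η w z t) ^ 2) := (h6.mul (h1.div_const e)).mul hc
  have hd : ∀ t, HasDerivAt (fun t => -stp (cc η w z t / e)) (deriv stp (cc η w z t / e) *
      (cc η w z t / e) * (4 * (fl η w z t).im ^ 2 / den η (w t) (fl η w z t) ^ 2)) t := fun t => by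
    have h2 := ((contDiff_stp.differentiable one_ne_zero (cc η w z t / e)).hasDerivAt.comp t
      ((cc_deriv hη hw z t).div_const e)).neg
    refine HasDerivAt.congr_deriv h2 ?_
    ring
  have hb := be_pos h8
  have hle : ∀ t, pay κ η e w z t ≤ e ^ (-be κ) * (deriv stp (cc η w z t / e) * (cc η w z t / e) *
      (4 * (fl η w z t).im ^ 2 / den η (w t) (fl η w z t) ^ 2)) := fun t => by
    have h2 := cc_pos hz η w t
    have h3 := deriv_stp_nonneg (cc η w z t / e)
    have h4 : 0 ≤ deriv stp (cc η w z t / e) * (cc η w z t / e) *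
      (4 * (fl η w z t).im ^ 2 / den η (w t) (fl η w z t) ^ 2) := by positivity
    by_cases h : pay κ η e w z t = 0
    · rw [h]
      positivity
    obtain ⟨h5, h7, -⟩ := pay_ne he hη h
    rw [pay, clk_alive hη h5.le, mul_assoc]
    refine mul_le_mul_of_nonneg_right ?_ h4
    rw [pv_eq hη hw hz, Real.rpow_zero, mul_one]
    have h8' : cc η w z t ^ (-be κ) ≤ e ^ (-be κ) :=
      Real.rpow_le_rpow_of_nonpos he h7.le (by linarith)
    have h9 : sn η w z t ^ (al κ + 40) ≤ 1 :=
      Real.rpow_le_one (sn_pos hη hw hz t).le (sn_le_one η w z t) (by linarith [be_lt_al h0 h8])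
    have h10 : 0 ≤ e ^ (-be κ) := by positivity
    calc cc η w z t ^ (-be κ) * sn η w z t ^ (al κ + 40) * kil η w z t
        ≤ e ^ (-be κ) * 1 * 1 :=
          mul_le_mul (mul_le_mul h8' h9 (Real.rpow_nonneg (sn_pos hη hw hz t).le _) h10)
            (stp_le_one _) (stp_nonneg _) (by positivity)
      _ = _ := by ring
  refine (intervalIntegral.integral_mono_on hT ((pay_cont κ e hη hw hz).intervalIntegrable _ _)
    ((hD.const_mul _).intervalIntegrable _ _) fun t _ => hle t).trans ?_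
  rw [intervalIntegral.integral_const_mul, intervalIntegral.integral_eq_sub_of_hasDerivAt
    (fun t _ => hd t) (hD.intervalIntegrable _ _)]
  refine mul_le_of_le_one_right (by positivity) ?_
  linarith [stp_nonneg (cc η w z T / e), stp_le_one (cc η w z 0 / e)]

theorem FlowB_pay {κ e δ u : ℝ} (hη : 0 < η) (hδ : 0 < δ) (hw : Continuous w)
    (hw' : Continuous w') (h0 : w 0 = 0) (h : ShS 0 δ T w w') (hz : 0 < z.im) (hu : u ∈ Icc 0 T) :
    δ ^ 2 * pay κ η e w (δ * z) (δ ^ 2 * u) = δ ^ (-be κ) * pay κ (η / δ) (e / δ) w' z u := by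
  have h1 : (δ : ℂ) ≠ 0 := ofReal_ne_zero.2 hδ.ne'
  have hη' := div_pos hη hδ
  have hz' : 0 < ((δ : ℂ) * z).im := by
    rw [im_ofReal_mul]
    positivity
  have e0 : (fl η w (δ * z) 0 - w 0) / δ = z := by
    rw [fl_zero hη hw, h0, ofReal_zero, sub_zero, mul_div_cancel_left₀ _ h1]
  have e1 : fl η w (δ * z) (δ ^ 2 * u) = δ * fl (η / δ) w' z u := by
    have h2 := fl_shs hη hδ hw hw' h (δ * z) hu
    rwa [e0, h0, zero_add, ofReal_zero, zero_add] at h2
  have e2 : cc η w (δ * z) (δ ^ 2 * u) = δ * cc (η / δ) w' z u := by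
    have h2 := cc_shs hη hδ hw hw' h hz' hu
    rw [e0, zero_add, fl_zero hη hw, cc_zero, mul_comm] at h2
    exact mul_left_cancel₀ hz'.ne' h2
  have e3 : w (δ ^ 2 * u) = δ * w' u := by
    rw [h u hu, h0, zero_add, sub_zero, mul_div_cancel₀ _ hδ.ne']
  have e4 : r2 η w (δ * z) (δ ^ 2 * u) (w (δ ^ 2 * u)) = δ ^ 2 * r2 (η / δ) w' z u (w' u) := by
    rw [r2, r2, e1, e3, re_ofReal_mul, im_ofReal_mul]
    ring
  have e5 : sn η w (δ * z) (δ ^ 2 * u) = sn (η / δ) w' z u := by
    rw [sn, sn, e4, e1, im_ofReal_mul, Real.sqrt_mul (sq_nonneg δ), Real.sqrt_sq hδ.le,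
      mul_div_mul_left _ _ hδ.ne']
  have e6 : kil η w (δ * z) (δ ^ 2 * u) = kil (η / δ) w' z u := by
    rw [kil, kil, e1, im_ofReal_mul, div_div_eq_mul_div, mul_comm]
  have e7 : cc η w (δ * z) (δ ^ 2 * u) / e = cc (η / δ) w' z u / (e / δ) := by
    rw [e2, div_div_eq_mul_div, mul_comm]
  rw [pay, pay, pv_eq hη hw hz', pv_eq hη' hw' hz, e7, e6, clk, clk, e5, e4, e2, Real.rpow_zero,
    Real.rpow_zero, Real.mul_rpow hδ.le (cc_pos hz _ _ _).le]
  field_simp

/-- scaling of the density: `pay` scales like `δ ^ (-β - 2)` -/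
theorem Pay_scale {κ e δ : ℝ} (he : 0 < e) (hη : 0 < η) (hδ : 0 < δ) (hw : Continuous w)
    (hw' : Continuous w') (hT : 0 ≤ T) (h0 : w 0 = 0) (h : ShS 0 δ T w w') (hz : 0 < z.im) :
    Pay κ η e w (δ ^ 2 * T) (δ * z) = δ ^ (-be κ) * Pay κ (η / δ) (e / δ) w' T z := by
  have h1 := intervalIntegral.mul_integral_comp_mul_left (a := 0) (b := T) (c := δ ^ 2)
    (f := pay κ η e w (δ * z))
  rw [mul_zero] at h1
  rw [Pay, Pay, ← h1, ← intervalIntegral.integral_const_mul, ← intervalIntegral.integral_const_mul]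
  refine intervalIntegral.integral_congr fun u hu => ?_
  rw [uIcc_of_le hT] at hu
  exact FlowB_pay hη hδ hw hw' h0 h hz hu

/-- change of variables `z ↦ δ z` (`Measure.integral_comp_smul` or `setIntegral` version) -/
theorem mass_scale {κ e δ r : ℝ} {x : ℂ} (he : 0 < e) (hη : 0 < η) (hδ : 0 < δ) (hw : Continuous w)
    (hw' : Continuous w') (hT : 0 ≤ T) (h0 : w 0 = 0) (h : ShS 0 δ T w w') (hx : r ≤ x.im) :
    mass κ η e w (δ ^ 2 * T) (Metric.ball (δ * x) (δ * r))
      = δ ^ dd κ * mass κ (η / δ) (e / δ) w' T (Metric.ball x r) := by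
  have h1 := Measure.setIntegral_comp_smul_of_pos volume (Pay κ η e w (δ ^ 2 * T))
    (Metric.ball x r) hδ
  rw [smul_ball hδ.ne', Real.norm_of_nonneg hδ.le, finrank_real_complex, real_smul,
    smul_eq_mul] at h1
  have h2 : ∫ z in Metric.ball x r, Pay κ η e w (δ ^ 2 * T) (δ • z) =
      δ ^ (-be κ) * mass κ (η / δ) (e / δ) w' T (Metric.ball x r) := by
    rw [mass, ← integral_const_mul]
    refine setIntegral_congr_fun Metric.isOpen_ball.measurableSet fun z hz => ?_
    have h3 : |(z - x).im| < r := (abs_im_le_norm _).trans_lt (mem_ball_iff_norm.1 hz)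
    rw [sub_im] at h3
    exact Pay_scale he hη hδ hw hw' hT h0 h (by linarith [(abs_lt.1 h3).1])
  have h3 : δ ^ dd κ = δ ^ 2 * δ ^ (-be κ) := by
    rw [← Real.rpow_two, ← Real.rpow_add hδ, ← dd_add_be κ, add_neg_cancel_right]
  rw [h3, mul_assoc, ← h2, h1, mul_inv_cancel_left₀ (by positivity), mass]

end Vale.Agent.P164
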