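import Vale.Agent.P164.Fld

/-!
# P164 Gauge

The gauge function.
-/

open MeasureTheory ProbabilityTheory Set Filter Topology Complex Function
open scoped NNReal ENNReal ComplexConjugate

noncomputable section

namespace Vale.Agent.P164

variable {κ : ℝ}

theorem gaugeFn_eq (κ r : ℝ) :
    gaugeFn κ r = r ^ dd κ * Real.log (Real.log (1 / r)) ^ (be κ / 2) := by
  have e : (2 - (1 + κ / 8)) / 2 = be κ / 2 := by
    unfold be
    ring
  rw [gaugeFn, e, dd]

theorem Gauge_log : Tendsto (fun r : ℝ => Real.log (1 / r)) (𝓝[>] 0) atTop := by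
  simp only [one_div]
  exact Real.tendsto_log_atTop.comp tendsto_inv_nhdsGT_zero

theorem Gauge_ll : Tendsto (fun r : ℝ => Real.log (Real.log (1 / r))) (𝓝[>] 0) atTop :=
  Real.tendsto_log_atTop.comp Gauge_log

theorem Gauge_be (h8 : κ < 8) : 0 ≤ be κ / 2 := by
  unfold be
  linarith

theorem gaugeFn_pos (κ : ℝ) : ∀ᶠ r in 𝓝[>] (0 : ℝ), 0 < gaugeFn κ r := by
  filter_upwards [Gauge_ll.eventually_gt_atTop 0, self_mem_nhdsWithin] with r h1 h2
  rw [gaugeFn_eq]
  exact mul_pos (Real.rpow_pos_of_pos h2 _) (Real.rpow_pos_of_pos h1 _)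

/-- `log (log (1 / (K r))) ≤ 2 log (log (1 / r))` for small `r` -/
theorem gaugeFn_mul (h8 : κ < 8) {K : ℝ} (hK : 0 < K) :
    ∃ C : ℝ, 0 < C ∧ ∀ᶠ r in 𝓝[>] (0 : ℝ), gaugeFn κ (K * r) ≤ C * gaugeFn κ r := by
  refine ⟨K ^ dd κ * 2 ^ (be κ / 2), by positivity, ?_⟩
  filter_upwards [Gauge_log.eventually_ge_atTop (|Real.log K| + 2), self_mem_nhdsWithin]
    with r h1 h2
  have hr : 0 < r := h2
  have e : Real.log (1 / (K * r)) = Real.log (1 / r) - Real.log K := by
    rw [one_div, one_div, Real.log_inv, Real.log_inv, Real.log_mul hK.ne' hr.ne']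
    ring
  have a1 := le_abs_self (Real.log K)
  have a2 := neg_abs_le (Real.log K)
  have a0 := abs_nonneg (Real.log K)
  set u := Real.log (1 / r) with hu
  have h3 : Real.log (u - Real.log K) ≤ 2 * Real.log u := by
    have h4 : Real.log (u - Real.log K) ≤ Real.log (u ^ 2) :=
      Real.log_le_log (by linarith) (by nlinarith)
    rw [Real.log_pow] at h4
    exact_mod_cast h4
  have h5 : 0 ≤ Real.log (u - Real.log K) := Real.log_nonneg (by linarith)
  have h6 : 0 ≤ Real.log u := Real.log_nonneg (by linarith)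
  have h7 := Real.rpow_le_rpow h5 h3 (Gauge_be h8)
  rw [Real.mul_rpow zero_le_two h6] at h7
  rw [gaugeFn_eq, gaugeFn_eq, e, Real.mul_rpow hK.le hr.le, ← hu]
  calc K ^ dd κ * r ^ dd κ * Real.log (u - Real.log K) ^ (be κ / 2)
      ≤ K ^ dd κ * r ^ dd κ * (2 ^ (be κ / 2) * Real.log u ^ (be κ / 2)) :=
        mul_le_mul_of_nonneg_left h7 (by positivity)
    _ = _ := by ring

/-- a threshold below which `log (log (1 / r)) ≥ 1` -/
theorem Gauge_thr : ∃ r₀ : ℝ, 0 < r₀ ∧ ∀ r ∈ Ioc 0 r₀,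
    1 ≤ Real.log (1 / r) ∧ 1 ≤ Real.log (Real.log (1 / r)) := by
  have h := (Gauge_log.eventually_ge_atTop 1).and (Gauge_ll.eventually_ge_atTop 1)
  obtain ⟨b, hb, h'⟩ := (mem_nhdsGT_iff_exists_Ioc_subset).1 h
  exact ⟨b, hb, fun r hr => h' hr⟩

theorem Gauge_split {r : ℝ} (hr : 0 < r) (h : 0 ≤ Real.log (Real.log (1 / r))) :
    gaugeFn κ r = r ^ (dd κ - be κ / 2) * (r * Real.log (Real.log (1 / r))) ^ (be κ / 2) := by
  rw [gaugeFn_eq, Real.mul_rpow hr.le h, ← mul_assoc, ← Real.rpow_add hr, sub_add_cancel]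

theorem Gauge_exp (h0 : 0 < κ) : 0 < dd κ - be κ / 2 := by
  unfold dd be
  linarith

theorem Gauge_mono {r s : ℝ} (hr : 0 < r) (hrs : r ≤ s) (h1 : 1 ≤ Real.log (1 / s))
    (h2 : 1 ≤ Real.log (Real.log (1 / s))) :
    r * Real.log (Real.log (1 / r)) ≤ s * Real.log (Real.log (1 / s)) := by
  have hs : 0 < s := hr.trans_le hrs
  have huv : Real.log (1 / s) ≤ Real.log (1 / r) :=
    Real.log_le_log (by positivity) (one_div_le_one_div_of_le hr hrs)
  have e : Real.exp (Real.log (1 / r) - Real.log (1 / s)) * r = s := by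
    rw [Real.exp_sub, Real.exp_log (by positivity), Real.exp_log (by positivity)]
    field_simp
  set u := Real.log (1 / r)
  set v := Real.log (1 / s)
  have hv : 0 < v := by linarith
  have h3 : Real.log u - Real.log v ≤ u - v := by
    rw [← Real.log_div (by linarith) hv.ne']
    refine (Real.log_le_sub_one_of_pos (div_pos (by linarith) hv)).trans ?_
    rw [sub_le_iff_le_add, div_le_iff₀ hv]
    nlinarith
  have h4 := Real.add_one_le_exp (u - v)
  have h5 : Real.log u ≤ Real.exp (u - v) * Real.log v := by nlinarith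
  calc r * Real.log u ≤ r * (Real.exp (u - v) * Real.log v) := mul_le_mul_of_nonneg_left h5 hr.le
    _ = Real.exp (u - v) * r * Real.log v := by ring
    _ = _ := by rw [e]

theorem Gauge_monoOn (h0 : 0 < κ) (h8 : κ < 8) {r₀ : ℝ} (H : ∀ r ∈ Ioc 0 r₀,
    1 ≤ Real.log (1 / r) ∧ 1 ≤ Real.log (Real.log (1 / r))) :
    MonotoneOn (gaugeFn κ) (Ioc 0 r₀) := by
  intro r hr s hs hrs
  have a1 := (H r hr).2
  have a2 := (H s hs).2
  have hr0 := hr.1
  have hs0 := hs.1
  rw [Gauge_split hr.1 (by linarith), Gauge_split hs.1 (by linarith)]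
  refine mul_le_mul (Real.rpow_le_rpow hr.1.le hrs (Gauge_exp h0).le)
    (Real.rpow_le_rpow (mul_nonneg hr.1.le (by linarith))
      (Gauge_mono hr.1 hrs (H s hs).1 a2) (Gauge_be h8))
    (Real.rpow_nonneg (mul_nonneg hr.1.le (by linarith)) _) (Real.rpow_nonneg hs.1.le _)

theorem Gauge_zero (h0 : 0 < κ) : gaugeFn κ 0 = 0 := by
  rw [gaugeFn, Real.zero_rpow (by linarith : (0 : ℝ) < 1 + κ / 8).ne', zero_mul]

theorem Gauge_le (h8 : κ < 8) {r : ℝ} (hr : 0 < r) (h1 : 1 ≤ Real.log (1 / r))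
    (h2 : 1 ≤ Real.log (Real.log (1 / r))) : gaugeFn κ r ≤ r ^ (dd κ - be κ / 2) := by
  rw [Gauge_split hr (by linarith)]
  refine mul_le_of_le_one_right (Real.rpow_nonneg hr.le _)
    (Real.rpow_le_one (mul_nonneg hr.le (by linarith)) ?_ (Gauge_be h8))
  have a1 := Real.log_le_sub_one_of_pos (by linarith : 0 < Real.log (1 / r))
  have a2 := Real.log_le_sub_one_of_pos (by positivity : 0 < 1 / r)
  calc r * Real.log (Real.log (1 / r)) ≤ r * (1 / r) :=
        mul_le_mul_of_nonneg_left (by linarith) hr.le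
    _ = 1 := by field_simp

/-- for `r ≤ r₀` small, `r log (log (1 / r))` is increasing and tends to `0`, and
`gaugeFn = r ^ (d - β / 2) (r log (log (1 / r))) ^ (β / 2)`; take `h r = gaugeFn κ (min r r₀)` for `r > 0` -/
theorem exists_gauge (h0 : 0 < κ) (h8 : κ < 8) :
    ∃ h, IsGauge h ∧ ∀ᶠ r in 𝓝[>] (0 : ℝ), h r = gaugeFn κ r := by
  obtain ⟨r₀, hr₀, H⟩ := Gauge_thr
  have hpos : ∀ r ∈ Ioc 0 r₀, 0 < gaugeFn κ r := fun r hr => by
    rw [gaugeFn_eq]
    exact mul_pos (Real.rpow_pos_of_pos hr.1 _)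
      (Real.rpow_pos_of_pos (by linarith [(H r hr).2]) _)
  have hnn : ∀ r ∈ Icc 0 r₀, 0 ≤ gaugeFn κ r := fun r hr => by
    rcases hr.1.eq_or_lt with h | h
    · rw [← h, Gauge_zero h0]
    · exact (hpos r ⟨h, hr.2⟩).le
  have hc : ContinuousOn (gaugeFn κ) (Icc 0 r₀) := by
    intro r hr
    rcases hr.1.eq_or_lt with h | h
    · subst h
      have t1 : Tendsto (fun r : ℝ => r ^ (dd κ - be κ / 2)) (𝓝[Icc 0 r₀] 0) (𝓝 0) := by
        have := (Real.continuousAt_rpow_const 0 (dd κ - be κ / 2)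
          (Or.inr (Gauge_exp h0).le)).tendsto
        rw [Real.zero_rpow (Gauge_exp h0).ne'] at this
        exact this.mono_left nhdsWithin_le_nhds
      unfold ContinuousWithinAt
      rw [Gauge_zero h0]
      refine squeeze_zero' ?_ ?_ t1
      · filter_upwards [self_mem_nhdsWithin] with s hs using hnn s hs
      · filter_upwards [self_mem_nhdsWithin] with s hs
        rcases hs.1.eq_or_lt with h | h
        · rw [← h, Gauge_zero h0]
          exact Real.rpow_nonneg le_rfl _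
        · exact Gauge_le h8 h (H s ⟨h, hs.2⟩).1 (H s ⟨h, hs.2⟩).2
    · have a1 := (H r ⟨h, hr.2⟩).1
      have c1 : ContinuousAt (fun s : ℝ => 1 / s) r :=
        continuousAt_const.div continuousAt_id h.ne'
      have c2 : ContinuousAt (fun s : ℝ => Real.log (Real.log (1 / s))) r :=
        (c1.log (by positivity)).log (by linarith)
      have c3 : ContinuousAt (fun s : ℝ =>
          s ^ dd κ * Real.log (Real.log (1 / s)) ^ (be κ / 2)) r :=
        (continuousAt_id.rpow_const (Or.inl h.ne')).mul (c2.rpow_const (Or.inr (Gauge_be h8)))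
      have e : gaugeFn κ = fun s : ℝ => s ^ dd κ * Real.log (Real.log (1 / s)) ^ (be κ / 2) :=
        funext (gaugeFn_eq κ)
      rw [e]
      exact c3.continuousWithinAt
  have hm : ∀ r ∈ Ici (0 : ℝ), min r r₀ ∈ Icc 0 r₀ := fun r hr =>
    ⟨le_min hr hr₀.le, min_le_right _ _⟩
  refine ⟨fun r => gaugeFn κ (min r r₀), ⟨?_, ?_, ?_, fun r hr => ?_⟩, ?_⟩
  · exact hc.comp (continuous_id.min continuous_const).continuousOn hm
  · intro r hr s hs hrs
    rcases (mem_Ici.1 hr).eq_or_lt with h | h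
    · simp only [← h, min_eq_left hr₀.le, Gauge_zero h0]
      exact hnn _ (hm s hs)
    · exact Gauge_monoOn h0 h8 H ⟨lt_min h hr₀, min_le_right _ _⟩
        ⟨lt_min (h.trans_le hrs) hr₀, min_le_right _ _⟩ (min_le_min_right _ hrs)
  · simp only [min_eq_left hr₀.le, Gauge_zero h0]
  · exact hpos _ ⟨lt_min hr hr₀, min_le_right _ _⟩
  · filter_upwards [Ioc_mem_nhdsGT hr₀] with r hr
    rw [min_eq_left hr.2]

theorem gaugeFn_mono (h0 : 0 < κ) (h8 : κ < 8) : ∃ r₀ : ℝ, 0 < r₀ ∧ MonotoneOn (gaugeFn κ) (Ioc 0 r₀) := by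
  obtain ⟨r₀, hr₀, H⟩ := Gauge_thr
  exact ⟨r₀, hr₀, Gauge_monoOn h0 h8 H⟩

/-- dyadic scales -/
theorem dyadic_le (h8 : κ < 8) : ∃ C : ℝ, 0 < C ∧ ∀ᶠ j : ℕ in atTop,
    ((1 / 2 : ℝ) ^ j) ^ dd κ * √(Real.log j) ^ be κ ≤ C * gaugeFn κ ((1 / 2) ^ j) := by
  refine ⟨2 ^ (be κ / 2), by positivity, ?_⟩
  filter_upwards [eventually_ge_atTop 3] with j hj
  have hj' : (3 : ℝ) ≤ j := by exact_mod_cast hj
  have l2 := Real.log_two_gt_d9
  have e : Real.log (1 / (1 / 2 : ℝ) ^ j) = j * Real.log 2 := by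
    rw [one_div_pow, one_div_one_div, Real.log_pow]
  have h1 : 0 ≤ Real.log (j : ℝ) := Real.log_nonneg (by linarith)
  have h2 : 0 ≤ Real.log (j * Real.log 2) := Real.log_nonneg (by nlinarith)
  have h3 : Real.log (j : ℝ) ≤ 2 * Real.log (j * Real.log 2) := by
    have h5 : (1 : ℝ) ≤ j * Real.log 2 ^ 2 := by nlinarith
    have h4 : Real.log (j : ℝ) ≤ Real.log ((j * Real.log 2) ^ 2) :=
      Real.log_le_log (by linarith) (by nlinarith)
    rw [Real.log_pow] at h4
    exact_mod_cast h4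
  have h7 := Real.rpow_le_rpow h1 h3 (Gauge_be h8)
  rw [Real.mul_rpow zero_le_two h2] at h7
  rw [gaugeFn_eq, e, Real.sqrt_eq_rpow, ← Real.rpow_mul h1,
    show 1 / 2 * be κ = be κ / 2 by ring]
  calc ((1 / 2 : ℝ) ^ j) ^ dd κ * Real.log j ^ (be κ / 2)
      ≤ ((1 / 2 : ℝ) ^ j) ^ dd κ * (2 ^ (be κ / 2) * Real.log (j * Real.log 2) ^ (be κ / 2)) :=
        mul_le_mul_of_nonneg_left h7 (by positivity)
    _ = _ := by ring

theorem hausH_eq (h : ℝ → ℝ) (E : Set ℂ) : hausH h E = ⨆ (δ : ℝ) (_ : 0 < δ), hausD h δ E := by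
  rfl

theorem hausH_mono (h : ℝ → ℝ) {E E' : Set ℂ} (hE : E ⊆ E') : hausH h E ≤ hausH h E' := by
  unfold hausH
  refine iSup₂_mono fun δ _ => iInf_mono fun U => le_iInf fun hU => ?_
  exact iInf_le (fun _ : E ⊆ ⋃ j, U j => ⨅ (_ : ∀ j, Metric.ediam (U j) ≤ ENNReal.ofReal δ),
    ∑' j, ENNReal.ofReal (h (Metric.diam (U j)))) (hE.trans hU)

end Vale.Agent.P164
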