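import Vale.Agent.P164.DynkA

/-!
# P164 JetInt

Calculus of jets.
-/

open MeasureTheory ProbabilityTheory Set Filter Topology Complex Function
open scoped NNReal ENNReal ComplexConjugate

noncomputable section

namespace Vale.Agent.P164

variable {T K K' : ℝ} {Ψ Ψ0 Ψ1 Ψ2 Φ Φ0 Φ1 Φ2 : ℝ → ℝ → ℝ}

theorem JetInt_cont {P : Type} [MeasurableSpace P] (ν : Measure P) [IsFiniteMeasure ν]
    {g : P → ℝ → ℝ → ℝ} (hc : ∀ p, ContinuousOn (uncurry (g p)) (Icc 0 T ×ˢ univ))
    (hB : ∀ p, ∀ t ∈ Icc 0 T, ∀ x, |g p t x| ≤ K)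
    (hm : ∀ t ∈ Icc 0 T, ∀ x, Measurable fun p => g p t x) :
    ContinuousOn (uncurry fun t x => ∫ p, g p t x ∂ν) (Icc 0 T ×ˢ univ) :=
  continuousOn_of_dominated (F := fun (q : ℝ × ℝ) p => g p q.1 q.2) (bound := fun _ => K)
    (fun q hq => (hm q.1 hq.1 q.2).aestronglyMeasurable)
    (fun q hq => ae_of_all _ fun p => hB p q.1 hq.1 q.2) (integrable_const K) (ae_of_all _ hc)

theorem JetInt_dx {P : Type} [MeasurableSpace P] (ν : Measure P) [IsFiniteMeasure ν]
    {g g1 : P → ℝ → ℝ} (hd : ∀ p x, HasDerivAt (g p) (g1 p x) x) (hB : ∀ p x, |g p x| ≤ K)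
    (hB1 : ∀ p x, |g1 p x| ≤ K) (hm : ∀ x, Measurable fun p => g p x)
    (hm1 : ∀ x, Measurable fun p => g1 p x) (x : ℝ) :
    HasDerivAt (fun y => ∫ p, g p y ∂ν) (∫ p, g1 p x ∂ν) x :=
  (hasDerivAt_integral_of_dominated_loc_of_deriv_le (F := fun y p => g p y)
    (F' := fun y p => g1 p y) (bound := fun _ => K) univ_mem
    (Eventually.of_forall fun y => (hm y).aestronglyMeasurable)
    (Integrable.of_bound (hm x).aestronglyMeasurable K (ae_of_all _ fun p => hB p x))
    (hm1 x).aestronglyMeasurable (ae_of_all _ fun p y _ => hB1 p y) (integrable_const K)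
    (ae_of_all _ fun p y _ => hd p y)).2

theorem JetInt_bd {P : Type} [MeasurableSpace P] (ν : Measure P) [IsFiniteMeasure ν]
    {g : P → ℝ} (hB : ∀ p, |g p| ≤ K) : |∫ p, g p ∂ν| ≤ K * ν.real univ :=
  norm_integral_le_of_norm_le_const (f := g) (C := K) (μ := ν) (ae_of_all _ hB)

/-- differentiation under the integral sign: `hasDerivAt_integral_of_dominated_loc_of_deriv_le` in
`x`, dominated convergence with `Jet.time_lip` for the right derivative in `t`,
`continuousOn_of_dominated` for the continuity, `Jet.measurable` -/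
theorem Jet.integral {P : Type} [MeasurableSpace P] (ν : Measure P) [IsFiniteMeasure ν]
    {g g0 g1 g2 : P → ℝ → ℝ → ℝ} (hT : 0 < T) (h : ∀ p, Jet T (g p) (g0 p) (g1 p) (g2 p))
    (hB : ∀ p, JBd T K (g p) (g0 p) (g1 p) (g2 p))
    (hm : ∀ t ∈ Icc 0 T, ∀ x, Measurable fun p => g p t x) :
    Jet T (fun t x => ∫ p, g p t x ∂ν) (fun t x => ∫ p, g0 p t x ∂ν) (fun t x => ∫ p, g1 p t x ∂ν)
        (fun t x => ∫ p, g2 p t x ∂ν) ∧
      JBd T (K * ν.real univ) (fun t x => ∫ p, g p t x ∂ν) (fun t x => ∫ p, g0 p t x ∂ν)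
        (fun t x => ∫ p, g1 p t x ∂ν) fun t x => ∫ p, g2 p t x ∂ν := by
  have M := fun t (ht : t ∈ Icc 0 T) (x : ℝ) =>
    Jet.measurable hT h hm ht (x := fun _ => x) measurable_const
  refine ⟨⟨JetInt_cont ν (fun p => (h p).c) (fun p t ht x => (hB p t ht x).1) hm,
    JetInt_cont ν (fun p => (h p).c0) (fun p t ht x => (hB p t ht x).2.1)
      fun t ht x => (M t ht x).2.1,
    JetInt_cont ν (fun p => (h p).c1) (fun p t ht x => (hB p t ht x).2.2.1)
      fun t ht x => (M t ht x).2.2.1,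
    JetInt_cont ν (fun p => (h p).c2) (fun p t ht x => (hB p t ht x).2.2.2)
      fun t ht x => (M t ht x).2.2.2, fun t ht x => ?_, fun t ht x => ?_, fun t ht x => ?_⟩,
    fun t ht x => ⟨JetInt_bd ν fun p => (hB p t ht x).1, JetInt_bd ν fun p => (hB p t ht x).2.1,
      JetInt_bd ν fun p => (hB p t ht x).2.2.1, JetInt_bd ν fun p => (hB p t ht x).2.2.2⟩⟩
  · have ht' : t ∈ Icc 0 T := Ico_subset_Icc_self ht
    have hI : ∀ s ∈ Icc 0 T, Integrable (fun p => g p s x) ν := fun s hs =>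
      Integrable.of_bound (hm s hs x).aestronglyMeasurable K
        (ae_of_all _ fun p => (hB p s hs x).1)
    have hev : ∀ᶠ s in 𝓝[>] t, s ∈ Ioo t T := Ioo_mem_nhdsGT ht.2
    rw [← hasDerivWithinAt_Ioi_iff_Ici, hasDerivWithinAt_iff_tendsto_slope' self_notMem_Ioi]
    have h1 := tendsto_integral_filter_of_dominated_convergence (μ := ν) (l := 𝓝[>] t)
      (F := fun s p => slope (fun r => g p r x) t s) (f := fun p => g0 p t x) (fun _ => K)
      (hev.mono fun s hs => ?_) (hev.mono fun s hs => ae_of_all _ fun p => ?_)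
      (integrable_const K) (ae_of_all _ fun p => ?_)
    · refine h1.congr' (hev.mono fun s hs => ?_)
      simp only [slope_def_field]
      rw [integral_div, integral_sub (hI s ⟨ht.1.trans hs.1.le, hs.2.le⟩) (hI t ht')]
    · simp only [slope_def_field]
      exact (((hm s ⟨ht.1.trans hs.1.le, hs.2.le⟩ x).sub (hm t ht' x)).div_const
        _).aestronglyMeasurable
    · rw [slope_def_field, Real.norm_eq_abs, abs_div, abs_of_pos (sub_pos.2 hs.1),
        div_le_iff₀ (sub_pos.2 hs.1)]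
      exact (h p).time_lip (hB p) ht.1 hs.1.le hs.2.le x
    · exact (hasDerivWithinAt_iff_tendsto_slope' self_notMem_Ioi).1
        (hasDerivWithinAt_Ioi_iff_Ici.2 ((h p).d0 t ht x))
  · exact JetInt_dx ν (fun p => (h p).d1 t ht) (fun p y => (hB p t ht y).1)
      (fun p y => (hB p t ht y).2.2.1) (hm t ht) (fun y => (M t ht y).2.2.1) x
  · exact JetInt_dx ν (fun p => (h p).d2 t ht) (fun p y => (hB p t ht y).2.2.1)
      (fun p y => (hB p t ht y).2.2.2) (fun y => (M t ht y).2.2.1) (fun y => (M t ht y).2.2.2) x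

end Vale.Agent.P164
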