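import Vale.Agent.P164.Dynkin
import Vale.Agent.P164.JetInt

/-!
# P164 Jet

Calculus of jets.
-/

open MeasureTheory ProbabilityTheory Set Filter Topology Complex Function
open scoped NNReal ENNReal ComplexConjugate

noncomputable section

namespace Vale.Agent.P164

variable {T K K' : ℝ} {Ψ Ψ0 Ψ1 Ψ2 Φ Φ0 Φ1 Φ2 : ℝ → ℝ → ℝ}

theorem Jet.congr {E : Type} [NormedAddCommGroup E] [NormedSpace ℝ E]
    {Ψ Ψ0 Ψ1 Ψ2 Φ Φ0 Φ1 Φ2 : ℝ → ℝ → E} (h : Jet T Ψ Ψ0 Ψ1 Ψ2)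
    (e : ∀ t ∈ Icc 0 T, ∀ x, Φ t x = Ψ t x ∧ Φ0 t x = Ψ0 t x ∧ Φ1 t x = Ψ1 t x ∧ Φ2 t x = Ψ2 t x) :
    Jet T Φ Φ0 Φ1 Φ2 := by
  refine ⟨h.c.congr fun p hp => (e _ hp.1 _).1, h.c0.congr fun p hp => (e _ hp.1 _).2.1,
    h.c1.congr fun p hp => (e _ hp.1 _).2.2.1, h.c2.congr fun p hp => (e _ hp.1 _).2.2.2,
    fun t ht x => ?_, fun t ht x => ?_, fun t ht x => ?_⟩
  · rw [(e t (Ico_subset_Icc_self ht) x).2.1]
    exact (h.d0 t ht x).congr_of_eventuallyEq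
      (mem_of_superset (Icc_mem_nhdsGE_of_mem ht) fun s hs => (e s hs x).1)
      (e t (Ico_subset_Icc_self ht) x).1
  · rw [(e t ht x).2.2.1, funext fun y => (e t ht y).1]
    exact h.d1 t ht x
  · rw [(e t ht x).2.2.2, funext fun y => (e t ht y).2.2.1]
    exact h.d2 t ht x

theorem Jet.time {g g' : ℝ → ℝ} (hd : ∀ t, HasDerivAt g (g' t) t) (hc : Continuous g') (T : ℝ) :
    Jet T (fun t _ => g t) (fun t _ => g' t) (fun _ _ => 0) fun _ _ => 0 := by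
  exact ⟨((continuous_iff_continuousAt.2 fun t => (hd t).continuousAt).comp
    continuous_fst).continuousOn, (hc.comp continuous_fst).continuousOn, continuousOn_const,
    continuousOn_const, fun t _ _ => (hd t).hasDerivWithinAt, fun _ _ _ => hasDerivAt_const _ _,
    fun _ _ _ => hasDerivAt_const _ _⟩

theorem Jet.const (c T : ℝ) :
    Jet T (fun _ _ => c) (fun _ _ => 0) (fun _ _ => 0) fun _ _ => (0 : ℝ) := by
  exact Jet.time (fun t => hasDerivAt_const t c) continuous_const T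

theorem Jet.add (h : Jet T Ψ Ψ0 Ψ1 Ψ2) (h' : Jet T Φ Φ0 Φ1 Φ2) :
    Jet T (fun t x => Ψ t x + Φ t x) (fun t x => Ψ0 t x + Φ0 t x) (fun t x => Ψ1 t x + Φ1 t x)
      fun t x => Ψ2 t x + Φ2 t x := by
  exact ⟨h.c.add h'.c, h.c0.add h'.c0, h.c1.add h'.c1, h.c2.add h'.c2,
    fun t ht x => (h.d0 t ht x).add (h'.d0 t ht x), fun t ht x => (h.d1 t ht x).add (h'.d1 t ht x),
    fun t ht x => (h.d2 t ht x).add (h'.d2 t ht x)⟩

theorem Jet.smul (h : Jet T Ψ Ψ0 Ψ1 Ψ2) (c : ℝ) :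
    Jet T (fun t x => c * Ψ t x) (fun t x => c * Ψ0 t x) (fun t x => c * Ψ1 t x)
      fun t x => c * Ψ2 t x := by
  exact ⟨h.c.const_mul c, h.c0.const_mul c, h.c1.const_mul c, h.c2.const_mul c,
    fun t ht x => (h.d0 t ht x).const_mul c, fun t ht x => (h.d1 t ht x).const_mul c,
    fun t ht x => (h.d2 t ht x).const_mul c⟩

theorem Jet.mul (h : Jet T Ψ Ψ0 Ψ1 Ψ2) (h' : Jet T Φ Φ0 Φ1 Φ2) :
    Jet T (fun t x => Ψ t x * Φ t x) (fun t x => Ψ0 t x * Φ t x + Ψ t x * Φ0 t x)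
      (fun t x => Ψ1 t x * Φ t x + Ψ t x * Φ1 t x)
      fun t x => Ψ2 t x * Φ t x + 2 * Ψ1 t x * Φ1 t x + Ψ t x * Φ2 t x := by
  exact ⟨h.c.mul h'.c, (h.c0.mul h'.c).add (h.c.mul h'.c0), (h.c1.mul h'.c).add (h.c.mul h'.c1),
    ((h.c2.mul h'.c).add ((h.c1.const_mul 2).mul h'.c1)).add (h.c.mul h'.c2),
    fun t ht x => (h.d0 t ht x).mul (h'.d0 t ht x), fun t ht x => (h.d1 t ht x).mul (h'.d1 t ht x),
    fun t ht x => (((h.d2 t ht x).mul (h'.d1 t ht x)).add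
      ((h.d1 t ht x).mul (h'.d2 t ht x))).congr_deriv (by ring)⟩

theorem Jet.comp (h : Jet T Ψ Ψ0 Ψ1 Ψ2) {φ φ1 φ2 : ℝ → ℝ} {U : Set ℝ}
    (hU : ∀ t ∈ Icc 0 T, ∀ x, Ψ t x ∈ U) (h1 : ∀ y ∈ U, HasDerivAt φ (φ1 y) y)
    (h2 : ∀ y ∈ U, HasDerivAt φ1 (φ2 y) y) (hc : ContinuousOn φ2 U) :
    Jet T (fun t x => φ (Ψ t x)) (fun t x => φ1 (Ψ t x) * Ψ0 t x) (fun t x => φ1 (Ψ t x) * Ψ1 t x)
      fun t x => φ2 (Ψ t x) * Ψ1 t x ^ 2 + φ1 (Ψ t x) * Ψ2 t x := by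
  have k : ∀ {ψ : ℝ → ℝ}, ContinuousOn ψ U →
      ContinuousOn (fun p : ℝ × ℝ => ψ (Ψ p.1 p.2)) (Icc 0 T ×ˢ univ) := fun hψ =>
    hψ.comp h.c fun p hp => hU _ hp.1 _
  have k1 := k fun y hy => (h2 y hy).continuousAt.continuousWithinAt
  exact ⟨k fun y hy => (h1 y hy).continuousAt.continuousWithinAt, k1.mul h.c0, k1.mul h.c1,
    ((k hc).mul (h.c1.pow 2)).add (k1.mul h.c2),
    fun t ht x => (h1 _ (hU t (Ico_subset_Icc_self ht) x)).comp_hasDerivWithinAt t (h.d0 t ht x),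
    fun t ht x => (h1 _ (hU t ht x)).comp x (h.d1 t ht x),
    fun t ht x => (((h2 _ (hU t ht x)).comp x (h.d1 t ht x)).mul (h.d2 t ht x)).congr_deriv
      (by simp only [Function.comp]; ring)⟩

theorem Jet.exp (h : Jet T Ψ Ψ0 Ψ1 Ψ2) :
    Jet T (fun t x => Real.exp (Ψ t x)) (fun t x => Real.exp (Ψ t x) * Ψ0 t x)
      (fun t x => Real.exp (Ψ t x) * Ψ1 t x)
      fun t x => Real.exp (Ψ t x) * (Ψ2 t x + Ψ1 t x ^ 2) := by
  exact (h.comp (U := univ) (fun _ _ _ => mem_univ _) (fun y _ => Real.hasDerivAt_exp y)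
    (fun y _ => Real.hasDerivAt_exp y) Real.continuous_exp.continuousOn).congr
    fun t _ x => ⟨rfl, rfl, rfl, by ring⟩

theorem Jet.rpow (h : Jet T Ψ Ψ0 Ψ1 Ψ2) (hp : ∀ t ∈ Icc 0 T, ∀ x, 0 < Ψ t x) (q : ℝ) :
    Jet T (fun t x => Ψ t x ^ q) (fun t x => Ψ t x ^ q * (q * Ψ0 t x / Ψ t x))
      (fun t x => Ψ t x ^ q * (q * Ψ1 t x / Ψ t x))
      fun t x => Ψ t x ^ q * (q * Ψ2 t x / Ψ t x + q * (q - 1) * (Ψ1 t x / Ψ t x) ^ 2) := by
  refine (h.comp (U := Ioi 0) hp (fun y hy => Real.hasDerivAt_rpow_const (p := q) (Or.inl hy.ne'))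
    (fun y hy => (Real.hasDerivAt_rpow_const (p := q - 1) (Or.inl hy.ne')).const_mul q)
    ((continuousOn_id.rpow_const fun y hy => Or.inl hy.ne').const_mul _ |>.const_mul _)).congr
    fun t ht x => ?_
  have h0 := (hp t ht x).ne'
  simp only [Real.rpow_sub_one h0]
  exact ⟨trivial, by ring, by ring, by ring⟩

theorem Jet.normSq {W W0 W1 W2 : ℝ → ℝ → ℂ} (h : Jet T W W0 W1 W2) (z : ℂ) :
    Jet T (fun t x => ‖z - W t x‖ ^ 2) (fun t x => -2 * (conj (z - W t x) * W0 t x).re)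
      (fun t x => -2 * (conj (z - W t x) * W1 t x).re)
      fun t x => 2 * ‖W1 t x‖ ^ 2 - 2 * (conj (z - W t x) * W2 t x).re := by
  have k : ∀ L : ℂ →L[ℝ] ℝ, Jet T (fun t x => L (z - W t x)) (fun t x => L (-W0 t x))
      (fun t x => L (-W1 t x)) fun t x => L (-W2 t x) := fun L =>
    ⟨L.continuous.comp_continuousOn (continuousOn_const.sub h.c),
      L.continuous.comp_continuousOn h.c0.neg, L.continuous.comp_continuousOn h.c1.neg,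
      L.continuous.comp_continuousOn h.c2.neg,
      fun t ht x => L.hasFDerivAt.comp_hasDerivWithinAt t ((h.d0 t ht x).const_sub z),
      fun t ht x => L.hasFDerivAt.comp_hasDerivAt x ((h.d1 t ht x).const_sub z),
      fun t ht x => L.hasFDerivAt.comp_hasDerivAt x (h.d2 t ht x).neg⟩
  refine (((k reCLM).mul (k reCLM)).add ((k imCLM).mul (k imCLM))).congr fun t _ x => ?_
  simp only [Complex.sq_norm, normSq_apply, reCLM_apply, imCLM_apply, mul_re, conj_re, conj_im,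
    neg_re, neg_im]
  exact ⟨trivial, by ring, by ring, by ring⟩

theorem JBd.mono (h : JBd T K Ψ Ψ0 Ψ1 Ψ2) (hK : K ≤ K') : JBd T K' Ψ Ψ0 Ψ1 Ψ2 := by
  exact fun t ht x => (h t ht x).imp hK.trans' (.imp hK.trans' (.imp hK.trans' hK.trans'))

theorem JBd.add (h : JBd T K Ψ Ψ0 Ψ1 Ψ2) (h' : JBd T K' Φ Φ0 Φ1 Φ2) :
    JBd T (K + K') (fun t x => Ψ t x + Φ t x) (fun t x => Ψ0 t x + Φ0 t x)
      (fun t x => Ψ1 t x + Φ1 t x) fun t x => Ψ2 t x + Φ2 t x := by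
  intro t ht x
  obtain ⟨a, b, c, d⟩ := h t ht x
  obtain ⟨a', b', c', d'⟩ := h' t ht x
  exact ⟨(abs_add_le _ _).trans (add_le_add a a'), (abs_add_le _ _).trans (add_le_add b b'),
    (abs_add_le _ _).trans (add_le_add c c'), (abs_add_le _ _).trans (add_le_add d d')⟩

theorem JBd.smul (h : JBd T K Ψ Ψ0 Ψ1 Ψ2) (c : ℝ) :
    JBd T (|c| * K) (fun t x => c * Ψ t x) (fun t x => c * Ψ0 t x) (fun t x => c * Ψ1 t x)
      fun t x => c * Ψ2 t x := by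
  intro t ht x
  have k : ∀ {y : ℝ}, |y| ≤ K → |c * y| ≤ |c| * K := fun hy =>
    (abs_mul _ _).trans_le (mul_le_mul_of_nonneg_left hy (abs_nonneg _))
  exact (h t ht x).imp k (.imp k (.imp k k))

theorem JBd.mul (h : JBd T K Ψ Ψ0 Ψ1 Ψ2) (h' : JBd T K' Φ Φ0 Φ1 Φ2) :
    JBd T (4 * K * K') (fun t x => Ψ t x * Φ t x) (fun t x => Ψ0 t x * Φ t x + Ψ t x * Φ0 t x)
      (fun t x => Ψ1 t x * Φ t x + Ψ t x * Φ1 t x)
      fun t x => Ψ2 t x * Φ t x + 2 * Ψ1 t x * Φ1 t x + Ψ t x * Φ2 t x := by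
  intro t ht x
  obtain ⟨a, b, c, d⟩ := h t ht x
  obtain ⟨a', b', c', d'⟩ := h' t ht x
  have k : ∀ {y y' : ℝ}, |y| ≤ K → |y'| ≤ K' → -(K * K') ≤ y * y' ∧ y * y' ≤ K * K' :=
    fun hy hy' => abs_le.1 ((abs_mul _ _).trans_le
      (mul_le_mul hy hy' (abs_nonneg _) ((abs_nonneg _).trans hy)))
  have k1 := k a a'
  have k2 := k b a'
  have k3 := k a b'
  have k4 := k c a'
  have k5 := k a c'
  have k6 := k d a'
  have k7 := k c c'
  have k8 := k a d'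
  simp only [abs_le, mul_assoc]
  refine ⟨⟨?_, ?_⟩, ⟨?_, ?_⟩, ⟨?_, ?_⟩, ?_, ?_⟩ <;> linarith

theorem JBd.exp (h : JBd T K Ψ Ψ0 Ψ1 Ψ2) :
    JBd T (Real.exp K * (1 + K + K ^ 2)) (fun t x => Real.exp (Ψ t x))
      (fun t x => Real.exp (Ψ t x) * Ψ0 t x) (fun t x => Real.exp (Ψ t x) * Ψ1 t x)
      fun t x => Real.exp (Ψ t x) * (Ψ2 t x + Ψ1 t x ^ 2) := by
  intro t ht x
  obtain ⟨a, b, c, d⟩ := h t ht x
  have h0 := (abs_nonneg _).trans a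
  have k : ∀ {y : ℝ}, |y| ≤ 1 + K + K ^ 2 →
      |Real.exp (Ψ t x) * y| ≤ Real.exp K * (1 + K + K ^ 2) := fun hy => by
    rw [abs_mul, Real.abs_exp]
    exact mul_le_mul (Real.exp_le_exp.2 (le_of_abs_le a)) hy (abs_nonneg _) (Real.exp_pos _).le
  have h1 := sq_nonneg K
  have h2 := sq_le_sq' (abs_le.1 c).1 (abs_le.1 c).2
  refine ⟨by simpa using k (y := 1) (by rw [abs_one]; linarith), k (by linarith), k (by linarith),
    k ((abs_add_le _ _).trans ?_)⟩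
  rw [abs_sq]
  linarith

end Vale.Agent.P164
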