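import Vale.Agent.P164.FlowB
import Vale.Agent.P164.BackB

/-!
# P164 LinkA

Forward and backward flows are inverse to each other on the living points.
-/

open MeasureTheory ProbabilityTheory Set Filter Topology Complex Function
open scoped NNReal ENNReal ComplexConjugate

noncomputable section

namespace Vale.Agent.P164

variable {η : ℝ} {w : ℝ → ℝ} {z ζ : ℂ} {t : ℝ}

theorem LinkA_alive (hη : 0 < η) (hw : Continuous w) (hz : 0 < z.im) (h : η ≤ (fl η w z t).im)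
    {s : ℝ} (hs : s ≤ t) : η ≤ |(fl η w z s).im| :=
  (h.trans (fl_im_anti hη hw hz hs)).trans (le_abs_self _)

theorem LinkA_bk (hη : 0 < η) (hw : Continuous w) (hz : 0 < z.im) (h : η ≤ (fl η w z t).im) :
    ∀ s ∈ Icc 0 t, fl η w z (t - s) = bk w t (fl η w z t) s := by
  have h1 := bk_unique hw (g := fun s => fl η w z (t - s)) (T := t) t
    ((fl_cont hη hw z).comp (continuous_const.sub continuous_id)).continuousOn
    (fun s _ => fl_im_pos hη hw hz _) fun s hs => ?_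
  · simpa using h1
  have h2 := (fl_deriv hη hw z (t - s)).scomp s ((hasDerivAt_id s).const_sub t)
  rw [fld_eq hη (LinkA_alive hη hw hz h (by linarith [hs.1]))] at h2
  refine (HasDerivAt.congr_deriv h2 ?_).hasDerivWithinAt
  simp [neg_div]

theorem LinkA_den {x : ℝ} (h : η ≤ |ζ.im|) : den η x ζ ^ 2 = ‖ζ - x‖ ^ 4 := by
  have h1 : ‖ζ - x‖ ^ 2 = (ζ.re - x) ^ 2 + ζ.im ^ 2 := by
    rw [Complex.sq_norm, Complex.normSq_apply]
    simp only [sub_re, sub_im, ofReal_re, ofReal_im, sub_zero]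
    ring
  rw [den_eq h, ← h1]
  ring

/-- `s ↦ fl η w z (t - s)` solves the backward equation (`bk_unique`); then `cr_eq` and the
substitution `u ↦ t - u` -/
theorem bf_fl (hη : 0 < η) (hw : Continuous w) (hz : 0 < z.im) (ht : 0 ≤ t)
    (h : η ≤ (fl η w z t).im) :
    bf w t (fl η w z t) = z ∧ cr w t (fl η w z t) = cc η w z t := by
  have h1 := LinkA_bk hη hw hz h
  have h2 : bf w t (fl η w z t) = z := by
    rw [bf, ← h1 t ⟨ht, le_rfl⟩, sub_self, fl_zero hη hw]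
  refine ⟨h2, ?_⟩
  rw [cr_eq hw (fl_im_pos hη hw hz t) ht, h2, cc]
  have h3 := intervalIntegral.integral_comp_sub_left (a := 0) (b := t)
    (fun s => 4 * (fl η w z s).im ^ 2 / den η (w s) (fl η w z s) ^ 2) t
  rw [sub_self, sub_zero] at h3
  rw [← h3]
  congr 3
  refine intervalIntegral.integral_congr fun u hu => ?_
  rw [uIcc_of_le ht] at hu
  rw [← h1 u hu, LinkA_den (LinkA_alive hη hw hz h (by linarith [hu.1]))]

theorem fl_bf (hη : 0 < η) (hw : Continuous w) (ht : 0 ≤ t) (h : η ≤ ζ.im) :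
    fl η w (bf w t ζ) t = ζ := by
  have hζ : 0 < ζ.im := hη.trans_le h
  have h1 := (nice_fld hη hw).unique (g := fun s => bk w t ζ (t - s)) (T := t)
    ((bk_cont hw hζ t).comp (continuous_const.sub continuous_id)).continuousOn
    (fun s hs => ?_) t ⟨ht, le_rfl⟩
  · simp only [sub_self, sub_zero, bk_zero hw hζ] at h1
    exact h1.symm
  have h0 : 0 ≤ t - s := by linarith [hs.2]
  have h2 := (bk_deriv hw hζ t h0).scomp s ((hasDerivAt_id s).const_sub t)
  refine (HasDerivAt.congr_deriv h2 ?_).hasDerivWithinAt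
  rw [fld_eq hη ((h.trans (bk_im_ge hw hζ t h0)).trans (le_abs_self _))]
  simp [neg_div]

theorem FF_ZZ (hη : 0 < η) (hw : Continuous w) (hz : 0 < z.im) (ht : 0 ≤ t)
    (h : η ≤ (fl η w z t).im) :
    FF w t (ZZ η w z t) = z ∧ sc (FF w t) (ZZ η w z t) = cc η w z t := by
  obtain ⟨h1, h2⟩ := bf_fl hη hw hz ht h
  have h3 : (w t : ℂ) + ZZ η w z t = fl η w z t := by rw [ZZ]; ring
  refine ⟨by rw [FF, h3, h1], ?_⟩
  rw [sc, deriv_FF hw ht (by rw [ZZ_im]; exact hη.trans_le h), h3, ZZ_im, ← h2, cr]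

theorem chi_eq (A : ℝ) (hη : 0 < η) (hw : Continuous w) (hz : 0 < z.im) (ht : 0 ≤ t)
    (h : η ≤ (fl η w z t).im) : chi A η w z t (w t) = schi A (FF w t) (ZZ η w z t) := by
  obtain ⟨h1, h2⟩ := FF_ZZ hη hw hz ht h
  rw [chi, schi, h1, h2, QQ, wb, r2_eq, Real.sqrt_sq (norm_nonneg _), FF]

theorem mem_ever_of (hη : 0 < η) (hw : Continuous w) (hz : 0 < z.im) {T e : ℝ} (ht : t ∈ Icc 0 T)
    (h : η ≤ (fl η w z t).im) (hc : cc η w z t < e) : z ∈ Ever w T e := by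
  obtain ⟨h1, h2⟩ := bf_fl hη hw hz ht.1 h
  exact ⟨t, ht, _, hη.trans_le h, h1, h2.trans_lt hc⟩

theorem eventually_of_ever (hw : Continuous w) {T e : ℝ} (h : z ∈ Ever w T e) :
    ∀ᶠ n : ℕ in atTop, ∃ t ∈ Icc 0 T, 4 * (1 / (n + 1 : ℝ)) ≤ (fl (1 / (n + 1 : ℝ)) w z t).im ∧
      cc (1 / (n + 1 : ℝ)) w z t < e := by
  obtain ⟨s, hs, ξ, hξ, rfl, hc⟩ := h
  have h1 := (tendsto_one_div_add_atTop_nhds_zero_nat (𝕜 := ℝ)).eventually
    (ge_mem_nhds (show (0 : ℝ) < ξ.im / 4 by positivity))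
  filter_upwards [h1] with n hn
  have h0 : (0 : ℝ) < 1 / (n + 1 : ℝ) := by positivity
  have h2 : 1 / (n + 1 : ℝ) ≤ ξ.im := by linarith
  have h3 := fl_bf h0 hw hs.1 h2
  have h4 := (bf_fl h0 hw (hξ.trans_le (bf_im_ge hw hξ hs.1)) hs.1 (by rw [h3]; exact h2)).2
  refine ⟨s, hs, by rw [h3]; linarith, ?_⟩
  rw [← h4, h3]
  exact hc

theorem Pay_ne_ever {κ e T : ℝ} (he : 0 < e) (hη : 0 < η) (hw : Continuous w) (hz : 0 < z.im)
    (hT : 0 ≤ T) (h : Pay κ η e w T z ≠ 0) : z ∈ Ever w T (2 * e) := by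
  have h1 : ∃ t ∈ Icc 0 T, pay κ η e w z t ≠ 0 := by
    by_contra h2
    refine h ?_
    rw [Pay, intervalIntegral.integral_congr (g := fun _ => (0 : ℝ)) fun u hu => ?_]
    · simp
    · rw [uIcc_of_le hT] at hu
      by_contra h3
      exact h2 ⟨u, hu, h3⟩
  obtain ⟨t, ht, h2⟩ := h1
  obtain ⟨h3, -, h4⟩ := pay_ne he hη h2
  exact mem_ever_of hη hw hz ht h3.le h4

end Vale.Agent.P164
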