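import Vale.Agent.P164.BackB

/-!
# P164 LinkB

Forward and backward flows are inverse to each other on the living points.
-/

open MeasureTheory ProbabilityTheory Set Filter Topology Complex Function
open scoped NNReal ENNReal ComplexConjugate

noncomputable section

namespace Vale.Agent.P164

variable {η : ℝ} {w : ℝ → ℝ} {z ζ : ℂ} {t : ℝ}

theorem LinkB_pos {g : ℝ → ℂ} (hw : Continuous w) (h0 : 0 < (g 0).im)
    (hne : ∀ s ∈ Icc 0 t, g s - w s ≠ 0)
    (hd : ∀ s ∈ Icc 0 t, HasDerivWithinAt g (2 / (g s - w s)) (Icc 0 t) s) :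
    ∀ s ∈ Icc 0 t, 0 < (g s).im := by
  have hc : ContinuousOn g (Icc 0 t) := fun s hs => (hd s hs).continuousWithinAt
  have hk : ContinuousOn (fun s => 2 / normSq (g s - w s)) (Icc 0 t) :=
    continuousOn_const.div (continuous_normSq.comp_continuousOn
      (hc.sub (continuous_ofReal.comp hw).continuousOn)) fun s hs =>
        (normSq_pos.2 (hne s hs)).ne'
  obtain ⟨K, hK⟩ := isCompact_Icc.bddAbove_image hk
  intro s hs
  have h1 : (g 0).im * Real.exp (-(K + 1) * s) ≤ (g s).im := by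
    refine image_le_of_deriv_right_lt_deriv_boundary'
      (f := fun u => (g 0).im * Real.exp (-(K + 1) * u))
      (f' := fun u => (g 0).im * (Real.exp (-(K + 1) * u) * (-(K + 1) * 1)))
      (B := fun u => (g u).im) (B' := fun u => (2 / (g u - w u)).im) (by fun_prop)
      (fun u _ => ((((hasDerivAt_id' u).const_mul (-(K + 1))).exp).const_mul _).hasDerivWithinAt)
      (by simp) (continuous_im.comp_continuousOn hc)
      (fun u hu => imCLM.hasFDerivAt.comp_hasDerivWithinAt u
        ((hd u (Ico_subset_Icc_self hu)).mono_of_mem_nhdsWithin (Icc_mem_nhdsGE_of_mem hu)))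
      (fun u hu he => ?_) hs
    have e : (2 / (g u - w u)).im = -(2 / normSq (g u - w u) * (g u).im) := by
      rw [div_im]
      simp
      ring
    have h2 : 2 / normSq (g u - w u) ≤ K := hK ⟨u, Ico_subset_Icc_self hu, rfl⟩
    have h3 : 0 < (g 0).im * Real.exp (-(K + 1) * u) := mul_pos h0 (Real.exp_pos _)
    have he' : (g 0).im * Real.exp (-(K + 1) * u) = (g u).im := he
    show (g 0).im * (Real.exp (-(K + 1) * u) * (-(K + 1) * 1)) < (2 / (g u - w u)).im
    rw [e, ← he']
    nlinarith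
  exact (mul_pos h0 (Real.exp_pos _)).trans_le h1

/-- a solution keeps a positive height (linear equation for the height, or the product
`im * exp (∫ 2 / |g - W| ^ 2)` is constant) -/
theorem dom_eq {W : ℝ≥0 → ℝ} (hW : Continuous W) (t : ℝ≥0) :
    loewnerDom W t = bf (fun s => W s.toNNReal) t '' HH := by
  have hw : Continuous fun s : ℝ => W s.toNNReal := hW.comp continuous_real_toNNReal
  have ht : (0 : ℝ) ≤ t := t.2
  ext z
  constructor
  · rintro ⟨hz, g, h0, hg⟩
    have hg' : ∀ s ∈ Icc (0 : ℝ) t, g s - W s.toNNReal ≠ 0 ∧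
        HasDerivWithinAt g (2 / (g s - W s.toNNReal)) (Icc (0 : ℝ) t) s := by
      intro s hs
      have h1 := hg s.toNNReal (Real.toNNReal_le_iff_le_coe.2 hs.2)
      rw [Real.coe_toNNReal s hs.1] at h1
      exact ⟨sub_ne_zero.2 h1.1, h1.2⟩
    have hp := LinkB_pos (g := g) hw (by rwa [h0]) (fun s hs => (hg' s hs).1)
      fun s hs => (hg' s hs).2
    have hm : ∀ s ∈ Icc (0 : ℝ) t, (t : ℝ) - s ∈ Icc (0 : ℝ) t := fun s hs =>
      ⟨by linarith [hs.2], by linarith [hs.1]⟩
    have hd : ∀ s ∈ Icc (0 : ℝ) t, HasDerivWithinAt (fun u => g (t - u))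
        (-2 / (g (t - s) - W ((t : ℝ) - s).toNNReal)) (Icc (0 : ℝ) t) s := by
      intro s hs
      have h1 := (hg' _ (hm s hs)).2.scomp s
        ((hasDerivAt_id' s).const_sub (t : ℝ)).hasDerivWithinAt hm
      rwa [neg_smul, one_smul, ← neg_div] at h1
    have h2 := bk_unique hw (g := fun u => g (t - u)) (T := t) t
      (fun s hs => (hd s hs).continuousWithinAt) (fun s hs => hp _ (hm s hs))
      (fun s hs => (hd s (Ico_subset_Icc_self hs)).mono_of_mem_nhdsWithin
        (Icc_mem_nhdsGE_of_mem hs)) t ⟨ht, le_rfl⟩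
    simp only [sub_self, sub_zero, h0] at h2
    exact ⟨g t, hp t ⟨ht, le_rfl⟩, h2.symm⟩
  · rintro ⟨ζ, hζ, rfl⟩
    have hζ' : 0 < ζ.im := hζ
    refine ⟨hζ'.trans_le (bf_im_ge hw hζ' ht),
      fun s => bk (fun s : ℝ => W s.toNNReal) t ζ (t - s), by simp only [sub_zero, bf],
      fun s hs => ⟨sub_ne_zero.1 (BackA_ne hw hζ' _ _ _), ?_⟩⟩
    have hs' : (0 : ℝ) ≤ t - s := sub_nonneg.2 hs
    have h1 := (bk_deriv hw hζ' t hs').scomp (s : ℝ) ((hasDerivAt_id' (s : ℝ)).const_sub (t : ℝ))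
    rw [neg_smul, one_smul, ← neg_div, neg_neg, sub_sub_cancel, Real.toNNReal_coe] at h1
    exact h1.hasDerivWithinAt

end Vale.Agent.P164
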