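import Vale.Agent.P164.FlowB
import Vale.Agent.P164.BackB
import Vale.Agent.P164.LinkA
import Vale.Agent.P164.LinkB

/-!
# P164 Link

Forward and backward flows are inverse to each other on the living points.
-/

open MeasureTheory ProbabilityTheory Set Filter Topology Complex Function
open scoped NNReal ENNReal ComplexConjugate

noncomputable section

namespace Vale.Agent.P164

variable {η : ℝ} {w : ℝ → ℝ} {z ζ : ℂ} {t : ℝ}

theorem Link_det (c : ℂ) :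
    ((ContinuousLinearMap.toSpanSingleton ℂ c).restrictScalars ℝ).det = ‖c‖ ^ 2 := by
  rw [ContinuousLinearMap.det, ← LinearMap.det_toMatrix basisOneI, Matrix.det_fin_two,
    Complex.sq_norm, normSq_apply]
  simp [LinearMap.toMatrix_apply]

theorem Link_cov {F F' : ℂ → ℂ} {S : Set ℂ} (hS : MeasurableSet S)
    (hd : ∀ x ∈ S, HasDerivAt F (F' x) x) (hi : InjOn F S) (g : ℂ → ℝ≥0∞) :
    ∫⁻ z in F '' S, g z = ∫⁻ Z in S, ENNReal.ofReal (‖F' Z‖ ^ 2) * g (F Z) := by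
  rw [lintegral_image_eq_lintegral_abs_det_fderiv_mul volume hS
    (f' := fun x => (ContinuousLinearMap.toSpanSingleton ℂ (F' x)).restrictScalars ℝ)
    (fun x hx => ((hd x hx).hasFDerivAt.restrictScalars ℝ).hasFDerivWithinAt) hi g]
  simp only [Link_det, abs_pow, abs_norm]

/-- the living points are the image of `{η < im}` under `FF w t`;
`lintegral_image_eq_lintegral_abs_det_fderiv_mul` -/
theorem lintegral_alive (hη : 0 < η) (hw : Continuous w) (ht : 0 ≤ t) (k : ℂ → ℝ≥0∞) :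
    ∫⁻ z in {z : ℂ | η ≤ z.im ∧ η < (fl η w z t).im}, k (ZZ η w z t)
      = ∫⁻ Z in {Z : ℂ | η < Z.im}, k Z * ENNReal.ofReal (‖deriv (FF w t) Z‖ ^ 2) := by
  have hU := FF_univ hw ht
  have hm : MeasurableSet {Z : ℂ | η < Z.im} := measurableSet_lt measurable_const measurable_im
  have hsub : {Z : ℂ | η < Z.im} ⊆ HH := fun Z hZ => hη.trans hZ
  have hO : IsOpen HH := isOpen_lt continuous_const continuous_im
  have him : ∀ Z : ℂ, ((w t : ℂ) + Z).im = Z.im := fun Z => by simp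
  have hfl : ∀ Z : ℂ, η < Z.im → fl η w (FF w t Z) t = w t + Z := fun Z hZ =>
    fl_bf hη hw ht (by rw [him]; exact hZ.le)
  have hset : {z : ℂ | η ≤ z.im ∧ η < (fl η w z t).im} = FF w t '' {Z : ℂ | η < Z.im} := by
    ext z
    constructor
    · rintro ⟨h1, h2⟩
      exact ⟨ZZ η w z t, by rw [mem_ofPred_eq, ZZ_im]; exact h2,
        (FF_ZZ hη hw (hη.trans_le h1) ht h2.le).1⟩
    · rintro ⟨Z, hZ, rfl⟩
      have hZ' : η < Z.im := hZ
      refine ⟨?_, by rw [hfl Z hZ', him]; exact hZ'⟩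
      have h1 := bf_im_ge (ζ := w t + Z) hw (by rw [him]; exact hη.trans hZ') ht
      rw [him] at h1
      exact hZ'.le.trans h1
  rw [hset, Link_cov hm (fun Z hZ => ((hU.diff Z (hsub hZ)).differentiableAt
    (hO.mem_nhds (hsub hZ))).hasDerivAt) (hU.inj.mono hsub)]
  refine setLIntegral_congr_fun hm fun Z hZ => ?_
  rw [ZZ, hfl Z hZ, add_sub_cancel_left, mul_comm]

/-- area of the pulled back set: `F ξ = bf w s (w s + ρ ξ)` is injective with `lo ≤ |F'| ≤ hi` on `D` -/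
theorem fat_pull {w' : ℝ → ℝ} {s ρ T e lo hi y v : ℝ} {D D' : Set ℂ} (hw : Continuous w)
    (hw' : Continuous w') (hs : 0 ≤ s) (hρ : 0 < ρ) (h : ShS s ρ T w w')
    (hE : MeasurableSet (Ever w' T e ∩ D)) (hlo : 0 ≤ lo)
    (hD : ∀ ξ ∈ D, y ≤ ξ.im ∧ lo ≤ ρ * ‖deriv (bf w s) (w s + ρ * ξ)‖ ∧
      ρ * ‖deriv (bf w s) (w s + ρ * ξ)‖ ≤ hi ∧ bf w s (w s + ρ * ξ) ∈ D')
    (he : hi * e ≤ lo * y) (hF : Fat w' T e D v) :
    ENNReal.ofReal (lo ^ 2 * v)
      ≤ volume ((Ever w (s + ρ ^ 2 * T) (hi * e) \ Ever w s (hi * e)) ∩ D') := by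
  have hU := bf_univ hw hs
  have hO : IsOpen HH := isOpen_lt continuous_const continuous_im
  have him : ∀ ξ : ℂ, ((w s : ℂ) + ρ * ξ).im = ρ * ξ.im := fun ξ => by simp
  have hpos : ∀ ξ ∈ Ever w' T e ∩ D, 0 < ξ.im := fun ξ hξ => ever_sub hw' T e hξ.1
  have hm : ∀ ξ ∈ Ever w' T e ∩ D, (w s : ℂ) + ρ * ξ ∈ HH := fun ξ hξ => by
    show 0 < ((w s : ℂ) + ρ * ξ).im
    rw [him]
    exact mul_pos hρ (hpos ξ hξ)
  have hd : ∀ ξ ∈ Ever w' T e ∩ D, HasDerivAt (fun ξ => bf w s (w s + ρ * ξ))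
      (deriv (bf w s) (w s + ρ * ξ) * ρ) ξ := fun ξ hξ => by
    have h1 := ((hU.diff _ (hm ξ hξ)).differentiableAt (hO.mem_nhds (hm ξ hξ))).hasDerivAt
    have h2 : HasDerivAt (fun ξ : ℂ => (w s : ℂ) + ρ * ξ) ρ ξ := by
      simpa using ((hasDerivAt_id ξ).const_mul (ρ : ℂ)).const_add (w s : ℂ)
    exact h1.comp ξ h2
  have hi' : InjOn (fun ξ => bf w s (w s + ρ * ξ)) (Ever w' T e ∩ D) := fun ξ hξ ξ' hξ' e' =>
    mul_left_cancel₀ (ofReal_ne_zero.2 hρ.ne') (add_left_cancel (hU.inj (hm ξ hξ) (hm ξ' hξ') e'))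
  have hsub : (fun ξ => bf w s (w s + ρ * ξ)) '' (Ever w' T e ∩ D) ⊆
      (Ever w (s + ρ ^ 2 * T) (hi * e) \ Ever w s (hi * e)) ∩ D' := by
    rintro _ ⟨ξ, hξ, rfl⟩
    obtain ⟨h1, h2, h3, h4⟩ := hD ξ hξ.2
    refine ⟨⟨ever_shs hw hw' hs hρ h hξ.1 h3, not_mem_ever hw hs (hm ξ hξ) ?_⟩, h4⟩
    unfold cr
    rw [him]
    calc hi * e ≤ lo * y := he
      _ ≤ lo * ξ.im := mul_le_mul_of_nonneg_left h1 hlo
      _ ≤ ρ * ‖deriv (bf w s) (w s + ρ * ξ)‖ * ξ.im :=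
          mul_le_mul_of_nonneg_right h2 (hpos ξ hξ).le
      _ = _ := by ring
  refine le_trans ?_ (measure_mono hsub)
  have h5 := Link_cov hE hd hi' fun _ => 1
  rw [setLIntegral_one] at h5
  rw [h5, ENNReal.ofReal_mul (sq_nonneg lo)]
  refine (mul_le_mul_right hF _).trans ?_
  rw [← setLIntegral_const]
  refine setLIntegral_mono' hE fun ξ hξ => ?_
  rw [mul_one, norm_mul, Complex.norm_real, Real.norm_of_nonneg hρ.le, mul_comm]
  exact ENNReal.ofReal_le_ofReal (pow_le_pow_left₀ hlo (hD ξ hξ.2).2.1 2)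

end Vale.Agent.P164
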