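import Vale.Agent.P164.Wiener

/-!
# P164 Markov

Strong Markov property. For `τ n = ⌈τ 2 ^ n⌉ / 2 ^ n` (finitely many values, `A ∩ {τ n = s}` is
determined at time `s`) use `IsW.weak`; then test the finite dimensional marginals against bounded
continuous functions (`ext_of_forall_integral_eq_of_IsFiniteMeasure`), dominated convergence, `ext_fdd`.
-/

open MeasureTheory ProbabilityTheory Set Filter Topology Complex Function
open scoped NNReal ENNReal ComplexConjugate

noncomputable section

namespace Vale.Agent.P164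

variable {κ T : ℝ} {μ : Measure Path} {τ : Path → ℝ}

theorem Markov_part {f : Path → ℝ} (hf : Measurable f) (hc : (range f).Countable) (B : Set Path) :
    μ B = ∑' s : range f, μ (f ⁻¹' {(s : ℝ)} ∩ B) := by
  have h1 := tsum_measure_preimage_singleton (μ := μ.restrict B) hc (f := f)
    (fun y _ => hf (measurableSet_singleton y))
  rw [preimage_range, Measure.restrict_apply_univ] at h1
  rw [← h1]
  refine tsum_congr fun s => ?_
  rw [Measure.restrict_apply (hf (measurableSet_singleton _))]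

theorem Markov_disc (h : IsW κ μ) {σ : Path → ℝ} (hσ : Measurable σ) (hc : (range σ).Countable)
    (h0 : ∀ w, 0 ≤ σ w) {A : Set Path} (hA : MeasurableSet A)
    (hd : ∀ s, DetS (fun _ => s) (σ ⁻¹' {s} ∩ A)) {ρ : ℝ} (hρ : 0 < ρ) :
    (μ.restrict A).map (fun w => shs (σ w) ρ w) = μ A • μ := by
  have hm : Measurable fun w => shs (σ w) ρ w := measurable_shs hσ measurable_const measurable_id
  ext S hS
  rw [Measure.map_apply hm hS, Measure.restrict_apply (hm hS), Measure.smul_apply, smul_eq_mul,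
    Markov_part (μ := μ) hσ hc A, Markov_part (μ := μ) hσ hc (_ ∩ A), ← ENNReal.tsum_mul_right]
  refine tsum_congr fun s => ?_
  have hs : 0 ≤ (s : ℝ) := by
    obtain ⟨w, hw⟩ := s.2
    rw [← hw]
    exact h0 w
  rw [← h.weak hs hρ (hd s) hS]
  congr 1
  ext w
  simp only [mem_inter_iff, mem_preimage, mem_singleton_iff]
  constructor
  · rintro ⟨h1, h2, h3⟩
    exact ⟨⟨h1, h3⟩, by rw [← h1]; exact h2⟩
  · rintro ⟨⟨h1, h3⟩, h2⟩
    exact ⟨h1, by rw [h1]; exact h2, h3⟩

/-- rounding up to the grid of mesh `1 / (n + 1)` -/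
def Markov_up (n : ℕ) (x : ℝ) : ℝ := (⌈x * (n + 1)⌉ : ℝ) / (n + 1)

theorem Markov_up_meas (n : ℕ) : Measurable (Markov_up n) := by
  unfold Markov_up
  have h1 : Measurable fun x : ℝ => ⌈x * ((n : ℝ) + 1)⌉ :=
    Int.measurable_ceil.comp (measurable_id.mul_const _)
  exact ((measurable_from_top (f := fun k : ℤ => (k : ℝ))).comp h1).div_const _

theorem Markov_le_up (n : ℕ) (x : ℝ) : x ≤ Markov_up n x := by
  unfold Markov_up
  have h : (0 : ℝ) < n + 1 := by positivity
  rw [le_div_iff₀ h]
  exact Int.le_ceil _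

theorem Markov_up_le (n : ℕ) (x : ℝ) : Markov_up n x ≤ x + 1 / ((n : ℝ) + 1) := by
  unfold Markov_up
  have h : (0 : ℝ) < n + 1 := by positivity
  rw [div_le_iff₀ h, add_mul, one_div, inv_mul_cancel₀ h.ne']
  exact (Int.ceil_lt_add_one _).le

theorem Markov_up_tendsto (x : ℝ) : Tendsto (fun n => Markov_up n x) atTop (𝓝 x) := by
  have h1 : Tendsto (fun n : ℕ => x + 1 / ((n : ℝ) + 1)) atTop (𝓝 (x + 0)) :=
    tendsto_const_nhds.add tendsto_one_div_add_atTop_nhds_zero_nat
  rw [add_zero] at h1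
  exact tendsto_of_tendsto_of_tendsto_of_le_of_le tendsto_const_nhds h1
    (fun n => Markov_le_up n x) (fun n => Markov_up_le n x)

theorem Markov_up_count (n : ℕ) (τ : Path → ℝ) :
    (range fun w => Markov_up n (τ w)).Countable := by
  refine (countable_range fun k : ℤ => (k : ℝ) / ((n : ℝ) + 1)).mono ?_
  rintro _ ⟨w, rfl⟩
  exact ⟨_, rfl⟩

theorem Markov_cont (w : Path) (ρ : ℝ) (I : Finset ℝ≥0) :
    Continuous fun s : ℝ => I.restrict (shs s ρ w).1 := by
  refine continuous_pi fun i => ?_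
  have h := continuous_pf w
  show Continuous fun s : ℝ => (pf w (s + ρ ^ 2 * ((i : ℝ≥0) : ℝ)) - pf w s) / ρ
  fun_prop

theorem IsW.strong_map (h : IsW κ μ) (hτ : Stp T τ) {A : Set Path} (hA : DetS τ A) {ρ : ℝ}
    (hρ : 0 < ρ) : (μ.restrict A).map (fun w => shs (τ w) ρ w) = μ A • μ := by
  haveI := h.prob
  have hmτ : Measurable τ := hτ.det.meas
  have hm : Measurable fun w => shs (τ w) ρ w := measurable_shs hmτ measurable_const measurable_id
  have hmn : ∀ n, Measurable fun w => shs (Markov_up n (τ w)) ρ w := fun n =>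
    measurable_shs ((Markov_up_meas n).comp hmτ) measurable_const measurable_id
  have hn : ∀ n, (μ.restrict A).map (fun w => shs (Markov_up n (τ w)) ρ w) = μ A • μ := by
    intro n
    refine Markov_disc h ((Markov_up_meas n).comp hmτ) (Markov_up_count n τ)
      (fun w => (hτ.mem w).1.trans (Markov_le_up n _)) hA.meas (fun s => ⟨?_, ?_⟩) hρ
    · exact (((Markov_up_meas n).comp hmτ) (measurableSet_singleton s)).inter hA.meas
    · rintro w w' hag ⟨h1, h2⟩
      have h1' : Markov_up n (τ w) = s := h1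
      have hag' : Agr (τ w) (pf w) (pf w') := hag.mono (h1' ▸ Markov_le_up n _)
      refine ⟨?_, hA.mem w w' hag' h2⟩
      show Markov_up n (τ w') = s
      rw [hτ.det.eq w w' hag', h1']
  haveI : IsFiniteMeasure (μ A • μ) := by
    refine ⟨?_⟩
    rw [Measure.smul_apply, smul_eq_mul, measure_univ, mul_one]
    exact measure_lt_top _ _
  refine ext_fdd fun I => ?_
  have hr : Measurable fun w : Path => I.restrict w.1 :=
    (Finset.measurable_restrict I).comp measurable_subtype_coe
  refine ext_of_forall_integral_eq_of_IsFiniteMeasure fun f => ?_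
  have hfm : Measurable fun w : Path => f (I.restrict w.1) := f.continuous.measurable.comp hr
  have e0 : ∀ ν : Measure Path, ∫ x, f x ∂(ν.map fun w : Path => I.restrict w.1) =
      ∫ w, f (I.restrict w.1) ∂ν := fun ν =>
    integral_map hr.aemeasurable f.continuous.aestronglyMeasurable
  have e1 : ∀ g : Path → Path, Measurable g →
      ∫ w, f (I.restrict w.1) ∂((μ.restrict A).map g) =
        ∫ w, f (I.restrict (g w).1) ∂(μ.restrict A) := fun g hg =>
    integral_map hg.aemeasurable hfm.aestronglyMeasurable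
  rw [e0, e0, e1 _ hm]
  have hlim : Tendsto (fun n => ∫ w, f (I.restrict (shs (Markov_up n (τ w)) ρ w).1) ∂(μ.restrict A))
      atTop (𝓝 (∫ w, f (I.restrict (shs (τ w) ρ w).1) ∂(μ.restrict A))) := by
    refine tendsto_integral_of_dominated_convergence (fun _ => ‖f‖)
      (fun n => (hfm.comp (hmn n)).aestronglyMeasurable) (integrable_const _)
      (fun n => Eventually.of_forall fun w => f.norm_coe_le_norm _)
      (Eventually.of_forall fun w => ?_)
    exact ((f.continuous.comp (Markov_cont w ρ I)).tendsto (τ w)).comp (Markov_up_tendsto (τ w))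
  have hconst : (fun n => ∫ w, f (I.restrict (shs (Markov_up n (τ w)) ρ w).1) ∂(μ.restrict A)) =
      fun _ => ∫ w, f (I.restrict w.1) ∂(μ A • μ) := by
    funext n
    rw [← e1 _ (hmn n), hn n]
  rw [hconst] at hlim
  exact tendsto_nhds_unique hlim tendsto_const_nhds

theorem IsW.strong (h : IsW κ μ) (hτ : Stp T τ) {A S : Set Path} (hA : DetS τ A) {ρ : ℝ}
    (hρ : 0 < ρ) (hS : MeasurableSet S) : μ (A ∩ {w | shs (τ w) ρ w ∈ S}) = μ A * μ S := by
  have hm : Measurable fun w => shs (τ w) ρ w :=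
    measurable_shs hτ.det.meas measurable_const measurable_id
  have h1 := congrArg (fun ν : Measure Path => ν S) (h.strong_map hτ hA hρ)
  simp only [Measure.smul_apply, smul_eq_mul] at h1
  rw [Measure.map_apply hm hS, Measure.restrict_apply (hm hS)] at h1
  rw [← h1, inter_comm]
  rfl

theorem IsW.strong' (h : IsW κ μ) (hτ : Stp T τ) {A S : Set Path} (hA : DetS τ A) {ρ : Path → ℝ}
    (hρ : Det τ ρ) (hpos : ∀ w, 0 < ρ w) (hc : (range ρ).Countable) (hS : MeasurableSet S) :
    μ (A ∩ {w | shs (τ w) (ρ w) w ∈ S}) = μ A * μ S := by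
  rw [Markov_part (μ := μ) hρ.meas hc A, Markov_part (μ := μ) hρ.meas hc (A ∩ _),
    ← ENNReal.tsum_mul_right]
  refine tsum_congr fun r => ?_
  have hr : 0 < (r : ℝ) := by
    obtain ⟨w, hw⟩ := r.2
    rw [← hw]
    exact hpos w
  rw [← h.strong hτ ((hρ.preimage (measurableSet_singleton (r : ℝ))).inter hA) hr hS]
  congr 1
  ext w
  simp only [mem_inter_iff, mem_preimage, mem_singleton_iff, mem_ofPred_eq]
  constructor
  · rintro ⟨h1, h2, h3⟩
    exact ⟨⟨h1, h2⟩, by rw [← h1]; exact h3⟩
  · rintro ⟨⟨h1, h2⟩, h3⟩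
    exact ⟨h1, h2, by rw [h1]; exact h3⟩

/-- the laws of `G` under `μ.restrict (A ∩ ...)` and under `μ S • μ.restrict A` agree by `strong'` -/
theorem IsW.strong_mul (h : IsW κ μ) (hτ : Stp T τ) {A S : Set Path} (hA : DetS τ A)
    {ρ : Path → ℝ} (hρ : Det τ ρ) (hpos : ∀ w, 0 < ρ w) (hc : (range ρ).Countable)
    (hS : MeasurableSet S) {G : Path → ℝ} (hG : Det τ G) :
    ∫ w in A ∩ {w | shs (τ w) (ρ w) w ∈ S}, G w ∂μ = μ.real S * ∫ w in A, G w ∂μ := by
  have hlaw : (μ.restrict (A ∩ {w | shs (τ w) (ρ w) w ∈ S})).map G =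
      μ S • (μ.restrict A).map G := by
    ext U hU
    rw [Measure.smul_apply, smul_eq_mul, Measure.map_apply hG.meas hU,
      Measure.map_apply hG.meas hU, Measure.restrict_apply (hG.meas hU),
      Measure.restrict_apply (hG.meas hU), ← inter_assoc,
      h.strong' hτ ((hG.preimage hU).inter hA) hρ hpos hc hS, mul_comm]
  have e1 : ∀ ν : Measure Path, ∫ w, G w ∂ν = ∫ x, x ∂(ν.map G) := fun ν =>
    (integral_map hG.meas.aemeasurable (f := fun x : ℝ => x) aestronglyMeasurable_id).symm
  rw [e1, e1, hlaw, integral_smul_measure, smul_eq_mul]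
  rfl

end Vale.Agent.P164
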