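import Vale.Agent.P164.PathB

/-!
# P164 Mart

Optional sampling. With `M t = N t - ∫ 0..t d` and the grid `t k = k T / n`, let `σ n`, `τ n` be the
first grid points above `σ`, `τ`. Then `M (τ n) - M (σ n)` is the sum over `k` of
`1 {σ ≤ t k < τ} (M (t (k+1)) - M (t k))`, and `A ∩ {σ ≤ t k} ∩ {t k < τ}` is determined at `t k`
(`DetS.inter_le`, `DetS.lt`). Let `n → ∞` by dominated convergence.
-/

open MeasureTheory ProbabilityTheory Set Filter Topology Complex Function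
open scoped NNReal ENNReal ComplexConjugate

noncomputable section

namespace Vale.Agent.P164

variable {μ : Measure Path} [IsFiniteMeasure μ] {T : ℝ} {N d N' d' : ℝ → Path → ℝ}
  {σ τ : Path → ℝ} {A : Set Path}

theorem Mart_ii {k : ℝ → ℝ} (hc : ContinuousOn k (Icc 0 T)) {s t : ℝ} (hs : s ∈ Icc 0 T)
    (ht : t ∈ Icc 0 T) : IntervalIntegrable k volume s t :=
  (hc.mono (uIcc_subset_Icc hs ht)).intervalIntegrable

theorem Mart_cont {k : ℝ → ℝ} (hc : ContinuousOn k (Icc 0 T)) :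
    ContinuousOn (fun t => ∫ u in (0 : ℝ)..t, k u) (Icc 0 T) := by
  rcases le_or_gt 0 T with hT | hT
  · rw [← uIcc_of_le hT] at hc ⊢
    exact intervalIntegral.continuousOn_primitive_interval hc.integrableOn_uIcc
  · rw [Icc_eq_empty (not_le.2 hT)]
    exact continuousOn_empty _

theorem Mart_meas {k : ℝ → Path → ℝ} (hc : ∀ w, ContinuousOn (fun t => k t w) (Icc 0 T))
    (hk : ∀ t ∈ Icc 0 T, Measurable (k t)) {t : ℝ} (ht : t ∈ Icc 0 T) :
    Measurable fun w => ∫ u in (0 : ℝ)..t, k u w := by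
  have hT : 0 ≤ T := ht.1.trans ht.2
  have h1 : Measurable fun p : Path × ℝ => k (max 0 (min p.2 T)) p.1 :=
    measurable_at hc hk measurable_fst (measurable_const.max (measurable_snd.min measurable_const))
      fun p => ⟨le_max_left _ _, max_le hT (min_le_right _ _)⟩
  have h2 := (h1.stronglyMeasurable.integral_prod_right'
    (ν := volume.restrict (Ioc 0 t))).measurable
  have e : (fun w => ∫ u in (0 : ℝ)..t, k u w) =
      fun w => ∫ u in Ioc 0 t, k (max 0 (min u T)) w := by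
    funext w
    rw [intervalIntegral.integral_of_le ht.1]
    refine setIntegral_congr_fun measurableSet_Ioc fun u hu => ?_
    simp only [min_eq_left (hu.2.trans ht.2), max_eq_right hu.1.le]
  rw [e]
  exact h2

theorem Mart_bd {k : ℝ → ℝ} {K : ℝ} (hK : ∀ t ∈ Icc 0 T, |k t| ≤ K) {t : ℝ} (ht : t ∈ Icc 0 T) :
    |∫ u in (0 : ℝ)..t, k u| ≤ K * T := by
  have h1 := intervalIntegral.norm_integral_le_of_norm_le_const (a := 0) (b := t) (C := K) (f := k)
    fun u hu => by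
      rw [uIoc_of_le ht.1] at hu
      exact hK u ⟨hu.1.le, hu.2.trans ht.2⟩
  rw [sub_zero, abs_of_nonneg ht.1] at h1
  exact h1.trans (mul_le_mul_of_nonneg_left ht.2 ((abs_nonneg _).trans (hK t ht)))

theorem Mart_sub {k : ℝ → ℝ} (hc : ContinuousOn k (Icc 0 T)) {s t : ℝ} (hs : s ∈ Icc 0 T)
    (ht : t ∈ Icc 0 T) :
    ∫ u in s..t, k u = (∫ u in (0 : ℝ)..t, k u) - ∫ u in (0 : ℝ)..s, k u := by
  have h0 : (0 : ℝ) ∈ Icc 0 T := ⟨le_rfl, ht.1.trans ht.2⟩
  rw [intervalIntegral.integral_interval_sub_left (Mart_ii hc h0 ht) (Mart_ii hc h0 hs)]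

theorem Mart_at {k : ℝ → Path → ℝ} (hc : ∀ w, ContinuousOn (fun t => k t w) (Icc 0 T))
    (hk : ∀ t ∈ Icc 0 T, Measurable (k t)) {K : ℝ} (hK : ∀ t ∈ Icc 0 T, ∀ w, |k t w| ≤ K)
    (hτ : Measurable τ) (hm : ∀ w, τ w ∈ Icc 0 T) : Integrable (fun w => k (τ w) w) μ :=
  Integrable.of_bound (measurable_at hc hk measurable_id hτ hm).aestronglyMeasurable K
    (ae_of_all _ fun w => hK _ (hm w) w)

theorem Mart_int {k : ℝ → Path → ℝ} (hc : ∀ w, ContinuousOn (fun t => k t w) (Icc 0 T))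
    (hk : ∀ t ∈ Icc 0 T, Measurable (k t)) {K : ℝ} (hK : ∀ t ∈ Icc 0 T, ∀ w, |k t w| ≤ K)
    (hσ : Measurable σ) (hσ' : ∀ w, σ w ∈ Icc 0 T) (hτ : Measurable τ) (hτ' : ∀ w, τ w ∈ Icc 0 T) :
    Integrable (fun w => ∫ u in σ w..τ w, k u w) μ := by
  have h : ∀ {ρ : Path → ℝ}, Measurable ρ → (∀ w, ρ w ∈ Icc 0 T) →
      Integrable (fun w => ∫ u in (0 : ℝ)..ρ w, k u w) μ := fun h1 h2 =>
    Mart_at (k := fun t w => ∫ u in (0 : ℝ)..t, k u w) (fun w => Mart_cont (hc w))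
      (fun t ht => Mart_meas hc hk ht) (fun t ht w => Mart_bd (fun u hu => hK u hu w) ht) h1 h2
  refine ((h hτ hτ').sub (h hσ hσ')).congr (ae_of_all _ fun w => ?_)
  exact (Mart_sub (hc w) (hσ' w) (hτ' w)).symm

theorem Mart_inc (h : Mart μ T N d) {s t : ℝ} (hs : s ∈ Icc 0 T) (ht : t ∈ Icc 0 T) :
    Integrable (fun w => N t w - N s w - ∫ u in s..t, d u w) μ := by
  obtain ⟨K, hK⟩ := h.bdd
  have h1 : ∀ u ∈ Icc 0 T, Integrable (N u) μ := fun u hu =>
    Mart_at h.cN h.mN (fun t ht w => (hK t ht w).1) measurable_const fun _ => hu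
  exact ((h1 t ht).sub (h1 s hs)).sub (Mart_int h.cd h.md (fun t ht w => (hK t ht w).2)
    measurable_const (fun _ => hs) measurable_const fun _ => ht)

theorem Mart_disc {M : ℝ → Path → ℝ} (hi : ∀ t ∈ Icc 0 T, Integrable (M t) μ)
    (he : ∀ s ∈ Icc 0 T, ∀ A, DetS (fun _ => s) A → ∫ w in A, M s w ∂μ = 0)
    (hτ : Stp T τ) (hA : DetS τ A) {c : ℝ} (hc : 0 < c) :
    ∫ w in A, M (min T (⌈τ w * c⌉₊ / c)) w ∂μ = 0 := by
  have hT : 0 ≤ T := (hτ.mem ⟨0, continuous_const⟩).1.trans (hτ.mem _).2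
  have ht : ∀ i : ℕ, min T (i / c) ∈ Icc 0 T := fun i =>
    ⟨le_min hT (by positivity), min_le_left _ _⟩
  have hm : ∀ i : ℕ, MeasurableSet {w | ⌈τ w * c⌉₊ = i} := fun i =>
    (Nat.measurable_ceil.comp (hτ.det.meas.mul_const c)) (measurableSet_singleton i)
  have e : ∀ w, M (min T (⌈τ w * c⌉₊ / c)) w = ∑ i ∈ Finset.range (⌈T * c⌉₊ + 1),
      {w | ⌈τ w * c⌉₊ = i}.indicator (M (min T (i / c))) w := fun w => by
    rw [Finset.sum_eq_single_of_mem ⌈τ w * c⌉₊ (Finset.mem_range.2 (Nat.lt_add_one_of_le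
      (Nat.ceil_mono (mul_le_mul_of_nonneg_right (hτ.mem w).2 hc.le)))), indicator_of_mem]
    · rfl
    · intro i _ hi
      refine indicator_of_notMem (fun h => ?_) _
      exact hi (Eq.symm h)
  simp only [e]
  rw [integral_finsetSum _ fun i _ => ((hi _ (ht i)).indicator (hm i)).integrableOn]
  refine Finset.sum_eq_zero fun i _ => ?_
  rw [setIntegral_indicator (hm i)]
  refine he _ (ht i) _ ⟨hA.meas.inter (hm i), fun w w' h hw => ?_⟩
  have h1 : τ w ≤ min T (i / c) := by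
    refine le_min (hτ.mem w).2 ((le_div_iff₀ hc).2 ?_)
    rw [← show ⌈τ w * c⌉₊ = i from hw.2]
    exact Nat.le_ceil _
  have h2 := h.mono h1
  refine ⟨hA.mem w w' h2 hw.1, ?_⟩
  show ⌈τ w' * c⌉₊ = i
  rw [hτ.det.eq w w' h2]
  exact hw.2

theorem Mart_one {M : ℝ → Path → ℝ} (hc : ∀ w, ContinuousOn (fun t => M t w) (Icc 0 T))
    (hk : ∀ t ∈ Icc 0 T, Measurable (M t)) {K : ℝ} (hK : ∀ t ∈ Icc 0 T, ∀ w, |M t w| ≤ K)
    (he : ∀ s ∈ Icc 0 T, ∀ A, DetS (fun _ => s) A → ∫ w in A, M s w ∂μ = 0)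
    (hτ : Stp T τ) (hA : DetS τ A) : ∫ w in A, M (τ w) w ∂μ = 0 := by
  have hT : 0 ≤ T := (hτ.mem ⟨0, continuous_const⟩).1.trans (hτ.mem _).2
  have ht : ∀ (n : ℕ) w, min T (⌈τ w * (n + 1)⌉₊ / (n + 1)) ∈ Icc 0 T := fun n w =>
    ⟨le_min hT (by positivity), min_le_left _ _⟩
  have h1 := tendsto_integral_of_dominated_convergence (μ := μ.restrict A)
    (F := fun (n : ℕ) w => M (min T (⌈τ w * (n + 1)⌉₊ / (n + 1))) w) (f := fun w => M (τ w) w)
    (fun _ => K) (fun n => (measurable_at hc hk measurable_id (measurable_const.min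
      ((measurable_from_top.comp (Nat.measurable_ceil.comp
        (hτ.det.meas.mul_const _))).div_const _)) (ht n)).aestronglyMeasurable)
    (integrable_const K) (fun n => ae_of_all _ fun w => hK _ (ht n w) w) (ae_of_all _ fun w => ?_)
  · have h2 : ∀ n : ℕ, ∫ w in A, M (min T (⌈τ w * (n + 1)⌉₊ / (n + 1))) w ∂μ = 0 := fun n =>
      Mart_disc (fun t ht => Mart_at hc hk hK measurable_const fun _ => ht) he hτ hA
        (by positivity)
    simp only [h2] at h1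
    exact (tendsto_nhds_unique tendsto_const_nhds h1).symm
  · refine (hc w _ (hτ.mem w)).tendsto.comp (tendsto_nhdsWithin_iff.2
      ⟨?_, Eventually.of_forall fun n => ht n w⟩)
    have h3 := tendsto_one_div_add_atTop_nhds_zero_nat (𝕜 := ℝ) |>.const_add (τ w)
    rw [add_zero] at h3
    refine tendsto_of_tendsto_of_tendsto_of_le_of_le tendsto_const_nhds h3 (fun n => ?_) fun n => ?_
    · exact le_min (hτ.mem w).2 ((le_div_iff₀ (by positivity)).2 (Nat.le_ceil _))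
    · have h0 : (0 : ℝ) < n + 1 := by positivity
      refine (min_le_right _ _).trans ((div_le_iff₀ h0).2 ?_)
      rw [add_mul, one_div_mul_cancel h0.ne']
      exact (Nat.ceil_lt_add_one (mul_nonneg (hτ.mem w).1 h0.le)).le

theorem Mart_T (h : Mart μ T N d) (hτ : Stp T τ) (hA : DetS τ A) :
    ∫ w in A, (N T w - N (τ w) w - ∫ u in τ w..T, d u w) ∂μ = 0 := by
  obtain ⟨K, hK⟩ := h.bdd
  have hT : T ∈ Icc 0 T := ⟨(hτ.mem ⟨0, continuous_const⟩).1.trans (hτ.mem _).2, le_rfl⟩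
  have h1 := Mart_one (μ := μ) (K := K + K + (K * T + K * T))
    (M := fun t w => N T w - N t w - ((∫ u in (0 : ℝ)..T, d u w) - ∫ u in (0 : ℝ)..t, d u w))
    (fun w => (continuousOn_const.sub (h.cN w)).sub (continuousOn_const.sub (Mart_cont (h.cd w))))
    (fun t ht => ((h.mN T hT).sub (h.mN t ht)).sub
      ((Mart_meas h.cd h.md hT).sub (Mart_meas h.cd h.md ht)))
    (fun t ht w => (abs_sub _ _).trans (add_le_add
      ((abs_sub _ _).trans (add_le_add (hK T hT w).1 (hK t ht w).1))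
      ((abs_sub _ _).trans (add_le_add (Mart_bd (fun u hu => (hK u hu w).2) hT)
        (Mart_bd (fun u hu => (hK u hu w).2) ht)))))
    (fun s hs B hB => by
      simpa only [fun w => Mart_sub (h.cd w) hs hT] using h.eq s T hs.1 hs.2 le_rfl B hB) hτ hA
  simpa only [fun w => Mart_sub (h.cd w) (hτ.mem w) hT] using h1

theorem Mart.add (h : Mart μ T N d) (h' : Mart μ T N' d') :
    Mart μ T (fun t w => N t w + N' t w) fun t w => d t w + d' t w := by
  obtain ⟨K, hK⟩ := h.bdd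
  obtain ⟨K', hK'⟩ := h'.bdd
  refine ⟨fun w => (h.cN w).add (h'.cN w), fun w => (h.cd w).add (h'.cd w),
    fun t ht => (h.mN t ht).add (h'.mN t ht), fun t ht => (h.md t ht).add (h'.md t ht),
    ⟨K + K', fun t ht w =>
      ⟨(abs_add_le _ _).trans (add_le_add (hK t ht w).1 (hK' t ht w).1),
        (abs_add_le _ _).trans (add_le_add (hK t ht w).2 (hK' t ht w).2)⟩⟩,
    fun s t h0 hst hT B hB => ?_⟩
  have hs : s ∈ Icc 0 T := ⟨h0, hst.trans hT⟩
  have ht : t ∈ Icc 0 T := ⟨h0.trans hst, hT⟩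
  have h1 := integral_add (μ := μ.restrict B) (Mart_inc h hs ht).integrableOn
    (Mart_inc h' hs ht).integrableOn
  rw [h.eq s t h0 hst hT B hB, h'.eq s t h0 hst hT B hB, add_zero] at h1
  rw [← h1]
  refine integral_congr_ae (ae_of_all _ fun w => ?_)
  simp only [intervalIntegral.integral_add (Mart_ii (h.cd w) hs ht) (Mart_ii (h'.cd w) hs ht)]
  ring

theorem Mart.smul (h : Mart μ T N d) (c : ℝ) :
    Mart μ T (fun t w => c * N t w) fun t w => c * d t w := by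
  obtain ⟨K, hK⟩ := h.bdd
  refine ⟨fun w => continuousOn_const.mul (h.cN w), fun w => continuousOn_const.mul (h.cd w),
    fun t ht => (h.mN t ht).const_mul c, fun t ht => (h.md t ht).const_mul c,
    ⟨|c| * K, fun t ht w => ?_⟩, fun s t h0 hst hT B hB => ?_⟩
  · rw [abs_mul, abs_mul]
    exact ⟨mul_le_mul_of_nonneg_left (hK t ht w).1 (abs_nonneg c),
      mul_le_mul_of_nonneg_left (hK t ht w).2 (abs_nonneg c)⟩
  · simp only [intervalIntegral.integral_const_mul, ← mul_sub]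
    rw [integral_const_mul, h.eq s t h0 hst hT B hB, mul_zero]

theorem Mart.integrable_at (h : Mart μ T N d) (hτ : Measurable τ) (hm : ∀ w, τ w ∈ Icc 0 T) :
    Integrable (fun w => N (τ w) w) μ := by
  obtain ⟨K, hK⟩ := h.bdd
  exact Mart_at h.cN h.mN (fun t ht w => (hK t ht w).1) hτ hm

theorem integrable_int {k : ℝ → Path → ℝ} (hc : ∀ w, ContinuousOn (fun t => k t w) (Icc 0 T))
    (hk : ∀ t ∈ Icc 0 T, Measurable (k t)) {K : ℝ} (hK : ∀ t ∈ Icc 0 T, ∀ w, |k t w| ≤ K)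
    (hσ : Measurable σ) (hσ' : ∀ w, σ w ∈ Icc 0 T) (hτ : Measurable τ) (hτ' : ∀ w, τ w ∈ Icc 0 T) :
    Integrable (fun w => ∫ u in σ w..τ w, k u w) μ :=
  Mart_int hc hk hK hσ hσ' hτ hτ'

theorem Mart.os (h : Mart μ T N d) (hσ : Stp T σ) (hτ : Stp T τ) (hA : DetS σ A)
    (hle : ∀ w ∈ A, σ w ≤ τ w) :
    ∫ w in A, N (τ w) w ∂μ = ∫ w in A, N (σ w) w ∂μ + ∫ w in A, (∫ u in σ w..τ w, d u w) ∂μ := by
  obtain ⟨K, hK⟩ := h.bdd
  have hT : T ∈ Icc 0 T := ⟨(hτ.mem ⟨0, continuous_const⟩).1.trans (hτ.mem _).2, le_rfl⟩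
  have hi : ∀ {ρ ρ' : Path → ℝ}, Stp T ρ → Stp T ρ' →
      Integrable (fun w => ∫ u in ρ w..ρ' w, d u w) (μ.restrict A) := fun h1 h2 =>
    (Mart_int h.cd h.md (fun t ht w => (hK t ht w).2) h1.det.meas h1.mem h2.det.meas
      h2.mem).integrableOn
  have hN : ∀ {ρ : Path → ℝ}, Stp T ρ → Integrable (fun w => N (ρ w) w) (μ.restrict A) :=
    fun h1 => (h.integrable_at h1.det.meas h1.mem).integrableOn
  have hc := Stp.const hT
  have h1 := Mart_T h hσ hA
  have h2 := Mart_T h hτ (hA.mono hle)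
  have hs : ∀ {ρ : Path → ℝ}, Stp T ρ →
      Integrable (fun w => N T w - N (ρ w) w) (μ.restrict A) := fun h1 => (hN hc).sub (hN h1)
  rw [integral_sub (hs hσ) (hi hσ hc), integral_sub (hN hc) (hN hσ)] at h1
  rw [integral_sub (hs hτ) (hi hτ hc), integral_sub (hN hc) (hN hτ)] at h2
  have h3 := integral_add (hi hσ hτ) (hi hτ hc)
  simp only [fun w => intervalIntegral.integral_add_adjacent_intervals
    (Mart_ii (h.cd w) (hσ.mem w) (hτ.mem w)) (Mart_ii (h.cd w) (hτ.mem w) hT)] at h3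
  linarith

theorem Mart.os_le (h : Mart μ T N d) (hσ : Stp T σ) (hτ : Stp T τ) (hA : DetS σ A)
    (hle : ∀ w ∈ A, σ w ≤ τ w) (hd : ∀ w ∈ A, ∀ u ∈ Ioo (σ w) (τ w), d u w ≤ 0) :
    ∫ w in A, N (τ w) w ∂μ ≤ ∫ w in A, N (σ w) w ∂μ := by
  rw [h.os hσ hτ hA hle]
  refine add_le_of_nonpos_right (setIntegral_nonpos hA.meas fun w hw => ?_)
  rw [intervalIntegral.integral_of_le (hle w hw), integral_Ioc_eq_integral_Ioo]
  exact setIntegral_nonpos measurableSet_Ioo (hd w hw)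

end Vale.Agent.P164
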