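import Vale.Agent.P164.Defs

/-!
# P164 ODE

Global solutions by Picard iteration. With `K`, `M` from `Nice`: by induction each `pic V z n` is
continuous and `‖pic (n+1) t - pic n t‖ ≤ M K^n |t|^(n+1) / n!` (or `/(n+1)!`), so the iterates converge
locally uniformly, the limit is continuous and solves the integral equation.
-/

open MeasureTheory ProbabilityTheory Set Filter Topology Complex Function
open scoped NNReal ENNReal ComplexConjugate

noncomputable section

namespace Vale.Agent.P164

variable {V V' : ℝ → ℂ → ℂ}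

theorem ODE_cont (h : Nice V) {g : ℝ → ℂ} (hg : Continuous g) : Continuous fun s => V s (g s) :=
  h.cont.comp (continuous_id.prodMk hg)

theorem ODE_pic_cont (h : Nice V) (z : ℂ) (n : ℕ) : Continuous (pic V z n) := by
  induction n with
  | zero => exact continuous_const
  | succ n ih =>
    refine continuous_iff_continuousAt.2 fun t => ?_
    exact (((ODE_cont h ih).integral_hasStrictDerivAt 0 t).hasDerivAt.const_add z).continuousAt

theorem ODE_cosh {f : ℝ → ℂ} {C c : ℝ} (hc : 0 < c) (hC : 0 ≤ C)
    (hf : ∀ s, ‖f s‖ ≤ C * Real.cosh (c * s)) (t : ℝ) :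
    ‖∫ s in (0 : ℝ)..t, f s‖ ≤ C / c * Real.cosh (c * t) := by
  have h1 : Continuous fun s => C * Real.cosh (c * s) := by fun_prop
  have h2 : ∀ s, HasDerivAt (fun s => C / c * Real.sinh (c * s)) (C * Real.cosh (c * s)) s := by
    intro s
    have h3 := (((hasDerivAt_id s).const_mul c).sinh).const_mul (C / c)
    refine h3.congr_deriv ?_
    simp only [id]
    field_simp
  refine (intervalIntegral.norm_integral_le_abs_of_norm_le (Eventually.of_forall hf)
    (h1.intervalIntegrable _ _)).trans ?_
  rw [intervalIntegral.integral_eq_sub_of_hasDerivAt (fun s _ => h2 s) (h1.intervalIntegrable _ _),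
    mul_zero, Real.sinh_zero, mul_zero, sub_zero, abs_mul, abs_of_nonneg (by positivity)]
  refine mul_le_mul_of_nonneg_left ?_ (by positivity)
  rw [Real.abs_sinh, ← Real.cosh_abs]
  exact (Real.sinh_lt_cosh _).le

theorem ODE_tendsto (h : Nice V) (z : ℂ) (t : ℝ) :
    Tendsto (fun n => pic V z n t) atTop (𝓝 (sol V z t)) := by
  obtain ⟨K, hK⟩ := h.lip
  obtain ⟨M, hM⟩ := h.bdd
  have hM0 : 0 ≤ M := (norm_nonneg _).trans (hM 0 0)
  have hK0 : (0 : ℝ) ≤ K := K.2
  have hc : (0 : ℝ) < 2 * (K + 1) := by positivity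
  have key : ∀ n t, ‖pic V z (n + 1) t - pic V z n t‖ ≤
      M * (1 / 2) ^ n * Real.cosh (2 * (K + 1) * t) := by
    intro n
    induction n with
    | zero =>
      intro t
      have h1 := ODE_cosh (f := fun s => V s z) hc hM0 (fun s => (hM _ _).trans
        (le_mul_of_one_le_right hM0 (Real.one_le_cosh _))) t
      simp only [pic, add_sub_cancel_left, pow_zero, mul_one]
      refine h1.trans (mul_le_mul_of_nonneg_right ?_ (Real.cosh_pos _).le)
      exact div_le_self hM0 (by linarith)
    | succ n ih =>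
      intro t
      have h1 := ODE_cosh (f := fun s => V s (pic V z (n + 1) s) - V s (pic V z n s))
        (C := K * (M * (1 / 2) ^ n)) hc (by positivity) (fun s => by
          rw [mul_assoc]
          exact ((hK s).norm_sub_le _ _).trans (mul_le_mul_of_nonneg_left (ih s) hK0)) t
      rw [intervalIntegral.integral_sub
        ((ODE_cont h (ODE_pic_cont h z _)).intervalIntegrable _ _)
        ((ODE_cont h (ODE_pic_cont h z _)).intervalIntegrable _ _)] at h1
      have e : pic V z (n + 1 + 1) t - pic V z (n + 1) t =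
          (∫ s in (0 : ℝ)..t, V s (pic V z (n + 1) s)) - ∫ s in (0 : ℝ)..t, V s (pic V z n s) :=
        add_sub_add_left_eq_sub _ _ z
      rw [e]
      refine h1.trans (mul_le_mul_of_nonneg_right ?_ (Real.cosh_pos _).le)
      rw [div_le_iff₀ hc, pow_succ]
      have h2 : 0 ≤ M * (1 / 2 : ℝ) ^ n := by positivity
      nlinarith
  refine CauchySeq.tendsto_limUnder (cauchySeq_of_le_geometric (1 / 2)
    (M * Real.cosh (2 * (K + 1) * t)) (by norm_num) fun n => ?_)
  rw [dist_comm, dist_eq_norm, mul_right_comm]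
  exact key n t

theorem ODE_sol_cont (h : Nice V) (z : ℂ) : Continuous (sol V z) := by
  obtain ⟨M, hM⟩ := h.bdd
  have hM0 : 0 ≤ M := (norm_nonneg _).trans (hM 0 0)
  have key : ∀ n t t', ‖pic V z n t - pic V z n t'‖ ≤ M * |t - t'| := by
    intro n t t'
    cases n with
    | zero =>
      simp only [pic, sub_self, norm_zero]
      positivity
    | succ n =>
      have e : pic V z (n + 1) t - pic V z (n + 1) t' =
          (∫ s in (0 : ℝ)..t, V s (pic V z n s)) - ∫ s in (0 : ℝ)..t', V s (pic V z n s) :=
        add_sub_add_left_eq_sub _ _ z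
      rw [e, intervalIntegral.integral_interval_sub_left
        ((ODE_cont h (ODE_pic_cont h z _)).intervalIntegrable _ _)
        ((ODE_cont h (ODE_pic_cont h z _)).intervalIntegrable _ _)]
      exact intervalIntegral.norm_integral_le_of_norm_le_const fun s _ => hM _ _
  refine (LipschitzWith.of_dist_le_mul (K := ⟨M, hM0⟩) fun t t' => ?_).continuous
  rw [dist_eq_norm, Real.dist_eq]
  exact le_of_tendsto' ((ODE_tendsto h z t).sub (ODE_tendsto h z t')).norm fun n => key n t t'

theorem ODE_sol_eq (h : Nice V) (z : ℂ) (t : ℝ) :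
    sol V z t = z + ∫ s in (0 : ℝ)..t, V s (sol V z s) := by
  obtain ⟨M, hM⟩ := h.bdd
  have h1 := (ODE_tendsto h z t).comp (tendsto_add_atTop_nat 1)
  have h2 : Tendsto (fun n => ∫ s in (0 : ℝ)..t, V s (pic V z n s)) atTop
      (𝓝 (∫ s in (0 : ℝ)..t, V s (sol V z s))) := by
    refine intervalIntegral.tendsto_integral_filter_of_dominated_convergence (fun _ => M)
      (Eventually.of_forall fun n => (ODE_cont h (ODE_pic_cont h z n)).aestronglyMeasurable)
      (Eventually.of_forall fun n => Eventually.of_forall fun s _ => hM _ _)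
      intervalIntegrable_const (Eventually.of_forall fun s _ => ?_)
    exact ((h.cont.uncurry_left s).tendsto _).comp (ODE_tendsto h z s)
  exact tendsto_nhds_unique h1 (h2.const_add z)

theorem ODE_meas {P E : Type} [MeasurableSpace P] [NormedAddCommGroup E] [NormedSpace ℝ E]
    [MeasurableSpace E] [BorelSpace E] [SecondCountableTopology E] {k : P → ℝ → E} {σ τ : P → ℝ}
    (hk : Measurable fun q : P × ℝ => k q.1 q.2) (hσ : Measurable σ) (hτ : Measurable τ) :
    Measurable fun p => ∫ s in σ p..τ p, k p s := by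
  have key : ∀ {σ τ : P → ℝ}, Measurable σ → Measurable τ →
      Measurable fun p => ∫ s in Ioc (σ p) (τ p), k p s := by
    intro σ τ hσ hτ
    have hS : MeasurableSet {q : P × ℝ | σ q.1 < q.2 ∧ q.2 ≤ τ q.1} :=
      (measurableSet_lt (hσ.comp measurable_fst) measurable_snd).inter
        (measurableSet_le measurable_snd (hτ.comp measurable_fst))
    have h1 := ((hk.indicator hS).stronglyMeasurable.integral_prod_right'
      (ν := (volume : Measure ℝ))).measurable
    have e : (fun p => ∫ s in Ioc (σ p) (τ p), k p s) = fun p => ∫ s,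
        {q : P × ℝ | σ q.1 < q.2 ∧ q.2 ≤ τ q.1}.indicator (fun q : P × ℝ => k q.1 q.2) (p, s) := by
      funext p
      rw [← integral_indicator measurableSet_Ioc]
      rfl
    rw [e]
    exact h1
  exact (key hσ hτ).sub (key hτ hσ)

theorem Nice.sol_zero (h : Nice V) (z : ℂ) : sol V z 0 = z := by
  rw [ODE_sol_eq h, intervalIntegral.integral_same, add_zero]

theorem Nice.hasDerivAt (h : Nice V) (z : ℂ) (t : ℝ) :
    HasDerivAt (sol V z) (V t (sol V z t)) t := by
  have h1 := ((ODE_cont h (ODE_sol_cont h z)).integral_hasStrictDerivAt 0 t).hasDerivAt.const_add z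
  exact h1.congr_of_eventuallyEq (Eventually.of_forall (ODE_sol_eq h z))

/-- `ODE_solution_unique_of_mem_Icc_right` -/
theorem Nice.unique (h : Nice V) {g : ℝ → ℂ} {T : ℝ} (hc : ContinuousOn g (Icc 0 T))
    (hd : ∀ t ∈ Ico 0 T, HasDerivWithinAt g (V t (g t)) (Ici t) t) :
    ∀ t ∈ Icc 0 T, g t = sol V (g 0) t := by
  obtain ⟨K, hK⟩ := h.lip
  exact ODE_solution_unique hK hc hd (ODE_sol_cont h _).continuousOn
    (fun t _ => (h.hasDerivAt _ t).hasDerivWithinAt) (h.sol_zero _).symm

theorem Nice.congr (h : Nice V) (h' : Nice V') {T : ℝ} (e : ∀ s ∈ Icc 0 T, V s = V' s) (z : ℂ) :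
    ∀ t ∈ Icc 0 T, sol V z t = sol V' z t := by
  intro t ht
  have h1 := h'.unique (g := sol V z) (ODE_sol_cont h z).continuousOn
    (fun s hs => e s (Ico_subset_Icc_self hs) ▸ (h.hasDerivAt z s).hasDerivWithinAt) t ht
  rwa [h.sol_zero] at h1

/-- stability: `dist_le_of_approx_trajectories_ODE` -/
theorem Nice.dist_le (h : Nice V) (h' : Nice V') {K : ℝ≥0} (hK : ∀ s, LipschitzWith K (V s))
    {T ε : ℝ} (e : ∀ s ∈ Icc 0 T, ∀ ζ, ‖V s ζ - V' s ζ‖ ≤ ε) (z z' : ℂ) :
    ∀ t ∈ Icc 0 T, ‖sol V z t - sol V' z' t‖ ≤ gronwallBound ‖z - z'‖ K ε t := by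
  intro t ht
  have h1 := dist_le_of_approx_trajectories_ODE (εf := 0) (εg := ε) (δ := ‖z - z'‖) hK
    (ODE_sol_cont h z).continuousOn (fun s _ => (h.hasDerivAt z s).hasDerivWithinAt)
    (fun s _ => (dist_self _).le) (ODE_sol_cont h' z').continuousOn
    (fun s _ => (h'.hasDerivAt z' s).hasDerivWithinAt)
    (fun s hs => by
      rw [dist_comm, dist_eq_norm]
      exact e s (Ico_subset_Icc_self hs) _)
    (by rw [h.sol_zero, h'.sol_zero, dist_eq_norm]) t ht
  rwa [dist_eq_norm, zero_add, sub_zero] at h1

/-- no regularity needed: each `pic n` is jointly measurable in `(p, t)` (write the interval integral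
as a difference of integrals of indicators, `StronglyMeasurable.integral_prod_right`), then
`StronglyMeasurable.limUnder` -/
theorem measurable_sol {P : Type} [MeasurableSpace P] {V : P → ℝ → ℂ → ℂ} {z : P → ℂ} {τ : P → ℝ}
    (hV : Measurable fun q : P × ℝ × ℂ => V q.1 q.2.1 q.2.2) (hz : Measurable z)
    (hτ : Measurable τ) : Measurable fun p => sol (V p) (z p) (τ p) := by
  have key : ∀ n, Measurable fun q : P × ℝ => pic (V q.1) (z q.1) n q.2 := by
    intro n
    induction n with
    | zero => exact hz.comp measurable_fst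
    | succ n ih =>
      refine (hz.comp measurable_fst).add (ODE_meas (σ := fun _ => 0)
        (k := fun (q : P × ℝ) s => V q.1 s (pic (V q.1) (z q.1) n s)) ?_ measurable_const
        measurable_snd)
      exact hV.comp (measurable_fst.fst.prodMk (measurable_snd.prodMk
        (ih.comp (measurable_fst.fst.prodMk measurable_snd))))
  exact (StronglyMeasurable.limUnder fun n =>
    ((key n).comp (measurable_id.prodMk hτ)).stronglyMeasurable).measurable

/-- integrals with a variable end point -/
theorem measurable_intervalIntegral {P : Type} [MeasurableSpace P] {k : P → ℝ → ℝ} {σ τ : P → ℝ}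
    (hk : Measurable fun q : P × ℝ => k q.1 q.2) (hσ : Measurable σ) (hτ : Measurable τ) :
    Measurable fun p => ∫ s in σ p..τ p, k p s :=
  ODE_meas hk hσ hτ

end Vale.Agent.P164
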