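import Vale.Agent.P164.Pw

/-!
# P164 OPA

One point estimates. With `u = cc / e`, `a = aa κ`, `θ c = stp (c / e)` the process
`N = (u ^ (-2) S ^ a - C₂ u ^ (-2) S ^ α + C₂ u ^ (-β) S ^ α) kil θ` is nonnegative (`u ≥ 1` where
`θ ≠ 0`) and its drift is at most `-c u ^ (-2) S ^ a kil θ / ρ ^ 2`:
`II κ (-2) a 0 S = II κ 0 a 0 S + 8 S ^ 2 ≤ -c₂ + 8 S ^ 2`, `II κ (-2) α 0 S = 4 (2 - β) S ^ 2`,
`II κ (-β) α 0 S = 0`; if `8 S ^ 2 ≤ c₂ / 2` the first term suffices, otherwise `S ^ a ≤ C S ^ α`.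
-/

open MeasureTheory ProbabilityTheory Set Filter Topology Complex Function
open scoped NNReal ENNReal ComplexConjugate

noncomputable section

namespace Vale.Agent.P164

variable {κ : ℝ}

theorem OPA_alg (h0 : 0 < κ) (h8 : κ < 8) : ∃ c₁ C₂ : ℝ, 0 < c₁ ∧ 0 < C₂ ∧ ∀ S : ℝ, 0 < S → S ≤ 1 →
    S ^ aa κ * II κ (-2) (aa κ) 0 S - C₂ * (S ^ al κ * II κ (-2) (al κ) 0 S)
      ≤ -c₁ * S ^ aa κ := by
  obtain ⟨c, hc, hI⟩ := II_aa h0 h8
  have hs0 : 0 < √(c / 16) := Real.sqrt_pos.2 (by positivity)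
  have hp : 0 < √(c / 16) ^ al κ := Real.rpow_pos_of_pos hs0 _
  refine ⟨c / 2, 2 / √(c / 16) ^ al κ, by positivity, by positivity, fun S hS hS1 => ?_⟩
  have e1 : II κ (-2) (aa κ) 0 S = II κ 0 (aa κ) 0 S + 8 * S ^ 2 := by
    unfold II
    ring
  have h1 := hI S hS.le hS1
  have hb := be_lt_one h0
  have ha : 0 < S ^ aa κ := Real.rpow_pos_of_pos hS _
  have hα : 0 < S ^ al κ := Real.rpow_pos_of_pos hS _
  have h2 : 4 * S ^ 2 ≤ II κ (-2) (al κ) 0 S := by
    rw [II_al h0]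
    nlinarith [sq_nonneg S]
  have h3 : S ^ aa κ * II κ (-2) (aa κ) 0 S ≤ S ^ aa κ * (-c + 8 * S ^ 2) := by
    rw [e1]
    gcongr
  have h4 : 2 / √(c / 16) ^ al κ * (S ^ al κ * (4 * S ^ 2))
      ≤ 2 / √(c / 16) ^ al κ * (S ^ al κ * II κ (-2) (al κ) 0 S) := by gcongr
  rcases le_or_gt (8 * S ^ 2) (c / 2) with h | h
  · have h5 : 0 ≤ 2 / √(c / 16) ^ al κ * (S ^ al κ * (4 * S ^ 2)) := by positivity
    nlinarith
  · have h5 : √(c / 16) ≤ S := Real.sqrt_le_iff.2 ⟨hS.le, by linarith⟩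
    have h6 : √(c / 16) ^ al κ ≤ S ^ al κ :=
      Real.rpow_le_rpow hs0.le h5 ((be_pos h8).trans (be_lt_al h0 h8)).le
    have h7 : S ^ aa κ ≤ 1 := Real.rpow_le_one hS.le hS1 (aa_pos h0 h8).le
    have h8' : 8 * S ^ 2 ≤ 2 / √(c / 16) ^ al κ * (S ^ al κ * (4 * S ^ 2)) := by
      calc 8 * S ^ 2 = 2 / √(c / 16) ^ al κ * (√(c / 16) ^ al κ * (4 * S ^ 2)) := by
            field_simp
            ring
        _ ≤ _ := by gcongr
    have h9 : S ^ aa κ * (8 * S ^ 2) ≤ 8 * S ^ 2 := mul_le_of_le_one_left (by positivity) h7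
    nlinarith

/-- the supermartingale -/
def OPA_N (κ C η e : ℝ) (z : ℂ) (t : ℝ) (w : Path) : ℝ :=
  e ^ 2 * (pv η (pf w) z (-2) (aa κ) 0 t * kil η (pf w) z t * stp (cc η (pf w) z t / e))
    + -C * e ^ 2 * (pv η (pf w) z (-2) (al κ) 0 t * kil η (pf w) z t * stp (cc η (pf w) z t / e))
    + C * e ^ be κ *
      (pv η (pf w) z (-be κ) (al κ) 0 t * kil η (pf w) z t * stp (cc η (pf w) z t / e))

/-- its drift -/
def OPA_d (κ C η e : ℝ) (z : ℂ) (t : ℝ) (w : Path) : ℝ :=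
  e ^ 2 * drf κ η (pf w) z (-2) (aa κ) 0 (fun c => stp (c / e)) t
    + -C * e ^ 2 * drf κ η (pf w) z (-2) (al κ) 0 (fun c => stp (c / e)) t
    + C * e ^ be κ * drf κ η (pf w) z (-be κ) (al κ) 0 (fun c => stp (c / e)) t

theorem OPA_mart (h0 : 0 < κ) (h8 : κ < 8) {μ : Measure Path} (hμ : IsW κ μ) {η e T : ℝ} {z : ℂ}
    (hη : 0 < η) (hT : 0 < T) (hz : 0 < z.im) (C : ℝ) :
    Mart μ T (OPA_N κ C η e z) (OPA_d κ C η e z) := by
  have := hμ.prob
  have hθ : ContDiff ℝ 1 fun c : ℝ => stp (c / e) := contDiff_stp.comp (contDiff_id.div_const e)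
  have hα : 0 ≤ al κ := ((be_pos h8).trans (be_lt_al h0 h8)).le
  exact (((mart_pw hμ hη hz hT (-2) (aa_pos h0 h8).le 0 hθ).smul (e ^ 2)).add
    ((mart_pw hμ hη hz hT (-2) hα 0 hθ).smul (-C * e ^ 2))).add
      ((mart_pw hμ hη hz hT (-be κ) hα 0 hθ).smul (C * e ^ be κ))

theorem OPA_q1 {e c : ℝ} (hc : 0 < c) : e ^ 2 * c ^ (-2 : ℝ) = (e / c) ^ 2 := by
  rw [Real.rpow_neg hc.le, Real.rpow_two, div_pow, div_eq_mul_inv]

theorem OPA_q3 {e c b : ℝ} (he : 0 < e) (hc : 0 < c) : e ^ b * c ^ (-b) = (e / c) ^ b := by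
  rw [Real.rpow_neg hc.le, Real.div_rpow he.le hc.le, div_eq_mul_inv]

theorem OPA_q (h0 : 0 < κ) {e c : ℝ} (he : 0 < e) (h : 1 < c / e) :
    e ^ 2 * c ^ (-2 : ℝ) ≤ e ^ be κ * c ^ (-be κ) := by
  have h1 : e < c := (one_lt_div he).1 h
  have hc : 0 < c := he.trans h1
  rw [OPA_q1 hc, OPA_q3 he hc, ← Real.rpow_two]
  exact Real.rpow_le_rpow_of_exponent_ge (by positivity) ((div_le_one hc).2 h1.le)
    (by linarith [be_lt_one h0])

theorem OPA_deriv (e c : ℝ) : deriv (fun c : ℝ => stp (c / e)) c = deriv stp (c / e) / e := by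
  have h : HasDerivAt (fun c : ℝ => stp (c / e)) (deriv stp (c / e) * (1 / e)) c :=
    HasDerivAt.comp (h₂ := stp) (h := fun c : ℝ => c / e) c
      ((contDiff_stp.differentiable one_ne_zero) (c / e)).hasDerivAt
      ((hasDerivAt_id c).div_const e)
  rw [h.deriv]
  ring

theorem OPA_N_bd (h0 : 0 < κ) (h8 : κ < 8) {C η e : ℝ} {z : ℂ} (hC : 0 < C) (hη : 0 < η)
    (he : 0 < e) (hz : 0 < z.im) (t : ℝ) (w : Path) :
    0 ≤ OPA_N κ C η e z t w ∧
      OPA_N κ C η e z t w ≤ (1 + C) * ((e / cc η (pf w) z t) ^ 2 + e ^ be κ * NN κ η z t w) := by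
  have hw := continuous_pf w
  have hc := cc_pos hz η (pf w) t
  have hS := sn_pos hη hw hz t
  have hS1 := sn_le_one η (pf w) z t
  have hK0 : 0 ≤ kil η (pf w) z t := stp_nonneg _
  have hK1 : kil η (pf w) z t ≤ 1 := stp_le_one _
  have ht0 := stp_nonneg (cc η (pf w) z t / e)
  have ht1 := stp_le_one (cc η (pf w) z t / e)
  have ha : 0 < sn η (pf w) z t ^ aa κ := Real.rpow_pos_of_pos hS _
  have ha1 : sn η (pf w) z t ^ aa κ ≤ 1 := Real.rpow_le_one hS.le hS1 (aa_pos h0 h8).le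
  have hα : 0 < sn η (pf w) z t ^ al κ := Real.rpow_pos_of_pos hS _
  have hq := OPA_q h0 (c := cc η (pf w) z t) he
  have hq1 : 0 < e ^ 2 * cc η (pf w) z t ^ (-2 : ℝ) := by positivity
  have hq3 : 0 < e ^ be κ * cc η (pf w) z t ^ (-be κ) := by positivity
  unfold OPA_N NN
  rw [← OPA_q1 hc]
  simp only [pv_eq hη hw hz, Real.rpow_zero, mul_one]
  generalize sn η (pf w) z t ^ aa κ = Sa at *
  generalize sn η (pf w) z t ^ al κ = Sα at *
  generalize kil η (pf w) z t = K at *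
  generalize cc η (pf w) z t ^ (-2 : ℝ) = c2 at *
  generalize cc η (pf w) z t ^ (-be κ) = cβ at *
  generalize e ^ be κ = eβ at *
  generalize cc η (pf w) z t / e = u at *
  have eq : e ^ 2 * (c2 * Sa * K * stp u) + -C * e ^ 2 * (c2 * Sα * K * stp u)
      + C * eβ * (cβ * Sα * K * stp u)
      = (e ^ 2 * c2 * Sa + C * Sα * (eβ * cβ - e ^ 2 * c2)) * (K * stp u) := by ring
  constructor
  · rw [eq]
    rcases le_or_gt u 1 with h | h
    · rw [stp_zero h]
      simp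
    · have := sub_nonneg.2 (hq h)
      positivity
  · have h1 : e ^ 2 * c2 * (Sa * (K * stp u)) ≤ e ^ 2 * c2 :=
      mul_le_of_le_one_right hq1.le
        (mul_le_one₀ ha1 (by positivity) (mul_le_one₀ hK1 ht0 ht1))
    have h2 : 0 ≤ C * (e ^ 2 * c2) * (Sα * K * stp u) := by positivity
    have h3 : C * (eβ * cβ * Sα * K) * stp u ≤ C * (eβ * cβ * Sα * K) :=
      mul_le_of_le_one_right (by positivity) ht1
    have h4 : 0 ≤ C * (e ^ 2 * c2) := by positivity
    have h5 : 0 ≤ eβ * cβ * Sα * K := by positivity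
    nlinarith

theorem OPA_d_le (h0 : 0 < κ) {c₁ C η e : ℝ} {z : ℂ} (hC : 0 < C) (hη : 0 < η)
    (he : 0 < e) (hz : 0 < z.im) (H : ∀ S : ℝ, 0 < S → S ≤ 1 →
      S ^ aa κ * II κ (-2) (aa κ) 0 S - C * (S ^ al κ * II κ (-2) (al κ) 0 S) ≤ -c₁ * S ^ aa κ)
    (t : ℝ) (w : Path) :
    c₁ * (e ^ 2 * pv η (pf w) z (-2) (aa κ) 0 t * kil η (pf w) z t *
        stp (cc η (pf w) z t / e) / r2 η (pf w) z t (pf w t)) ≤ -OPA_d κ C η e z t w := by
  have hw := continuous_pf w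
  have hc := cc_pos hz η (pf w) t
  have hS := sn_pos hη hw hz t
  have hS1 := sn_le_one η (pf w) z t
  have hK0 : 0 ≤ kil η (pf w) z t := stp_nonneg _
  have hD := kilD_nonneg hη (pf w) z t
  have hR := r2_pos hη hw hz t (pf w t)
  have hk : 0 ≤ clk η (pf w) z t := by
    unfold clk
    positivity
  have ht0 := stp_nonneg (cc η (pf w) z t / e)
  have hd0 := deriv_stp_nonneg (cc η (pf w) z t / e)
  have ha : 0 < sn η (pf w) z t ^ aa κ := Real.rpow_pos_of_pos hS _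
  have hα : 0 < sn η (pf w) z t ^ al κ := Real.rpow_pos_of_pos hS _
  have hq := OPA_q h0 (c := cc η (pf w) z t) he
  have hq1 : 0 < e ^ 2 * cc η (pf w) z t ^ (-2 : ℝ) := by positivity
  have hI := H _ hS hS1
  have hI3 : II κ (-be κ) (al κ) 0 (sn η (pf w) z t) = 0 := by
    rw [II_al h0]
    ring
  unfold OPA_d drf
  simp only [pv_eq hη hw hz, Real.rpow_zero, mul_one, OPA_deriv, hI3]
  generalize II κ (-2) (aa κ) 0 (sn η (pf w) z t) = I1 at *
  generalize II κ (-2) (al κ) 0 (sn η (pf w) z t) = I2 at *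
  generalize sn η (pf w) z t ^ aa κ = Sa at *
  generalize sn η (pf w) z t ^ al κ = Sα at *
  generalize kil η (pf w) z t = K at *
  generalize kilD η (pf w) z t = D at *
  generalize clk η (pf w) z t = k at *
  generalize r2 η (pf w) z t (pf w t) = R at *
  generalize cc η (pf w) z t ^ (-2 : ℝ) = c2 at *
  generalize cc η (pf w) z t ^ (-be κ) = cβ at *
  generalize e ^ be κ = eβ at *
  generalize cc η (pf w) z t / e = u at *
  generalize cc η (pf w) z t = c at *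
  rcases le_or_gt u 1 with h | h
  · have hd : deriv stp u = 0 := by
      by_contra hne
      exact absurd (deriv_stp_ne hne).1 (not_lt.2 h)
    rw [stp_zero h, hd]
    simp
  · have h1 := sub_nonneg.2 (hq h)
    have h2 : 0 ≤ (e ^ 2 * c2 * Sa + C * Sα * (eβ * cβ - e ^ 2 * c2)) *
        (D * stp u + K * (deriv stp u / e) * c * k) := by positivity
    have h3 : 0 ≤ e ^ 2 * c2 * (K * stp u / R) * (-c₁ * Sa - (Sa * I1 - C * (Sα * I2))) :=
      mul_nonneg (by positivity) (sub_nonneg.2 hI)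
    have eq : -(e ^ 2 * (c2 * Sa * (K * stp u * I1 / R - D * stp u - K * (deriv stp u / e) * c * k))
        + -C * e ^ 2 * (c2 * Sα * (K * stp u * I2 / R - D * stp u - K * (deriv stp u / e) * c * k))
        + C * eβ * (cβ * Sα * (K * stp u * 0 / R - D * stp u - K * (deriv stp u / e) * c * k)))
        = c₁ * (e ^ 2 * (c2 * Sa) * K * stp u / R)
          + (e ^ 2 * c2 * Sa + C * Sα * (eβ * cβ - e ^ 2 * c2)) *
            (D * stp u + K * (deriv stp u / e) * c * k)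
          + e ^ 2 * c2 * (K * stp u / R) * (-c₁ * Sa - (Sa * I1 - C * (Sα * I2))) := by ring
    rw [eq]
    linarith

theorem op_rate (h0 : 0 < κ) (h8 : κ < 8) : ∃ C : ℝ, 0 < C ∧ ∀ (μ : Measure Path) (η e T : ℝ) (z : ℂ)
    (σ : Path → ℝ) (A : Set Path), IsW κ μ → 0 < η → 0 < e → 0 < T → 0 < z.im → Stp T σ →
    DetS σ A → ∫ w in A, (∫ t in σ w..T, e ^ 2 * pv η (pf w) z (-2) (aa κ) 0 t * kil η (pf w) z t *
        stp (cc η (pf w) z t / e) / r2 η (pf w) z t (pf w t)) ∂μ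
      ≤ C * ∫ w in A, ((e / cc η (pf w) z (σ w)) ^ 2 + e ^ be κ * NN κ η z (σ w) w) ∂μ := by
  obtain ⟨c₁, C, hc₁, hC, H⟩ := OPA_alg h0 h8
  refine ⟨c₁⁻¹ * (1 + C), by positivity, fun μ η e T z σ A hμ hη he hT hz hσ hA => ?_⟩
  have := hμ.prob
  have hM := OPA_mart h0 h8 (e := e) hμ hη hT hz C
  have hTT : T ∈ Icc 0 T := ⟨hT.le, le_rfl⟩
  have os := hM.os hσ (Stp.const hTT) hA fun w _ => (hσ.mem w).2
  obtain ⟨K, hK⟩ := hM.bdd
  have hi : Integrable (fun w => ∫ u in σ w..T, OPA_d κ C η e z u w) μ :=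
    integrable_int hM.cd hM.md (fun t ht w => (hK t ht w).2) hσ.det.meas hσ.mem measurable_const
      fun _ => hTT
  have hN : 0 ≤ ∫ w in A, OPA_N κ C η e z T w ∂μ :=
    integral_nonneg fun w => (OPA_N_bd h0 h8 hC hη he hz T w).1
  have h1 : ∫ w in A, (∫ t in σ w..T, e ^ 2 * pv η (pf w) z (-2) (aa κ) 0 t * kil η (pf w) z t *
        stp (cc η (pf w) z t / e) / r2 η (pf w) z t (pf w t)) ∂μ
      ≤ ∫ w in A, -c₁⁻¹ * (∫ u in σ w..T, OPA_d κ C η e z u w) ∂μ := by
    refine integral_mono_of_nonneg (Eventually.of_forall fun w => ?_)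
      (hi.integrableOn.const_mul _) (Eventually.of_forall fun w => ?_)
    · refine intervalIntegral.integral_nonneg (hσ.mem w).2 fun t _ => ?_
      have a1 := pw_pos hη (continuous_pf w) hz (-2) (aa κ) 0 t (pf w t)
      have a2 : 0 ≤ kil η (pf w) z t := stp_nonneg _
      have a3 := stp_nonneg (cc η (pf w) z t / e)
      have a4 := r2_pos hη (continuous_pf w) hz t (pf w t)
      unfold pv
      positivity
    · have hw := continuous_pf w
      have hsub : uIcc (σ w) T ⊆ Icc 0 T := uIcc_subset_Icc (hσ.mem w) hTT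
      have hkil : Continuous (kil η (pf w) z) :=
        continuous_iff_continuousAt.2 fun t => (kil_deriv hη hw z t).continuousAt
      have hst : Continuous fun t => stp (cc η (pf w) z t / e) :=
        contDiff_stp.continuous.comp ((cc_cont hη hw z).div_const e)
      have hk : ContinuousOn (fun t => e ^ 2 * pv η (pf w) z (-2) (aa κ) 0 t * kil η (pf w) z t *
          stp (cc η (pf w) z t / e) / r2 η (pf w) z t (pf w t)) (Icc 0 T) :=
        (((continuousOn_const.mul ((adp_pv hη hz (-2) (aa κ) 0 T).cont w)).mul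
          hkil.continuousOn).mul hst.continuousOn).div (r2_cont hη hw z).continuousOn
            fun t _ => (r2_pos hη hw hz t _).ne'
      beta_reduce
      rw [← intervalIntegral.integral_const_mul]
      refine intervalIntegral.integral_mono_on (hσ.mem w).2 (hk.mono hsub).intervalIntegrable
        (((hM.cd w).mono hsub).intervalIntegrable.const_mul _) fun t _ => ?_
      have := OPA_d_le h0 hC hη he hz H t w
      rw [neg_mul, ← mul_neg, le_inv_mul_iff₀ hc₁]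
      exact this
  obtain ⟨d, hd, -⟩ := mart_NN hμ h8 hη hz hT
  have i1 : Integrable (fun w => NN κ η z (σ w) w) μ := hd.integrable_at hσ.det.meas hσ.mem
  have i2 : Integrable (fun w => (e / cc η (pf w) z (σ w)) ^ 2) μ := by
    have m1 : Measurable fun w => cc η (pf w) z (σ w) :=
      measurable_cc measurable_const measurable_id measurable_const hσ.det.meas
    refine Integrable.of_bound ((measurable_const.div m1).pow_const 2).aestronglyMeasurable
      ((e / (z.im * Real.exp (-4 * T / η ^ 2))) ^ 2) (Eventually.of_forall fun w => ?_)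
    have a1 := cc_ge hη (continuous_pf w) hz hT.le
    have a2 := cc_anti hη (continuous_pf w) hz (hσ.mem w).2
    have a3 := cc_pos hz η (pf w) (σ w)
    rw [Real.norm_of_nonneg (by positivity)]
    gcongr
    exact a1.trans a2
  have h2 : ∫ w in A, OPA_N κ C η e z (σ w) w ∂μ
      ≤ ∫ w in A, (1 + C) * ((e / cc η (pf w) z (σ w)) ^ 2 + e ^ be κ * NN κ η z (σ w) w) ∂μ :=
    integral_mono_of_nonneg (Eventually.of_forall fun w => (OPA_N_bd h0 h8 hC hη he hz _ w).1)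
      ((i2.add (i1.const_mul _)).const_mul _).integrableOn
      (Eventually.of_forall fun w => (OPA_N_bd h0 h8 hC hη he hz _ w).2)
  rw [integral_const_mul] at h1 h2
  refine h1.trans ?_
  rw [mul_assoc, neg_mul, ← mul_neg]
  gcongr
  linarith

end Vale.Agent.P164
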