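import Vale.Agent.P164.Link

/-!
# P164 OPB

One point estimates. With `u = cc / e`, `a = aa κ`, `θ c = stp (c / e)` the process
`N = (u ^ (-2) S ^ a - C₂ u ^ (-2) S ^ α + C₂ u ^ (-β) S ^ α) kil θ` is nonnegative (`u ≥ 1` where
`θ ≠ 0`) and its drift is at most `-c u ^ (-2) S ^ a kil θ / ρ ^ 2`:
`II κ (-2) a 0 S = II κ 0 a 0 S + 8 S ^ 2 ≤ -c₂ + 8 S ^ 2`, `II κ (-2) α 0 S = 4 (2 - β) S ^ 2`,
`II κ (-β) α 0 S = 0`; if `8 S ^ 2 ≤ c₂ / 2` the first term suffices, otherwise `S ^ a ≤ C S ^ α`.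
-/

open MeasureTheory ProbabilityTheory Set Filter Topology Complex Function
open scoped NNReal ENNReal ComplexConjugate

noncomputable section

namespace Vale.Agent.P164

variable {κ : ℝ}

/-- while `cc` decreases from `4 e` to `2 e` at height at least `2 η` the rate is at least
`clk / 64` and `∫ clk = log 2` -/
theorem reach_rate (h0 : 0 < κ) (h8 : κ < 8) {η e T s : ℝ} {w : ℝ → ℝ} {z : ℂ} (hη : 0 < η)
    (he : 0 < e) (hw : Continuous w) (hz : 0 < z.im) (hs : s ∈ Icc 0 T) (h4 : 4 * e ≤ cc η w z s)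
    (h : Reach η w z T (2 * e)) : 1 / 128 ≤ ∫ t in s..T, e ^ 2 * pv η w z (-2) (aa κ) 0 t *
      kil η w z t * stp (cc η w z t / e) / r2 η w z t (w t) := by
  obtain ⟨t2, ht2, hY, hc⟩ := h
  have hcc := cc_cont hη hw z
  have hanti := cc_anti hη hw hz
  have hst2 : s ≤ t2 := by
    by_contra hlt
    have := hanti (le_of_lt (not_le.1 hlt))
    linarith
  obtain ⟨t1, ht1, hc1⟩ : ∃ t1 ∈ Icc s t2, cc η w z t1 = 2 * e :=
    intermediate_value_Icc' hst2 hcc.continuousOn ⟨hc, by linarith⟩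
  set f : ℝ → ℝ := fun t => e ^ 2 * pv η w z (-2) (aa κ) 0 t *
      kil η w z t * stp (cc η w z t / e) / r2 η w z t (w t) with hf
  have hstpc : Continuous stp := by
    unfold stp
    exact Real.smoothTransition.continuous.comp (by fun_prop)
  have hstp0 : ∀ u, 0 ≤ stp u := fun u => Real.smoothTransition.nonneg _
  have hstp1 : ∀ u, 2 ≤ u → stp u = 1 := fun u hu =>
    Real.smoothTransition.one_of_one_le (by linarith)
  have hpv : ∀ t, pv η w z (-2) (aa κ) 0 t = (cc η w z t ^ 2)⁻¹ * sn η w z t ^ aa κ := by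
    intro t
    rw [pv_eq hη hw hz, Real.rpow_zero, mul_one, Real.rpow_neg (cc_pos hz η w t).le,
      Real.rpow_two]
  have hYc : Continuous fun t => (fl η w z t).im := continuous_im.comp (fl_cont hη hw z)
  have hfc : Continuous f := by
    simp only [hf, hpv]
    refine Continuous.div ?_ (r2_cont hη hw z) fun t => (r2_pos hη hw hz t _).ne'
    refine Continuous.mul (Continuous.mul (continuous_const.mul (Continuous.mul ?_ ?_)) ?_) ?_
    · exact (hcc.pow 2).inv₀ fun t => (pow_pos (cc_pos hz η w t) 2).ne'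
    · exact (sn_cont hη hw hz).rpow_const fun t => Or.inl (sn_pos hη hw hz t).ne'
    · exact hstpc.comp (hYc.div_const η)
    · exact hstpc.comp (hcc.div_const e)
  have hf0 : ∀ t, 0 ≤ f t := by
    intro t
    simp only [hf, hpv]
    have := cc_pos hz η w t
    have := sn_pos hη hw hz t
    have := r2_pos hη hw hz t (w t)
    have := hstp0 (cc η w z t / e)
    have : 0 ≤ kil η w z t := hstp0 _
    positivity
  set g : ℝ → ℝ := fun t => e ^ 2 / 4 * (cc η w z t ^ 2)⁻¹ *
    (4 * (fl η w z t).im ^ 2 / den η (w t) (fl η w z t) ^ 2) with hg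
  have hder : ∀ t, HasDerivAt (fun t => e ^ 2 / 8 * (cc η w z t ^ 2)⁻¹) (g t) t := by
    intro t
    have hp := cc_pos hz η w t
    have h1 := (((cc_deriv hη hw z t).pow 2).inv (pow_pos hp 2).ne').const_mul (e ^ 2 / 8)
    refine h1.congr_deriv ?_
    simp only [hg, Pi.pow_apply]
    generalize 4 * (fl η w z t).im ^ 2 / den η (w t) (fl η w z t) ^ 2 = k
    field_simp
    norm_num
    ring
  have hgf : ∀ t ∈ Icc s t1, g t ≤ f t ∧ g t = e ^ 2 / 4 * (cc η w z t ^ 2)⁻¹ * clk η w z t := by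
    intro t ht
    have hYt : 2 * η ≤ (fl η w z t).im := hY.trans (fl_im_anti hη hw hz (ht.2.trans ht1.2))
    have hct : 2 * e ≤ cc η w z t := hc1 ▸ hanti ht.2
    have e1 : kil η w z t = 1 := hstp1 _ (by rw [le_div_iff₀ hη]; exact hYt)
    have e2 : stp (cc η w z t / e) = 1 := hstp1 _ (by rw [le_div_iff₀ he]; exact hct)
    have e3 : g t = e ^ 2 / 4 * (cc η w z t ^ 2)⁻¹ * clk η w z t := by
      simp only [hg]
      rw [clk_alive hη (by linarith)]
    refine ⟨?_, e3⟩
    have hS := sn_pos hη hw hz t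
    have e4 : sn η w z t ^ 2 ≤ sn η w z t ^ aa κ := by
      rw [← Real.rpow_two]
      exact Real.rpow_le_rpow_of_exponent_ge hS (sn_le_one η w z t)
        ((min_le_right _ _).trans (by norm_num))
    have hr := r2_pos hη hw hz t (w t)
    have hp := cc_pos hz η w t
    rw [e3]
    simp only [hf, hpv, e1, e2, clk, mul_one]
    have e5 : e ^ 2 / 4 * (cc η w z t ^ 2)⁻¹ * (4 * sn η w z t ^ 2 / r2 η w z t (w t)) =
        e ^ 2 * ((cc η w z t ^ 2)⁻¹ * sn η w z t ^ 2) / r2 η w z t (w t) := by ring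
    rw [e5]
    gcongr
  have hgc : ContinuousOn g (Icc s t1) := by
    refine ContinuousOn.congr (f := fun t => e ^ 2 / 4 * (cc η w z t ^ 2)⁻¹ * clk η w z t) ?_
      fun t ht => (hgf t ht).2
    refine Continuous.continuousOn ?_
    refine (continuous_const.mul ((hcc.pow 2).inv₀ fun t =>
      (pow_pos (cc_pos hz η w t) 2).ne')).mul ?_
    unfold clk
    exact (continuous_const.mul ((sn_cont hη hw hz).pow 2)).div (r2_cont hη hw z)
      fun t => (r2_pos hη hw hz t _).ne'
  have hgi : IntervalIntegrable g volume s t1 := by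
    apply ContinuousOn.intervalIntegrable
    rwa [uIcc_of_le ht1.1]
  have h1 := intervalIntegral.integral_eq_sub_of_hasDerivAt (fun t _ => hder t) hgi
  have h2 : ∫ t in s..t1, g t ≤ ∫ t in s..t1, f t :=
    intervalIntegral.integral_mono_on ht1.1 hgi (hfc.intervalIntegrable _ _)
      fun t ht => (hgf t ht).1
  have h3 : 0 ≤ ∫ t in t1..T, f t :=
    intervalIntegral.integral_nonneg (ht1.2.trans ht2.2) fun t _ => hf0 t
  have h5 := intervalIntegral.integral_add_adjacent_intervals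
    (hfc.intervalIntegrable (μ := volume) s t1) (hfc.intervalIntegrable (μ := volume) t1 T)
  have h6 : e ^ 2 / 8 * (cc η w z t1 ^ 2)⁻¹ = 1 / 32 := by
    rw [hc1]; field_simp; norm_num
  have h7 : e ^ 2 / 8 * (cc η w z s ^ 2)⁻¹ ≤ 1 / 128 := by
    have : (4 * e) ^ 2 ≤ cc η w z s ^ 2 := pow_le_pow_left₀ (by positivity) h4 2
    calc e ^ 2 / 8 * (cc η w z s ^ 2)⁻¹ ≤ e ^ 2 / 8 * ((4 * e) ^ 2)⁻¹ := by gcongr
      _ = 1 / 128 := by field_simp; norm_num
  linarith

end Vale.Agent.P164
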