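import Vale.Agent.P164.Pw
import Vale.Agent.P164.OPA
import Vale.Agent.P164.OPB

/-!
# P164 OP

One point estimates. With `u = cc / e`, `a = aa κ`, `θ c = stp (c / e)` the process
`N = (u ^ (-2) S ^ a - C₂ u ^ (-2) S ^ α + C₂ u ^ (-β) S ^ α) kil θ` is nonnegative (`u ≥ 1` where
`θ ≠ 0`) and its drift is at most `-c u ^ (-2) S ^ a kil θ / ρ ^ 2`:
`II κ (-2) a 0 S = II κ 0 a 0 S + 8 S ^ 2 ≤ -c₂ + 8 S ^ 2`, `II κ (-2) α 0 S = 4 (2 - β) S ^ 2`,
`II κ (-β) α 0 S = 0`; if `8 S ^ 2 ≤ c₂ / 2` the first term suffices, otherwise `S ^ a ≤ C S ^ α`.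
-/

open MeasureTheory ProbabilityTheory Set Filter Topology Complex Function
open scoped NNReal ENNReal ComplexConjugate

noncomputable section

namespace Vale.Agent.P164

variable {κ : ℝ}

theorem OP_bd (h0 : 0 < κ) (h8 : κ < 8) {η e : ℝ} {w : ℝ → ℝ} {z : ℂ} (hη : 0 < η) (he : 0 < e)
    (hw : Continuous w) (hz : 0 < z.im) (t : ℝ) :
    0 ≤ e ^ 2 * pv η w z (-2) (aa κ) 0 t * kil η w z t * stp (cc η w z t / e) / r2 η w z t (w t) ∧
    e ^ 2 * pv η w z (-2) (aa κ) 0 t * kil η w z t * stp (cc η w z t / e) / r2 η w z t (w t)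
      ≤ 1 / η ^ 2 := by
  have h1 : 0 < pv η w z (-2) (aa κ) 0 t := pw_pos hη hw hz _ _ _ _ _
  have h2 : 0 ≤ kil η w z t := stp_nonneg _
  have h3 := stp_nonneg (cc η w z t / e)
  have h4 := r2_pos hη hw hz t (w t)
  refine ⟨by positivity, ?_⟩
  by_cases h5 : cc η w z t / e ≤ 1
  · rw [stp_zero h5, mul_zero, zero_div]
    positivity
  by_cases h6 : (fl η w z t).im / η ≤ 1
  · rw [kil, stp_zero h6, mul_zero, zero_mul, zero_div]
    positivity
  rw [not_le, one_lt_div he] at h5
  rw [not_le, one_lt_div hη] at h6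
  have h7 : pv η w z (-2) (aa κ) 0 t ≤ (e ^ 2)⁻¹ := by
    refine (pw_le hη hw hz _ (aa_pos h0 h8).le _ _ _).trans ?_
    rw [Real.rpow_zero, mul_one, ← Real.rpow_two, ← Real.rpow_neg he.le]
    exact Real.rpow_le_rpow_of_nonpos he h5.le (by norm_num)
  have h8 : e ^ 2 * pv η w z (-2) (aa κ) 0 t ≤ 1 :=
    (mul_le_mul_of_nonneg_left h7 (sq_nonneg e)).trans_eq (mul_inv_cancel₀ (by positivity))
  refine div_le_div₀ zero_le_one (mul_le_one₀ (mul_le_one₀ h8 h2 (stp_le_one _)) h3 (stp_le_one _))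
    (by positivity) ?_
  exact (pow_le_pow_left₀ hη.le h6.le 2).trans (le_add_of_nonneg_left (sq_nonneg _))

theorem op_reach (h0 : 0 < κ) (h8 : κ < 8) : ∃ C : ℝ, 0 < C ∧ ∀ (μ : Measure Path) (η e T : ℝ)
    (z : ℂ) (σ : Path → ℝ) (A : Set Path), IsW κ μ → 0 < η → 0 < e → 0 < T → 0 < z.im → Stp T σ →
    DetS σ A → (∀ w ∈ A, 4 * e ≤ cc η (pf w) z (σ w)) →
    μ.real (A ∩ {w | Reach η (pf w) z T (2 * e)})
      ≤ C * ∫ w in A, ((e / cc η (pf w) z (σ w)) ^ 2 + e ^ be κ * NN κ η z (σ w) w) ∂μ := by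
  obtain ⟨C, hC, h⟩ := op_rate h0 h8
  refine ⟨128 * C, by positivity, fun μ η e T z σ A hμ hη he hT hz hσ hA h4 => ?_⟩
  have := hμ.prob
  have h1 := h μ η e T z σ A hμ hη he hT hz hσ hA
  have hi := integrable_int (μ := μ) (T := T) (σ := σ) (τ := fun _ => T) (K := 1 / η ^ 2)
    (k := fun t w => e ^ 2 * pv η (pf w) z (-2) (aa κ) 0 t * kil η (pf w) z t *
      stp (cc η (pf w) z t / e) / r2 η (pf w) z t (pf w t)) (fun w => ?_) (fun t ht => ?_)
    (fun t _ w => ?_) hσ.det.meas hσ.mem measurable_const fun _ => ⟨hT.le, le_rfl⟩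
  · have hm := hA.meas.inter (measurableSet_reach hη hT.le z (2 * e))
    have h2 := setIntegral_mono_on (integrable_const (1 / 128 : ℝ)).integrableOn hi.integrableOn hm
      fun w hw => reach_rate h0 h8 hη he (continuous_pf w) hz (hσ.mem w) (h4 w hw.1) hw.2
    have h3 := setIntegral_mono_set hi.integrableOn (Eventually.of_forall fun w =>
      intervalIntegral.integral_nonneg (hσ.mem w).2 fun t _ =>
        (OP_bd h0 h8 hη he (continuous_pf w) hz t).1)
      (inter_subset_left (s := A) (t := {w | Reach η (pf w) z T (2 * e)})).eventuallyLE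
    rw [setIntegral_const, smul_eq_mul] at h2
    linarith
  · have hw := continuous_pf w
    have h2 : Continuous (kil η (pf w) z) :=
      continuous_iff_continuousAt.2 fun t => (kil_deriv hη hw z t).continuousAt
    exact (((continuousOn_const.mul ((adp_pv hη hz _ _ _ T).cont w)).mul h2.continuousOn).mul
      (contDiff_stp.continuous.comp ((cc_cont hη hw z).div_const e)).continuousOn).div
        (r2_cont hη hw z).continuousOn fun t _ => (r2_pos hη hw hz _ _).ne'
  · exact (((measurable_const.mul ((adp_pv hη hz _ _ _ T).det t ht).meas).mul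
      (measurable_kil measurable_const measurable_id measurable_const measurable_const)).mul
      (contDiff_stp.continuous.measurable.comp
        (((adp_cc hη z T).det t ht).meas.div_const e))).div ((adp_r2 hη z T).det t ht).meas
  · have h2 := OP_bd h0 h8 hη he (continuous_pf w) hz t
    rw [abs_of_nonneg h2.1]
    exact h2.2

/-- `σ = 0`; trivial when `im z < 2 r` -/
theorem op_reach0 (h0 : 0 < κ) (h8 : κ < 8) : ∃ C : ℝ, 0 < C ∧ ∀ (μ : Measure Path) (η r T : ℝ)
    (z : ℂ), IsW κ μ → 0 < η → 0 < r → 0 < T → 0 < z.im →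
    μ.real {w | Reach η (pf w) z T r} ≤ C * (r / z.im) ^ be κ := by
  obtain ⟨C, hC, h⟩ := op_reach h0 h8
  refine ⟨2 * C + 2, by positivity, fun μ η r T z hμ hη hr hT hz => ?_⟩
  have := hμ.prob
  have hb := be_pos h8
  have hb1 := be_lt_one h0
  have hp : 0 < (r / z.im) ^ be κ := by positivity
  by_cases h1 : 2 * r ≤ z.im
  · have h2 := h μ η (r / 2) T z (fun _ => 0) univ hμ hη (by positivity) hT hz
      (Stp.const ⟨le_rfl, hT.le⟩) (DetS.univ _) fun w _ => by rw [cc_zero]; linarith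
    rw [univ_inter, mul_div_cancel₀ _ two_ne_zero, Measure.restrict_univ] at h2
    have h3 : ∀ w : Path, ‖(r / 2 / cc η (pf w) z 0) ^ 2 + (r / 2) ^ be κ * NN κ η z 0 w‖ ≤
        2 * (r / z.im) ^ be κ := by
      intro w
      have h4 := NN_nonneg κ hη hz 0 w
      have h5 : NN κ η z 0 w ≤ z.im ^ (-be κ) := by
        have h6 := pw_le hη (continuous_pf w) hz (-be κ) (hb.trans (be_lt_al h0 h8)).le 0 0
          (pf w 0)
        rw [Real.rpow_zero, mul_one, cc_zero] at h6
        exact (mul_le_of_le_one_right (pw_pos hη (continuous_pf w) hz _ _ _ _ _).le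
          (stp_le_one _)).trans h6
      have h6 : r / 2 / z.im ≤ r / z.im := div_le_div_of_nonneg_right (by linarith) hz.le
      have h7 : (r / 2 / z.im) ^ 2 ≤ (r / z.im) ^ be κ := by
        refine (pow_le_pow_left₀ (by positivity) h6 2).trans ?_
        rw [← Real.rpow_two]
        exact Real.rpow_le_rpow_of_exponent_ge (by positivity)
          ((div_le_one hz).2 (by linarith)) (by linarith)
      have h8 : (r / 2) ^ be κ * NN κ η z 0 w ≤ (r / z.im) ^ be κ := by
        rw [Real.div_rpow hr.le hz.le, div_eq_mul_inv (r ^ be κ), ← Real.rpow_neg hz.le]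
        exact mul_le_mul (Real.rpow_le_rpow (by positivity) (by linarith) hb.le) h5 h4
          (by positivity)
      rw [cc_zero, Real.norm_of_nonneg (by positivity)]
      linarith
    have h4 := (le_abs_self _).trans
      (norm_integral_le_of_norm_le_const (μ := μ) (Eventually.of_forall h3))
    rw [probReal_univ, mul_one] at h4
    nlinarith [mul_le_mul_of_nonneg_left h4 hC.le]
  · have h2 : (1 / 2 : ℝ) ≤ r / z.im := by
      rw [le_div_iff₀ hz]
      linarith
    have h3 : (1 / 2 : ℝ) ≤ (r / z.im) ^ be κ := by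
      refine le_trans ?_ (Real.rpow_le_rpow (by norm_num) h2 hb.le)
      have h4 := Real.rpow_le_rpow_of_exponent_ge (x := 1 / 2) (by norm_num) (by norm_num) hb1.le
      rwa [Real.rpow_one] at h4
    have h4 : μ.real {w | Reach η (pf w) z T r} ≤ 1 := measureReal_le_one
    nlinarith [mul_pos hC hp]

/-- `eventually_of_ever` and `measure_liminf_le`-type argument: the set is contained in the
increasing union over `N` of `⋂ n ≥ N` of the `Reach` events -/
theorem op_ever (h0 : 0 < κ) (h8 : κ < 8) : ∃ C : ℝ, 0 < C ∧ ∀ (μ : Measure Path) (e T : ℝ) (z : ℂ),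
    IsW κ μ → 0 < e → 0 < T → 0 < z.im →
    μ.real {w | z ∈ Ever (pf w) T e} ≤ C * (e / z.im) ^ be κ := by
  obtain ⟨C, hC, h⟩ := op_reach0 h0 h8
  refine ⟨C, hC, fun μ e T z hμ he hT hz => ?_⟩
  have := hμ.prob
  have h1 : {w | z ∈ Ever (pf w) T e} ⊆
      ⋃ N : ℕ, {w : Path | ∀ n ≥ N, Reach (1 / (n + 1 : ℝ)) (pf w) z T e} := by
    intro w hw
    obtain ⟨N, hN⟩ := eventually_atTop.1 (eventually_of_ever (continuous_pf w) hw)
    refine mem_iUnion.2 ⟨N, fun n hn => ?_⟩
    obtain ⟨t, ht, h2, h3⟩ := hN n hn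
    have h4 : (0 : ℝ) < 1 / (n + 1) := by positivity
    exact ⟨t, ht, by linarith, h3.le⟩
  have h2 : Monotone fun N : ℕ => {w : Path | ∀ n ≥ N, Reach (1 / (n + 1 : ℝ)) (pf w) z T e} :=
    fun N M hNM w hw n hn => hw n (hNM.trans hn)
  refine ENNReal.toReal_le_of_le_ofReal (by positivity) ((measure_mono h1).trans ?_)
  rw [h2.measure_iUnion]
  refine iSup_le fun N => le_trans (b := μ {w | Reach (1 / (N + 1 : ℝ)) (pf w) z T e})
    (measure_mono fun w hw => hw N le_rfl) ?_
  rw [← ofReal_measureReal]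
  exact ENNReal.ofReal_le_ofReal (h μ _ e T z hμ (by positivity) he hT hz)

end Vale.Agent.P164
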