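import Vale.Agent.P164.Defs

/-!
# P164 PathA

Path space, adaptedness in the form of Galmarino's test, hitting times.
-/

open MeasureTheory ProbabilityTheory Set Filter Topology Complex Function
open scoped NNReal ENNReal ComplexConjugate

noncomputable section

namespace Vale.Agent.P164

variable {P E : Type} [MeasurableSpace P] [MeasurableSpace E] {T : ℝ} {σ τ : Path → ℝ}

theorem continuous_pf (w : Path) : Continuous (pf w) := by
  exact w.2.comp continuous_real_toNNReal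

/-- `measurable_uncurry_of_continuous_of_measurable` -/
theorem measurable_pf {w : P → Path} {t : P → ℝ} (hw : Measurable w) (ht : Measurable t) :
    Measurable fun p => pf (w p) (t p) := by
  have h : Measurable (uncurry fun (t : ℝ) (w : Path) => pf w t) :=
    measurable_uncurry_of_continuous_of_measurable continuous_pf fun t =>
      (measurable_pi_apply t.toNNReal).comp measurable_subtype_coe
  exact h.comp (ht.prodMk hw)

theorem pf_shs (s ρ : ℝ) (w : Path) {u : ℝ} (hu : 0 ≤ u) :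
    pf (shs s ρ w) u = (pf w (s + ρ ^ 2 * u) - pf w s) / ρ := by
  show (pf w (s + ρ ^ 2 * (u.toNNReal : ℝ)) - pf w s) / ρ = _
  rw [Real.coe_toNNReal u hu]

theorem shS_shs (s ρ T : ℝ) (w : Path) : ShS s ρ T (pf w) (pf (shs s ρ w)) := by
  exact fun u hu => pf_shs s ρ w hu.1

theorem measurable_shs {s ρ : P → ℝ} {w : P → Path} (hs : Measurable s) (hρ : Measurable ρ)
    (hw : Measurable w) : Measurable fun p => shs (s p) (ρ p) (w p) := by
  refine Measurable.subtype_mk (measurable_pi_iff.2 fun t => ?_)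
  exact ((measurable_pf hw (hs.add ((hρ.pow_const 2).mul_const _))).sub
    (measurable_pf hw hs)).div hρ

theorem Agr.symm {t : ℝ} {w w' : ℝ → ℝ} (h : Agr t w w') : Agr t w' w := by
  exact fun s hs => (h s hs).symm

theorem Agr.mono {s t : ℝ} {w w' : ℝ → ℝ} (h : Agr t w w') (hs : s ≤ t) : Agr s w w' := by
  exact fun u hu => h u ⟨hu.1, hu.2.trans hs⟩

theorem Agr.shs {s ρ u : ℝ} {w w' : Path} (hs : 0 ≤ s) (h : Agr (s + ρ ^ 2 * u) (pf w) (pf w')) :
    Agr u (pf (shs s ρ w)) (pf (shs s ρ w')) := by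
  intro v hv
  have h1 : 0 ≤ ρ ^ 2 * v := mul_nonneg (sq_nonneg _) hv.1
  have h2 : ρ ^ 2 * v ≤ ρ ^ 2 * u := mul_le_mul_of_nonneg_left hv.2 (sq_nonneg _)
  rw [pf_shs _ _ _ hv.1, pf_shs _ _ _ hv.1, h s ⟨hs, by linarith⟩,
    h (s + ρ ^ 2 * v) ⟨by linarith, by linarith⟩]

theorem Det.mono {G : Path → E} (h : Det σ G) (hle : ∀ w, σ w ≤ τ w) : Det τ G := by
  exact ⟨h.meas, fun w w' ha => h.eq w w' (ha.mono (hle w))⟩

theorem DetS.mono {A : Set Path} (h : DetS σ A) (hle : ∀ w ∈ A, σ w ≤ τ w) : DetS τ A := by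
  exact ⟨h.meas, fun w w' ha hw => h.mem w w' (ha.mono (hle w hw)) hw⟩

theorem DetS.univ (τ : Path → ℝ) : DetS τ univ := by
  exact ⟨MeasurableSet.univ, fun _ _ _ _ => mem_univ _⟩

theorem DetS.inter {A B : Set Path} (hA : DetS τ A) (hB : DetS τ B) : DetS τ (A ∩ B) := by
  exact ⟨hA.meas.inter hB.meas, fun w w' h hw => ⟨hA.mem w w' h hw.1, hB.mem w w' h hw.2⟩⟩

theorem DetS.union {A B : Set Path} (hA : DetS τ A) (hB : DetS τ B) : DetS τ (A ∪ B) := by
  exact ⟨hA.meas.union hB.meas, fun w w' h hw => hw.imp (hA.mem w w' h) (hB.mem w w' h)⟩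

theorem DetS.compl {A : Set Path} (hτ : Det τ τ) (hA : DetS τ A) : DetS τ Aᶜ := by
  refine ⟨hA.meas.compl, fun w w' h hw hw' => hw (hA.mem w' w ?_ hw')⟩
  rw [hτ.eq w w' h]
  exact h.symm

theorem Det.const (τ : Path → ℝ) (c : E) : Det τ fun _ => c := by
  exact ⟨measurable_const, fun _ _ _ => rfl⟩

theorem Det.comp {E' : Type} [MeasurableSpace E'] {G : Path → E} (h : Det τ G) {φ : E → E'}
    (hφ : Measurable φ) : Det τ fun w => φ (G w) := by
  exact ⟨hφ.comp h.meas, fun w w' ha => by rw [h.eq w w' ha]⟩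

theorem Det.prodMk {E' : Type} [MeasurableSpace E'] {G : Path → E} {G' : Path → E'} (h : Det τ G)
    (h' : Det τ G') : Det τ fun w => (G w, G' w) := by
  exact ⟨h.meas.prodMk h'.meas, fun w w' ha => by rw [h.eq w w' ha, h'.eq w w' ha]⟩

theorem Det.preimage {G : Path → E} (h : Det τ G) {S : Set E} (hS : MeasurableSet S) :
    DetS τ (G ⁻¹' S) := by
  refine ⟨h.meas hS, fun w w' ha hw => ?_⟩
  rw [mem_preimage, h.eq w w' ha]
  exact hw

theorem Det.indicator {A : Set Path} (hτ : Det τ τ) (hA : DetS τ A) [Zero E] {G : Path → E}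
    (hG : Det τ G) : Det τ (A.indicator G) := by
  refine ⟨hG.meas.indicator hA.meas, fun w w' ha => ?_⟩
  by_cases hw : w ∈ A
  · rw [indicator_of_mem hw, indicator_of_mem (hA.mem w w' ha hw), hG.eq w w' ha]
  · rw [indicator_of_notMem hw, indicator_of_notMem ((hA.compl hτ).mem w w' ha hw)]

theorem Stp.const {t : ℝ} (ht : t ∈ Icc 0 T) : Stp T fun _ => t := by
  exact ⟨Det.const _ _, fun _ => ht⟩

theorem Stp.mono {T' : ℝ} (h : Stp T τ) (hT : T ≤ T') : Stp T' τ := by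
  exact ⟨h.det, fun w => ⟨(h.mem w).1, (h.mem w).2.trans hT⟩⟩

theorem Stp.min (hσ : Stp T σ) (hτ : Stp T τ) : Stp T fun w => min (σ w) (τ w) := by
  have key : ∀ {a b : Path → ℝ}, Det a a → Det b b → ∀ w w', a w ≤ b w →
      Agr (a w) (pf w) (pf w') → a w' = a w ∧ a w ≤ b w' := fun {a b} ha hb w w' hab h => by
    refine ⟨ha.eq w w' h, le_of_not_gt fun hlt => ?_⟩
    have := hb.eq w' w (h.symm.mono hlt.le)
    linarith
  refine ⟨⟨hσ.det.meas.min hτ.det.meas, fun w w' h => ?_⟩, fun w =>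
    ⟨le_min (hσ.mem w).1 (hτ.mem w).1, (min_le_left _ _).trans (hσ.mem w).2⟩⟩
  rcases le_total (σ w) (τ w) with hle | hle
  · rw [min_eq_left hle] at h ⊢
    obtain ⟨h1, h2⟩ := key hσ.det hτ.det w w' hle h
    rw [h1, min_eq_left h2]
  · rw [min_eq_right hle] at h ⊢
    obtain ⟨h1, h2⟩ := key hτ.det hσ.det w w' hle h
    rw [h1, min_eq_right h2]

theorem Stp.add {ρ : Path → ℝ} {M : ℝ} (h : Stp T τ) (hρ : Det τ ρ) (hM : ∀ w, ρ w ∈ Icc 0 M) :
    Stp (T + M) fun w => τ w + ρ w := by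
  refine ⟨⟨h.det.meas.add hρ.meas, fun w w' ha => ?_⟩, fun w =>
    ⟨add_nonneg (h.mem w).1 (hM w).1, add_le_add (h.mem w).2 (hM w).2⟩⟩
  have h1 : Agr (τ w) (pf w) (pf w') := ha.mono (le_add_of_nonneg_right (hM w).1)
  rw [h.det.eq w w' h1, hρ.eq w w' h1]

/-- `A ∩ {τ ≤ t}` is determined at the constant time `t` -/
theorem DetS.inter_le {A : Set Path} (hτ : Det τ τ) (hA : DetS τ A) (t : ℝ) :
    DetS (fun _ => t) (A ∩ {w | τ w ≤ t}) := by
  refine ⟨hA.meas.inter (measurableSet_le hτ.meas measurable_const), fun w w' h hw => ?_⟩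
  have h1 : Agr (τ w) (pf w) (pf w') := h.mono hw.2
  exact ⟨hA.mem w w' h1 hw.1, (hτ.eq w w' h1).le.trans hw.2⟩

theorem DetS.lt (hτ : Det τ τ) (t : ℝ) : DetS (fun _ => t) {w | t < τ w} := by
  refine ⟨measurableSet_lt measurable_const hτ.meas, fun w w' h hw => ?_⟩
  show t < τ w'
  refine lt_of_not_ge fun hle => ?_
  have h1 := hτ.eq w' w (h.symm.mono hle)
  have h2 : t < τ w := hw
  linarith

theorem DetS.shs {A S : Set Path} {ρ : Path → ℝ} {u : ℝ} (hτ : Stp T τ) (hA : DetS τ A)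
    (hρ : Det τ ρ) (hu : 0 ≤ u) (hS : DetS (fun _ => u) S) :
    DetS (fun w => τ w + ρ w ^ 2 * u) (A ∩ {w | shs (τ w) (ρ w) w ∈ S}) := by
  refine ⟨hA.meas.inter (measurable_shs hτ.det.meas hρ.meas measurable_id hS.meas),
    fun w w' h hw => ?_⟩
  have h1 : Agr (τ w) (pf w) (pf w') :=
    h.mono (le_add_of_nonneg_right (mul_nonneg (sq_nonneg _) hu))
  refine ⟨hA.mem w w' h1 hw.1, ?_⟩
  rw [Set.mem_ofPred_eq, hτ.det.eq w w' h1, hρ.eq w w' h1]
  exact hS.mem _ _ (Agr.shs (hτ.mem w).1 h) hw.2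

end Vale.Agent.P164
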