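import Vale.Agent.P164.Defs
import Vale.Agent.P164.PathA

/-!
# P164 PathB

Path space, adaptedness in the form of Galmarino's test, hitting times.
-/

open MeasureTheory ProbabilityTheory Set Filter Topology Complex Function
open scoped NNReal ENNReal ComplexConjugate

noncomputable section

namespace Vale.Agent.P164

variable {P E : Type} [MeasurableSpace P] [MeasurableSpace E] {T : ℝ} {σ τ : Path → ℝ}

theorem PathB_bdd (hT : 0 ≤ T) (X : ℝ → Path → ℝ) (w : Path) :
    ∀ s ∈ {t ∈ Icc 0 T | X t w ≤ 0} ∪ {T}, 0 ≤ s := by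
  rintro s (h | h)
  · exact h.1.1
  · exact hT.trans (Eq.ge h)

theorem PathB_cases {X : ℝ → Path → ℝ} {w : Path} (hT : 0 ≤ T)
    (hc : ContinuousOn (fun t => X t w) (Icc 0 T)) : X (hit T X w) w ≤ 0 ∨ hit T X w = T := by
  have h1 : IsClosed {t ∈ Icc 0 T | X t w ≤ 0} :=
    hc.preimage_isClosed_of_isClosed isClosed_Icc (isClosed_Iic (a := (0 : ℝ)))
  rcases (h1.union isClosed_singleton).csInf_mem ⟨T, Or.inr rfl⟩ ⟨0, PathB_bdd hT X w⟩ with h | h
  · exact Or.inl h.2
  · exact Or.inr h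

theorem PathB_all {K : Set ℝ} {X : ℝ → Path → ℝ} (hc : ∀ w, ContinuousOn (fun t => X t w) K)
    (hm : ∀ t ∈ K, Measurable (X t)) (c : ℝ) : MeasurableSet {w | ∀ t ∈ K, c ≤ X t w} := by
  obtain ⟨D, h1, h2, h3⟩ :=
    (TopologicalSpace.IsSeparable.of_separableSpace K).exists_countable_dense_subset
  have h4 : {w | ∀ t ∈ K, c ≤ X t w} = ⋂ t ∈ D, {w | c ≤ X t w} := by
    ext w
    simp only [mem_ofPred_eq, mem_iInter]
    exact ⟨fun h t ht => h t (h1 ht), fun h t ht => ContinuousWithinAt.closure_le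
      (f := fun _ => c) (g := fun t => X t w) (h3 ht) continuousWithinAt_const ((hc w t ht).mono h1) h⟩
  rw [h4]
  exact MeasurableSet.biInter h2 fun t ht => measurableSet_le measurable_const (hm t (h1 ht))

/-- joint measurability of `(t, w) ↦ X (projIcc t) w` -/
theorem measurable_at {X : ℝ → Path → ℝ} (hc : ∀ w, ContinuousOn (fun t => X t w) (Icc 0 T))
    (hm : ∀ t ∈ Icc 0 T, Measurable (X t)) {w : P → Path} {t : P → ℝ} (hw : Measurable w)
    (ht : Measurable t) (h : ∀ p, t p ∈ Icc 0 T) : Measurable fun p => X (t p) (w p) := by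
  have h1 : Measurable (uncurry fun (s : Icc (0 : ℝ) T) (v : Path) => X s v) :=
    measurable_uncurry_of_continuous_of_measurable
      (fun v => continuousOn_iff_continuous_domRestrict.1 (hc v)) fun s => hm s s.2
  exact h1.comp ((ht.subtype_mk (h := h)).prodMk hw)

theorem Adp.det_at {X : ℝ → Path → ℝ} (h : Adp T X) (hτ : Stp T τ) :
    Det τ fun w => X (τ w) w := by
  refine ⟨measurable_at h.cont (fun t ht => (h.det t ht).meas) measurable_id hτ.det.meas hτ.mem,
    fun w w' ha => ?_⟩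
  rw [hτ.det.eq w w' ha]
  exact (h.det _ (hτ.mem w)).eq w w' ha

theorem adp_pf (T : ℝ) : Adp T fun t w => pf w t :=
  ⟨fun w => (continuous_pf w).continuousOn, fun t ht =>
    ⟨measurable_pf measurable_id measurable_const, fun _ _ ha => (ha t ⟨ht.1, le_rfl⟩).symm⟩⟩

theorem Adp.comp {X : ℝ → Path → ℝ} (h : Adp T X) {φ : ℝ → ℝ} (hφ : Continuous φ) :
    Adp T fun t w => φ (X t w) :=
  ⟨fun w => hφ.comp_continuousOn (h.cont w), fun t ht => (h.det t ht).comp hφ.measurable⟩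

theorem Adp.comp₂ {X Y : ℝ → Path → ℝ} (h : Adp T X) (h' : Adp T Y) {φ : ℝ × ℝ → ℝ}
    (hφ : Continuous φ) : Adp T fun t w => φ (X t w, Y t w) :=
  ⟨fun w => hφ.comp_continuousOn ((h.cont w).prodMk (h'.cont w)),
    fun t ht => ((h.det t ht).prodMk (h'.det t ht)).comp hφ.measurable⟩

theorem Adp.mono {X : ℝ → Path → ℝ} {T' : ℝ} (h : Adp T X) (hT : T' ≤ T) : Adp T' X :=
  ⟨fun w => (h.cont w).mono (Icc_subset_Icc_right hT),
    fun t ht => h.det t (Icc_subset_Icc_right hT ht)⟩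

theorem hit_mem (hT : 0 ≤ T) (X : ℝ → Path → ℝ) (w : Path) : hit T X w ∈ Icc 0 T :=
  ⟨le_csInf ⟨T, Or.inr rfl⟩ (PathB_bdd hT X w), csInf_le ⟨0, PathB_bdd hT X w⟩ (Or.inr rfl)⟩

theorem hit_le {X : ℝ → Path → ℝ} {w : Path} {t : ℝ} (ht : t ∈ Icc 0 T) (h : X t w ≤ 0) :
    hit T X w ≤ t :=
  csInf_le ⟨0, PathB_bdd (ht.1.trans ht.2) X w⟩ (Or.inl ⟨ht, h⟩)

theorem pos_of_lt_hit {X : ℝ → Path → ℝ} {w : Path} {t : ℝ} (hT : 0 ≤ T) (ht : 0 ≤ t)
    (h : t < hit T X w) : 0 < X t w :=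
  not_le.1 fun h0 => not_le.2 h (hit_le ⟨ht, h.le.trans (hit_mem hT X w).2⟩ h0)

theorem hit_spec {X : ℝ → Path → ℝ} {w : Path} (hc : ContinuousOn (fun t => X t w) (Icc 0 T))
    {t : ℝ} (ht : t ∈ Icc 0 T) (h : X t w ≤ 0) : X (hit T X w) w ≤ 0 := by
  rcases PathB_cases (ht.1.trans ht.2) hc with h1 | h1
  · exact h1
  · have h2 : t = T := le_antisymm ht.2 (h1 ▸ hit_le ht h)
    rwa [h1, ← h2]

theorem nonneg_of_le_hit {X : ℝ → Path → ℝ} {w : Path}
    (hc : ContinuousOn (fun t => X t w) (Icc 0 T)) (h0 : 0 ≤ X 0 w) {t : ℝ}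
    (ht : t ∈ Icc 0 (hit T X w)) : 0 ≤ X t w := by
  have hT : 0 ≤ T := by
    by_contra hT
    have h1 : hit T X w = T := by
      rw [hit, Icc_eq_empty hT]
      simp
    exact hT (h1 ▸ ht.1.trans ht.2)
  rcases ht.1.eq_or_lt with rfl | h1
  · exact h0
  · have h2 : t ≤ T := ht.2.trans (hit_mem hT X w).2
    have h3 : t ∈ closure (Ico 0 t) := by
      rw [closure_Ico h1.ne]
      exact ⟨h1.le, le_rfl⟩
    exact ContinuousWithinAt.closure_le (f := fun _ => (0 : ℝ)) (g := fun t => X t w) h3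
      continuousWithinAt_const ((hc t ⟨ht.1, h2⟩).mono fun s hs => ⟨hs.1, hs.2.le.trans h2⟩)
      fun s hs => (pos_of_lt_hit hT hs.1 (hs.2.trans_le ht.2)).le

/-- for `t < T`, `hit ≤ t` iff for all `n` there is a rational multiple `q t`, `q ∈ [0,1]`, with
`X (q t) < 1 / (n + 1)` -/
theorem Adp.stp_hit {X : ℝ → Path → ℝ} (hT : 0 ≤ T) (h : Adp T X) : Stp T (hit T X) := by
  refine ⟨⟨measurable_of_Ioi fun x => ?_, fun w w' ha => ?_⟩, hit_mem hT X⟩
  · rcases le_or_gt T x with hx | hx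
    · have h1 : hit T X ⁻¹' Ioi x = ∅ :=
        eq_empty_of_forall_notMem fun w hw => not_le.2 hw ((hit_mem hT X w).2.trans hx)
      rw [h1]
      exact MeasurableSet.empty
    · have hs : Icc 0 x ⊆ Icc 0 T := Icc_subset_Icc_right hx.le
      have h1 : hit T X ⁻¹' Ioi x =
          ⋃ n : ℕ, {w | ∀ t ∈ Icc 0 x, 1 / ((n : ℝ) + 1) ≤ X t w} := by
        ext w
        simp only [mem_preimage, mem_Ioi, mem_iUnion, mem_ofPred_eq]
        constructor
        · intro hw
          obtain ⟨a, ha, hb⟩ := isCompact_Icc.exists_forall_le' ((h.cont w).mono hs)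
            fun t ht => pos_of_lt_hit hT ht.1 (ht.2.trans_lt hw)
          obtain ⟨n, hn⟩ := exists_nat_one_div_lt ha
          exact ⟨n, fun t ht => hn.le.trans (hb t ht)⟩
        · rintro ⟨n, hn⟩
          by_contra hw
          rw [not_lt] at hw
          rcases PathB_cases hT (h.cont w) with h2 | h2
          · have h3 := hn _ ⟨(hit_mem hT X w).1, hw⟩
            have h4 : (0 : ℝ) < 1 / ((n : ℝ) + 1) := by positivity
            linarith
          · linarith
      rw [h1]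
      exact MeasurableSet.iUnion fun n =>
        PathB_all (fun w => (h.cont w).mono hs) (fun t ht => (h.det t (hs ht)).meas) _
  · have hm := hit_mem hT X w
    have hm' := hit_mem hT X w'
    have he : ∀ s ∈ Icc 0 (hit T X w), X s w' = X s w := fun s hs =>
      (h.det s ⟨hs.1, hs.2.trans hm.2⟩).eq w w' (ha.mono hs.2)
    refine le_antisymm ?_ (not_lt.1 fun hl => ?_)
    · rcases PathB_cases hT (h.cont w) with h2 | h2
      · exact hit_le hm ((he _ ⟨hm.1, le_rfl⟩).trans_le h2)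
      · exact hm'.2.trans h2.ge
    · rcases PathB_cases hT (h.cont w') with h2 | h2
      · rw [he _ ⟨hm'.1, hl.le⟩] at h2
        exact not_lt.2 h2 (pos_of_lt_hit hT hm'.1 hl)
      · linarith [hm.2]

theorem detS_sup (hT : 0 ≤ T) (s L : ℝ) (hs : 0 ≤ s) :
    DetS (fun _ => T) {w | ∀ t ∈ Icc s T, |pf w t - pf w s| ≤ L} := by
  refine ⟨?_, fun w w' ha hw t ht => ?_⟩
  · have h1 := PathB_all (K := Icc s T) (X := fun t w => L - |pf w t - pf w s|)
      (fun w => (continuous_const.sub ((continuous_pf w).sub continuous_const).abs).continuousOn)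
      (fun t _ => measurable_const.sub ((measurable_pf measurable_id measurable_const).sub
        (measurable_pf measurable_id measurable_const)).abs) 0
    simpa only [sub_nonneg] using h1
  · rw [← ha t ⟨hs.trans ht.1, ht.2⟩, ← ha s ⟨hs, ht.1.trans ht.2⟩]
    exact hw t ht

end Vale.Agent.P164
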