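import Vale.Agent.P164.PathB
import Vale.Agent.P164.Link

/-!
# P164 PathF

Measurability and adaptedness of the flows (`measurable_sol`, `measurable_intervalIntegral`).
-/

open MeasureTheory ProbabilityTheory Set Filter Topology Complex Function
open scoped NNReal ENNReal ComplexConjugate

noncomputable section

namespace Vale.Agent.P164

variable {P : Type} [MeasurableSpace P] {η t : P → ℝ} {z : P → ℂ} {w : P → Path}

theorem PathF_fld {x : P → ℝ} (hη : Measurable η) (hx : Measurable x) (hz : Measurable z) :
    Measurable fun p => fld (η p) (x p) (z p) := by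
  have := measurable_fld.comp (hη.prodMk (hx.prodMk hz))
  simpa only [Function.comp_def] using this

theorem PathF_den {x : P → ℝ} (hη : Measurable η) (hx : Measurable x) (hz : Measurable z) :
    Measurable fun p => den (η p) (x p) (z p) := by
  have := continuous_den.measurable.comp (hη.prodMk (hx.prodMk hz))
  simpa only [Function.comp_def] using this

theorem measurable_fl (hη : Measurable η) (hw : Measurable w) (hz : Measurable z)
    (ht : Measurable t) : Measurable fun p => fl (η p) (pf (w p)) (z p) (t p) := by
  refine measurable_sol (V := fun p s => fld (η p) (pf (w p) s)) ?_ hz ht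
  exact PathF_fld (hη.comp measurable_fst)
    (measurable_pf (hw.comp measurable_fst) measurable_snd.fst) measurable_snd.snd

theorem measurable_cc (hη : Measurable η) (hw : Measurable w) (hz : Measurable z)
    (ht : Measurable t) : Measurable fun p => cc (η p) (pf (w p)) (z p) (t p) := by
  have h1 : Measurable fun q : P × ℝ => fl (η q.1) (pf (w q.1)) (z q.1) q.2 :=
    measurable_fl (hη.comp measurable_fst) (hw.comp measurable_fst) (hz.comp measurable_fst)
      measurable_snd
  have h2 : Measurable fun q : P × ℝ =>
      den (η q.1) (pf (w q.1) q.2) (fl (η q.1) (pf (w q.1)) (z q.1) q.2) :=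
    PathF_den (hη.comp measurable_fst) (measurable_pf (hw.comp measurable_fst) measurable_snd) h1
  have h3 := measurable_intervalIntegral (σ := fun _ => 0) (k := fun p s =>
    4 * (fl (η p) (pf (w p)) (z p) s).im ^ 2 /
      den (η p) (pf (w p) s) (fl (η p) (pf (w p)) (z p) s) ^ 2)
    ((((Complex.measurable_im.comp h1).pow_const 2).const_mul 4).div (h2.pow_const 2))
    measurable_const ht
  exact (Complex.measurable_im.comp hz).mul (Real.measurable_exp.comp h3.neg)

theorem measurable_bf (hw : Measurable w) (ht : Measurable t) (hz : Measurable z) :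
    Measurable fun p => bf (pf (w p)) (t p) (z p) := by
  refine measurable_sol (V := fun p s ξ => -fld (z p).im (pf (w p) (t p - s)) ξ) ?_ hz ht
  exact (PathF_fld (Complex.measurable_im.comp (hz.comp measurable_fst))
    (measurable_pf (hw.comp measurable_fst) ((ht.comp measurable_fst).sub measurable_snd.fst))
    measurable_snd.snd).neg

theorem measurable_r2 {x : P → ℝ} (hη : Measurable η) (hw : Measurable w) (hz : Measurable z)
    (ht : Measurable t) (hx : Measurable x) :
    Measurable fun p => r2 (η p) (pf (w p)) (z p) (t p) (x p) := by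
  have h1 := measurable_fl hη hw hz ht
  exact (((Complex.measurable_re.comp h1).sub hx).pow_const 2).add
    ((Complex.measurable_im.comp h1).pow_const 2)

theorem measurable_pw {x : P → ℝ} (a b c : ℝ) (hη : Measurable η) (hw : Measurable w)
    (hz : Measurable z) (ht : Measurable t) (hx : Measurable x) :
    Measurable fun p => pw (η p) (pf (w p)) (z p) a b c (t p) (x p) := by
  exact (((measurable_cc hη hw hz ht).pow_const a).mul
    ((Complex.measurable_im.comp (measurable_fl hη hw hz ht)).pow_const (b + c))).mul
    ((measurable_r2 hη hw hz ht hx).pow_const (-b / 2))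

theorem measurable_chi {x : P → ℝ} (A : ℝ) (hη : Measurable η) (hw : Measurable w)
    (hz : Measurable z) (ht : Measurable t) (hx : Measurable x) :
    Measurable fun p => chi A (η p) (pf (w p)) (z p) (t p) (x p) := by
  have h1 : Measurable fun p => wb (η p) (pf (w p)) (z p) (t p) (x p) :=
    measurable_bf hw ht ((Complex.measurable_ofReal.comp hx).add
      ((Complex.measurable_ofReal.comp (measurable_r2 hη hw hz ht hx).sqrt).const_mul I))
  exact (measurable_const.div ((measurable_const.add ((hz.sub h1).norm.pow_const 2)).add
    ((measurable_cc hη hw hz ht).pow_const 2))).pow_const 4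

theorem measurable_kil (hη : Measurable η) (hw : Measurable w) (hz : Measurable z)
    (ht : Measurable t) : Measurable fun p => kil (η p) (pf (w p)) (z p) (t p) := by
  exact contDiff_stp.continuous.measurable.comp
    ((Complex.measurable_im.comp (measurable_fl hη hw hz ht)).div hη)

theorem PathF_pay (κ e : ℝ) (hη : Measurable η) (hw : Measurable w) (hz : Measurable z)
    (ht : Measurable t) : Measurable fun p => pay κ (η p) e (pf (w p)) (z p) (t p) := by
  have h1 := measurable_pf hw ht
  have h2 := (measurable_cc hη hw hz ht).div_const e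
  have h3 := measurable_r2 hη hw hz ht h1
  have h4 : Measurable fun p => sn (η p) (pf (w p)) (z p) (t p) :=
    (Complex.measurable_im.comp (measurable_fl hη hw hz ht)).div h3.sqrt
  exact (((measurable_pw _ _ _ hη hw hz ht h1).mul (measurable_kil hη hw hz ht)).mul
    (((measurable_deriv stp).comp h2).mul h2)).mul (((h4.pow_const 2).const_mul 4).div h3)

theorem measurable_Pay (κ e : ℝ) (hη : Measurable η) (hw : Measurable w) (ht : Measurable t)
    (hz : Measurable z) : Measurable fun p => Pay κ (η p) e (pf (w p)) (t p) (z p) := by
  exact measurable_intervalIntegral (σ := fun _ => 0)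
    (k := fun p s => pay κ (η p) e (pf (w p)) (z p) s)
    (PathF_pay κ e (hη.comp measurable_fst) (hw.comp measurable_fst) (hz.comp measurable_fst)
      measurable_snd) measurable_const ht

theorem measurable_mass (κ η e T : ℝ) (hw : Measurable w) (hz : Measurable z) (r : ℝ) :
    Measurable fun p => mass κ η e (pf (w p)) T (Metric.ball (z p) r) := by
  have h1 : Measurable fun q : P × ℂ => Pay κ η e (pf (w q.1)) T q.2 :=
    measurable_Pay κ e measurable_const (hw.comp measurable_fst) measurable_const measurable_snd
  have h2 : MeasurableSet {q : P × ℂ | dist q.2 (z q.1) < r} :=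
    measurableSet_lt (measurable_snd.dist (hz.comp measurable_fst)) measurable_const
  have h3 := ((h1.indicator h2).stronglyMeasurable.integral_prod_right'
    (ν := (volume : Measure ℂ))).measurable
  have h4 : (fun p => mass κ η e (pf (w p)) T (Metric.ball (z p) r)) = fun p => ∫ ξ : ℂ,
      {q : P × ℂ | dist q.2 (z q.1) < r}.indicator
        (fun q : P × ℂ => Pay κ η e (pf (w q.1)) T q.2) (p, ξ) := by
    funext p
    rw [mass, ← integral_indicator measurableSet_ball]
    rfl
  rw [h4]
  exact h3

theorem measurable_gz (κ A ε₁ ε₂ K cχ η e : ℝ) (x₀ : ℂ) (R t x : ℝ) :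
    Measurable fun q : Path × ℂ => gz κ A ε₁ ε₂ K cχ η e x₀ R (pf q.1) q.2 t x := by
  have hf : Measurable fun q : Path × ℂ => q.1 := measurable_fst
  have hs : Measurable fun q : Path × ℂ => q.2 := measurable_snd
  have hη : Measurable fun _ : Path × ℂ => η := measurable_const
  have ht : Measurable fun _ : Path × ℂ => t := measurable_const
  have hx : Measurable fun _ : Path × ℂ => x := measurable_const
  have h1 := measurable_cc hη hf hs ht
  have h2 := measurable_chi A hη hf hs ht hx
  have h3 := measurable_kil hη hf hs ht
  have h4 : Measurable fun q : Path × ℂ => (Metric.ball x₀ R).indicator (fun _ => (1 : ℝ)) q.2 :=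
    (measurable_const.indicator measurableSet_ball).comp hs
  have h5 : Measurable fun q : Path × ℂ => stp (cc η (pf q.1) q.2 t / e) :=
    contDiff_stp.continuous.measurable.comp (h1.div_const e)
  exact (((h4.const_mul ε₁).mul (((((measurable_pw _ _ _ hη hf hs ht hx).mul h2).mul h3).mul h5).add
    ((measurable_Pay κ e hη hf ht hs).const_mul cχ))).add
    ((((measurable_pw _ _ _ hη hf hs ht hx).mul h2).mul h3).const_mul ε₂)).add
    (((h1.pow_const 2).div ((h1.pow_const 2).const_add 1)).const_mul K)

theorem gz_congr (κ A ε₁ ε₂ K cχ e : ℝ) (x₀ : ℂ) (R : ℝ) {η T t : ℝ} {w w' : ℝ → ℝ} {z : ℂ}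
    (hη : 0 < η) (hw : Continuous w) (hw' : Continuous w') (h : Agr T w w') (hz : 0 < z.im)
    (ht : t ∈ Icc 0 T) (x : ℝ) :
    gz κ A ε₁ ε₂ K cχ η e x₀ R w z t x = gz κ A ε₁ ε₂ K cχ η e x₀ R w' z t x := by
  have h1 := fl_congr hη hw hw' h z ht
  have h2 := cc_congr hη hw hw' h z ht
  have h3 : r2 η w z t x = r2 η w' z t x := by simp only [r2, h1]
  have h4 : wb η w z t x = wb η w' z t x := by
    unfold wb
    rw [← h3]
    refine bf_congr hw hw' h ?_ ht
    simpa using r2_pos hη hw hz t x
  simp only [gz, pw, chi, QQ, kil, h1, h2, h3, h4, Pay_congr κ e hη hw hw' h z ht]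

end Vale.Agent.P164
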