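import Vale.Agent.P164.PathB
import Vale.Agent.P164.Link
import Vale.Agent.P164.PathF

/-!
# P164 PathM

Measurability and adaptedness of the flows (`measurable_sol`, `measurable_intervalIntegral`).
-/

open MeasureTheory ProbabilityTheory Set Filter Topology Complex Function
open scoped NNReal ENNReal ComplexConjugate

noncomputable section

namespace Vale.Agent.P164

variable {P : Type} [MeasurableSpace P] {η t : P → ℝ} {z : P → ℂ} {w : P → Path}

theorem PathM_ex {K : Set ℝ} {X : ℝ → P → ℝ} (hc : ∀ p, ContinuousOn (fun t => X t p) K)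
    (hm : ∀ t ∈ K, Measurable (X t)) : MeasurableSet {p | ∃ t ∈ K, X t p < 0} := by
  obtain ⟨D, h1, h2, h3⟩ :=
    (TopologicalSpace.IsSeparable.of_separableSpace K).exists_countable_dense_subset
  have h4 : {p | ∃ t ∈ K, X t p < 0} = ⋃ t ∈ D, {p | X t p < 0} := by
    ext p
    simp only [mem_ofPred_eq, mem_iUnion, exists_prop]
    refine ⟨fun ⟨t, ht, h⟩ => ?_, fun ⟨t, ht, h⟩ => ⟨t, h1 ht, h⟩⟩
    by_contra h5
    exact not_le.2 h (ContinuousWithinAt.closure_le (f := fun _ => (0 : ℝ)) (g := fun t => X t p)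
      (h3 ht) continuousWithinAt_const ((hc p t ht).mono h1)
      fun s hs => not_lt.1 fun h6 => h5 ⟨s, hs, h6⟩)
  rw [h4]
  exact MeasurableSet.biUnion h2 fun t ht => measurableSet_lt (hm t (h1 ht)) measurable_const

theorem PathM_fl {η T t : ℝ} (hη : 0 < η) (z : ℂ) (ht : t ∈ Icc 0 T) {w w' : Path}
    (h : Agr t (pf w) (pf w')) : fl η (pf w') z t = fl η (pf w) z t :=
  (fl_congr hη (continuous_pf w) (continuous_pf w') h z ⟨ht.1, le_rfl⟩).symm

theorem PathM_cc {η T t : ℝ} (hη : 0 < η) (z : ℂ) (ht : t ∈ Icc 0 T) {w w' : Path}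
    (h : Agr t (pf w) (pf w')) : cc η (pf w') z t = cc η (pf w) z t :=
  (cc_congr hη (continuous_pf w) (continuous_pf w') h z ⟨ht.1, le_rfl⟩).symm

/-- `z ∈ Ever w T e` iff `0 ≤ T`, `0 < im z` and for some `n` and rational `q ∈ [0,1]`,
`η < Y (q T)` and `cc (q T) < e` for `η = 1 / (n + 1)` (`mem_ever_of`, `eventually_of_ever`, continuity) -/
theorem measurableSet_ever (T e : ℝ) (hw : Measurable w) (hz : Measurable z) :
    MeasurableSet {p | z p ∈ Ever (pf (w p)) T e} := by
  have hp : ∀ n : ℕ, (0 : ℝ) < 1 / (n + 1 : ℝ) := fun n => by positivity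
  have h1 : {p | z p ∈ Ever (pf (w p)) T e} = {p | 0 < (z p).im} ∩ ⋃ n : ℕ, {p | ∃ t ∈ Icc 0 T,
      max (1 / (n + 1 : ℝ) - (fl (1 / (n + 1 : ℝ)) (pf (w p)) (z p) t).im)
        (cc (1 / (n + 1 : ℝ)) (pf (w p)) (z p) t - e) < 0} := by
    ext p
    simp only [mem_ofPred_eq, mem_inter_iff, mem_iUnion, max_lt_iff, sub_neg]
    constructor
    · intro h
      obtain ⟨n, t, ht, h2, h3⟩ := (eventually_of_ever (continuous_pf _) h).exists
      exact ⟨ever_sub (continuous_pf _) T e h, n, t, ht, by linarith [hp n], h3⟩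
    · rintro ⟨h, n, t, ht, h2, h3⟩
      exact mem_ever_of (hp n) (continuous_pf _) h ht h2.le h3
  rw [h1]
  refine (measurableSet_lt measurable_const (Complex.measurable_im.comp hz)).inter
    (MeasurableSet.iUnion fun n => PathM_ex (fun p => Continuous.continuousOn ?_) fun t _ => ?_)
  · exact (continuous_const.sub (Flow_im (hp n) (continuous_pf _) _)).max
      ((cc_cont (hp n) (continuous_pf _) _).sub continuous_const)
  · exact (measurable_const.sub (Complex.measurable_im.comp
      (measurable_fl measurable_const hw hz measurable_const))).max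
      ((measurable_cc measurable_const hw hz measurable_const).sub measurable_const)

theorem measurableSet_ever' {w : ℝ → ℝ} (hw : Continuous w) (T e : ℝ) :
    MeasurableSet (Ever w T e) := by
  let W : Path := ⟨fun t => w t, hw.comp NNReal.continuous_coe⟩
  have h1 : Agr T w (pf W) := fun s hs => by
    simp only [pf, W, Real.coe_toNNReal s hs.1]
  rw [ever_congr hw (continuous_pf W) h1 e]
  exact measurableSet_ever (P := ℂ) (w := fun _ => W) (z := id) T e measurable_const measurable_id

/-- `measurable_measure_prodMk_left` -/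
theorem measurable_vol_ever (T e : ℝ) (hw : Measurable w) {D : P → Set ℂ}
    (hD : MeasurableSet {q : P × ℂ | q.2 ∈ D q.1}) :
    Measurable fun p => volume (Ever (pf (w p)) T e ∩ D p) := by
  have h1 : MeasurableSet {q : P × ℂ | q.2 ∈ Ever (pf (w q.1)) T e} :=
    measurableSet_ever (P := P × ℂ) (w := fun q => w q.1) (z := fun q => q.2) T e
      (hw.comp measurable_fst) measurable_snd
  exact measurable_measure_prodMk_left (ν := (volume : Measure ℂ)) (h1.inter hD)

theorem detS_fat (T e v : ℝ) {D : Set ℂ} (hD : MeasurableSet D) :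
    DetS (fun _ => T) {w | Fat (pf w) T e D v} := by
  refine ⟨measurableSet_le measurable_const (measurable_vol_ever (P := Path) (w := id)
    (D := fun _ => D) T e measurable_id (measurable_snd hD)), fun w w' ha h => ?_⟩
  simp only [mem_ofPred_eq, Fat] at h ⊢
  rwa [← ever_congr (continuous_pf w) (continuous_pf w') ha e]

theorem measurableSet_good (κ K c : ℝ) (m : ℕ) (e T r : ℝ)
    (hw : Measurable w) (hz : Measurable z) :
    MeasurableSet {p | Good κ K c m e (pf (w p)) T (z p) r} :=
  measurableSet_le measurable_const (measurable_vol_ever (D := fun p => Metric.ball (z p) (K * r))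
    T e hw (measurableSet_lt (measurable_snd.dist (hz.comp measurable_fst)) measurable_const))

theorem adp_im {η : ℝ} (hη : 0 < η) (z : ℂ) (T : ℝ) : Adp T fun t w => (fl η (pf w) z t).im :=
  ⟨fun w => (Flow_im hη (continuous_pf w) z).continuousOn, fun _ ht =>
    ⟨Complex.measurable_im.comp
      (measurable_fl measurable_const measurable_id measurable_const measurable_const),
    fun _ _ ha => by rw [PathM_fl hη z ht ha]⟩⟩

theorem adp_cc {η : ℝ} (hη : 0 < η) (z : ℂ) (T : ℝ) : Adp T fun t w => cc η (pf w) z t :=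
  ⟨fun w => (cc_cont hη (continuous_pf w) z).continuousOn, fun _ ht =>
    ⟨measurable_cc measurable_const measurable_id measurable_const measurable_const,
    fun _ _ ha => PathM_cc hη z ht ha⟩⟩

theorem adp_r2 {η : ℝ} (hη : 0 < η) (z : ℂ) (T : ℝ) :
    Adp T fun t w => r2 η (pf w) z t (pf w t) :=
  ⟨fun w => (r2_cont hη (continuous_pf w) z).continuousOn, fun t ht =>
    ⟨measurable_r2 measurable_const measurable_id measurable_const measurable_const
      (measurable_pf measurable_id measurable_const),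
    fun _ _ ha => by simp only [r2, PathM_fl hη z ht ha, ha t ⟨ht.1, le_rfl⟩]⟩⟩

theorem adp_sn {η : ℝ} (hη : 0 < η) {z : ℂ} (hz : 0 < z.im) (T : ℝ) :
    Adp T fun t w => sn η (pf w) z t :=
  ⟨fun w => (sn_cont hη (continuous_pf w) hz).continuousOn, fun t ht =>
    ⟨((adp_im hη z T).det t ht).meas.div ((adp_r2 hη z T).det t ht).meas.sqrt,
    fun _ _ ha => by simp only [sn, r2, PathM_fl hη z ht ha, ha t ⟨ht.1, le_rfl⟩]⟩⟩

theorem adp_pv {η : ℝ} (hη : 0 < η) {z : ℂ} (hz : 0 < z.im) (p a b T : ℝ) :
    Adp T fun t w => pv η (pf w) z p a b t := by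
  refine ⟨fun w => Continuous.continuousOn ?_, fun t ht =>
    ⟨measurable_pw p a b measurable_const measurable_id measurable_const measurable_const
      (measurable_pf measurable_id measurable_const), fun _ _ ha => ?_⟩⟩
  · have hw := continuous_pf w
    simp only [pv_eq hη hw hz]
    exact (((cc_cont hη hw z).rpow_const fun t => Or.inl (cc_pos hz η _ t).ne').mul
      ((Flow_im hη hw z).rpow_const fun t => Or.inl (fl_im_pos hη hw hz t).ne')).mul
      ((sn_cont hη hw hz).rpow_const fun t => Or.inl (sn_pos hη hw hz t).ne')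
  · simp only [pv, pw, r2, PathM_fl hη z ht ha, PathM_cc hη z ht ha, ha t ⟨ht.1, le_rfl⟩]

theorem stp_rho {η T : ℝ} (hη : 0 < η) (hT : 0 ≤ T) (z : ℂ) (r : ℝ) : Stp T (rho η z T r) :=
  ((adp_cc hη z T).comp (φ := fun x => x - r) (continuous_id.sub continuous_const)).stp_hit hT

/-- `Reach` holds iff the hitting time of `max (2 η - Y) (cc - r)` is attained -/
theorem measurableSet_reach {η T : ℝ} (hη : 0 < η) (hT : 0 ≤ T) (z : ℂ) (r : ℝ) :
    MeasurableSet {w : Path | Reach η (pf w) z T r} := by
  have h : Adp T fun t w => max (2 * η - (fl η (pf w) z t).im) (cc η (pf w) z t - r) :=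
    (adp_im hη z T).comp₂ (adp_cc hη z T) (φ := fun q => max (2 * η - q.1) (q.2 - r))
      ((continuous_const.sub continuous_fst).max (continuous_snd.sub continuous_const))
  have h1 := measurableSet_le (h.det_at (h.stp_hit hT)).meas (measurable_const (a := (0 : ℝ)))
  refine (congrArg MeasurableSet (Set.ext fun w => ⟨fun hw => ?_, fun hw => ?_⟩)).mp h1
  · simp only [mem_ofPred_eq, max_le_iff, sub_nonpos] at hw
    exact ⟨_, hit_mem hT _ w, hw⟩
  · obtain ⟨t, ht, h2, h3⟩ := hw
    exact hit_spec (X := fun t w => max (2 * η - (fl η (pf w) z t).im) (cc η (pf w) z t - r))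
      (h.cont w) ht (max_le (sub_nonpos.2 h2) (sub_nonpos.2 h3))

end Vale.Agent.P164
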