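import Vale.Agent.P164.Jet
import Vale.Agent.P164.Flow

/-!
# P164 PwA

The jet of `pw` and the one point martingales.
-/

open MeasureTheory ProbabilityTheory Set Filter Topology Complex Function
open scoped NNReal ENNReal ComplexConjugate

noncomputable section

namespace Vale.Agent.P164

variable {κ η T : ℝ} {w : ℝ → ℝ} {z : ℂ}

theorem PwA_fld (hη : 0 < η) (hw : Continuous w) (z : ℂ) :
    Continuous fun t => fld η (w t) (fl η w z t) :=
  Continuous.comp (g := fun q : ℝ × ℂ => fld η q.1 q.2) (f := fun t => (w t, fl η w z t))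
    (continuous_fld hη) (hw.prodMk (fl_cont hη hw z))

theorem PwA_l0 (p a b : ℝ) {X U Y D y : ℝ} (hy : 0 < y) (h : y ^ 2 ≤ Y ^ 2)
    (hD : U ^ 2 + Y ^ 2 ≤ D) :
    |-p * (4 * Y ^ 2 / D ^ 2) - (a + b) * (2 / D)
      - a * ((X * (2 * U / D) + Y * (-2 * Y / D)) / (X ^ 2 + Y ^ 2))| ≤
      (4 * |p| + 2 * |a + b| + 4 * |a|) / y ^ 2 := by
  have hy2 : 0 < y ^ 2 := pow_pos hy 2
  have hY : 0 < Y ^ 2 := hy2.trans_le h
  have hYD : Y ^ 2 ≤ D := by nlinarith [sq_nonneg U]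
  have hD0 : 0 < D := hY.trans_le hYD
  have hr : 0 < X ^ 2 + Y ^ 2 := by positivity
  have h1 : 4 * Y ^ 2 / D ^ 2 ≤ 4 / y ^ 2 := by
    rw [div_le_div_iff₀ (by positivity) hy2]
    nlinarith [mul_le_mul hYD (h.trans hYD) hy2.le hD0.le]
  have h2 : 2 / D ≤ 2 / y ^ 2 := div_le_div_of_nonneg_left (by norm_num) hy2 (h.trans hYD)
  have h3 : |(X * (2 * U / D) + Y * (-2 * Y / D)) / (X ^ 2 + Y ^ 2)| ≤ 4 / y ^ 2 := by
    have e : (X * (2 * U / D) + Y * (-2 * Y / D)) / (X ^ 2 + Y ^ 2) =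
        2 * (X * U - Y ^ 2) / (D * (X ^ 2 + Y ^ 2)) := by
      field_simp
      ring
    have h4 : |2 * (X * U - Y ^ 2)| ≤ X ^ 2 + U ^ 2 + 2 * Y ^ 2 := by
      rw [abs_le]
      constructor <;> nlinarith [sq_nonneg (X + U), sq_nonneg (X - U)]
    rw [e, abs_div, abs_of_pos (mul_pos hD0 hr), div_le_div_iff₀ (mul_pos hD0 hr) hy2]
    calc _ ≤ (X ^ 2 + U ^ 2 + 2 * Y ^ 2) * Y ^ 2 :=
          mul_le_mul h4 h hy2.le (by positivity)
      _ ≤ 4 * ((U ^ 2 + Y ^ 2) * (X ^ 2 + Y ^ 2)) := by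
          nlinarith [mul_nonneg (sq_nonneg X) hY.le, mul_nonneg (sq_nonneg U) hY.le,
            mul_nonneg (sq_nonneg U) (sq_nonneg X), mul_pos hY hY]
      _ ≤ _ := mul_le_mul_of_nonneg_left (mul_le_mul_of_nonneg_right hD hr.le) (by norm_num)
  refine (abs_sub _ _).trans ((add_le_add_left (abs_sub _ _) _).trans ?_)
  rw [abs_mul, abs_mul, abs_mul, abs_neg, abs_of_nonneg (by positivity : 0 ≤ 4 * Y ^ 2 / D ^ 2),
    abs_of_nonneg (by positivity : 0 ≤ 2 / D)]
  calc _ ≤ |p| * (4 / y ^ 2) + |a + b| * (2 / y ^ 2) + |a| * (4 / y ^ 2) := by gcongr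
    _ = _ := by ring

theorem PwA_l2 (a X : ℝ) {Y y : ℝ} (hy : 0 < y) (h : y ^ 2 ≤ Y ^ 2) :
    |a * (-1 / (X ^ 2 + Y ^ 2) + 2 * X ^ 2 / (X ^ 2 + Y ^ 2) ^ 2)| ≤ 3 * |a| / y ^ 2 := by
  have hy2 : 0 < y ^ 2 := pow_pos hy 2
  have hY : 0 < Y ^ 2 := hy2.trans_le h
  have hr : 0 < X ^ 2 + Y ^ 2 := by positivity
  have e : -1 / (X ^ 2 + Y ^ 2) + 2 * X ^ 2 / (X ^ 2 + Y ^ 2) ^ 2 =
      (X ^ 2 - Y ^ 2) / (X ^ 2 + Y ^ 2) ^ 2 := by
    field_simp
    ring
  have h4 : |X ^ 2 - Y ^ 2| ≤ X ^ 2 + Y ^ 2 := by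
    rw [abs_le]
    constructor <;> nlinarith [sq_nonneg X]
  have h5 : |(X ^ 2 - Y ^ 2) / (X ^ 2 + Y ^ 2) ^ 2| ≤ 3 / y ^ 2 := by
    rw [abs_div, abs_of_pos (pow_pos hr 2), div_le_div_iff₀ (pow_pos hr 2) hy2]
    have := mul_le_mul h4 (h.trans (le_add_of_nonneg_left (sq_nonneg X))) hy2.le hr.le
    nlinarith [mul_pos hr hr]
  rw [e, abs_mul]
  calc _ ≤ |a| * (3 / y ^ 2) := by gcongr
    _ = _ := by ring

theorem jet_r2 (hη : 0 < η) (hw : Continuous w) (z : ℂ) (T : ℝ) :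
    Jet T (r2 η w z) (fun t x => 2 * (((fl η w z t).re - x) * (fld η (w t) (fl η w z t)).re
        + (fl η w z t).im * (fld η (w t) (fl η w z t)).im))
      (fun t x => -2 * ((fl η w z t).re - x)) fun _ _ => 2 := by
  have h1 : Continuous fun t => (fl η w z t).re := continuous_re.comp (fl_cont hη hw z)
  have h2 : Continuous fun t => (fl η w z t).im := continuous_im.comp (fl_cont hη hw z)
  have h3 := PwA_fld hη hw z
  have h4 := continuous_re.comp h3
  have h5 := continuous_im.comp h3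
  refine ⟨Continuous.continuousOn ?_, Continuous.continuousOn ?_, Continuous.continuousOn ?_,
    continuousOn_const, fun t _ x => ?_, fun t _ x => ?_, fun t _ x => ?_⟩
  · exact (((h1.comp continuous_fst).sub continuous_snd).pow 2).add ((h2.comp continuous_fst).pow 2)
  · exact continuous_const.mul ((((h1.comp continuous_fst).sub continuous_snd).mul
      (h4.comp continuous_fst)).add ((h2.comp continuous_fst).mul (h5.comp continuous_fst)))
  · exact continuous_const.mul ((h1.comp continuous_fst).sub continuous_snd)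
  · refine (((((fl_re_deriv hη hw z t).sub_const x).pow 2).add
      ((fl_im_deriv hη hw z t).pow 2)).congr_deriv ?_).hasDerivWithinAt
    norm_num
    ring
  · refine (((((hasDerivAt_id x).const_sub (fl η w z t).re).pow 2).add_const
      ((fl η w z t).im ^ 2)).congr_deriv ?_)
    norm_num
  · refine ((((hasDerivAt_id x).const_sub (fl η w z t).re).const_mul (-2)).congr_deriv ?_)
    norm_num

/-- `Jet.time`, `Jet.rpow`, `Jet.mul`, `Jet.congr` -/
theorem jet_pw (hη : 0 < η) (hw : Continuous w) (hz : 0 < z.im) (p a b T : ℝ) :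
    Jet T (pw η w z p a b) (fun t x => pw η w z p a b t x * l0 η w z p a b t x)
      (fun t x => pw η w z p a b t x * l1 η w z a t x)
      fun t x => pw η w z p a b t x * (l2 η w z a t x + l1 η w z a t x ^ 2) := by
  have h2 : Continuous fun t => (fl η w z t).im := continuous_im.comp (fl_cont hη hw z)
  have h3 : Continuous fun t => den η (w t) (fl η w z t) :=
    continuous_den.comp (continuous_const.prodMk (hw.prodMk (fl_cont hη hw z)))
  have j1 := (Jet.time (cc_deriv hη hw z) (((cc_cont hη hw z).mul ((continuous_const.mul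
    (h2.pow 2)).div (h3.pow 2) fun t => (pow_pos (den_pos hη _ _) 2).ne')).neg) T).rpow
    (fun t _ _ => cc_pos hz η w t) p
  have j2 := (Jet.time (fl_im_deriv hη hw z) (continuous_im.comp (PwA_fld hη hw z)) T).rpow
    (fun t _ _ => fl_im_pos hη hw hz t) (a + b)
  have j3 := (jet_r2 hη hw z T).rpow (fun t _ x => r2_pos hη hw hz t x) (-a / 2)
  refine ((j1.mul j2).mul j3).congr fun t _ x => ⟨rfl, ?_, ?_, ?_⟩
  all_goals
    have e1 := (cc_pos hz η w t).ne'
    have e2 := (fl_im_pos hη hw hz t).ne'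
    have e3 := (r2_pos hη hw hz t x).ne'
    have e4 := (den_pos hη (w t) (fl η w z t)).ne'
    simp only [pw, l0, l1, l2, fld_im]
    field_simp
    ring

theorem pw_pos (hη : 0 < η) (hw : Continuous w) (hz : 0 < z.im) (p a b t x : ℝ) :
    0 < pw η w z p a b t x := by
  exact mul_pos (mul_pos (Real.rpow_pos_of_pos (cc_pos hz η w t) _)
    (Real.rpow_pos_of_pos (fl_im_pos hη hw hz t) _)) (Real.rpow_pos_of_pos (r2_pos hη hw hz t x) _)

theorem pw_le (hη : 0 < η) (hw : Continuous w) (hz : 0 < z.im) (p : ℝ) {a : ℝ} (ha : 0 ≤ a)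
    (b t x : ℝ) : pw η w z p a b t x ≤ cc η w z t ^ p * (fl η w z t).im ^ b := by
  have hY := fl_im_pos hη hw hz t
  have h1 : r2 η w z t x ^ (-a / 2) ≤ ((fl η w z t).im ^ 2) ^ (-a / 2) :=
    Real.rpow_le_rpow_of_nonpos (pow_pos hY 2) (le_add_of_nonneg_left (sq_nonneg _)) (by linarith)
  have h2 : (fl η w z t).im ^ (a + b) * ((fl η w z t).im ^ 2) ^ (-a / 2) = (fl η w z t).im ^ b := by
    rw [← Real.rpow_natCast, ← Real.rpow_mul hY.le, ← Real.rpow_add hY]
    congr 1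
    push_cast
    ring
  rw [pw, mul_assoc, ← h2]
  exact mul_le_mul_of_nonneg_left (mul_le_mul_of_nonneg_left h1 (Real.rpow_nonneg hY.le _))
    (Real.rpow_nonneg (cc_pos hz η w t).le _)

theorem abs_l1_le (hη : 0 < η) (hw : Continuous w) (hz : 0 < z.im) (a t x : ℝ) :
    |l1 η w z a t x| ≤ |a| / √(r2 η w z t x) := by
  have hr := r2_pos hη hw hz t x
  have hs := Real.sqrt_pos.2 hr
  have h1 : |(fl η w z t).re - x| ≤ √(r2 η w z t x) :=
    Real.abs_le_sqrt (le_add_of_nonneg_right (sq_nonneg _))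
  rw [l1, abs_div, abs_mul, abs_of_pos hr, div_le_div_iff₀ hr hs, mul_assoc]
  refine mul_le_mul_of_nonneg_left ?_ (abs_nonneg a)
  calc _ ≤ √(r2 η w z t x) * √(r2 η w z t x) := mul_le_mul_of_nonneg_right h1 hs.le
    _ = _ := Real.mul_self_sqrt hr.le

/-- crude bounds, `y` a lower bound for the height -/
theorem abs_l_le (hη : 0 < η) (hw : Continuous w) (hz : 0 < z.im) (p a b t x : ℝ) {y : ℝ}
    (hy : 0 < y) (h : y ≤ (fl η w z t).im) :
    |l0 η w z p a b t x| ≤ (4 * |p| + 2 * |a + b| + 4 * |a|) / y ^ 2 ∧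
      |l1 η w z a t x| ≤ |a| / y ∧ |l2 η w z a t x| ≤ 3 * |a| / y ^ 2 := by
  have hyy : y ^ 2 ≤ (fl η w z t).im ^ 2 := pow_le_pow_left₀ hy.le h 2
  have hD := normSq_le_den η (w t) (fl η w z t)
  refine ⟨?_, (abs_l1_le hη hw hz a t x).trans (div_le_div_of_nonneg_left (abs_nonneg a) hy
    (Real.le_sqrt_of_sq_le (hyy.trans (le_add_of_nonneg_left (sq_nonneg _))))), ?_⟩
  · rw [l0, fld_re, fld_im, r2]
    exact PwA_l0 p a b hy hyy hD
  · rw [l2, r2]
    exact PwA_l2 a _ hy hyy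

theorem l_gen (κ : ℝ) (hη : 0 < η) (p a b : ℝ) {t : ℝ} (h : η ≤ (fl η w z t).im) :
    l0 η w z p a b t (w t) + κ / 2 * (l2 η w z a t (w t) + l1 η w z a t (w t) ^ 2)
      = II κ p a b (sn η w z t) / r2 η w z t (w t) := by
  have hY : 0 < (fl η w z t).im := hη.trans_le h
  have hr : 0 < r2 η w z t (w t) := add_pos_of_nonneg_of_pos (sq_nonneg _) (pow_pos hY 2)
  have hs : sn η w z t ^ 2 = (fl η w z t).im ^ 2 / r2 η w z t (w t) := by
    rw [sn, div_pow, Real.sq_sqrt hr.le]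
  rw [l0, l1, l2, II, hs, fld_re, fld_im, den_alive hη h]
  have e : r2 η w z t (w t) = ((fl η w z t).re - w t) ^ 2 + (fl η w z t).im ^ 2 := rfl
  rw [e] at hr ⊢
  generalize (fl η w z t).re - w t = X at hr ⊢
  field_simp
  ring

end Vale.Agent.P164
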