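import Vale.Agent.P164.Jet
import Vale.Agent.P164.PathM
import Vale.Agent.P164.Mart
import Vale.Agent.P164.PwA

/-!
# P164 Pw

The jet of `pw` and the one point martingales.
-/

open MeasureTheory ProbabilityTheory Set Filter Topology Complex Function
open scoped NNReal ENNReal ComplexConjugate

noncomputable section

namespace Vale.Agent.P164

variable {κ η T : ℝ} {w : ℝ → ℝ} {z : ℂ}

theorem Pw_range (hη : 0 < η) (hw : Continuous w) (hz : 0 < z.im) {t : ℝ} (ht : t ∈ Icc 0 T) :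
    (fl η w z t).im ∈ Icc (z.im * Real.exp (-2 * T / η ^ 2)) z.im ∧
      cc η w z t ∈ Icc (z.im * Real.exp (-4 * T / η ^ 2)) z.im := by
  have h1 := fl_im_anti hη hw hz ht.1
  have h2 := cc_anti hη hw hz ht.1
  simp only [fl_zero hη hw] at h1
  rw [cc_zero] at h2
  exact ⟨⟨(fl_im_ge hη hw hz (ht.1.trans ht.2)).trans (fl_im_anti hη hw hz ht.2), h1⟩,
    (cc_ge hη hw hz (ht.1.trans ht.2)).trans (cc_anti hη hw hz ht.2), h2⟩

theorem Pw_bd {f : ℝ → ℝ} {u v : ℝ} (hf : ContinuousOn f (Icc u v)) :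
    ∃ M, 0 ≤ M ∧ ∀ y ∈ Icc u v, |f y| ≤ M := by
  obtain ⟨M, hM⟩ := isCompact_Icc.exists_bound_of_continuousOn hf
  exact ⟨max M 0, le_max_right _ _, fun y hy => (hM y hy).trans (le_max_left _ _)⟩

theorem Pw_rpow {u v : ℝ} (hu : 0 < u) (p : ℝ) : ∃ M, 0 ≤ M ∧ ∀ y ∈ Icc u v, |y ^ p| ≤ M :=
  Pw_bd (f := fun y => y ^ p)
    (continuousOn_id.rpow_const fun _ hy => Or.inl (hu.trans_le hy.1).ne')

theorem Pw_jbd (hη : 0 < η) (hz : 0 < z.im) (T p : ℝ) {a : ℝ} (ha : 0 ≤ a) (b : ℝ) :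
    ∃ K, ∀ w : ℝ → ℝ, Continuous w → JBd T K (pw η w z p a b)
      (fun t x => pw η w z p a b t x * l0 η w z p a b t x)
      (fun t x => pw η w z p a b t x * l1 η w z a t x)
      fun t x => pw η w z p a b t x * (l2 η w z a t x + l1 η w z a t x ^ 2) := by
  have hy : 0 < z.im * Real.exp (-2 * T / η ^ 2) := by positivity
  obtain ⟨M1, h1, hM1⟩ := Pw_rpow (u := z.im * Real.exp (-4 * T / η ^ 2)) (v := z.im)
    (by positivity) p
  obtain ⟨M2, h2, hM2⟩ := Pw_rpow (v := z.im) hy b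
  set y := z.im * Real.exp (-2 * T / η ^ 2)
  set A0 := (4 * |p| + 2 * |a + b| + 4 * |a|) / y ^ 2
  set A1 := |a| / y
  set A2 := 3 * |a| / y ^ 2
  have a0 : 0 ≤ A0 := by positivity
  have a1 : 0 ≤ A1 := by positivity
  have a2 : 0 ≤ A2 := by positivity
  refine ⟨M1 * M2 * (1 + A0 + A1 + A2 + A1 ^ 2), fun w hw t ht x => ?_⟩
  obtain ⟨r1, r2⟩ := Pw_range hη hw hz ht
  obtain ⟨k0, k1, k2⟩ := abs_l_le hη hw hz p a b t x hy r1.1
  have k : |pw η w z p a b t x| ≤ M1 * M2 := by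
    rw [abs_of_pos (pw_pos hη hw hz p a b t x)]
    refine (pw_le hη hw hz p ha b t x).trans ((le_abs_self _).trans ?_)
    rw [abs_mul]
    exact mul_le_mul (hM1 _ r2) (hM2 _ r1) (abs_nonneg _) h1
  have key : ∀ u : ℝ, |u| ≤ 1 + A0 + A1 + A2 + A1 ^ 2 →
      |pw η w z p a b t x * u| ≤ M1 * M2 * (1 + A0 + A1 + A2 + A1 ^ 2) := fun u hu => by
    rw [abs_mul]
    exact mul_le_mul k hu (abs_nonneg _) (mul_nonneg h1 h2)
  have k3 : l1 η w z a t x ^ 2 ≤ A1 ^ 2 := sq_le_sq' (abs_le.1 k1).1 (abs_le.1 k1).2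
  have s1 := sq_nonneg A1
  refine ⟨?_, key _ (by linarith), key _ (by linarith), key _ ?_⟩
  · simpa using key 1 (by rw [abs_one]; linarith)
  · refine (abs_add_le _ _).trans ?_
    rw [abs_of_nonneg (sq_nonneg (l1 η w z a t x))]
    linarith

/-- the time derivative of `kil * θ (cc)` -/
def Pw_g (η : ℝ) (w : ℝ → ℝ) (z : ℂ) (θ : ℝ → ℝ) (t : ℝ) : ℝ :=
  -kilD η w z t * θ (cc η w z t) + kil η w z t * (deriv θ (cc η w z t) *
    -(cc η w z t * (4 * (fl η w z t).im ^ 2 / den η (w t) (fl η w z t) ^ 2)))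

theorem Pw_jet (hη : 0 < η) (hw : Continuous w) (hz : 0 < z.im) {θ : ℝ → ℝ}
    (hθ : ContDiff ℝ 1 θ) (T : ℝ) : Jet T (fun t _ => kil η w z t * θ (cc η w z t))
      (fun t _ => Pw_g η w z θ t) (fun _ _ => 0) fun _ _ => 0 := by
  refine Jet.time (fun t => (kil_deriv hη hw z t).mul
    ((hθ.differentiable one_ne_zero _).hasDerivAt.comp t (cc_deriv hη hw z t))) ?_ T
  have h1 := kilD_cont hη hw hz
  have h2 := cc_cont hη hw z
  have h3 := fl_cont hη hw z
  have h4 : Continuous (kil η w z) :=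
    continuous_iff_continuousAt.2 fun t => (kil_deriv hη hw z t).continuousAt
  have h5 : Continuous fun t => den η (w t) (fl η w z t) :=
    continuous_den.comp (continuous_const.prodMk (hw.prodMk h3))
  have h6 := hθ.continuous
  have h7 := hθ.continuous_deriv le_rfl
  exact (h1.neg.mul (h6.comp h2)).add (h4.mul ((h7.comp h2).mul (h2.mul
    ((continuous_const.mul ((Complex.continuous_im.comp h3).pow 2)).div (h5.pow 2)
      fun t => (pow_pos (den_pos hη _ _) 2).ne')).neg))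

theorem Pw_jbd2 (hη : 0 < η) (hz : 0 < z.im) (T : ℝ) {θ : ℝ → ℝ} (hθ : ContDiff ℝ 1 θ) :
    ∃ K, ∀ w : ℝ → ℝ, Continuous w → JBd T K (fun t _ => kil η w z t * θ (cc η w z t))
      (fun t _ => Pw_g η w z θ t) (fun _ _ => 0) fun _ _ => 0 := by
  have hy : 0 < z.im * Real.exp (-2 * T / η ^ 2) := by positivity
  obtain ⟨M1, h1, hM1⟩ := Pw_bd (u := z.im * Real.exp (-4 * T / η ^ 2)) (v := z.im)
    hθ.continuous.continuousOn
  obtain ⟨M2, h2, hM2⟩ := Pw_bd (u := z.im * Real.exp (-4 * T / η ^ 2)) (v := z.im)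
    (hθ.continuous_deriv le_rfl).continuousOn
  obtain ⟨B, hB, hB'⟩ := deriv_stp_le
  set y := z.im * Real.exp (-2 * T / η ^ 2)
  have a1 : 0 ≤ B * (2 / (η * y)) * M1 := by positivity
  have a2 : 0 ≤ M2 * (z.im * (4 / η ^ 2)) := by positivity
  refine ⟨M1 + B * (2 / (η * y)) * M1 + M2 * (z.im * (4 / η ^ 2)), fun w hw t ht x => ?_⟩
  obtain ⟨r1, r2'⟩ := Pw_range hη hw hz ht
  have hY := fl_im_pos hη hw hz t
  have k1 : |kil η w z t| ≤ 1 := abs_le.2 ⟨neg_one_lt_zero.le.trans (stp_nonneg _), stp_le_one _⟩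
  have k2 : |kilD η w z t| ≤ B * (2 / (η * y)) := by
    rw [abs_of_nonneg (kilD_nonneg hη w z t), kilD]
    have hr := r2_pos hη hw hz t (w t)
    refine mul_le_mul (hB' _) ?_ (by positivity) hB.le
    rw [div_le_div_iff₀ (by positivity) (by positivity)]
    have h3 : (fl η w z t).im * y ≤ r2 η w z t (w t) := by
      rw [r2]
      nlinarith [r1.1, sq_nonneg ((fl η w z t).re - w t)]
    nlinarith
  have k3 : |cc η w z t * (4 * (fl η w z t).im ^ 2 / den η (w t) (fl η w z t) ^ 2)| ≤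
      z.im * (4 / η ^ 2) := by
    have hc := cc_pos hz η w t
    have hd := den_pos hη (w t) (fl η w z t)
    rw [abs_of_nonneg (by positivity)]
    refine mul_le_mul r2'.2 ?_ (by positivity) hz.le
    rw [div_le_div_iff₀ (by positivity) (by positivity)]
    have h3 := sq_le_den hη.le (w t) (fl η w z t)
    have h4 : (fl η w z t).im ^ 2 ≤ den η (w t) (fl η w z t) := by
      linarith [normSq_le_den η (w t) (fl η w z t), sq_nonneg ((fl η w z t).re - w t)]
    have h5 := mul_le_mul h4 h3 (by positivity) hd.le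
    nlinarith
  refine ⟨?_, ?_, by rw [abs_zero]; linarith, by rw [abs_zero]; linarith⟩
  · rw [abs_mul]
    have := mul_le_mul k1 (hM1 _ r2') (abs_nonneg _) zero_le_one
    linarith
  · refine (abs_add_le _ _).trans ?_
    rw [abs_mul, abs_mul, abs_mul, abs_neg, abs_neg]
    have h3 := mul_le_mul k2 (hM1 _ r2') (abs_nonneg _) (by positivity)
    have h4 := mul_le_mul k1 (mul_le_mul (hM2 _ r2') k3 (abs_nonneg _) h2)
      (by positivity) zero_le_one
    linarith

theorem Pw_drf (κ : ℝ) (hη : 0 < η) (p a b : ℝ) (θ : ℝ → ℝ) (t : ℝ) :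
    drf κ η w z p a b θ t = pw η w z p a b t (w t) * l0 η w z p a b t (w t) *
      (kil η w z t * θ (cc η w z t)) + pw η w z p a b t (w t) * Pw_g η w z θ t +
      κ / 2 * (pw η w z p a b t (w t) * (l2 η w z a t (w t) + l1 η w z a t (w t) ^ 2) *
        (kil η w z t * θ (cc η w z t)) + 2 * (pw η w z p a b t (w t) * l1 η w z a t (w t)) * 0 +
        pw η w z p a b t (w t) * 0) := by
  rw [drf, pv, Pw_g]
  rcases le_total η (fl η w z t).im with h | h
  · rw [mul_div_assoc, ← l_gen κ hη p a b h, clk_alive hη h]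
    ring
  · rw [show kil η w z t = 0 from stp_zero ((div_le_one hη).2 h)]
    ring

/-- `dynkin` for `pw * (kil * θ (cc))`; on `[0,T]` the height and `cc` stay in a fixed compact
interval of `(0,∞)` (`fl_im_ge`, `cc_ge`, antitonicity); where `Y ≤ η` both `kil` and `kilD` vanish -/
theorem mart_pw {μ : Measure Path} (hμ : IsW κ μ) (hη : 0 < η) (hz : 0 < z.im) (hT : 0 < T)
    (p : ℝ) {a : ℝ} (ha : 0 ≤ a) (b : ℝ) {θ : ℝ → ℝ} (hθ : ContDiff ℝ 1 θ) :
    Mart μ T (fun t w => pv η (pf w) z p a b t * kil η (pf w) z t * θ (cc η (pf w) z t))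
      fun t w => drf κ η (pf w) z p a b θ t := by
  obtain ⟨K1, h1⟩ := Pw_jbd hη hz T p ha b
  obtain ⟨K2, h2⟩ := Pw_jbd2 hη hz T hθ
  have h := dynkin hμ hT
    (fun w => (jet_pw hη (continuous_pf w) hz p a b T).mul (Pw_jet hη (continuous_pf w) hz hθ T))
    (fun w => (h1 _ (continuous_pf w)).mul (h2 _ (continuous_pf w))) fun t ht x => ⟨?_, ?_⟩
  · simp only [Pw_drf κ hη, pv, mul_assoc (pw η _ z p a b _ _) (kil η _ z _)]
    exact h
  · exact (measurable_pw p a b measurable_const measurable_id measurable_const measurable_const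
      measurable_const).mul ((measurable_kil measurable_const measurable_id measurable_const
        measurable_const).mul (hθ.continuous.measurable.comp (measurable_cc measurable_const
          measurable_id measurable_const measurable_const)))
  · intro w w' hw
    have e1 := fl_congr hη (continuous_pf w) (continuous_pf w') hw z ⟨ht.1, le_rfl⟩
    have e2 := cc_congr hη (continuous_pf w) (continuous_pf w') hw z ⟨ht.1, le_rfl⟩
    simp only [pw, kil, r2, e1, e2]

/-- the case `θ = 1`, `p = -β`, `a = α`, `b = 0` -/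
theorem mart_NN {μ : Measure Path} (hμ : IsW κ μ) (h8 : κ < 8) (hη : 0 < η) (hz : 0 < z.im)
    (hT : 0 < T) : ∃ d : ℝ → Path → ℝ, Mart μ T (NN κ η z) d ∧ ∀ t w, d t w ≤ 0 := by
  have h := mart_pw hμ hη hz hT (-be κ) ((be_pos h8).trans (be_lt_al hμ.pos h8)).le 0
    (θ := fun _ => 1) contDiff_const
  simp only [mul_one] at h
  refine ⟨_, h, fun t w => ?_⟩
  have h1 := pw_pos hη (continuous_pf w) hz (-be κ) (al κ) 0 t (pf w t)
  have h2 := kilD_nonneg hη (pf w) z t
  simp only [drf, II_al hμ.pos, pv, deriv_const', neg_add_cancel, mul_zero, zero_mul, sub_zero,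
    zero_div, mul_one, zero_sub]
  nlinarith

theorem NN_nonneg (κ : ℝ) (hη : 0 < η) (hz : 0 < z.im) (t : ℝ) (w : Path) : 0 ≤ NN κ η z t w :=
  mul_nonneg (pw_pos hη (continuous_pf w) hz _ _ _ _ _).le (stp_nonneg _)

theorem adp_NN (κ : ℝ) (hη : 0 < η) (hz : 0 < z.im) (T : ℝ) : Adp T (NN κ η z) :=
  (adp_pv hη hz (-be κ) (al κ) 0 T).comp₂ (adp_im hη z T) (φ := fun q => q.1 * stp (q.2 / η))
    (continuous_fst.mul (contDiff_stp.continuous.comp (continuous_snd.div_const η)))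

end Vale.Agent.P164
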