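import Vale.Agent.P164.Defs

/-!
# P164 Schw

Schwarz lemma for the inverse of a univalent map. The inverse `g = invFunOn F HH` is holomorphic on
`F '' HH` (an open set) with derivative `1 / F'`: `HasStrictDerivAt.to_local_left_inverse`, or
`HasStrictDerivAt.localInverse`.
-/

open MeasureTheory ProbabilityTheory Set Filter Topology Complex Function
open scoped NNReal ENNReal ComplexConjugate

noncomputable section

namespace Vale.Agent.P164

variable {F : ℂ → ℂ} {Z : ℂ}

theorem schw_open : IsOpen HH := isOpen_lt continuous_const Complex.continuous_im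

theorem Univ.schw_strict (hF : Univ F) (hZ : 0 < Z.im) : HasStrictDerivAt F (deriv F Z) Z :=
  (hF.diff.analyticAt (schw_open.mem_nhds hZ)).hasStrictDerivAt

theorem Univ.inv (hF : Univ F) (hZ : 0 < Z.im) :
    HasDerivAt (invFunOn F HH) (deriv F Z)⁻¹ (F Z) := by
  refine ((hF.schw_strict hZ).to_local_left_inverse (hF.ne Z hZ) ?_).hasDerivAt
  filter_upwards [schw_open.mem_nhds hZ] with x hx
  exact hF.inj.leftInvOn_invFunOn hx

theorem Univ.isOpen_image (hF : Univ F) : IsOpen (F '' HH) := by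
  rw [isOpen_iff_mem_nhds]
  rintro _ ⟨Z, hZ, rfl⟩
  rw [← (hF.schw_strict hZ).map_nhds_eq (hF.ne Z hZ)]
  exact image_mem_map (schw_open.mem_nhds hZ)

theorem Univ.schw_diff (hF : Univ F) {v : ℂ} (hv : v ∈ F '' HH) :
    DifferentiableAt ℂ (invFunOn F HH) v ∧ 0 < (invFunOn F HH v).im := by
  obtain ⟨ζ, hζ, rfl⟩ := hv
  refine ⟨(hF.inv hζ).differentiableAt, ?_⟩
  rw [hF.inj.leftInvOn_invFunOn hζ]
  exact hζ

/-- `exp (i g / Y)` is bounded by one on the ball; `Complex.norm_deriv_le_div_of_mapsTo_ball` gives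
`|g'| / (e Y) ≤ 2 / R` -/
theorem Univ.radius_le (hF : Univ F) (hZ : 0 < Z.im) {R : ℝ} (h : Metric.ball (F Z) R ⊆ F '' HH) :
    R ≤ 6 * sc F Z := by
  have hd : 0 < ‖deriv F Z‖ := norm_pos_iff.2 (hF.ne Z hZ)
  have hsc : 0 < sc F Z := mul_pos hZ hd
  rcases le_or_gt R 0 with hR | hR
  · linarith
  set g := invFunOn F HH with hg
  have hgZ : g (F Z) = Z := hF.inj.leftInvOn_invFunOn hZ
  have hY : (Z.im : ℂ) ≠ 0 := by exact_mod_cast hZ.ne'
  have hnorm : ∀ w : ℂ, ‖Complex.exp (I * w / Z.im)‖ = Real.exp (-(w.im / Z.im)) := by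
    intro w
    rw [Complex.norm_exp]
    congr 1
    rw [Complex.div_ofReal_re]
    simp [neg_div]
  have hdiff : DifferentiableOn ℂ (fun v => Complex.exp (I * g v / Z.im)) (Metric.ball (F Z) R) := by
    intro v hv
    exact (((hF.schw_diff (h hv)).1.const_mul I).div_const _).cexp.differentiableWithinAt
  have hmaps : MapsTo (fun v => Complex.exp (I * g v / Z.im)) (Metric.ball (F Z) R)
      (Metric.closedBall (Complex.exp (I * g (F Z) / Z.im)) 2) := by
    intro v hv
    rw [Metric.mem_closedBall, dist_eq_norm]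
    have h1 : ‖Complex.exp (I * g v / Z.im)‖ ≤ 1 := by
      rw [hnorm, Real.exp_le_one_iff]
      have := div_pos (hF.schw_diff (h hv)).2 hZ
      linarith
    have h2 : ‖Complex.exp (I * g (F Z) / Z.im)‖ ≤ 1 := by
      rw [hnorm, Real.exp_le_one_iff, hgZ, div_self hZ.ne']
      norm_num
    have := norm_sub_le (Complex.exp (I * g v / Z.im)) (Complex.exp (I * g (F Z) / Z.im))
    linarith
  have key := Complex.norm_deriv_le_div_of_mapsTo_ball hdiff hmaps hR
  have hder : HasDerivAt (fun v => Complex.exp (I * g v / Z.im))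
      (Complex.exp (I * g (F Z) / Z.im) * (I * (deriv F Z)⁻¹ / Z.im)) (F Z) :=
    (((hF.inv hZ).const_mul I).div_const _).cexp
  rw [hder.deriv, norm_mul, hnorm, hgZ, div_self hZ.ne', norm_div, norm_mul, Complex.norm_I,
    one_mul, norm_inv, Complex.norm_real, Real.norm_of_nonneg hZ.le, le_div_iff₀ hR] at key
  have he : Real.exp 1 < 3 := lt_trans Real.exp_one_lt_d9 (by norm_num)
  have he0 : 0 < Real.exp 1 := Real.exp_pos 1
  have hk : R ≤ 2 * Real.exp 1 * sc F Z := by
    have e1 : Real.exp (-1) * (‖deriv F Z‖⁻¹ / Z.im) * R = R / (Real.exp 1 * sc F Z) := by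
      rw [Real.exp_neg, sc]
      field_simp
    rw [e1, div_le_iff₀ (mul_pos he0 hsc)] at key
    linarith
  nlinarith

/-- Schwarz-Pick for `g` on the half plane: `u ↦ (g v - Z) / (g v - conj Z)` with
`v = (p - conj p u) / (1 - u)`, `p = F Z`, maps the unit disc to itself and fixes `0`
(`Complex.norm_deriv_le_one_of_mapsTo_ball`); its derivative at `0` has norm `im p |g'| / im Z` -/
theorem Univ.im_le (hF : Univ F) (hs : HH ⊆ F '' HH) (hZ : 0 < Z.im) (hp : 0 < (F Z).im) :
    (F Z).im ≤ sc F Z := by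
  have hd : 0 < ‖deriv F Z‖ := norm_pos_iff.2 (hF.ne Z hZ)
  set g := invFunOn F HH with hg
  set p := F Z with hpdef
  have hgZ : g p = Z := hF.inj.leftInvOn_invFunOn hZ
  set v : ℂ → ℂ := fun u => (p - conj p * u) / (1 - u) with hv
  have hne : ∀ u ∈ Metric.ball (0 : ℂ) 1, (1 : ℂ) - u ≠ 0 := by
    intro u hu h0
    have : u = 1 := (sub_eq_zero.1 h0).symm
    rw [this] at hu
    simp at hu
  have hvim : ∀ u ∈ Metric.ball (0 : ℂ) 1, 0 < (v u).im := by
    intro u hu
    have hn : 0 < Complex.normSq (1 - u) := Complex.normSq_pos.2 (hne u hu)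
    have hu' : u.re * u.re + u.im * u.im < 1 := by
      rw [mem_ball_zero_iff] at hu
      have h1 : ‖u‖ ^ 2 < 1 := by nlinarith [norm_nonneg u]
      rwa [← Complex.normSq_eq_norm_sq, Complex.normSq_apply] at h1
    have e : (v u).im = p.im * (1 - (u.re * u.re + u.im * u.im)) / Complex.normSq (1 - u) := by
      simp only [hv, Complex.div_im, Complex.sub_re, Complex.sub_im, Complex.mul_re, Complex.mul_im,
        Complex.conj_re, Complex.conj_im, Complex.one_re, Complex.one_im]
      field_simp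
      ring
    rw [e]
    exact div_pos (mul_pos hp (by linarith)) hn
  have hvd : ∀ u ∈ Metric.ball (0 : ℂ) 1, DifferentiableAt ℂ v u := by
    intro u hu
    exact DifferentiableAt.div (by fun_prop) (by fun_prop) (hne u hu)
  have hv0 : v 0 = p := by simp [hv]
  have hden : ∀ w : ℂ, 0 < w.im → w - conj Z ≠ 0 := by
    intro w hw h0
    have := congrArg Complex.im h0
    simp only [Complex.sub_im, Complex.conj_im, Complex.zero_im] at this
    linarith
  set k : ℂ → ℂ := fun u => (g (v u) - Z) / (g (v u) - conj Z) with hk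
  have hk0 : k 0 = 0 := by simp [hk, hv0, hgZ]
  have hdiff : DifferentiableOn ℂ k (Metric.ball 0 1) := by
    intro u hu
    obtain ⟨h1, h2⟩ := hF.schw_diff (hs (hvim u hu))
    have h3 : DifferentiableAt ℂ (fun u => g (v u)) u := h1.comp u (hvd u hu)
    exact ((h3.sub_const Z).div (h3.sub_const _) (hden _ h2)).differentiableWithinAt
  have hmaps : MapsTo k (Metric.ball 0 1) (Metric.closedBall (k 0) 1) := by
    intro u hu
    obtain ⟨-, h2⟩ := hF.schw_diff (hs (hvim u hu))
    rw [hk0, mem_closedBall_zero_iff, hk]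
    simp only
    rw [norm_div, div_le_one (norm_pos_iff.2 (hden _ h2))]
    refine le_of_sq_le_sq ?_ (norm_nonneg _)
    rw [← Complex.normSq_eq_norm_sq, ← Complex.normSq_eq_norm_sq, Complex.normSq_apply,
      Complex.normSq_apply]
    simp only [Complex.sub_re, Complex.sub_im, Complex.conj_re, Complex.conj_im]
    nlinarith [mul_pos h2 hZ]
  have key := Complex.norm_deriv_le_one_of_mapsTo_ball hdiff hmaps one_pos
  have hv1 : HasDerivAt v (p - conj p) 0 := by
    have h1 : HasDerivAt (fun u : ℂ => p - conj p * u) (-(conj p * 1)) 0 :=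
      ((hasDerivAt_id (0 : ℂ)).const_mul (conj p)).const_sub p
    have h2 : HasDerivAt (fun u : ℂ => 1 - u) (-1) 0 := (hasDerivAt_id (0 : ℂ)).const_sub 1
    have h3 := h1.div h2 (by simp)
    refine h3.congr_deriv ?_
    simp only [mul_zero, sub_zero, mul_one, one_pow, div_one]
    ring
  have hg1 : HasDerivAt (fun u => g (v u)) ((deriv F Z)⁻¹ * (p - conj p)) 0 := by
    have h1 : HasDerivAt g (deriv F Z)⁻¹ (v 0) := by rw [hv0]; exact hF.inv hZ
    exact h1.comp 0 hv1
  have hZZ : Z - conj Z ≠ 0 := hden Z hZ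
  have hk1 : HasDerivAt k ((deriv F Z)⁻¹ * (p - conj p) / (Z - conj Z)) 0 := by
    have h3 := (hg1.sub_const Z).div (hg1.sub_const (conj Z)) (by rw [hv0, hgZ]; exact hZZ)
    refine h3.congr_deriv ?_
    simp only [hv0, hgZ, sub_self, zero_mul, sub_zero]
    field_simp
  rw [hk1.deriv, Complex.sub_conj, Complex.sub_conj, norm_div, norm_mul, norm_mul, norm_mul,
    Complex.norm_I, norm_inv, Complex.norm_real, Complex.norm_real,
    Real.norm_of_nonneg (by positivity), Real.norm_of_nonneg (by positivity),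
    div_le_one (by positivity)] at key
  have e1 : ‖deriv F Z‖⁻¹ * (2 * p.im * 1) = 2 * (p.im / ‖deriv F Z‖) := by field_simp
  rw [e1] at key
  have h2 : p.im / ‖deriv F Z‖ ≤ Z.im := by linarith
  rw [div_le_iff₀ hd] at h2
  exact h2

end Vale.Agent.P164
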