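import Mathlib

/-!
# P164: definitions used in the statement
-/

open Set Filter Topology
open scoped NNReal ENNReal

noncomputable section

namespace Vale.Agent.P164

/-- a gauge: continuous and nondecreasing on `[0,∞)`, zero at `0`, positive on `(0,∞)` -/
def IsGauge (h : ℝ → ℝ) : Prop :=
  ContinuousOn h (Ici 0) ∧ MonotoneOn h (Ici 0) ∧ h 0 = 0 ∧ ∀ r, 0 < r → 0 < h r

/-- the Hausdorff measure of `E` for the gauge `h`: supremum over `δ > 0` (that is, the limit as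
`δ ↓ 0`) of the infimum over countable covers by sets of diameter at most `δ` -/
def hausH (h : ℝ → ℝ) (E : Set ℂ) : ℝ≥0∞ :=
  ⨆ (δ : ℝ) (_ : 0 < δ), ⨅ (U : ℕ → Set ℂ) (_ : E ⊆ ⋃ j, U j)
    (_ : ∀ j, Metric.ediam (U j) ≤ ENNReal.ofReal δ), ∑' j, ENNReal.ofReal (h (Metric.diam (U j)))

/-- `g` solves the Loewner equation `g' = 2 / (g - W)` on `[0,t]` with `g 0 = z` -/
def LoewnerSol (W : ℝ≥0 → ℝ) (z : ℂ) (t : ℝ≥0) (g : ℝ → ℂ) : Prop :=
  g 0 = z ∧ ∀ s : ℝ≥0, s ≤ t → g s ≠ W s ∧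
    HasDerivWithinAt g (2 / (g s - W s)) (Icc (0 : ℝ) t) s

/-- the domain of the Loewner map `g_t`: the points of the upper half plane from which the
solution exists up to time `t` -/
def loewnerDom (W : ℝ≥0 → ℝ) (t : ℝ≥0) : Set ℂ :=
  {z | 0 < z.im ∧ ∃ g, LoewnerSol W z t g}

/-- the points of `S` whose connected component in `S` is unbounded -/
def unbddPart (S : Set ℂ) : Set ℂ :=
  {z | z ∈ S ∧ ¬ Bornology.IsBounded (connectedComponentIn S z)}

/-- the continuous curve `γ` from `0` in the closed upper half plane generates the Loewner chain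
driven by `W`: the domain of `g_t` is the unbounded component of `ℍ \ γ[0,t]` -/
def Generates (γ : ℝ≥0 → ℂ) (W : ℝ≥0 → ℝ) : Prop :=
  Continuous γ ∧ γ 0 = 0 ∧ (∀ t, 0 ≤ (γ t).im) ∧
    ∀ t, loewnerDom W t = unbddPart ({z : ℂ | 0 < z.im} \ γ '' Iic t)

/-- `r ^ d (log log (1 / r)) ^ ((2 - d) / 2)` with `d = 1 + κ / 8` -/
def gaugeFn (κ r : ℝ) : ℝ :=
  r ^ (1 + κ / 8) * Real.log (Real.log (1 / r)) ^ ((2 - (1 + κ / 8)) / 2)

end Vale.Agent.P164
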