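import Vale.Agent.P164.Defs

/-!
# P164 Tri

The backward flow for a driving function close to a zigzag of speed `V`, amplitude `L = 2 T V m`.
Let `h = bk w t ζ`, `Z = h - w (t - ·)`, and on a sweep let `p` be an affine function of slope `σ V`
(`σ = ±1`) with `|w (t - u) - p u| ≤ D`, `Z' = h - p`. Then `dZ'/du = -σ V - 2 / Z`, so
`1 = -(dZ'/du + 2 / Z) / (σ V)`. Since both have height `Y ≥ 1 / 2`, `|Z| ≤ (1 + 2 D) |Z'|` and conversely.
The errors are controlled by `∫ 1 / |Z| ^ 2 = log (Y end / Y start) / 2` and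
`∫ 1 / |Z| ^ 3 ≤ (1 / Y start - 1 / Y end) / 2`, because `Y' = 2 Y / |Z| ^ 2`.
-/

open MeasureTheory ProbabilityTheory Set Filter Topology Complex Function
open scoped NNReal ENNReal ComplexConjugate

noncomputable section

namespace Vale.Agent.P164

variable {w : ℝ → ℝ} {ζ : ℂ} {t : ℝ}

theorem tri_div (m : ℕ) (hm : 0 < m) {i j : ℕ} (h1 : 2 * j * m ≤ i + m) (h2 : i < (2 * j + 1) * m) :
    (i + m) / (2 * m) = j :=
  Nat.div_eq_of_lt_le (by nlinarith) (by nlinarith)

theorem tri_bd (m : ℕ) (hm : 0 < m) (i : ℕ) :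
    2 * ((i + m) / (2 * m)) * m ≤ i + m ∧ i < (2 * ((i + m) / (2 * m)) + 1) * m := by
  have h1 := Nat.div_add_mod (i + m) (2 * m)
  have h2 := Nat.mod_lt (i + m) (show 0 < 2 * m by omega)
  generalize (i + m) / (2 * m) = j at h1 ⊢
  generalize (i + m) % (2 * m) = k at h1 h2
  constructor <;> nlinarith [Nat.zero_le k]

/-- on the sweep number `j` -/
theorem tri_eq (m : ℕ) (hm : 0 < m) {i j : ℕ} (h1 : 2 * j * m ≤ i + m) (h2 : i ≤ (2 * j + 1) * m) :
    tri m i = (-1) ^ j * ((i : ℝ) - 2 * m * j) := by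
  rcases h2.lt_or_eq with h | h
  · rw [tri, tri_div m hm h1 h]
  · rw [tri, tri_div m hm (j := j + 1) (by nlinarith) (by nlinarith), h]
    push_cast
    ring

theorem tri_zero (m : ℕ) (hm : 0 < m) : tri m 0 = 0 := by
  rw [tri_eq m hm (j := 0) (by omega) (by omega)]
  simp

theorem tri_step (m : ℕ) (hm : 0 < m) (i : ℕ) : |tri m (i + 1) - tri m i| ≤ 1 := by
  obtain ⟨h1, h2⟩ := tri_bd m hm i
  have h3 := tri_eq m hm (i := i + 1) (h1.trans (by omega)) h2
  rw [tri_eq m hm h1 h2.le, h3, ← mul_sub]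
  push_cast
  simp

theorem abs_tri_le (m : ℕ) (hm : 0 < m) (i : ℕ) : |tri m i| ≤ m := by
  obtain ⟨h1, h2⟩ := tri_bd m hm i
  rw [tri_eq m hm h1 h2.le]
  generalize (i + m) / (2 * m) = j at h1 h2
  have h3 : (2 * j * m : ℝ) ≤ i + m := by exact_mod_cast h1
  have h4 : (i : ℝ) < (2 * j + 1) * m := by exact_mod_cast h2
  rw [abs_mul, abs_pow, abs_neg, abs_one, one_pow, one_mul, abs_le]
  constructor <;> nlinarith

/-- the good steps: `i = 2 m j + k` with `m ≤ 2 j`, `j ≤ m`, `8 k ≤ m` -/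
theorem card_good (m : ℕ) : (m : ℝ) ^ 2 / 16 ≤ ((Finset.range ((2 * m + 1) * m)).filter
    fun i => m ≤ 2 * ((i + m) / (2 * m)) ∧ 8 * |tri m i| ≤ m).card + 1 := by
  rcases Nat.eq_zero_or_pos m with rfl | hm
  · simp
  have key : (Finset.Icc ((m + 1) / 2) m ×ˢ Finset.range (m / 8 + 1)).card ≤
      ((Finset.range ((2 * m + 1) * m)).filter
        fun i => m ≤ 2 * ((i + m) / (2 * m)) ∧ 8 * |tri m i| ≤ m).card := by
    refine Finset.card_le_card_of_injOn (fun p => 2 * m * p.1 + p.2) ?_ ?_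
    · rintro ⟨j, k⟩ hp
      simp only [Finset.coe_product, Set.mem_prod, Finset.mem_coe, Finset.mem_Icc,
        Finset.mem_range] at hp
      obtain ⟨⟨h1, h2⟩, h3⟩ := hp
      have hk : 8 * k ≤ m := by omega
      have a1 : 2 * j * m ≤ 2 * m * j + k + m := by nlinarith
      have a2 : 2 * m * j + k < (2 * j + 1) * m := by nlinarith
      simp only [Finset.coe_filter, Finset.mem_range, Set.mem_ofPred_eq]
      refine ⟨by nlinarith, ?_, ?_⟩
      · rw [tri_div m hm a1 a2]
        omega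
      · rw [tri_eq m hm a1 a2.le]
        push_cast
        rw [add_sub_cancel_left, abs_mul, abs_pow, abs_neg, abs_one, one_pow, one_mul,
          Nat.abs_cast]
        exact_mod_cast hk
    · rintro ⟨j, k⟩ hp ⟨j', k'⟩ hp' h
      simp only [Finset.coe_product, Set.mem_prod, Finset.mem_coe, Finset.mem_Icc,
        Finset.mem_range] at hp hp' h
      have a1 := tri_div m hm (i := 2 * m * j + k) (j := j) (by nlinarith)
        (by have : k < m := by omega
            nlinarith)
      have a2 := tri_div m hm (i := 2 * m * j' + k') (j := j') (by nlinarith)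
        (by have : k' < m := by omega
            nlinarith)
      have e : j = j' := by rw [← a1, h, a2]
      subst e
      have : k = k' := by omega
      rw [this]
  rw [Finset.card_product, Nat.card_Icc, Finset.card_range] at key
  have b1 : m ≤ 2 * (m + 1 - (m + 1) / 2) := by omega
  have b2 : m ≤ 8 * (m / 8 + 1) := by omega
  have b3 : m ^ 2 ≤ 16 * ((m + 1 - (m + 1) / 2) * (m / 8 + 1)) := by
    nlinarith [Nat.mul_le_mul b1 b2]
  have b4 := b3.trans (Nat.mul_le_mul_left 16 key)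
  have b5 : ((m ^ 2 : ℕ) : ℝ) ≤ ((16 * _ : ℕ) : ℝ) := Nat.cast_le.2 b4
  push_cast at b5
  linarith

end Vale.Agent.P164
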