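import Vale.Agent.P164.Wiener

/-!
# P164 TubeA

The driving function follows prescribed targets with probability at least `p ^ n`.
-/

open MeasureTheory ProbabilityTheory Set Filter Topology Complex Function
open scoped NNReal ENNReal ComplexConjugate

noncomputable section

namespace Vale.Agent.P164

variable {κ : ℝ}

theorem TubeA_gauss {v : ℝ≥0} (hv : v ≠ 0) {M y : ℝ} (hy : |y| ≤ M + 1) :
    gaussianPDFReal 0 v (M + 2) ≤ (gaussianReal 0 v).real (Icc (y - 1 / 2) (y + 1 / 2)) := by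
  have h1 : ENNReal.ofReal (gaussianPDFReal 0 v (M + 2)) ≤
      gaussianReal 0 v (Icc (y - 1 / 2) (y + 1 / 2)) := by
    rw [gaussianReal_apply _ hv]
    calc _ = ∫⁻ _ in Icc (y - 1 / 2) (y + 1 / 2),
          ENNReal.ofReal (gaussianPDFReal 0 v (M + 2)) := by
          rw [setLIntegral_const, Real.volume_Icc]; norm_num
      _ ≤ _ := by
        refine setLIntegral_mono (measurable_gaussianPDF _ _) fun x hx => ?_
        refine ENNReal.ofReal_le_ofReal ?_
        unfold gaussianPDFReal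
        have hv' : (0 : ℝ) < v := NNReal.coe_pos.2 (pos_iff_ne_zero.2 hv)
        have h2 := abs_le.1 hy
        have h3 : x ^ 2 ≤ (M + 2) ^ 2 := sq_le_sq' (by linarith [hx.1]) (by linarith [hx.2])
        refine mul_le_mul_of_nonneg_left (Real.exp_le_exp.2 ?_) (by positivity)
        refine div_le_div_of_nonneg_right ?_ (by positivity)
        simpa using h3
  exact (ENNReal.ofReal_le_iff_le_toReal (measure_ne_top _ _)).1 h1

theorem TubeA_meas (T L y : ℝ) (hT : 0 ≤ T) : MeasurableSet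
    ({w : Path | ∀ t ∈ Icc 0 T, |pf w t - pf w 0| ≤ L} ∩
      {w | |pf w T - pf w 0 - y| ≤ 1 / 2}) := by
  refine (detS_sup hT 0 L le_rfl).meas.inter (measurableSet_le ?_ measurable_const)
  exact continuous_abs.measurable.comp (((measurable_pf measurable_id measurable_const).sub
    (measurable_pf measurable_id measurable_const)).sub measurable_const)

/-- the Gaussian density is bounded below on `[-M - 1, M + 1]`; `sup_small` -/
theorem steer0 (h0 : 0 < κ) {T : ℝ} (hT : 0 < T) (M : ℝ) : ∃ L p : ℝ, 0 < p ∧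
    ∀ (μ : Measure Path) (y : ℝ), IsW κ μ → |y| ≤ M + 1 → p ≤ μ.real
      ({w | ∀ t ∈ Icc 0 T, |pf w t - pf w 0| ≤ L} ∩ {w | |pf w T - pf w 0 - y| ≤ 1 / 2}) := by
  have hv : (κ * T).toNNReal ≠ 0 := (Real.toNNReal_pos.2 (mul_pos h0 hT)).ne'
  have hc := gaussianPDFReal_pos 0 _ (M + 2) hv
  obtain ⟨L, hL⟩ := sup_small κ hT.le (half_pos hc)
  refine ⟨L, _, half_pos hc, fun μ y h hy => ?_⟩
  have := h.prob
  have h1 := TubeA_gauss hv hy
  have h2 := h.law le_rfl hT.le
  rw [← h2.map_eq, Measure.real, Measure.map_apply_of_aemeasurable h2.aemeasurable measurableSet_Icc,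
    ← Measure.real] at h1
  have h3 := hL μ h
  have h4 : (fun w : Path => pf w (0 + T) - pf w 0) ⁻¹' Icc (y - 1 / 2) (y + 1 / 2) ⊆
      ({w | ∀ t ∈ Icc 0 T, |pf w t - pf w 0| ≤ L} ∩ {w | |pf w T - pf w 0 - y| ≤ 1 / 2}) ∪
        {w | ∀ t ∈ Icc 0 T, |pf w t - pf w 0| ≤ L}ᶜ := by
    intro w hw
    by_cases h5 : w ∈ {w : Path | ∀ t ∈ Icc 0 T, |pf w t - pf w 0| ≤ L}
    · refine Or.inl ⟨h5, ?_⟩
      rw [mem_preimage, zero_add] at hw
      rw [mem_ofPred_eq]
      exact abs_le.2 ⟨by linarith [hw.1], by linarith [hw.2]⟩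
    · exact Or.inr h5
  have h5 := (measureReal_mono h4 (measure_ne_top μ _)).trans (measureReal_union_le _ _)
  linarith

/-- partition `A` according to `round (y w)` (finitely many values) and use `IsW.weak` -/
theorem steer (h0 : 0 < κ) {T : ℝ} (hT : 0 < T) (M : ℝ) : ∃ L p : ℝ, 0 < p ∧
    ∀ (μ : Measure Path) (s : ℝ) (A : Set Path) (y : Path → ℝ), IsW κ μ → 0 ≤ s →
    DetS (fun _ => s) A → Det (fun _ => s) y → (∀ w ∈ A, |y w| ≤ M) →
    p * μ.real A ≤ μ.real (A ∩ ({w | ∀ t ∈ Icc s (s + T), |pf w t - pf w s| ≤ L} ∩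
      {w | |pf w (s + T) - pf w s - y w| ≤ 1})) := by
  obtain ⟨L, p, hp, h⟩ := steer0 h0 hT M
  refine ⟨L, p, hp, fun μ s A y hμ hs hA hy hM => ?_⟩
  have := hμ.prob
  set S : ℤ → Set Path := fun k => {w | ∀ t ∈ Icc 0 T, |pf w t - pf w 0| ≤ L} ∩
    {w | |pf w T - pf w 0 - k| ≤ 1 / 2} with hS
  set B : ℤ → Set Path := fun k => A ∩ (fun w => ⌊y w + 1 / 2⌋) ⁻¹' {k} with hB
  have hBd : ∀ k, DetS (fun _ => s) (B k) := fun k =>
    hA.inter ((hy.comp (φ := fun x : ℝ => ⌊x + 1 / 2⌋)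
      (Int.measurable_floor.comp (measurable_id.add_const _))).preimage (measurableSet_singleton k))
  have hSm : ∀ k, MeasurableSet (S k) := fun k => TubeA_meas T L k hT.le
  have hdis : Pairwise (Disjoint on B) := fun k l hkl =>
    Set.disjoint_left.2 fun w h1 h2 => hkl (h1.2.symm.trans h2.2)
  have hk : ∀ k, ∀ w ∈ B k, |y w - k| ≤ 1 / 2 := fun k w hw => by
    have e : ⌊y w + 1 / 2⌋ = k := hw.2
    have h1 := Int.floor_le (y w + 1 / 2)
    have h2 := Int.lt_floor_add_one (y w + 1 / 2)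
    rw [e] at h1 h2
    exact abs_le.2 ⟨by linarith, by linarith⟩
  have e1 : μ A = ∑' k, μ (B k) := by
    rw [← measure_iUnion hdis fun k => (hBd k).meas]
    congr 1
    ext w
    simp [hB]
  have e2 : ∑' k, μ (B k ∩ shs s 1 ⁻¹' S k) = μ (⋃ k, B k ∩ shs s 1 ⁻¹' S k) :=
    (measure_iUnion (fun k l hkl => (hdis hkl).mono inter_subset_left inter_subset_left) fun k =>
      (hBd k).meas.inter
        (measurable_shs measurable_const measurable_const measurable_id (hSm k))).symm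
  have e3 : ENNReal.ofReal p * μ A ≤ μ (A ∩ ({w | ∀ t ∈ Icc s (s + T), |pf w t - pf w s| ≤ L} ∩
      {w | |pf w (s + T) - pf w s - y w| ≤ 1})) := by
    rw [e1, ← ENNReal.tsum_mul_left]
    refine le_trans (ENNReal.tsum_le_tsum fun k => ?_) (e2.le.trans (measure_mono ?_))
    · rw [hμ.weak hs one_pos (hBd k) (hSm k), mul_comm]
      rcases (B k).eq_empty_or_nonempty with he | ⟨w, hw⟩
      · simp [he]
      · refine mul_le_mul_right ((ENNReal.ofReal_le_iff_le_toReal (measure_ne_top _ _)).2 ?_) _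
        refine h μ k hμ ?_
        have h1 := abs_le.1 (hk k w hw)
        have h2 := abs_le.1 (hM w hw.1)
        exact abs_le.2 ⟨by linarith, by linarith⟩
    · refine iUnion_subset fun k w hw => ⟨hw.1.1, fun t ht => ?_, ?_⟩
      · have h1 := hw.2.1 (t - s) ⟨by linarith [ht.1], by linarith [ht.2]⟩
        rw [pf_shs _ _ _ (by linarith [ht.1]), pf_shs _ _ _ le_rfl] at h1
        simpa using h1
      · have h1 : |pf (shs s 1 w) T - pf (shs s 1 w) 0 - k| ≤ 1 / 2 := hw.2.2
        rw [pf_shs _ _ _ hT.le, pf_shs _ _ _ le_rfl] at h1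
        simp only [one_pow, one_mul, div_one, mul_zero, add_zero, sub_self, sub_zero] at h1
        have h2 := abs_le.1 h1
        have h3 := abs_le.1 (hk k w hw.1)
        rw [mem_ofPred_eq]
        exact abs_le.2 ⟨by linarith, by linarith⟩
  have e4 := ENNReal.toReal_mono (measure_ne_top μ _) e3
  rwa [ENNReal.toReal_mul, ENNReal.toReal_ofReal hp.le] at e4

end Vale.Agent.P164
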