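import Vale.Agent.P164.Wiener
import Vale.Agent.P164.TubeA

/-!
# P164 Tube

The driving function follows prescribed targets with probability at least `p ^ n`.
-/

open MeasureTheory ProbabilityTheory Set Filter Topology Complex Function
open scoped NNReal ENNReal ComplexConjugate

noncomputable section

namespace Vale.Agent.P164

variable {κ : ℝ}

/-- induction on `n` with the invariant `|w (2 T n) - a n| ≤ 1`; step: `IsW.weak` at time `2 T n`
for the event `S`, then `steer` at time `2 T n + T`; one may take `q = p₀ p` -/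
theorem tube (h0 : 0 < κ) {T : ℝ} (hT : 0 < T) (L Δ : ℝ) {p₀ : ℝ} (hp : 0 < p₀) :
    ∃ D q : ℝ, 0 ≤ D ∧ 0 < q ∧ q ≤ 1 ∧ ∀ (μ : Measure Path) (S : Set Path) (a : ℕ → ℝ), IsW κ μ →
    DetS (fun _ => T) S → p₀ ≤ μ.real S → (∀ w ∈ S, ∀ t ∈ Icc 0 T, |pf w t - pf w 0| ≤ L) →
    a 0 = 0 → (∀ i, |a (i + 1) - a i| ≤ Δ) → ∀ n : ℕ, ∃ E : Set Path,
      DetS (fun _ => 2 * T * n) E ∧ q ^ n ≤ μ.real E ∧ ∀ w ∈ E, pf w 0 = 0 ∧
        |pf w (2 * T * n) - a n| ≤ 1 ∧ ∀ i < n, shs (2 * T * i) 1 w ∈ S ∧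
          ∀ t ∈ Icc (2 * T * i) (2 * T * (i + 1)), |pf w t - a i| ≤ D := by
  obtain ⟨L', p, hp', hst⟩ := steer h0 hT (Δ + 1 + L)
  refine ⟨1 + |L| + |L'|, min 1 (p * p₀), by positivity, lt_min one_pos (mul_pos hp' hp),
    min_le_left _ _, fun μ S a hμ hS hS0 hSL ha0 ha n => ?_⟩
  have := hμ.prob
  have hdet : ∀ t, 0 ≤ t → Det (fun _ => t) fun w => pf w t := fun t ht =>
    (adp_pf t).det t ⟨ht, le_rfl⟩
  induction n with
  | zero =>
    refine ⟨(fun w => pf w 0) ⁻¹' {0}, ((hdet 0 le_rfl).preimage (measurableSet_singleton 0)).mono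
      fun w _ => by simp, ?_, fun w hw => ⟨hw, ?_, fun i hi => absurd hi (Nat.not_lt_zero i)⟩⟩
    · have e : μ ((fun w => pf w 0) ⁻¹' {0}) = μ univ :=
        measure_congr (eventuallyEq_univ.2 hμ.ae_zero)
      rw [Measure.real, e]
      simp
    · have e : pf w 0 = 0 := hw
      simp [ha0, e]
  | succ n ih =>
    obtain ⟨E, hE, hEq, hEw⟩ := ih
    set s : ℝ := 2 * T * n with hs
    have hs0 : 0 ≤ s := by positivity
    have hs1 : 2 * T * ((n + 1 : ℕ) : ℝ) = s + T + T := by rw [hs]; push_cast; ring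
    have hs2 : 2 * T * ((n : ℝ) + 1) = s + T + T := by rw [hs]; ring
    have hA : DetS (fun _ => s + T) (E ∩ shs s 1 ⁻¹' S) :=
      (DetS.shs (Stp.const (T := s) ⟨hs0, le_rfl⟩) hE (Det.const _ (1 : ℝ)) hT.le hS).mono
        fun w _ => by simp
    have hAq : μ.real E * p₀ ≤ μ.real (E ∩ shs s 1 ⁻¹' S) := by
      rw [Measure.real, Measure.real, hμ.weak hs0 one_pos hE hS.meas, ENNReal.toReal_mul]
      exact mul_le_mul_of_nonneg_left hS0 ENNReal.toReal_nonneg
    have hA1 : ∀ w ∈ E ∩ shs s 1 ⁻¹' S, ∀ t ∈ Icc s (s + T), |pf w t - a n| ≤ 1 + L := by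
      intro w hw t ht
      have h1 := hSL _ hw.2 (t - s) ⟨by linarith [ht.1], by linarith [ht.2]⟩
      rw [pf_shs _ _ _ (by linarith [ht.1]), pf_shs _ _ _ le_rfl] at h1
      simp only [one_pow, one_mul, div_one, mul_zero, add_zero, sub_self, sub_zero,
        add_sub_cancel] at h1
      have h2 := abs_le.1 h1
      have h3 := abs_le.1 (hEw w hw.1).2.1
      exact abs_le.2 ⟨by linarith, by linarith⟩
    have hq := hst μ (s + T) _ (fun w => a (n + 1) - pf w (s + T)) hμ (by positivity) hA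
      ((hdet _ (by positivity)).comp (φ := fun x => a (n + 1) - x) (measurable_id.const_sub _))
      fun w hw => by
        have h1 := abs_le.1 (hA1 w hw (s + T) ⟨by linarith, le_rfl⟩)
        have h2 := abs_le.1 (ha n)
        exact abs_le.2 ⟨by linarith, by linarith⟩
    have e : {w : Path | |pf w (s + T + T) - pf w (s + T) - (a (n + 1) - pf w (s + T))| ≤ 1} =
        (fun w => pf w (s + T + T)) ⁻¹' {x | |x - a (n + 1)| ≤ 1} := by
      ext w
      simp only [mem_preimage, mem_ofPred_eq, sub_sub_sub_cancel_right]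
    rw [e] at hq
    rw [hs1]
    refine ⟨_, (hA.mono fun w _ => by linarith).inter
      ((detS_sup (by positivity) (s + T) L' (by positivity)).inter
        ((hdet _ (by positivity)).preimage (measurableSet_le
          (continuous_abs.measurable.comp (measurable_id.sub_const _)) measurable_const))),
      le_trans ?_ hq, fun w hw => ⟨(hEw w hw.1.1).1, hw.2.2, fun i hi => ?_⟩⟩
    · have h1 : 0 ≤ min 1 (p * p₀) := (lt_min one_pos (mul_pos hp' hp)).le
      calc min 1 (p * p₀) ^ (n + 1) = min 1 (p * p₀) ^ n * min 1 (p * p₀) := pow_succ _ _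
        _ ≤ μ.real E * (p * p₀) :=
          mul_le_mul hEq (min_le_right _ _) h1 measureReal_nonneg
        _ = p * (μ.real E * p₀) := by ring
        _ ≤ _ := mul_le_mul_of_nonneg_left hAq hp'.le
    · rcases Nat.lt_succ_iff_lt_or_eq.1 hi with hi | rfl
      · exact (hEw w hw.1.1).2.2 i hi
      · refine ⟨hw.1.2, fun t ht => ?_⟩
        rw [hs2] at ht
        have h1 := le_abs_self L
        have h2 := le_abs_self L'
        have h3 := abs_nonneg L'
        rcases le_total t (s + T) with h4 | h4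
        · linarith [hA1 w hw.1 t ⟨ht.1, h4⟩]
        · have h5 := abs_le.1 (hw.2.1 t ⟨h4, ht.2⟩)
          have h6 := abs_le.1 (hA1 w hw.1 (s + T) ⟨by linarith, le_rfl⟩)
          exact abs_le.2 ⟨by linarith, by linarith⟩

end Vale.Agent.P164
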