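import Vale.Agent.P164.Gauge

/-!
# P164 UpperA

The probabilistic part of the upper bound. For small `ε`: `e = 400 ε`, `r = ε ^ (1 / 4)`,
`J = ⌊log (1 / ε) / (4 log 8)⌋`, so that `r / 8 ^ J ≥ ε ^ (1 / 2)`, `ℓ = log (log (1 / ε))`,
`m = ⌊√(ℓ / (2 log (1 / p)))⌋`, so that `p ^ (m ^ 2) ≥ log (1 / ε) ^ (-1 / 2)`.
`Bad` is the set of `x ∈ ball 0 (R + 1)` with `|im x| ≤ 2 ε`, or in `Ever` with `im x < r`, or in `Ever` with
`r ≤ im x` and no good scale. Tonelli, `op_ever`, `umain`, Fatou.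
-/

open MeasureTheory ProbabilityTheory Set Filter Topology Complex Function
open scoped NNReal ENNReal ComplexConjugate

noncomputable section

namespace Vale.Agent.P164

variable {κ : ℝ}

theorem UpperA_exp (A : ℝ) {δ : ℝ} (hδ : 0 < δ) :
    ∀ᶠ s : ℝ in atTop, A * s ≤ Real.exp (δ * s) := by
  filter_upwards [eventually_ge_atTop 0, eventually_ge_atTop (2 * A / δ ^ 2)] with s h0 h1
  rw [div_le_iff₀ (by positivity)] at h1
  have h2 : 0 ≤ δ * s := by positivity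
  nlinarith [Real.quadratic_le_exp_of_nonneg h2, mul_le_mul_of_nonneg_right h1 h0]

theorem UpperA_ev {P : ℝ → Prop} (h : ∀ᶠ s : ℝ in atTop, P (Real.exp (-s ^ 2))) :
    ∀ᶠ ε in 𝓝[>] (0 : ℝ), P ε := by
  have T : Tendsto (fun ε : ℝ => √(-Real.log ε)) (𝓝[>] 0) atTop :=
    Real.tendsto_sqrt_atTop.comp (tendsto_neg_atBot_atTop.comp Real.tendsto_log_nhdsGT_zero)
  filter_upwards [T.eventually h, Ioo_mem_nhdsGT one_pos] with ε h1 h2
  rwa [Real.sq_sqrt (neg_nonneg.2 (Real.log_neg h2.1 h2.2).le), neg_neg, Real.exp_log h2.1] at h1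

theorem UpperA_m {x : ℝ} (hx : 0 ≤ x) {m₀ : ℕ} (h : ((m₀ + 1 : ℕ) : ℝ) ≤ √x) :
    ∃ m : ℕ, m₀ ≤ m ∧ (1 : ℝ) ≤ m ∧ (m : ℝ) ^ 2 ≤ x ∧ x ≤ (2 * m) ^ 2 := by
  have m1 : m₀ + 1 ≤ ⌊√x⌋₊ := Nat.le_floor h
  have m2 : (1 : ℝ) ≤ ⌊√x⌋₊ := by exact_mod_cast (by omega : 1 ≤ ⌊√x⌋₊)
  exact ⟨_, by omega, m2, (Real.le_sqrt (by positivity) hx).1 (Nat.floor_le (Real.sqrt_nonneg _)),
    (Real.sqrt_le_left (by positivity)).1 (by linarith [Nat.lt_floor_add_one √x])⟩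

theorem UpperA_J {s : ℝ} (s5 : 5 ≤ s) : ∃ (J : ℕ) (t : ℝ), s ^ 2 / 24 ≤ J ∧ 0 < t ∧
    t * Real.exp (1 / 2 * s) ≤ 1 ∧ t ≤ Real.exp (-s ^ 2) ^ (1 / 4 : ℝ) / 8 ^ J ∧
    √(Real.exp (-s ^ 2)) = t ∧ Real.exp (-s ^ 2) = t * t := by
  have J1 : (⌊s ^ 2 / 12⌋₊ : ℝ) ≤ s ^ 2 / 12 := Nat.floor_le (by positivity)
  refine ⟨⌊s ^ 2 / 12⌋₊, Real.exp (-s ^ 2 / 2), by nlinarith [Nat.lt_floor_add_one (s ^ 2 / 12)],
    Real.exp_pos _, ?_, ?_, (Real.exp_half _).symm, by rw [← Real.exp_add, add_halves]⟩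
  · rw [← Real.exp_add]
    exact Real.exp_le_one_iff.2 (by nlinarith)
  · have h8 : (8 : ℝ) ≤ Real.exp 3 := by
      linarith [Real.quadratic_le_exp_of_nonneg (x := 3) (by norm_num)]
    rw [le_div_iff₀ (by positivity), ← Real.exp_mul]
    refine (mul_le_mul_of_nonneg_left (pow_le_pow_left₀ (by norm_num) h8 _)
      (Real.exp_pos _).le).trans ?_
    rw [← Real.exp_nat_mul, ← Real.exp_add]
    exact Real.exp_le_exp.2 (by linarith)

theorem params_up (h0 : 0 < κ) (h8 : κ < 8) {p e₀ : ℝ} (hp : 0 < p) (hp1 : p < 1) (he : 0 < e₀)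
    (m₀ : ℕ) : ∃ c : ℝ, 0 < c ∧ ∀ᶠ ε in 𝓝[>] (0 : ℝ), ∃ m J : ℕ, m₀ ≤ m ∧
      √ε ≤ ε ^ (1 / 4 : ℝ) / 8 ^ J ∧ 400 * ε ≤ e₀ * (ε ^ (1 / 4 : ℝ) / 8 ^ J) / m ∧
      c * Real.log (Real.log (1 / ε)) ^ (be κ / 2) ≤ (m : ℝ) ^ be κ ∧
      Real.log (Real.log (1 / ε)) ^ (be κ / 2) *
        ((1 - p ^ (m ^ 2)) ^ J + (400 * ε / (ε ^ (1 / 4 : ℝ) / 8 ^ J)) ^ dd κ) ≤ 1 ∧
      Real.log (Real.log (1 / ε)) ^ (be κ / 2) * (ε ^ (1 / 4 : ℝ)) ^ (1 - be κ) ≤ 1 := by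
  have hb0 := be_pos h8
  have hb1 := be_lt_one h0
  have hd : 1 ≤ dd κ := by linarith [dd_add_be κ]
  obtain ⟨a, ha, rfl⟩ : ∃ a, 0 < a ∧ p = Real.exp (-a) :=
    ⟨-Real.log p, neg_pos.2 (Real.log_neg hp hp1), by rw [neg_neg, Real.exp_log hp]⟩
  refine ⟨(1 / (8 * a)) ^ (be κ / 2), by positivity, UpperA_ev ?_⟩
  have T : Tendsto (fun s : ℝ => √(Real.log s / a)) atTop atTop :=
    Real.tendsto_sqrt_atTop.comp (Real.tendsto_log_atTop.atTop_div_const ha)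
  filter_upwards [eventually_ge_atTop 5, Real.tendsto_log_atTop.eventually_ge_atTop 1,
    T.eventually_ge_atTop (m₀ + 1 : ℕ), UpperA_exp 4 (δ := 1 / 24) (by norm_num),
    UpperA_exp 1600 one_half_pos, UpperA_exp 2 (δ := 1 / 4 * (1 - be κ)) (by linarith),
    UpperA_exp (400 / (a * e₀)) one_half_pos] with s s5 l1 hm e4 e5 e6 e7
  have s0 : 0 < s := by linarith
  have ss : s ≤ s ^ 2 := by nlinarith
  have ls : Real.log s ≤ s := (Real.log_le_sub_one_of_pos s0).trans (by linarith)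
  have hl : Real.log (Real.log (1 / Real.exp (-s ^ 2))) = 2 * Real.log s := by
    rw [Real.exp_neg, one_div, inv_inv, Real.log_exp, Real.log_pow, Nat.cast_ofNat]
  have hl1 : (2 * Real.log s) ^ (be κ / 2) ≤ 2 * s :=
    (Real.rpow_le_self_of_one_le (by linarith) (by linarith)).trans (by linarith)
  obtain ⟨m, m1, m2, m3, m4⟩ := UpperA_m (div_nonneg (zero_le_one.trans l1) ha.le) hm
  obtain ⟨J, t, J2, t0, t1, hR, ht, htt⟩ := UpperA_J s5
  refine ⟨m, J, m1, ht.trans_le hR, ?_, ?_, ?_, ?_⟩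
  · rw [le_div_iff₀ (by linarith)]
    refine le_trans ?_ (mul_le_mul_of_nonneg_left hR he.le)
    have h1 : (m : ℝ) * a ≤ s := by
      rw [le_div_iff₀ ha] at m3
      linarith [mul_le_mul_of_nonneg_right (le_self_pow₀ m2 two_ne_zero) ha.le]
    have h2 : 400 * (m : ℝ) ≤ e₀ * Real.exp (1 / 2 * s) := by
      rw [div_mul_eq_mul_div, div_le_iff₀ (by positivity)] at e7
      exact le_of_mul_le_mul_right (by linarith) ha
    rw [htt]
    linarith [mul_le_mul_of_nonneg_left h2 (mul_pos t0 t0).le,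
      mul_le_mul_of_nonneg_left t1 (mul_pos he t0).le]
  · rw [hl, ← Real.mul_rpow (by positivity) (by positivity),
      show (m : ℝ) ^ be κ = ((m : ℝ) ^ 2) ^ (be κ / 2) by
        rw [← Real.rpow_two, ← Real.rpow_mul (by positivity), mul_div_cancel₀ _ two_ne_zero]]
    refine Real.rpow_le_rpow (by positivity) ?_ (by positivity)
    rw [show 1 / (8 * a) * (2 * Real.log s) = Real.log s / a / 4 by field_simp; norm_num]
    linarith
  · have h1 : s⁻¹ ≤ Real.exp (-a) ^ m ^ 2 := by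
      rw [← Real.exp_nat_mul, ← Real.exp_log s0, ← Real.exp_neg]
      rw [le_div_iff₀ ha] at m3
      exact Real.exp_le_exp.2 (by push_cast; linarith)
    have h2 : (1 - Real.exp (-a) ^ m ^ 2) ^ J ≤ Real.exp (-(1 / 24 * s)) := by
      refine (pow_le_pow_left₀ (sub_nonneg.2 (pow_le_one₀ hp.le hp1.le))
        (Real.one_sub_le_exp_neg _) J).trans ?_
      rw [← Real.exp_nat_mul]
      refine Real.exp_le_exp.2 ?_
      have h3 := mul_le_mul J2 h1 (by positivity) (by positivity)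
      rw [show s ^ 2 / 24 * s⁻¹ = 1 / 24 * s by field_simp] at h3
      linarith
    have h3 : 400 * Real.exp (-s ^ 2) / (Real.exp (-s ^ 2) ^ (1 / 4 : ℝ) / 8 ^ J) ≤ 400 * t := by
      rw [div_le_iff₀ (t0.trans_le hR), mul_assoc]
      exact mul_le_mul_of_nonneg_left (htt.trans_le (mul_le_mul_of_nonneg_left hR t0.le))
        (by norm_num)
    have h4 : 1600 * s * t ≤ 1 := by linarith [mul_le_mul_of_nonneg_left e5 t0.le]
    have h5 := (Real.rpow_le_self_of_le_one (by positivity)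
      (h3.trans (by linarith [mul_le_mul_of_nonneg_right s5 t0.le])) hd).trans h3
    have h6 : 4 * s * Real.exp (-(1 / 24 * s)) ≤ 1 := by
      rwa [Real.exp_neg, ← div_eq_mul_inv, div_le_one (Real.exp_pos _)]
    rw [hl]
    refine (mul_le_mul hl1 (add_le_add h2 h5) (add_nonneg (pow_nonneg
      (sub_nonneg.2 (pow_le_one₀ hp.le hp1.le)) J) (by positivity)) (by positivity)).trans ?_
    linarith
  · rw [hl, ← Real.exp_mul, ← Real.exp_mul]
    refine (mul_le_mul_of_nonneg_right (hl1.trans e6) (Real.exp_pos _).le).trans ?_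
    rw [← Real.exp_add]
    exact Real.exp_le_one_iff.2 (by linarith [mul_le_mul_of_nonneg_right ss (sub_pos.2 hb1).le])

end Vale.Agent.P164
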