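import Vale.Agent.P164.OP

/-!
# P164 UpperB

The probabilistic part of the upper bound. For small `ε`: `e = 400 ε`, `r = ε ^ (1 / 4)`,
`J = ⌊log (1 / ε) / (4 log 8)⌋`, so that `r / 8 ^ J ≥ ε ^ (1 / 2)`, `ℓ = log (log (1 / ε))`,
`m = ⌊√(ℓ / (2 log (1 / p)))⌋`, so that `p ^ (m ^ 2) ≥ log (1 / ε) ^ (-1 / 2)`.
`Bad` is the set of `x ∈ ball 0 (R + 1)` with `|im x| ≤ 2 ε`, or in `Ever` with `im x < r`, or in `Ever` with
`r ≤ im x` and no good scale. Tonelli, `op_ever`, `umain`, Fatou.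
-/

open MeasureTheory ProbabilityTheory Set Filter Topology Complex Function
open scoped NNReal ENNReal ComplexConjugate

noncomputable section

namespace Vale.Agent.P164

variable {κ : ℝ}

theorem strip_le (h0 : 0 < κ) (h8 : κ < 8) {R r : ℝ} (hR : 0 < R) (hr : 0 < r) :
    ∫⁻ x in Metric.ball (0 : ℂ) R ∩ {x | 0 < x.im ∧ x.im < r}, ENNReal.ofReal (x.im ^ (-be κ))
      ≤ ENNReal.ofReal (2 * R * r ^ (1 - be κ) / (1 - be κ)) := by
  have hb := be_lt_one h0
  have hsub : Metric.ball (0 : ℂ) R ∩ {x | 0 < x.im ∧ x.im < r} ⊆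
      Complex.measurableEquivRealProd ⁻¹' (Ioo (-R) R ×ˢ Ioo 0 r) := by
    rintro x ⟨h1, h2⟩
    rw [mem_ball_zero_iff] at h1
    exact ⟨abs_lt.1 ((Complex.abs_re_le_norm x).trans_lt h1), h2⟩
  refine (lintegral_mono_set hsub).trans (le_of_eq ?_)
  have h1 := Complex.volume_preserving_equiv_real_prod.setLIntegral_comp_preimage_emb
    Complex.measurableEquivRealProd.measurableEmbedding
    (fun y : ℝ × ℝ => ENNReal.ofReal (y.2 ^ (-be κ))) (Ioo (-R) R ×ˢ Ioo 0 r)
  refine Eq.trans h1 ?_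
  have hi : IntegrableOn (fun y : ℝ => y ^ (-be κ)) (Ioo 0 r) :=
    (intervalIntegrable_iff_integrableOn_Ioo_of_le hr.le).1
      (intervalIntegral.intervalIntegrable_rpow' (by linarith))
  have h2 : ∫⁻ y in Ioo 0 r, ENNReal.ofReal (y ^ (-be κ)) =
      ENNReal.ofReal (r ^ (1 - be κ) / (1 - be κ)) := by
    rw [← ofReal_integral_eq_lintegral_ofReal hi
      (ae_restrict_of_forall_mem measurableSet_Ioo fun y hy => Real.rpow_nonneg hy.1.le _),
      ← integral_Ioc_eq_integral_Ioo, ← intervalIntegral.integral_of_le hr.le,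
      integral_rpow (Or.inl (by linarith)), Real.zero_rpow (by linarith), sub_zero,
      neg_add_eq_sub]
  rw [Measure.volume_eq_prod, ← Measure.prod_restrict, lintegral_prod _ (by fun_prop)]
  simp only [h2]
  rw [setLIntegral_const, Real.volume_Ioo, ← ENNReal.ofReal_mul' (by linarith)]
  congr 1
  ring

/-- Tonelli, `op_ever`, `strip_le`, `ever_sub` -/
theorem exp_vol_ever (h0 : 0 < κ) (h8 : κ < 8) {R : ℝ} (hR : 0 < R) : ∃ C : ℝ, 0 < C ∧
    ∀ (μ : Measure Path) (T e : ℝ), IsW κ μ → 0 < T → 0 < e →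
    ∫⁻ w, volume (Ever (pf w) T e ∩ Metric.ball 0 R) ∂μ ≤ ENNReal.ofReal (C * e ^ be κ) := by
  obtain ⟨C, hC, h⟩ := op_ever h0 h8
  have hb := be_lt_one h0
  have hK : 0 < 2 * R * R ^ (1 - be κ) / (1 - be κ) :=
    div_pos (mul_pos (by linarith) (Real.rpow_pos_of_pos hR _)) (by linarith)
  refine ⟨C * (2 * R * R ^ (1 - be κ) / (1 - be κ)), mul_pos hC hK, fun μ T e hμ hT he => ?_⟩
  have := hμ.prob
  have hS : MeasurableSet {p : Path × ℂ | p.2 ∈ Ever (pf p.1) T e ∩ Metric.ball 0 R} :=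
    (measurableSet_ever T e measurable_fst measurable_snd).inter
      (measurable_snd Metric.isOpen_ball.measurableSet)
  have h1 := (Measure.prod_apply (μ := μ) (ν := volume) hS).symm.trans
    (Measure.prod_apply_symm hS)
  refine (le_of_eq h1).trans ?_
  have hD : MeasurableSet (Metric.ball (0 : ℂ) R ∩ {x | 0 < x.im ∧ x.im < R}) :=
    Metric.isOpen_ball.measurableSet.inter
      ((measurableSet_lt measurable_const Complex.measurable_im).inter
        (measurableSet_lt Complex.measurable_im measurable_const))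
  have h2 : ∀ z : ℂ, μ ((fun w => (w, z)) ⁻¹'
      {p : Path × ℂ | p.2 ∈ Ever (pf p.1) T e ∩ Metric.ball 0 R}) ≤
      (Metric.ball (0 : ℂ) R ∩ {x | 0 < x.im ∧ x.im < R}).indicator
        (fun x => ENNReal.ofReal (C * e ^ be κ) * ENNReal.ofReal (x.im ^ (-be κ))) z := by
    intro z
    by_cases hz : z ∈ Metric.ball (0 : ℂ) R ∩ {x | 0 < x.im ∧ x.im < R}
    · rw [indicator_of_mem hz, ← ENNReal.ofReal_mul (by positivity)]
      have h3 := h μ e T z hμ he hT hz.2.1
      rw [Real.div_rpow he.le hz.2.1.le, div_eq_mul_inv, ← Real.rpow_neg hz.2.1.le,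
        ← mul_assoc] at h3
      refine (measure_mono (t := {w | z ∈ Ever (pf w) T e}) fun w hw => hw.1).trans ?_
      rw [← ofReal_measureReal (measure_ne_top _ _)]
      exact ENNReal.ofReal_le_ofReal h3
    · rw [indicator_of_notMem hz]
      refine le_of_eq (measure_mono_null (t := ∅) (fun w hw => hz ⟨hw.2, ?_, ?_⟩) measure_empty)
      · exact ever_sub (continuous_pf w) T e hw.1
      · exact (le_abs_self _).trans_lt
          ((Complex.abs_im_le_norm z).trans_lt (mem_ball_zero_iff.1 hw.2))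
  refine (lintegral_mono h2).trans ?_
  rw [lintegral_indicator hD, lintegral_const_mul' _ _ ENNReal.ofReal_ne_top]
  refine (mul_le_mul_right (strip_le h0 h8 hR hR) _).trans (le_of_eq ?_)
  rw [← ENNReal.ofReal_mul (by positivity)]
  congr 1
  ring

end Vale.Agent.P164
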