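import Vale.Agent.P164.Gauge

/-!
# P164 UpperD

The covering argument: `Vitali.exists_disjoint_subfamily_covering_enlargement_closedBall` with `τ = 5`.
-/

open MeasureTheory ProbabilityTheory Set Filter Topology Complex Function
open scoped NNReal ENNReal ComplexConjugate

noncomputable section

namespace Vale.Agent.P164

/-- every point of `Γ` lies in a closed ball of radius in `(0, δ / 10]` whose mass for `ν` pays for the
gauge of the enlarged ball. The disjoint subfamily is countable; enumerate it, padding with `∅` -/
theorem hausD_le {h : ℝ → ℝ} (hh : IsGauge h) {Γ : Set ℂ} {δ : ℝ} (hδ : 0 < δ) (ν : Measure ℂ)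
    (H : ∀ p ∈ Γ, ∃ x r, 0 < r ∧ 10 * r ≤ δ ∧ p ∈ Metric.closedBall x r ∧
      ENNReal.ofReal (h (10 * r)) ≤ ν (Metric.closedBall x r)) : hausD h δ Γ ≤ ν univ := by
  classical
  choose! x r hr hrδ hp hν using H
  obtain ⟨u, huΓ, hd, hc⟩ := Vitali.exists_disjoint_subfamily_covering_enlargement_closedBall Γ x r δ
    (fun a ha => by linarith [hr a ha, hrδ a ha]) 5 (by norm_num)
  have hu : u.Countable := hd.countable_of_nonempty_interior fun a ha =>
    ⟨x a, Metric.ball_subset_interior_closedBall (Metric.mem_ball_self (hr a (huΓ ha)))⟩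
  let _ := hu.toEncodable
  have hd' : Pairwise (Disjoint on fun b : u => Metric.closedBall (x b) (r b)) :=
    fun a b hab => hd a.2 b.2 fun e => hab (Subtype.ext e)
  refine le_trans (iInf_le_of_le
    (fun j => ⋃ b ∈ Encodable.decode₂ u j, Metric.closedBall (x b) (5 * r b))
    (iInf_le_of_le ?_ (iInf_le_of_le ?_ le_rfl))) ?_
  · rw [Encodable.iUnion_decode₂ fun b : u => Metric.closedBall (x b) (5 * r b)]
    intro p hpΓ
    obtain ⟨b, hb, hs⟩ := hc p hpΓ
    exact mem_iUnion.2 ⟨⟨b, hb⟩, hs (hp p hpΓ)⟩
  · intro j
    refine Encodable.iUnion_decode₂_cases (f := fun b : u => Metric.closedBall (x b) (5 * r b))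
      (C := fun S => Metric.ediam S ≤ ENNReal.ofReal δ) (by simp) fun b => ?_
    refine Metric.ediam_le_of_forall_dist_le fun y hy z hz => ?_
    have := dist_triangle_right y z (x b)
    rw [Metric.mem_closedBall] at hy hz
    linarith [hrδ b (huΓ b.2)]
  · calc _ ≤ ∑' j, ν (⋃ b ∈ Encodable.decode₂ u j, Metric.closedBall (x b) (r b)) := by
          refine ENNReal.tsum_le_tsum fun j => ?_
          beta_reduce
          cases Encodable.decode₂ u j with
          | none => simp [hh.2.2.1]
          | some b =>
            simp only [Option.mem_def, Option.some.injEq, iUnion_iUnion_eq_right]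
            have hb := hr b (huΓ b.2)
            refine le_trans (ENNReal.ofReal_le_ofReal (hh.2.1 Metric.diam_nonneg
              (show (0 : ℝ) ≤ 10 * r b by linarith) ?_)) (hν b (huΓ b.2))
            have := Metric.diam_closedBall (x := x b) (r := 5 * r b) (by linarith)
            linarith
      _ = ν (⋃ j, ⋃ b ∈ Encodable.decode₂ u j, Metric.closedBall (x b) (r b)) := by
          refine (measure_iUnion (Encodable.iUnion_decode₂_disjoint_on hd') fun j => ?_).symm
          exact Encodable.iUnion_decode₂_cases (f := fun b : u => Metric.closedBall (x b) (r b))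
            (C := MeasurableSet) MeasurableSet.empty fun b => measurableSet_closedBall
      _ ≤ ν univ := measure_mono (subset_univ _)

end Vale.Agent.P164
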