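import Vale.Agent.P164.PathB

/-!
# P164 WienerA

The Wiener measure on `Path`: uniqueness, scaling, weak Markov property, reduction from a general
Brownian motion.
-/

open MeasureTheory ProbabilityTheory Set Filter Topology Complex Function
open scoped NNReal ENNReal ComplexConjugate

noncomputable section

namespace Vale.Agent.P164

variable {κ : ℝ} {μ : Measure Path}

theorem IsW.ae_zero (h : IsW κ μ) : ∀ᵐ w ∂μ, pf w 0 = 0 := by
  have hk : (√κ)⁻¹ ≠ 0 := inv_ne_zero (Real.sqrt_pos.2 h.pos).ne'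
  filter_upwards [h.pre.eval_zero_ae_eq_zero] with w hw
  have := (mul_eq_zero.1 hw).resolve_left hk
  simpa [pf] using this

/-- `μ.map Subtype.val` is a projective limit (`IsProjectiveLimit.unique`), and every measurable set
of `Path` is a preimage -/
theorem ext_fdd {μ ν : Measure Path} [IsFiniteMeasure μ] [IsFiniteMeasure ν]
    (h : ∀ I : Finset ℝ≥0, μ.map (fun w => I.restrict w.1) = ν.map fun w => I.restrict w.1) :
    μ = ν := by
  have hv : Measurable (Subtype.val : Path → ℝ≥0 → ℝ) := measurable_subtype_coe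
  have h1 : IsProjectiveLimit (μ.map Subtype.val)
      (fun I : Finset ℝ≥0 => μ.map fun w : Path => I.restrict w.1) := fun I => by
    rw [Measure.map_map (Finset.measurable_restrict I) hv]
    rfl
  have h2 : IsProjectiveLimit (ν.map Subtype.val)
      (fun I : Finset ℝ≥0 => μ.map fun w : Path => I.restrict w.1) := fun I => by
    rw [Measure.map_map (Finset.measurable_restrict I) hv]
    exact (h I).symm
  have h3 := h1.unique h2
  ext A hA
  obtain ⟨B, hB, rfl⟩ := hA
  rw [← Measure.map_apply hv hB, ← Measure.map_apply hv hB, h3]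

theorem WienerA_meas (κ : ℝ) (I : Finset ℝ≥0) :
    Measurable fun w : Path => I.restrict fun t => (√κ)⁻¹ * w.1 t := by
  refine measurable_pi_lambda _ fun i => ?_
  exact ((measurable_pi_apply (i : ℝ≥0)).comp measurable_subtype_coe).const_mul _

theorem WienerA_fdd (h : IsW κ μ) (I : Finset ℝ≥0) :
    μ.map (fun w => I.restrict w.1) =
      (BrownianReal.projectiveFamily I).map fun x i => √κ * x i := by
  have hk : √κ ≠ 0 := (Real.sqrt_pos.2 h.pos).ne'
  have hm : Measurable fun (x : I → ℝ) (i : I) => √κ * x i :=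
    measurable_pi_lambda _ fun i => (measurable_pi_apply i).const_mul _
  rw [← (h.pre.hasLaw I).map_eq, Measure.map_map hm (WienerA_meas κ I)]
  refine congrArg (fun f => μ.map f) (funext fun w => funext fun i => ?_)
  simp only [Function.comp, Finset.restrict]
  field_simp

theorem IsW.unique {ν : Measure Path} (h : IsW κ μ) (h' : IsW κ ν) : μ = ν := by
  have := h.prob
  have := h'.prob
  exact ext_fdd fun I => (WienerA_fdd h I).trans (WienerA_fdd h' I).symm

/-- `IsPreBrownianReal.shift`, `IsPreBrownianReal.smul` and `IsW.unique` -/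
theorem IsW.map_shs (h : IsW κ μ) {s ρ : ℝ} (hs : 0 ≤ s) (hρ : 0 < ρ) : μ.map (shs s ρ) = μ := by
  have := h.prob
  have hm : Measurable (shs s ρ) :=
    measurable_shs measurable_const measurable_const measurable_id
  refine IsW.unique ⟨h.pos, Measure.isProbabilityMeasure_map hm.aemeasurable, ?_⟩ h
  have hc : (NNReal.mk (ρ ^ 2) (sq_nonneg ρ)) ≠ 0 := fun h0 => by
    have h1 : ρ ^ 2 = 0 := congrArg NNReal.toReal h0
    exact (pow_pos hρ 2).ne' h1
  have h1 := (h.pre.shift s.toNNReal).smul hc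
  have h2 : IsPreBrownianReal (fun t w => (√κ)⁻¹ * (shs s ρ w).1 t) μ := by
    refine h1.congr fun t => Eventually.of_forall fun w => ?_
    have e1 : (s + ρ ^ 2 * (t : ℝ)).toNNReal = s.toNNReal + NNReal.mk (ρ ^ 2) (sq_nonneg ρ) * t := by
      apply NNReal.eq
      rw [Real.coe_toNNReal _ (by positivity), NNReal.coe_add, Real.coe_toNNReal _ hs,
        NNReal.coe_mul, NNReal.coe_mk]
    have e2 : √((NNReal.mk (ρ ^ 2) (sq_nonneg ρ)) : ℝ) = ρ := Real.sqrt_sq hρ.le
    simp only [shs, pf, e1, e2]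
    ring
  refine ⟨fun I => ?_⟩
  have hI := WienerA_meas κ I
  refine ⟨hI.aemeasurable, ?_⟩
  rw [Measure.map_map hI hm]
  exact (h2.hasLaw I).map_eq

theorem IsW.law (h : IsW κ μ) {s u : ℝ} (hs : 0 ≤ s) (hu : 0 ≤ u) :
    HasLaw (fun w => pf w (s + u) - pf w s) (gaussianReal 0 (κ * u).toNNReal) μ := by
  have h1 := gaussianReal_const_mul ((h.pre.shift s.toNNReal).hasLaw_eval u.toNNReal) √κ
  have hk : √κ ≠ 0 := (Real.sqrt_pos.2 h.pos).ne'
  have e1 : (s + u).toNNReal = s.toNNReal + u.toNNReal := Real.toNNReal_add hs hu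
  have e2 : NNReal.mk (√κ ^ 2) (sq_nonneg _) * u.toNNReal = (κ * u).toNNReal := by
    apply NNReal.eq
    rw [NNReal.coe_mul, Real.coe_toNNReal _ hu, Real.coe_toNNReal _ (mul_nonneg h.pos.le hu),
      NNReal.coe_mk, Real.sq_sqrt h.pos.le]
  rw [e2, mul_zero] at h1
  refine h1.congr (Eventually.of_forall fun w => ?_)
  simp only [pf, e1]
  field_simp

/-- the events `{sup ≤ L}` increase to the whole space; uniformity in `μ` by `IsW.unique` -/
theorem sup_small (κ : ℝ) {T p : ℝ} (hT : 0 ≤ T) (hp : 0 < p) : ∃ L : ℝ, ∀ μ, IsW κ μ →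
    μ.real {w | ∀ t ∈ Icc 0 T, |pf w t - pf w 0| ≤ L}ᶜ ≤ p := by
  by_cases hex : ∃ ν, IsW κ ν
  swap
  · exact ⟨0, fun μ hμ => (hex ⟨μ, hμ⟩).elim⟩
  obtain ⟨ν, hν⟩ := hex
  have := hν.prob
  set A : ℕ → Set Path := fun n => {w | ∀ t ∈ Icc 0 T, |pf w t - pf w 0| ≤ (n : ℝ)}ᶜ with hA
  have hm : ∀ n, MeasurableSet (A n) := fun n => (detS_sup hT 0 (n : ℝ) le_rfl).meas.compl
  have ha : Antitone A := fun m n hmn => compl_subset_compl.2 fun w hw t ht =>
    (hw t ht).trans (Nat.cast_le.2 hmn)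
  have he : ⋂ n, A n = ∅ := by
    refine eq_empty_of_forall_notMem fun w hw => ?_
    have hc : ContinuousOn (fun t => |pf w t - pf w 0|) (Icc 0 T) :=
      (((continuous_pf w).sub continuous_const).abs).continuousOn
    obtain ⟨C, hC⟩ := isCompact_Icc.bddAbove_image hc
    obtain ⟨n, hn⟩ := exists_nat_ge C
    exact mem_iInter.1 hw n fun t ht => (hC (mem_image_of_mem _ ht)).trans hn
  have ht := tendsto_measure_iInter_atTop (μ := ν) (fun n => (hm n).nullMeasurableSet) ha
    ⟨0, measure_ne_top _ _⟩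
  rw [he, measure_empty] at ht
  have ht' := (ENNReal.tendsto_toReal ENNReal.zero_ne_top).comp ht
  rw [ENNReal.toReal_zero] at ht'
  obtain ⟨n, hn⟩ := (ht'.eventually (ge_mem_nhds hp)).exists
  refine ⟨n, fun μ hμ => ?_⟩
  rw [hμ.unique hν]
  exact hn

end Vale.Agent.P164
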