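import Vale.Agent.P164.PathB

/-!
# P164 WienerB

The Wiener measure on `Path`: uniqueness, scaling, weak Markov property, reduction from a general
Brownian motion.
-/

open MeasureTheory ProbabilityTheory Set Filter Topology Complex Function
open scoped NNReal ENNReal ComplexConjugate

noncomputable section

namespace Vale.Agent.P164

variable {κ : ℝ} {μ : Measure Path}

theorem WienerB_meas {Ω : Type*} [MeasurableSpace Ω] {X : ℝ≥0 → Ω → ℝ} {u : ℕ → ℝ≥0}
    (hu : DenseRange u) (hc : ∀ ω, Continuous (X · ω)) (hm : ∀ n, Measurable (X (u n)))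
    (t : ℝ≥0) : Measurable (X t) := by
  obtain ⟨x, hx, hl⟩ := mem_closure_iff_seq_limit.1 (hu t)
  refine measurable_of_tendsto_metrizable (f := fun k => X (x k)) (fun k => ?_)
    (tendsto_pi_nhds.2 fun ω => ((hc ω).tendsto t).comp hl)
  obtain ⟨n, hn⟩ := hx k
  rw [← hn]
  exact hm n

/-- modify `B` on a measurable null set outside of which it is continuous and agrees with
measurable versions at a countable dense set of times -/
theorem exists_isW {Ω : Type*} [MeasurableSpace Ω] {P : Measure Ω} {B : ℝ≥0 → Ω → ℝ} (hκ : 0 < κ)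
    (hB : IsBrownianReal B P) : ∃ Φ : Ω → Path, Measurable Φ ∧ IsW κ (P.map Φ) ∧
      ∀ᵐ ω ∂P, (Φ ω).1 = fun t => √κ * B t ω := by
  classical
  have : IsProbabilityMeasure P := hB.isGaussianProcess.isProbabilityMeasure
  have hu := TopologicalSpace.denseRange_denseSeq ℝ≥0
  set u := TopologicalSpace.denseSeq ℝ≥0
  have hG : ∀ᵐ ω ∂P, Continuous (B · ω) ∧ ∀ n, B (u n) ω = (hB.aemeasurable (u n)).mk _ ω :=
    hB.cont.and (ae_all_iff.2 fun n => (hB.aemeasurable (u n)).ae_eq_mk)
  obtain ⟨N, hN, hNm, hN0⟩ := exists_measurable_superset_of_null (ae_iff.1 hG)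
  have hG' : ∀ ω, ω ∉ N →
      Continuous (B · ω) ∧ ∀ n, B (u n) ω = (hB.aemeasurable (u n)).mk _ ω := fun ω hω => by
    by_contra h
    exact hω (hN h)
  have hc : ∀ ω, Continuous fun t => if ω ∈ N then 0 else √κ * B t ω := fun ω => by
    by_cases h : ω ∈ N
    · simp only [if_pos h]
      exact continuous_const
    · simp only [if_neg h]
      exact continuous_const.mul (hG' ω h).1
  have hm : ∀ t, Measurable fun ω => if ω ∈ N then 0 else √κ * B t ω := by
    refine WienerB_meas (X := fun t ω => if ω ∈ N then 0 else √κ * B t ω) hu hc fun n => ?_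
    have e : (fun ω => if ω ∈ N then 0 else √κ * B (u n) ω) =
        fun ω => if ω ∈ N then 0 else √κ * (hB.aemeasurable (u n)).mk _ ω := by
      funext ω
      by_cases h : ω ∈ N
      · rw [if_pos h, if_pos h]
      · rw [if_neg h, if_neg h, (hG' ω h).2 n]
    rw [e]
    exact Measurable.ite hNm measurable_const
      ((hB.aemeasurable (u n)).measurable_mk.const_mul _)
  have hΦ : Measurable fun ω => (⟨_, hc ω⟩ : Path) := (measurable_pi_lambda _ hm).subtype_mk
  have hae : ∀ᵐ ω ∂P, (⟨_, hc ω⟩ : Path).1 = fun t => √κ * B t ω := by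
    filter_upwards [measure_eq_zero_iff_ae_notMem.1 hN0] with ω hω
    simp only [if_neg hω]
  refine ⟨_, hΦ, ⟨hκ, Measure.isProbabilityMeasure_map hΦ.aemeasurable, ⟨fun I => ?_⟩⟩, hae⟩
  have hF : Measurable fun w : Path => I.restrict fun t => (√κ)⁻¹ * w.1 t :=
    measurable_pi_lambda _ fun i =>
      ((measurable_pi_apply i.1).comp measurable_subtype_coe).const_mul _
  refine ⟨hF.aemeasurable, ?_⟩
  rw [Measure.map_map hF hΦ, ← (hB.hasLaw I).map_eq]
  refine Measure.map_congr ?_
  filter_upwards [hae] with ω hω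
  funext i
  have h1 := congrFun hω i.1
  simp only [Function.comp, Finset.restrict] at h1 ⊢
  rw [h1, inv_mul_cancel_left₀ (Real.sqrt_pos.2 hκ).ne']

end Vale.Agent.P164
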