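import Vale.Agent.P164.PathB
import Vale.Agent.P164.WienerA
import Vale.Agent.P164.WienerB

/-!
# P164 Wiener

The Wiener measure on `Path`: uniqueness, scaling, weak Markov property, reduction from a general
Brownian motion.
-/

open MeasureTheory ProbabilityTheory Set Filter Topology Complex Function
open scoped NNReal ENNReal ComplexConjugate

noncomputable section

namespace Vale.Agent.P164

variable {κ : ℝ} {μ : Measure Path}

theorem Wiener_meas {α F : Type} [MeasurableSpace F] (f : α → F) (Ψ : α → Path)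
    (h : ∀ t, ∃ φ : F → ℝ, Measurable φ ∧ ∀ w, (Ψ w).1 t = φ (f w)) :
    Measurable[MeasurableSpace.comap f inferInstance] Ψ := by
  letI : MeasurableSpace α := MeasurableSpace.comap f inferInstance
  have hf : Measurable f := comap_measurable f
  have h1 : Measurable fun w => (Ψ w).1 := measurable_pi_lambda _ fun t => by
    obtain ⟨φ, hφ, e⟩ := h t
    simp only [e]
    exact hφ.comp hf
  exact h1.subtype_mk (h := fun w => (Ψ w).2)

/-- the path stopped at the time `s` -/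
def Wiener_stop (s : ℝ≥0) (w : Path) : Path :=
  ⟨fun t => w.1 (min t s), w.2.comp (continuous_id.min continuous_const)⟩

/-- `G = G ∘ stop` where `stop w = w (min · s)` is a measurable function of `(w t)_{t ≤ s}` only as a map
into `ℝ≥0 → ℝ`; use `IsPreBrownianReal.indepFun_shift` and independence of the σ-algebras generated
by the coordinates (`IndepFun` iff `Indep` of the comaps, `indep_of_indep_of_le`) -/
theorem IsW.indep (h : IsW κ μ) {E : Type} [MeasurableSpace E] {s : ℝ} (hs : 0 ≤ s) (ρ : ℝ)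
    {G : Path → E} (hG : Det (fun _ => s) G) : IndepFun G (shs s ρ) μ := by
  have hk : √κ ≠ 0 := (Real.sqrt_pos.2 h.pos).ne'
  have h1 := (IndepFun_iff_Indep _ _ _).1 (h.pre.indepFun_shift s.toNNReal)
  have h2 := Wiener_meas (fun (w : Path) (t : Set.Iic s.toNNReal) => (√κ)⁻¹ * w.1 t)
    (Wiener_stop s.toNNReal) fun t =>
      ⟨fun y => √κ * y ⟨min t s.toNNReal, mem_Iic.2 (min_le_right _ _)⟩, by fun_prop, fun w => by
        simp only [Wiener_stop]
        rw [mul_inv_cancel_left₀ hk]⟩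
  have h3 := Wiener_meas
    (fun (w : Path) (t : ℝ≥0) => (√κ)⁻¹ * w.1 (s.toNNReal + t) - (√κ)⁻¹ * w.1 s.toNNReal)
    (shs s ρ) fun t =>
      ⟨fun y => √κ * y (ρ ^ 2 * t).toNNReal / ρ, by fun_prop, fun w => by
        simp only [shs, pf]
        rw [Real.toNNReal_add hs (by positivity), mul_sub, mul_inv_cancel_left₀ hk,
          mul_inv_cancel_left₀ hk]⟩
  have e : G = G ∘ Wiener_stop s.toNNReal := funext fun w => (hG.eq w _ fun t ht => by
    simp only [pf, Wiener_stop]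
    rw [min_eq_left (Real.toNNReal_le_toNNReal ht.2)]).symm
  have h4 := hG.meas.comp h2
  rw [← e] at h4
  exact (IndepFun_iff_Indep _ _ _).2
    (indep_of_indep_of_le_right (indep_of_indep_of_le_left h1.symm h4.comap_le) h3.comap_le)

theorem IsW.weak (h : IsW κ μ) {s ρ : ℝ} (hs : 0 ≤ s) (hρ : 0 < ρ) {A S : Set Path}
    (hA : DetS (fun _ => s) A) (hS : MeasurableSet S) : μ (A ∩ shs s ρ ⁻¹' S) = μ A * μ S := by
  have h1 := (h.indep hs ρ (Det.indicator (Det.const _ s) hA (Det.const _ (1 : ℝ)))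
    ).measure_inter_preimage_eq_mul {1} S (measurableSet_singleton 1) hS
  have e : (A.indicator fun _ => (1 : ℝ)) ⁻¹' {1} = A := by
    ext w
    by_cases hw : w ∈ A <;> simp [hw]
  have hm : Measurable (shs s ρ) := measurable_shs measurable_const measurable_const measurable_id
  rw [e, ← Measure.map_apply hm hS, h.map_shs hs hρ] at h1
  exact h1

theorem Wiener_steps (h : IsW κ μ) {T : ℝ} (hT : 0 < T) {S : Set Path} (hS : DetS (fun _ => T) S)
    {a ρ : ℝ} (ha : 0 ≤ a) (hρ : 0 < ρ) (k : ℕ) :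
    ∃ A, DetS (fun _ => a + k * (ρ ^ 2 * T)) A ∧ μ A = μ Sᶜ ^ k ∧
      ∀ w, (∀ j : ℕ, j < k → shs (a + j * (ρ ^ 2 * T)) ρ w ∉ S) → w ∈ A := by
  have := h.prob
  induction k with
  | zero => exact ⟨univ, DetS.univ _, by simp, fun w _ => mem_univ w⟩
  | succ k ih =>
    obtain ⟨A, h1, h2, h3⟩ := ih
    have h0 : 0 ≤ a + k * (ρ ^ 2 * T) := by positivity
    have hc : DetS (fun _ => T) Sᶜ := hS.compl (Det.const _ T)
    have h4 := DetS.shs (Stp.const (T := a + k * (ρ ^ 2 * T)) ⟨h0, le_rfl⟩) h1 (Det.const _ ρ)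
      hT.le hc
    refine ⟨A ∩ shs (a + k * (ρ ^ 2 * T)) ρ ⁻¹' Sᶜ, h4.mono fun w _ => le_of_eq ?_, ?_,
      fun w hw => ⟨h3 w fun j hj => hw j (by omega), hw k (by omega)⟩⟩
    · push_cast
      ring
    · rw [h.weak h0 hρ h1 hc.meas, h2, pow_succ]

theorem Wiener_null (h : IsW κ μ) {T : ℝ} (hT : 0 < T) {S : Set Path} (hS : DetS (fun _ => T) S)
    (hp : 0 < μ.real S) {a b : ℝ} (ha : 0 ≤ a) (hab : a < b) :
    ∀ᵐ w ∂μ, ∃ s' ρ, a ≤ s' ∧ 0 < ρ ∧ s' + ρ ^ 2 * T ≤ b ∧ shs s' ρ w ∈ S := by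
  have := h.prob
  have hlt : μ Sᶜ < 1 := by
    rw [prob_compl_eq_one_sub hS.meas]
    refine ENNReal.sub_lt_self ENNReal.one_ne_top one_ne_zero fun h0 => ?_
    rw [Measure.real, h0] at hp
    simp at hp
  rw [ae_iff]
  refine le_antisymm (ge_of_tendsto (ENNReal.tendsto_pow_atTop_nhds_zero_of_lt_one hlt) ?_)
    zero_le
  filter_upwards [eventually_ge_atTop 1] with N hN
  have hN' : (0 : ℝ) < N := by exact_mod_cast hN
  have hq : 0 < (b - a) / (N * T) := div_pos (sub_pos.2 hab) (by positivity)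
  have e : √((b - a) / (N * T)) ^ 2 * T = (b - a) / N := by
    rw [Real.sq_sqrt hq.le]
    field_simp
  obtain ⟨A, -, h2, h3⟩ := Wiener_steps h hT hS ha (Real.sqrt_pos.2 hq) N
  rw [← h2]
  refine measure_mono fun w hw => h3 w fun j hj hm => hw ⟨_, _, ?_, Real.sqrt_pos.2 hq, ?_, hm⟩
  · exact le_add_of_nonneg_right (by positivity)
  · have h4 : (j : ℝ) + 1 ≤ N := by exact_mod_cast hj
    have h5 := mul_le_mul_of_nonneg_right h4 (div_pos (sub_pos.2 hab) hN').le
    rw [mul_div_cancel₀ _ hN'.ne'] at h5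
    rw [e]
    linarith

/-- every time interval contains a rescaled copy of the event: for rational `s < t` cut `[s,t]` into
`N` pieces, by `IsW.weak` the probability that no piece works is `(1 - p) ^ N` -/
theorem IsW.zero_one (h : IsW κ μ) {T : ℝ} (hT : 0 < T) {S : Set Path} (hS : DetS (fun _ => T) S)
    (hp : 0 < μ.real S) : ∀ᵐ w ∂μ, ∀ s t : ℝ, 0 ≤ s → s < t →
      ∃ s' ρ, s ≤ s' ∧ 0 < ρ ∧ s' + ρ ^ 2 * T ≤ t ∧ shs s' ρ w ∈ S := by
  have h1 : ∀ᵐ w ∂μ, ∀ q r : ℚ, (0 : ℝ) ≤ q → (q : ℝ) < r →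
      ∃ s' ρ, (q : ℝ) ≤ s' ∧ 0 < ρ ∧ s' + ρ ^ 2 * T ≤ r ∧ shs s' ρ w ∈ S :=
    ae_all_iff.2 fun q => ae_all_iff.2 fun r => by
      by_cases h0 : (0 : ℝ) ≤ q
      · by_cases hr : (q : ℝ) < r
        · exact (Wiener_null h hT hS hp h0 hr).mono fun w hw _ _ => hw
        · exact ae_of_all _ fun w _ h2 => absurd h2 hr
      · exact ae_of_all _ fun w h2 => absurd h2 h0
  filter_upwards [h1] with w hw s t hs hst
  obtain ⟨q, q1, q2⟩ := exists_rat_btwn hst
  obtain ⟨r, r1, r2⟩ := exists_rat_btwn q2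
  obtain ⟨s', ρ, a1, a2, a3, a4⟩ := hw q r (hs.trans q1.le) r1
  exact ⟨s', ρ, q1.le.trans a1, a2, a3.trans r2.le, a4⟩

end Vale.Agent.P164
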