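import Vale.Agent.P164.BackB
import Vale.Agent.P164.Tri

/-!
# P164 Zig

The backward flow for a driving function close to a zigzag of speed `V`, amplitude `L = 2 T V m`.
Let `h = bk w t ζ`, `Z = h - w (t - ·)`, and on a sweep let `p` be an affine function of slope `σ V`
(`σ = ±1`) with `|w (t - u) - p u| ≤ D`, `Z' = h - p`. Then `dZ'/du = -σ V - 2 / Z`, so
`1 = -(dZ'/du + 2 / Z) / (σ V)`. Since both have height `Y ≥ 1 / 2`, `|Z| ≤ (1 + 2 D) |Z'|` and conversely.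
The errors are controlled by `∫ 1 / |Z| ^ 2 = log (Y end / Y start) / 2` and
`∫ 1 / |Z| ^ 3 ≤ (1 / Y start - 1 / Y end) / 2`, because `Y' = 2 Y / |Z| ^ 2`.
-/

open MeasureTheory ProbabilityTheory Set Filter Topology Complex Function
open scoped NNReal ENNReal ComplexConjugate

noncomputable section

namespace Vale.Agent.P164

variable {w : ℝ → ℝ} {ζ : ℂ} {t : ℝ}

theorem Zig_mvt {E : Type} [NormedAddCommGroup E] [NormedSpace ℝ E] {f f' : ℝ → E} {B B' : ℝ → ℝ}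
    {a b : ℝ} (hab : a ≤ b) (hf : ∀ u ∈ Icc a b, HasDerivAt f (f' u) u)
    (hB : ∀ u ∈ Icc a b, HasDerivAt B (B' u) u) (h : ∀ u ∈ Icc a b, ‖f' u‖ ≤ B' u) :
    ‖f b - f a‖ ≤ B b - B a :=
  image_norm_le_of_norm_deriv_right_le_deriv_boundary' (f := fun u => f u - f a)
    (B := fun u => B u - B a)
    (fun u hu => ((hf u hu).sub_const _).continuousAt.continuousWithinAt)
    (fun u hu => ((hf u (Ico_subset_Icc_self hu)).sub_const _).hasDerivWithinAt) (by simp)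
    (fun u hu => ((hB u hu).sub_const _).continuousAt.continuousWithinAt)
    (fun u hu => ((hB u (Ico_subset_Icc_self hu)).sub_const _).hasDerivWithinAt)
    (fun u hu => h u (Ico_subset_Icc_self hu)) (right_mem_Icc.2 hab)

theorem Zig_pos (hw : Continuous w) (hζ : 0 < ζ.im) (t : ℝ) {u : ℝ} (hu : 0 ≤ u) :
    0 < (bk w t ζ u).im := hζ.trans_le (bk_im_ge hw hζ t hu)

theorem Zig_le (z : ℂ) (x : ℝ) : z.im ≤ ‖z - x‖ := by
  simpa using (le_abs_self _).trans (abs_im_le_norm (z - x))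

theorem Zig_ne (hw : Continuous w) (hζ : 0 < ζ.im) (t : ℝ) {u : ℝ} (hu : 0 ≤ u) (x : ℝ) :
    bk w t ζ u - x ≠ 0 := norm_pos_iff.1 ((Zig_pos hw hζ t hu).trans_le (Zig_le _ x))

theorem Zig_prim {E : Type} [NormedAddCommGroup E] [NormedSpace ℝ E] [CompleteSpace E]
    (hw : Continuous w) (hζ : 0 < ζ.im) (t : ℝ) {a u : ℝ} (ha : 0 ≤ a) (hu : a ≤ u) (g : ℂ → E)
    (hg : ∀ z, z ≠ 0 → ContinuousAt g z) :
    HasDerivAt (fun v => ∫ x in a..v, g (bk w t ζ x - w (t - x))) (g (bk w t ζ u - w (t - u))) u := by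
  have hZ : Continuous fun x => bk w t ζ x - w (t - x) := by
    have := bk_cont hw hζ t
    fun_prop
  have hc : ∀ x ∈ {x | bk w t ζ x - w (t - x) ≠ 0}, ContinuousAt
      (fun x => g (bk w t ζ x - w (t - x))) x := fun x hx =>
    (hg _ hx).comp (f := fun x => bk w t ζ x - w (t - x)) hZ.continuousAt
  exact intervalIntegral.integral_hasDerivAt_right (ContinuousOn.intervalIntegrable_of_Icc hu
    fun x hx => (hc x (Zig_ne hw hζ t (ha.trans hx.1) _)).continuousWithinAt)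
    (ContinuousAt.stronglyMeasurableAtFilter (isOpen_ne_fun hZ continuous_const) hc u
      (Zig_ne hw hζ t (ha.trans hu) _)) (hc u (Zig_ne hw hζ t (ha.trans hu) _))

theorem Zig_im (hw : Continuous w) (hζ : 0 < ζ.im) (t : ℝ) {u : ℝ} (hu : 0 ≤ u) :
    HasDerivAt (fun v => (bk w t ζ v).im)
      (2 * (bk w t ζ u).im / ‖bk w t ζ u - w (t - u)‖ ^ 2) u := by
  refine (imCLM.hasFDerivAt.comp_hasDerivAt u (bk_deriv hw hζ t hu)).congr_deriv ?_
  rw [imCLM_apply, div_im, normSq_eq_norm_sq]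
  simp
  ring

theorem Zig_log (hw : Continuous w) (hζ : 0 < ζ.im) (t : ℝ) {u : ℝ} (hu : 0 ≤ u) :
    HasDerivAt (fun v => Real.log (bk w t ζ v).im) (2 / ‖bk w t ζ u - w (t - u)‖ ^ 2) u := by
  have h := (Zig_pos hw hζ t hu).ne'
  refine ((Zig_im hw hζ t hu).log h).congr_deriv ?_
  field_simp

theorem Zig_inv (hw : Continuous w) (hζ : 0 < ζ.im) (t : ℝ) {u : ℝ} (hu : 0 ≤ u) :
    ∃ d, HasDerivAt (fun v => -(1 / (bk w t ζ v).im)) d u ∧
      2 / ‖bk w t ζ u - w (t - u)‖ ^ 3 ≤ d := by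
  have h := Zig_pos hw hζ t hu
  have h1 := Zig_le (bk w t ζ u) (w (t - u))
  have h2 := h.trans_le h1
  refine ⟨2 / (‖bk w t ζ u - w (t - u)‖ ^ 2 * (bk w t ζ u).im), (((hasDerivAt_const u (1 : ℝ)).fun_div
    (Zig_im hw hζ t hu) h.ne').fun_neg).congr_deriv (by field_simp; ring), ?_⟩
  rw [pow_succ _ 2]
  gcongr

theorem Zig_aff (hw : Continuous w) (hζ : 0 < ζ.im) (t q c : ℝ) {u : ℝ} (hu : 0 ≤ u) :
    HasDerivAt (fun v => bk w t ζ v - (q + c * v : ℝ)) (-2 / (bk w t ζ u - w (t - u)) - c) u := by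
  simpa only [mul_one] using (bk_deriv hw hζ t hu).fun_sub
    (((hasDerivAt_id' u).const_mul c).const_add q).ofReal_comp

/-- comparison of the two moduli -/
theorem Zig_cmp {z : ℂ} {x y D : ℝ} (hz : 1 / 2 ≤ z.im) (h : |x - y| ≤ D) :
    ‖(z - x) - (z - y)‖ ≤ D ∧ 1 / ‖z - y‖ ≤ (1 + 2 * D) / ‖z - x‖ := by
  have h1 : ‖(z - x) - (z - y)‖ ≤ D := by
    rw [sub_sub_sub_cancel_left, ← ofReal_sub, norm_real, Real.norm_eq_abs, abs_sub_comm]
    exact h
  have h2 := norm_le_norm_add_norm_sub' (z - x) (z - y)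
  have h3 := Zig_le z x
  have h4 := Zig_le z y
  refine ⟨h1, ?_⟩
  rw [div_le_div_iff₀ (by linarith) (by linarith)]
  nlinarith [(abs_nonneg _).trans h]

theorem Zig_c {σ V : ℝ} (hσ : σ = 1 ∨ σ = -1) (hV : 1 ≤ V) :
    (σ : ℂ) * V ≠ 0 ∧ ‖1 / ((σ : ℂ) * V)‖ ≤ 1 := by
  have h : 1 ≤ ‖(σ : ℂ) * V‖ := by
    rcases hσ with rfl | rfl <;> simpa using hV.trans (le_abs_self V)
  exact ⟨norm_pos_iff.1 (one_pos.trans_le h), by
    rw [norm_div, norm_one]
    exact div_le_one_of_le₀ h (norm_nonneg _)⟩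

theorem int_sq (hw : Continuous w) (hζ : 0 < ζ.im) (t : ℝ) {a b : ℝ} (ha : 0 ≤ a) (hab : a ≤ b) :
    ∫ u in a..b, 1 / ‖bk w t ζ u - w (t - u)‖ ^ 2
      = (Real.log (bk w t ζ b).im - Real.log (bk w t ζ a).im) / 2 := by
  have h := intervalIntegral.integral_eq_sub_of_hasDerivAt
    (f := fun v => Real.log (bk w t ζ v).im / 2)
    (f' := fun u => 1 / ‖bk w t ζ u - w (t - u)‖ ^ 2) (a := a) (b := b) (fun u hu =>
      ((Zig_log hw hζ t (ha.trans (uIcc_of_le hab ▸ hu).1)).div_const 2).congr_deriv (by ring))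
    (ContinuousOn.intervalIntegrable_of_Icc hab (continuousOn_const.div (by
      have := bk_cont hw hζ t
      fun_prop) fun u hu => pow_ne_zero _ (norm_ne_zero_iff.2 (Zig_ne hw hζ t (ha.trans hu.1) _))))
  rw [h, sub_div]

theorem int_cube (hw : Continuous w) (hζ : 0 < ζ.im) (t : ℝ) {a b : ℝ} (ha : 0 ≤ a) (hab : a ≤ b) :
    ∫ u in a..b, 1 / ‖bk w t ζ u - w (t - u)‖ ^ 3
      ≤ (1 / (bk w t ζ a).im - 1 / (bk w t ζ b).im) / 2 := by
  choose! d hd hd' using fun u (hu : 0 ≤ u) => Zig_inv hw hζ t hu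
  have h := Zig_mvt hab (fun u hu => Zig_prim hw hζ t ha hu.1 (fun z => 1 / ‖z‖ ^ 3) fun z hz =>
    continuousAt_const.div (continuous_norm.pow 3).continuousAt
      (pow_ne_zero _ (norm_ne_zero_iff.2 hz)))
    (fun u hu => (hd u (ha.trans hu.1)).div_const 2) fun u hu => by
      have h1 := hd' u (ha.trans hu.1)
      rw [Real.norm_of_nonneg (by positivity), le_div_iff₀' two_pos, mul_one_div]
      exact h1
  rw [intervalIntegral.integral_same, sub_zero] at h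
  linarith [(le_abs_self _).trans h]

/-- one sweep, position: `h - (2 / (σ V)) log Z'` has derivative
`-2 / Z + 2 / Z' + 4 / (σ V Z Z')` -/
theorem sweep_pos (hw : Continuous w) (hζ : 1 / 2 ≤ ζ.im) (t : ℝ) {a b σ V D q : ℝ} (ha : 0 ≤ a)
    (hab : a ≤ b) (hσ : σ = 1 ∨ σ = -1) (hV : 1 ≤ V) (hD : 0 ≤ D)
    (h : ∀ u ∈ Icc a b, |w (t - u) - (q + σ * V * u)| ≤ D) :
    ‖bk w t ζ b - bk w t ζ a - 2 / (σ * V) *
        (log (bk w t ζ b - (q + σ * V * b : ℝ)) - log (bk w t ζ a - (q + σ * V * a : ℝ)))‖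
      ≤ (D + 2) * (1 + 2 * D) * (Real.log (bk w t ζ b).im - Real.log (bk w t ζ a).im) := by
  have hζ' : 0 < ζ.im := by linarith
  obtain ⟨c0, c1⟩ := Zig_c hσ hV
  have h1 := Zig_mvt hab (fun u hu => (bk_deriv hw hζ' t (ha.trans hu.1)).fun_sub
    (((Zig_aff hw hζ' t q (σ * V) (ha.trans hu.1)).clog_real (.inr (by
      simpa using (Zig_pos hw hζ' t (ha.trans hu.1)).ne'))).const_mul (2 / (σ * V) : ℂ)))
    (fun u hu => (Zig_log hw hζ' t (ha.trans hu.1)).const_mul ((D + 2) * (1 + 2 * D)))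
    fun u hu => by
      obtain ⟨e1, e2⟩ := Zig_cmp (hζ.trans (bk_im_ge hw hζ' t (ha.trans hu.1))) (h u hu)
      have n1 := Zig_ne hw hζ' t (ha.trans hu.1) (w (t - u))
      have n2 := Zig_ne hw hζ' t (ha.trans hu.1) (q + σ * V * u)
      generalize bk w t ζ u - (w (t - u) : ℝ) = Z at *
      generalize bk w t ζ u - (q + σ * V * u : ℝ) = Z' at *
      obtain ⟨c2, c3⟩ := mul_ne_zero_iff.1 c0
      rw [show -2 / Z - 2 / (σ * V) * ((-2 / Z - (σ * V : ℝ)) / Z') =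
        (2 * (Z - Z') + 4 * (1 / (σ * V))) * (1 / Z) * (1 / Z') by push_cast; field_simp; ring]
      have e3 : ‖2 * (Z - Z') + 4 * (1 / ((σ : ℂ) * V))‖ ≤ 2 * D + 4 :=
        (norm_add_le _ _).trans (by rw [norm_mul, norm_mul]; simp only [Complex.norm_ofNat]; linarith)
      rw [norm_mul, norm_mul, norm_div, norm_div, norm_one]
      refine (mul_le_mul (mul_le_mul_of_nonneg_right e3 (by positivity)) e2 (by positivity)
        (by positivity)).trans_eq (by ring)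
  refine (congrArg norm ?_).trans_le (h1.trans_eq ?_) <;> ring

/-- one sweep, derivative: `(2 / (σ V)) / Z'` has derivative `2 / Z' ^ 2 + 4 / (σ V Z Z' ^ 2)` -/
theorem sweep_der (hw : Continuous w) (hζ : 1 / 2 ≤ ζ.im) (t : ℝ) {a b σ V D q : ℝ} (ha : 0 ≤ a)
    (hab : a ≤ b) (hσ : σ = 1 ∨ σ = -1) (hV : 1 ≤ V) (hD : 0 ≤ D)
    (h : ∀ u ∈ Icc a b, |w (t - u) - (q + σ * V * u)| ≤ D) :
    ‖(∫ u in a..b, 2 / (bk w t ζ u - w (t - u)) ^ 2) - 2 / (σ * V) *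
        (1 / (bk w t ζ b - (q + σ * V * b : ℝ)) - 1 / (bk w t ζ a - (q + σ * V * a : ℝ)))‖
      ≤ (2 * D + 2) * (1 + 2 * D) ^ 2 * (1 / (bk w t ζ a).im - 1 / (bk w t ζ b).im) := by
  have hζ' : 0 < ζ.im := by linarith
  obtain ⟨c0, c1⟩ := Zig_c hσ hV
  choose! d hd hd' using fun u (hu : 0 ≤ u) => Zig_inv hw hζ' t hu
  have h1 := Zig_mvt hab (fun u hu => (Zig_prim hw hζ' t ha hu.1 (fun z => 2 / z ^ 2) fun z hz =>
    continuousAt_const.div (continuous_pow 2).continuousAt (pow_ne_zero _ hz)).fun_sub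
    (((hasDerivAt_const u (1 : ℂ)).fun_div (Zig_aff hw hζ' t q (σ * V) (ha.trans hu.1))
      (Zig_ne hw hζ' t (ha.trans hu.1) _)).const_mul (2 / (σ * V) : ℂ)))
    (fun u hu => (hd u (ha.trans hu.1)).const_mul ((2 * D + 2) * (1 + 2 * D) ^ 2))
    fun u hu => by
      refine le_trans ?_ (mul_le_mul_of_nonneg_left (hd' u (ha.trans hu.1)) (by positivity))
      obtain ⟨e1, e2⟩ := Zig_cmp (hζ.trans (bk_im_ge hw hζ' t (ha.trans hu.1))) (h u hu)
      have n1 := Zig_ne hw hζ' t (ha.trans hu.1) (w (t - u))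
      have n2 := Zig_ne hw hζ' t (ha.trans hu.1) (q + σ * V * u)
      generalize bk w t ζ u - (w (t - u) : ℝ) = Z at *
      generalize bk w t ζ u - (q + σ * V * u : ℝ) = Z' at *
      obtain ⟨c2, c3⟩ := mul_ne_zero_iff.1 c0
      rw [show 2 / Z ^ 2 - 2 / (σ * V) * ((0 * Z' - 1 * (-2 / Z - (σ * V : ℝ))) / Z' ^ 2) =
        -((2 * (Z - Z') + 4 * (1 / (σ * V))) * (1 / Z) * (1 / Z') ^ 2 +
          2 * (Z - Z') * (1 / Z) ^ 2 * (1 / Z')) by push_cast; field_simp; ring, norm_neg]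
      have e3 : ‖2 * (Z - Z') + 4 * (1 / ((σ : ℂ) * V))‖ ≤ 2 * D + 4 :=
        (norm_add_le _ _).trans (by rw [norm_mul, norm_mul]; simp only [Complex.norm_ofNat]; linarith)
      have e4 : 1 / ‖Z'‖ ≤ (1 + 2 * D) ^ 2 / ‖Z‖ :=
        e2.trans (div_le_div_of_nonneg_right (by nlinarith) (norm_nonneg _))
      refine (norm_add_le _ _).trans ?_
      rw [norm_mul, norm_mul, norm_mul, norm_mul, norm_mul, norm_pow, norm_pow, norm_div, norm_div,
        norm_one, Complex.norm_ofNat]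
      calc _ ≤ (2 * D + 4) * (1 / ‖Z‖) * ((1 + 2 * D) / ‖Z‖) ^ 2 +
            2 * D * (1 / ‖Z‖) ^ 2 * ((1 + 2 * D) ^ 2 / ‖Z‖) := by gcongr
        _ = _ := by ring
  rw [intervalIntegral.integral_same] at h1
  refine (congrArg norm ?_).trans_le (h1.trans_eq ?_) <;> ring

end Vale.Agent.P164
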