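import Vale.Agent.P164.Zig

/-!
# P164 ZigB

Summation over the sweeps. Let `t = 2 T i`, `j₀ = (i + m) / (2 m) ∈ [m / 2, m]`, `L = 2 T V m`, `D' = D + 2 T V`.
On the forward time interval `[2 T (2 j - 1) m, 2 T (2 j + 1) m] ∩ [0, t]` the driving function is within `D'`
of `s ↦ (-1) ^ j (V s - 2 L j)` (`tri_eq`). Turning points in backward time: `u k = t - 2 T (2 (j₀ - k) - 1) m`
for `k < j₀`, there the affine function is `±L`. All heights lie in `[1/2, L / 2]`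
(`bk_im_sq_le`, `t ≤ 6 T m ^ 2`, `V` large), so every sweep moves `re h` by at most
`(2 / V) (log (8 L) + π) + error` with total error `E = (D' + 2) (1 + 2 D') log L = o(L)`.
Induction on `k`: `|re h (u k)| ≤ L / 8 + D + 1 + (2 / V) (log (8 L) + π) + k (2 / V) log 12 + E ≤ L / 2`;
(a priori `|re h (u (k+1))| ≤ 3 L / 4`, so `|Z'| ∈ [L / 4, 3 L]` at both ends.) On a full sweep `Z'` goes
from one side (`|re| ≥ L / 2 ≥ im`) to the other, `arg` changes by at least `π / 2` in the direction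
which increases the height: gain `≥ π / V`. There are `j₀ - 1 ≥ m / 4` full sweeps.
For the derivative sum `sweep_der`: boundary terms `≤ (2 / V) (2 + 2 m (4 / L) + 2)`.
-/

open MeasureTheory ProbabilityTheory Set Filter Topology Complex Function
open scoped NNReal ENNReal ComplexConjugate

noncomputable section

namespace Vale.Agent.P164

variable {w : ℝ → ℝ} {ζ : ℂ}

theorem ZigB_crude (hw : Continuous w) (hζ : 1 / 2 ≤ ζ.im) (t : ℝ) {a b : ℝ} (ha : 0 ≤ a)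
    (hab : a ≤ b) : ‖bk w t ζ b - bk w t ζ a‖ ≤ 4 * (b - a) := by
  have h0 : 0 < ζ.im := by linarith
  refine norm_image_sub_le_of_norm_deriv_le_segment' (f := bk w t ζ)
    (f' := fun s => -2 / (bk w t ζ s - w (t - s)))
    (fun s hs => (bk_deriv hw h0 t (ha.trans hs.1)).hasDerivWithinAt) (fun s hs => ?_) b
    (right_mem_Icc.2 hab)
  have h1 : 1 / 2 ≤ ‖bk w t ζ s - w (t - s)‖ := by
    refine le_trans ?_ (im_le_norm _)
    simpa using hζ.trans (bk_im_ge hw h0 t (ha.trans hs.1))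
  rw [norm_div, div_le_iff₀ (by linarith)]
  simp only [norm_neg, Complex.norm_ofNat]
  linarith

theorem ZigB_arg_le {Z : ℂ} {L : ℝ} (_hL : 0 < L) (h1 : 7 * L / 16 ≤ Z.re) (h2 : 0 < Z.im)
    (h3 : Z.im ≤ L / 4) : arg Z ≤ 2 * Real.pi / 7 := by
  have h4 : 7 * L / 16 ≤ ‖Z‖ := h1.trans (re_le_norm _)
  have h5 : 0 ≤ arg Z := arg_nonneg_iff.2 h2.le
  have h6 : arg Z ≤ Real.pi / 2 := arg_le_pi_div_two_iff.2 (Or.inl (by linarith))
  have h7 := Real.mul_le_sin h5 h6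
  rw [sin_arg] at h7
  have h8 : Z.im / ‖Z‖ ≤ 4 / 7 := by
    rw [div_le_iff₀ (by linarith)]
    linarith
  have h9 := h7.trans h8
  rw [div_mul_eq_mul_div, div_le_iff₀ Real.pi_pos] at h9
  linarith

theorem ZigB_arg_ge {Z : ℂ} (h1 : Z.re < 0) (h2 : 0 < Z.im) : Real.pi / 2 ≤ arg Z := by
  by_contra h
  rcases arg_lt_pi_div_two_iff.1 (not_le.1 h) with h | h | h
  · linarith
  · linarith
  · simp [h] at h2

theorem ZigB_log {x y L : ℝ} (hL : 0 < L) (h1 : 7 * L / 16 ≤ x) (h2 : x ≤ 2 * L)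
    (h3 : 7 * L / 16 ≤ y) (h4 : y ≤ 2 * L) : |Real.log x - Real.log y| ≤ 4 := by
  have hx : 0 < x := by linarith
  have hy : 0 < y := by linarith
  have k1 := Real.log_le_sub_one_of_pos (div_pos hx hy)
  have k2 := Real.log_le_sub_one_of_pos (div_pos hy hx)
  rw [Real.log_div hx.ne' hy.ne'] at k1
  rw [Real.log_div hy.ne' hx.ne'] at k2
  have k3 : x / y ≤ 5 := by rw [div_le_iff₀ hy]; linarith
  have k4 : y / x ≤ 5 := by rw [div_le_iff₀ hx]; linarith
  exact abs_le.2 ⟨by linarith, by linarith⟩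

theorem ZigB_norm {Z : ℂ} {L p : ℝ} (hp : |p| = L) (h1 : |Z.re| ≤ 9 * L / 16) (h2 : 0 < Z.im)
    (h3 : Z.im ≤ L / 4) : 7 * L / 16 ≤ ‖Z - p‖ ∧ ‖Z - p‖ ≤ 2 * L := by
  constructor
  · refine le_trans ?_ (abs_re_le_norm _)
    have := abs_sub_abs_le_abs_sub p Z.re
    rw [abs_sub_comm] at this
    simp only [sub_re, ofReal_re]
    linarith
  · refine (norm_le_abs_re_add_abs_im _).trans ?_
    have := abs_sub Z.re p
    simp only [sub_re, ofReal_re, sub_im, ofReal_im, sub_zero, abs_of_pos h2]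
    linarith

theorem ZigB_coef {σ V : ℝ} (hσ : σ = 1 ∨ σ = -1) (hV : 1 ≤ V) :
    (2 / (σ * V) : ℂ) = ((σ * (2 / V) : ℝ) : ℂ) := by
  have : (V : ℂ) ≠ 0 := by exact_mod_cast (by linarith : V ≠ 0)
  rcases hσ with rfl | rfl <;> push_cast <;> field_simp

theorem ZigB_part (hw : Continuous w) (hζ : 1 / 2 ≤ ζ.im) (t : ℝ) {a b σ V D q r : ℝ} (ha : 0 ≤ a)
    (hab : a ≤ b) (hσ : σ = 1 ∨ σ = -1) (hV : 1 ≤ V) (hD : 0 ≤ D)
    (h : ∀ u ∈ Icc a b, |w (t - u) - (q + σ * V * u)| ≤ D) (hr : 0 < r)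
    (h1 : r ≤ ‖bk w t ζ a - (q + σ * V * a : ℝ)‖) (h2 : r ≤ ‖bk w t ζ b - (q + σ * V * b : ℝ)‖) :
    ‖∫ u in a..b, 2 / (bk w t ζ u - w (t - u)) ^ 2‖ ≤ 4 / (V * r)
      + (2 * D + 2) * (1 + 2 * D) ^ 2 * (1 / (bk w t ζ a).im - 1 / (bk w t ζ b).im) := by
  have k := sweep_der hw hζ t ha hab hσ hV hD h
  refine (norm_le_insert' _ _).trans (add_le_add ?_ k)
  rw [ZigB_coef hσ hV, norm_mul, norm_real, Real.norm_eq_abs]
  have e : |σ * (2 / V)| = 2 / V := by
    rw [abs_mul, abs_of_pos (by positivity : 0 < 2 / V)]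
    rcases hσ with rfl | rfl <;> simp
  have k1 : ‖1 / (bk w t ζ b - (q + σ * V * b : ℝ)) - 1 / (bk w t ζ a - (q + σ * V * a : ℝ))‖
      ≤ 1 / r + 1 / r := by
    refine (norm_sub_le _ _).trans (add_le_add ?_ ?_) <;> rw [norm_div, norm_one]
    · exact one_div_le_one_div_of_le hr h2
    · exact one_div_le_one_div_of_le hr h1
  rw [e]
  refine (mul_le_mul_of_nonneg_left k1 (by positivity)).trans (le_of_eq ?_)
  field_simp
  norm_num

theorem ZigB_part' (hw : Continuous w) (hζ : 1 / 2 ≤ ζ.im) (t : ℝ) {a b σ V D q : ℝ} (ha : 0 ≤ a)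
    (hab : a ≤ b) (hσ : σ = 1 ∨ σ = -1) (hV : 1 ≤ V) (hD : 0 ≤ D)
    (h : ∀ u ∈ Icc a b, |w (t - u) - (q + σ * V * u)| ≤ D) :
    ‖∫ u in a..b, 2 / (bk w t ζ u - w (t - u)) ^ 2‖ ≤ 8
      + (2 * D + 2) * (1 + 2 * D) ^ 2 * (1 / (bk w t ζ a).im - 1 / (bk w t ζ b).im) := by
  have h0 : 0 < ζ.im := by linarith
  have k : ∀ s p : ℝ, 0 ≤ s → 1 / 2 ≤ ‖bk w t ζ s - p‖ := fun s p hs => by
    refine le_trans ?_ (im_le_norm _)
    simpa using hζ.trans (bk_im_ge hw h0 t hs)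
  refine (ZigB_part hw hζ t ha hab hσ hV hD h (by norm_num) (k _ _ ha)
    (k _ _ (ha.trans hab))).trans (add_le_add ?_ le_rfl)
  rw [div_le_iff₀ (by positivity)]
  linarith

theorem ZigB_full (hw : Continuous w) (hζ : 1 / 2 ≤ ζ.im) (t : ℝ) {a b σ V D q L : ℝ} (ha : 0 ≤ a)
    (hab : a ≤ b) (hσ : σ = 1 ∨ σ = -1) (hV : 1 ≤ V) (hD : 0 ≤ D)
    (h : ∀ u ∈ Icc a b, |w (t - u) - (q + σ * V * u)| ≤ D) (hL : 0 < L)
    (pa : q + σ * V * a = -σ * L) (pb : q + σ * V * b = σ * L)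
    (ra : |(bk w t ζ a).re| ≤ 9 * L / 16) (rb : |(bk w t ζ b).re| ≤ 9 * L / 16)
    (ia : (bk w t ζ a).im ≤ L / 4) (ib : (bk w t ζ b).im ≤ L / 4) :
    |(bk w t ζ b).re - (bk w t ζ a).re| ≤ 8 / V
        + (D + 2) * (1 + 2 * D) * (Real.log (bk w t ζ b).im - Real.log (bk w t ζ a).im) ∧
      1 / V - (D + 2) * (1 + 2 * D) * (Real.log (bk w t ζ b).im - Real.log (bk w t ζ a).im)
        ≤ (bk w t ζ b).im - (bk w t ζ a).im ∧
      ‖∫ u in a..b, 2 / (bk w t ζ u - w (t - u)) ^ 2‖ ≤ 10 / (V * L)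
        + (2 * D + 2) * (1 + 2 * D) ^ 2 * (1 / (bk w t ζ a).im - 1 / (bk w t ζ b).im) := by
  have h0 : 0 < ζ.im := by linarith
  have ya : 0 < (bk w t ζ a).im := h0.trans_le (bk_im_ge hw h0 t ha)
  have yb : 0 < (bk w t ζ b).im := h0.trans_le (bk_im_ge hw h0 t (ha.trans hab))
  have e1 : |q + σ * V * a| = L := by
    rw [pa]; rcases hσ with rfl | rfl <;> simp [abs_of_pos hL]
  have e2 : |q + σ * V * b| = L := by
    rw [pb]; rcases hσ with rfl | rfl <;> simp [abs_of_pos hL]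
  obtain ⟨n1, n2⟩ := ZigB_norm e1 ra ya ia
  obtain ⟨n3, n4⟩ := ZigB_norm e2 rb yb ib
  have k := sweep_pos hw hζ t ha hab hσ hV hD h
  rw [ZigB_coef hσ hV] at k
  have kr := (abs_re_le_norm _).trans k
  have ki := (abs_im_le_norm _).trans k
  simp only [sub_re, re_ofReal_mul, log_re] at kr
  simp only [sub_im, im_ofReal_mul, log_im] at ki
  have hV0 : 0 < 2 / V := by positivity
  refine ⟨?_, ?_, ?_⟩
  · have l := ZigB_log hL n3 n4 n1 n2
    have l2 : |σ * (2 / V) * (Real.log ‖bk w t ζ b - (q + σ * V * b : ℝ)‖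
        - Real.log ‖bk w t ζ a - (q + σ * V * a : ℝ)‖)| ≤ 8 / V := by
      rw [abs_mul, abs_mul, abs_of_pos hV0]
      have : |σ| = 1 := by rcases hσ with rfl | rfl <;> simp
      rw [this, one_mul]
      refine (mul_le_mul_of_nonneg_left l hV0.le).trans (le_of_eq ?_)
      ring
    have := abs_sub_abs_le_abs_sub ((bk w t ζ b).re - (bk w t ζ a).re) (σ * (2 / V) *
      (Real.log ‖bk w t ζ b - (q + σ * V * b : ℝ)‖ - Real.log ‖bk w t ζ a - (q + σ * V * a : ℝ)‖))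
    linarith
  · have l : 1 / 2 ≤ σ * (arg (bk w t ζ b - (q + σ * V * b : ℝ))
        - arg (bk w t ζ a - (q + σ * V * a : ℝ))) := by
      have ra' := abs_le.1 ra
      have rb' := abs_le.1 rb
      have hp := Real.pi_gt_three
      rw [pa, pb]
      rcases hσ with rfl | rfl
      · have a1 := ZigB_arg_le (Z := bk w t ζ a - (-1 * L : ℝ)) hL
          (by simp only [sub_re, ofReal_re]; linarith) (by simpa using ya) (by simpa using ia)
        have a2 := ZigB_arg_ge (Z := bk w t ζ b - (1 * L : ℝ))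
          (by simp only [sub_re, ofReal_re]; linarith) (by simpa using yb)
        linarith
      · have a1 := ZigB_arg_le (Z := bk w t ζ b - (-1 * L : ℝ)) hL
          (by simp only [sub_re, ofReal_re]; linarith) (by simpa using yb) (by simpa using ib)
        have a2 := ZigB_arg_ge (Z := bk w t ζ a - (- -1 * L : ℝ))
          (by simp only [sub_re, ofReal_re]; linarith) (by simpa using ya)
        linarith
    have l2 := mul_le_mul_of_nonneg_left l hV0.le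
    have l3 : 2 / V * (1 / 2) = 1 / V := by ring
    have := (abs_le.1 ki).1
    nlinarith
  · refine (ZigB_part hw hζ t ha hab hσ hV hD h (by positivity) n1 n3).trans (add_le_add ?_ le_rfl)
    rw [div_le_div_iff₀ (by positivity) (by positivity)]
    nlinarith [mul_pos (by linarith : 0 < V) hL]

theorem ZigB_aff {T V D : ℝ} {m i : ℕ} (hT : 0 < T) (hV : 0 ≤ V) (hm : 0 < m)
    (h : ∀ i < (2 * m + 1) * m, ∀ t ∈ Icc (2 * T * i) (2 * T * (i + 1)),
      |w t - 2 * T * V * tri m i| ≤ D) (hi : i < (2 * m + 1) * m) (j : ℕ) {s : ℝ} (h0 : 0 ≤ s)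
    (h1 : s ≤ 2 * T * i) (h2 : 2 * T * (2 * j - 1) * m ≤ s) (h3 : s ≤ 2 * T * (2 * j + 1) * m) :
    |w s - (-1) ^ j * (V * s - 2 * (2 * T * V * m) * j)| ≤ D + 2 * T * V := by
  have hT2 : 0 < 2 * T := by positivity
  set n := ⌊s / (2 * T)⌋₊ with hn
  have k1 : (n : ℝ) ≤ s / (2 * T) := Nat.floor_le (by positivity)
  have k2 : s / (2 * T) < n + 1 := Nat.lt_floor_add_one _
  rw [le_div_iff₀ hT2] at k1
  rw [div_lt_iff₀ hT2] at k2
  have k3 : n ≤ i := by
    have : (n : ℝ) ≤ i := by nlinarith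
    exact_mod_cast this
  have k4 : n ≤ (2 * j + 1) * m := by
    have : (n : ℝ) ≤ (2 * j + 1) * m := by nlinarith
    exact_mod_cast this
  have k5 : 2 * j * m ≤ n + m := by
    have : (2 * j * m : ℝ) < n + m + 1 := by nlinarith
    have : 2 * j * m < n + m + 1 := by exact_mod_cast this
    omega
  have k6 := h n (k3.trans_lt hi) s ⟨by linarith, by linarith⟩
  rw [tri_eq m hm k5 k4] at k6
  have k7 : |2 * T * V * ((-1) ^ j * ((n : ℝ) - 2 * m * j))
      - (-1) ^ j * (V * s - 2 * (2 * T * V * m) * j)| ≤ 2 * T * V := by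
    have e : 2 * T * V * ((-1) ^ j * ((n : ℝ) - 2 * m * j))
      - (-1) ^ j * (V * s - 2 * (2 * T * V * m) * j) = (-1) ^ j * (V * (n * (2 * T) - s)) := by ring
    rw [e, abs_mul, abs_pow, abs_neg, abs_one, one_pow, one_mul, abs_mul, abs_of_nonneg hV,
      mul_comm (2 * T) V]
    exact mul_le_mul_of_nonneg_left (abs_le.2 ⟨by linarith, by linarith⟩) hV
  exact (abs_sub_le _ _ _).trans (add_le_add k6 k7)

theorem ZigB_int (hw : Continuous w) (hζ : 0 < ζ.im) (t : ℝ) {a b : ℝ} (ha : 0 ≤ a) (hb : 0 ≤ b) :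
    IntervalIntegrable (fun u => 2 / (bk w t ζ u - w (t - u)) ^ 2) volume a b := by
  refine ContinuousOn.intervalIntegrable ?_
  have := bk_cont hw hζ t
  refine ContinuousOn.div continuousOn_const (by fun_prop) fun u hu => pow_ne_zero _ fun h => ?_
  have h1 := bk_im_ge hw hζ t ((le_min ha hb).trans hu.1)
  have h2 := congrArg im h
  simp at h2
  linarith

set_option maxHeartbeats 1600000 in
theorem ZigB_main {T V D : ℝ} {m j : ℕ} {t : ℝ} (hT : 0 < T) (hV : 128 ≤ V) (hTV : 128 ≤ T * V)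
    (hD : 0 ≤ D) (hm : 8 ≤ m) (hw : Continuous w) (hζ : 1 / 2 ≤ ζ.im) (hj : m ≤ 2 * j) (hj' : j ≤ m)
    (t1 : 2 * T * (2 * j - 1) * m ≤ t) (t2 : t ≤ 2 * T * (2 * j + 1) * m)
    (h : ∀ k : ℕ, ∀ s, 0 ≤ s → s ≤ t → 2 * T * (2 * k - 1) * m ≤ s → s ≤ 2 * T * (2 * k + 1) * m →
      |w s - (-1) ^ k * (V * s - 2 * (2 * T * V * m) * k)| ≤ D)
    (hre : |ζ.re| ≤ 3 * (2 * T * V * m) / 16)
    (hY : ∀ s ∈ Icc 0 t, (bk w t ζ s).im ≤ 2 * T * V * m / 4)
    (hE : (D + 2) * (1 + 2 * D) * Real.log (2 * T * V * m) ≤ m / (8 * V)) :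
    |(bf w t ζ).re| ≤ 2 * T * V * m ∧ m / (4 * V) ≤ (bf w t ζ).im ∧
      ‖∫ u in (0 : ℝ)..t, 2 / (bk w t ζ u - w (t - u)) ^ 2‖
        ≤ 17 + 2 * ((2 * D + 2) * (1 + 2 * D) ^ 2) := by
  set L := 2 * T * V * m with hL
  set E₀ := (D + 2) * (1 + 2 * D) with hE₀
  set E₁ := (2 * D + 2) * (1 + 2 * D) ^ 2 with hE₁
  have h0 : 0 < ζ.im := by linarith
  have hm8 : (8 : ℝ) ≤ m := by exact_mod_cast hm
  have hjm : (m : ℝ) ≤ 2 * j := by exact_mod_cast hj
  have hjm' : (j : ℝ) ≤ m := by exact_mod_cast hj'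
  have hTm : 0 < T * m := by positivity
  have hV0 : 0 < V := by linarith
  have hL0 : 0 < L := by positivity
  have hL1 : 256 * (T * m) ≤ L := by rw [hL]; nlinarith
  have hL2 : 256 * (m : ℝ) ≤ L := by rw [hL]; nlinarith
  have E0 : 0 ≤ E₀ := by positivity
  have E1 : 0 ≤ E₁ := by positivity
  set β : ℕ → ℝ := fun n => t - 2 * T * (2 * (j - n) - 1) * m with hβ
  have β0 : 0 ≤ β 0 := by simp only [hβ]; push_cast; linarith
  have β1 : β 0 ≤ 4 * (T * m) := by simp only [hβ]; push_cast; linarith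
  have βs : ∀ n, β (n + 1) = β n + 4 * (T * m) := fun n => by simp only [hβ]; push_cast; ring
  have βp : ∀ n, 0 ≤ β n := fun n => by
    induction n with
    | zero => exact β0
    | succ n ih => rw [βs]; linarith
  have βt : ∀ n : ℕ, n + 1 ≤ j → β n ≤ t - 2 * (T * m) := fun n hn => by
    have : (n : ℝ) + 1 ≤ j := by exact_mod_cast hn
    simp only [hβ]
    nlinarith
  have ht : 0 ≤ t := by have := βt 0 (by omega); linarith
  have sg : ∀ k : ℕ, -(-1 : ℝ) ^ k = 1 ∨ -(-1 : ℝ) ^ k = -1 := fun k => by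
    rcases neg_one_pow_eq_or ℝ k with e | e <;> simp [e]
  have aff : ∀ (k : ℕ) (a b : ℝ), 0 ≤ a → b ≤ t → t - 2 * T * (2 * k + 1) * m ≤ a →
      b ≤ t - 2 * T * (2 * k - 1) * m → ∀ u ∈ Icc a b,
      |w (t - u) - ((-1) ^ k * (V * t - 2 * L * k) + -(-1) ^ k * V * u)| ≤ D :=
    fun k a b ha hb ha' hb' u hu => by
      have := h k (t - u) (by linarith [hu.2]) (by linarith [hu.1]) (by linarith [hu.2])
        (by linarith [hu.1])
      rwa [show (-1 : ℝ) ^ k * (V * (t - u) - 2 * L * k)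
        = (-1) ^ k * (V * t - 2 * L * k) + -(-1) ^ k * V * u by ring] at this
  have Yp : ∀ s, 0 ≤ s → 1 / 2 ≤ (bk w t ζ s).im := fun s hs => hζ.trans (bk_im_ge hw h0 t hs)
  have G : ∀ s ∈ Icc 0 t, 0 ≤ E₀ * (Real.log (bk w t ζ s).im - Real.log ζ.im) ∧
      E₀ * (Real.log (bk w t ζ s).im - Real.log ζ.im) ≤ m / (8 * V) := fun s hs => by
    refine ⟨mul_nonneg E0 (sub_nonneg.2 (Real.log_le_log h0 (bk_im_ge hw h0 t hs.1))),
      le_trans (mul_le_mul_of_nonneg_left ?_ E0) hE⟩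
    have := Yp s hs.1
    rw [← Real.log_div (by linarith) h0.ne']
    refine Real.log_le_log (by positivity) ?_
    rw [div_le_iff₀ h0]
    nlinarith [hY s hs]
  have mV : (m : ℝ) / V ≤ L / 64 := by
    rw [div_le_iff₀ hV0]
    nlinarith
  have cr : ∀ a b, 0 ≤ a → a ≤ b → b ≤ a + 4 * (T * m) →
      |(bk w t ζ b).re| ≤ |(bk w t ζ a).re| + L / 16 := fun a b ha hab hb => by
    have k1 := (abs_re_le_norm _).trans (ZigB_crude hw hζ t ha hab)
    have k2 := abs_sub_abs_le_abs_sub (bk w t ζ b).re (bk w t ζ a).re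
    rw [sub_re] at k1
    linarith
  have key : ∀ n : ℕ, n + 1 ≤ j →
      |(bk w t ζ (β n)).re| ≤ L / 4 + n * (8 / V)
        + E₀ * (Real.log (bk w t ζ (β n)).im - Real.log ζ.im) ∧
      n * (1 / V) - E₀ * (Real.log (bk w t ζ (β n)).im - Real.log ζ.im) ≤ (bk w t ζ (β n)).im ∧
      ‖∫ u in (0 : ℝ)..β n, 2 / (bk w t ζ u - w (t - u)) ^ 2‖ ≤ 8 + n * (10 / (V * L))
        + E₁ * (1 / ζ.im - 1 / (bk w t ζ (β n)).im) := by
    intro n
    induction n with
    | zero =>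
      intro hn
      have g := (G (β 0) ⟨β0, by linarith [βt 0 hn]⟩).1
      have k1 := cr 0 (β 0) le_rfl β0 (by linarith)
      have k2 := ZigB_part' hw hζ t le_rfl β0 (sg j) (by linarith : 1 ≤ V) hD
        (aff j 0 (β 0) le_rfl (by linarith [βt 0 hn]) (by linarith) (by simp [hβ]))
      rw [bk_zero hw h0] at k1 k2
      simp only [CharP.cast_eq_zero, zero_mul, add_zero, zero_sub]
      exact ⟨by linarith, by linarith [Yp _ β0], k2⟩
    | succ n ih =>
      intro hn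
      obtain ⟨i1, i2, i3⟩ := ih (by omega)
      obtain ⟨k, hk⟩ : ∃ k, j = k + (n + 1) := ⟨j - (n + 1), by omega⟩
      have hk' : (j : ℝ) = k + (n + 1) := by exact_mod_cast hk
      have b1 : β (n + 1) ≤ t := by linarith [βt _ hn]
      have b0 : β n ≤ β (n + 1) := by rw [βs]; linarith
      have g := G (β n) ⟨βp n, b0.trans b1⟩
      have hn' : (n : ℝ) ≤ m := by linarith [(Nat.cast_nonneg k : (0 : ℝ) ≤ k)]
      have n8 : n * (8 / V) ≤ L / 8 := by
        have : (n : ℝ) * (8 / V) ≤ m * (8 / V) := mul_le_mul_of_nonneg_right hn' (by positivity)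
        have e : (m : ℝ) * (8 / V) = 8 * (m / V) := by ring
        linarith
      have m8 : (m : ℝ) / (8 * V) ≤ L / 8 := by
        have e : (m : ℝ) / (8 * V) = m / V / 8 := by ring
        linarith
      have r1 : |(bk w t ζ (β n)).re| ≤ L / 2 := by linarith [g.2]
      have r2 := cr (β n) (β (n + 1)) (βp n) b0 (βs n).le
      obtain ⟨f1, f2, f3⟩ := ZigB_full hw hζ t (βp n) b0 (sg k) (by linarith : 1 ≤ V) hD
        (aff k (β n) (β (n + 1)) (βp n) b1 (by simp only [hβ, hk']; linarith)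
          (by simp only [hβ, hk']; push_cast; linarith)) hL0
        (by simp only [hβ, hk', hL]; ring) (by simp only [hβ, hk', hL]; push_cast; ring)
        (by linarith) (by linarith) (hY _ ⟨βp n, b0.trans b1⟩) (hY _ ⟨βp _, b1⟩)
      have k2 := abs_sub_abs_le_abs_sub (bk w t ζ (β (n + 1))).re (bk w t ζ (β n)).re
      rw [← intervalIntegral.integral_add_adjacent_intervals (ZigB_int hw h0 t le_rfl (βp n))
        (ZigB_int hw h0 t (βp n) (βp _))]
      push_cast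
      refine ⟨by linarith, by linarith, (norm_add_le _ _).trans (by linarith)⟩
  obtain ⟨n, hn⟩ : ∃ n, j = n + 1 := ⟨j - 1, by omega⟩
  have hn' : (j : ℝ) = n + 1 := by exact_mod_cast hn
  obtain ⟨i1, i2, i3⟩ := key n hn.ge
  have b1 : β n = t - 2 * (T * m) := by simp only [hβ, hn']; ring
  have b2 : β n ≤ t := by linarith
  have g := G (β n) ⟨βp n, b2⟩
  have n8 : n * (8 / V) ≤ L / 8 := by
    have : (n : ℝ) * (8 / V) ≤ m * (8 / V) :=
      mul_le_mul_of_nonneg_right (by linarith) (by positivity)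
    have e : (m : ℝ) * (8 / V) = 8 * (m / V) := by ring
    linarith
  have m8 : (m : ℝ) / (8 * V) ≤ L / 8 := by
    have e : (m : ℝ) / (8 * V) = m / V / 8 := by ring
    linarith
  have r2 := cr (β n) t (βp n) b2 (by linarith)
  refine ⟨by unfold bf; linarith [g.2], ?_, ?_⟩
  · have k1 : (bk w t ζ (β n)).im ≤ (bk w t ζ t).im := bk_im_mono hw h0 t b2
    have k2 : (3 * m / 8 : ℝ) * (1 / V) ≤ n * (1 / V) :=
      mul_le_mul_of_nonneg_right (by linarith) (by positivity)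
    have e1 : (3 * m / 8 : ℝ) * (1 / V) = 3 * (m / (8 * V)) := by ring
    have e2 : (m : ℝ) / (4 * V) = 2 * (m / (8 * V)) := by ring
    unfold bf
    linarith [g.2]
  · have k2 := ZigB_part' hw hζ t (βp n) b2 (sg 0) (by linarith : 1 ≤ V) hD
      (aff 0 (β n) t (βp n) le_rfl (by rw [b1]; push_cast; linarith) (by push_cast; linarith))
    rw [← intervalIntegral.integral_add_adjacent_intervals (ZigB_int hw h0 t le_rfl (βp n))
      (ZigB_int hw h0 t (βp n) ht)]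
    have k3 : (n : ℝ) * (10 / (V * L)) ≤ 1 := by
      rw [← mul_div_assoc, div_le_one (by positivity)]
      nlinarith
    have k4 : 1 / ζ.im ≤ 2 := by rw [div_le_iff₀ h0]; linarith
    have k5 : 0 ≤ 1 / (bk w t ζ t).im := by have := Yp t ht; positivity
    have k6 : E₁ * (1 / ζ.im - 1 / (bk w t ζ t).im) ≤ E₁ * 2 :=
      mul_le_mul_of_nonneg_left (by linarith) E1
    refine (norm_add_le _ _).trans (by linarith)

set_option maxHeartbeats 1600000 in
theorem zig {T : ℝ} (hT : 0 < T) : ∃ V : ℝ, 1 ≤ V ∧ 3 ≤ T * V ^ 2 ∧ ∀ D : ℝ, 0 ≤ D →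
    ∃ c Λ : ℝ, ∃ m₀ : ℕ, 0 < c ∧ 0 < Λ ∧ ∀ m ≥ m₀, ∀ w : ℝ → ℝ, Continuous w →
    (∀ i < (2 * m + 1) * m, ∀ t ∈ Icc (2 * T * i) (2 * T * (i + 1)),
      |w t - 2 * T * V * tri m i| ≤ D) →
    ∀ i < (2 * m + 1) * m, m ≤ 2 * ((i + m) / (2 * m)) → 8 * |tri m i| ≤ m →
    ∀ ζ : ℂ, |ζ.re - w (2 * T * i)| ≤ 1 → 1 / 2 ≤ ζ.im → ζ.im ≤ 2 →
      |(bf w (2 * T * i) ζ).re| ≤ 2 * T * V * m ∧
      c * (2 * T * V * m) ≤ (bf w (2 * T * i) ζ).im ∧ (bf w (2 * T * i) ζ).im ≤ 2 * T * V * m ∧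
      Λ⁻¹ ≤ ‖deriv (bf w (2 * T * i)) ζ‖ ∧ ‖deriv (bf w (2 * T * i)) ζ‖ ≤ Λ := by
  set V := 128 + 128 / T with hV
  have hV1 : 128 ≤ V := by rw [hV]; exact le_add_of_nonneg_right (by positivity)
  have hV2 : 128 ≤ T * V := by
    have : T * V = 128 * T + 128 := by rw [hV]; field_simp
    linarith
  refine ⟨V, by linarith, by nlinarith, fun D hD => ?_⟩
  set D' := D + 2 * T * V with hD'
  have hD0 : 0 ≤ D' := by rw [hD']; linarith
  set E₀ := (D' + 2) * (1 + 2 * D') with hE₀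
  have E0 : 0 < E₀ := by positivity
  set K := 17 + 2 * ((2 * D' + 2) * (1 + 2 * D') ^ 2) with hK
  have tL : Tendsto (fun m : ℕ => 2 * T * V * m) atTop atTop :=
    tendsto_natCast_atTop_atTop.const_mul_atTop (by positivity)
  have ev := (tL.eventually (Real.isLittleO_log_id_atTop.bound
    (c := 1 / (16 * T * V ^ 2 * E₀)) (by positivity))).and
    ((tL.eventually_ge_atTop (16 * (D + 1))).and ((eventually_ge_atTop 8).and
      ((tendsto_natCast_atTop_atTop (R := ℝ)).eventually_ge_atTop (1 / T))))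
  obtain ⟨m₀, hm₀⟩ := eventually_atTop.1 ev
  refine ⟨1 / (8 * T * V ^ 2), Real.exp K, m₀, by positivity, Real.exp_pos _,
    fun m hm w hw h i hi hj htri ζ hre hζ hζ2 => ?_⟩
  obtain ⟨e1, e2, e3, e4⟩ := hm₀ m hm
  have hm0 : 0 < m := by omega
  have hm8 : (8 : ℝ) ≤ m := by exact_mod_cast e3
  have hV0 : 0 < V := by linarith
  have h0 : 0 < ζ.im := by linarith
  have hL0 : 0 < 2 * T * V * m := by positivity
  set j := (i + m) / (2 * m) with hj0
  have j1 : 2 * m * j ≤ i + m := Nat.mul_div_le _ _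
  have j2 : i + m < 2 * m * (j + 1) := Nat.lt_mul_div_succ _ (by omega)
  have j3 : j ≤ m := by
    by_contra hc
    have : 2 * m * (m + 1) ≤ 2 * m * j := Nat.mul_le_mul_left _ (by omega)
    nlinarith
  have j1' : (2 * m * j : ℝ) ≤ i + m := by exact_mod_cast j1
  have j2' : (i + m : ℝ) < 2 * m * (j + 1) := by exact_mod_cast j2
  have hi' : (i : ℝ) < (2 * m + 1) * m := by exact_mod_cast hi
  have ht : 0 ≤ 2 * T * i := by positivity
  have hY : ∀ s ∈ Icc 0 (2 * T * i), (bk w (2 * T * i) ζ s).im ≤ 2 * T * V * m / 4 := by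
    intro s hs
    have k1 := bk_im_sq_le hw h0 (2 * T * i) hs.1
    have k2 : 1 ≤ T * m := by rw [div_le_iff₀ hT] at e4; linarith
    have k3 : s ≤ 6 * (T * m * m) := by
      have : 2 * T * i ≤ 2 * T * (3 * (m * m)) :=
        mul_le_mul_of_nonneg_left (by nlinarith) (by positivity)
      linarith [hs.2]
    have k4 : 8 ≤ T * m * m := by nlinarith
    have k5 : 128 * 128 * (T * m * m) ≤ (T * V * V) * (T * m * m) :=
      mul_le_mul_of_nonneg_right (by nlinarith) (by positivity)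
    refine abs_le_of_sq_le_sq' (le_trans k1 ?_) (by positivity) |>.2
    nlinarith
  have hr : |ζ.re| ≤ 3 * (2 * T * V * m) / 16 := by
    have k1 := h i hi (2 * T * i) ⟨le_rfl, by linarith⟩
    have k2 : |2 * T * V * tri m i| ≤ 2 * T * V * m / 8 := by
      rw [abs_mul, abs_of_pos (by positivity : 0 < 2 * T * V)]
      nlinarith
    have k3 := abs_le.1 k1
    have k4 := abs_le.1 k2
    have k5 := abs_le.1 hre
    exact abs_le.2 ⟨by linarith, by linarith⟩
  have hE : E₀ * Real.log (2 * T * V * m) ≤ m / (8 * V) := by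
    have k1 := (le_abs_self _).trans e1
    simp only [id, Real.norm_eq_abs, abs_of_pos hL0] at k1
    refine (mul_le_mul_of_nonneg_left k1 E0.le).trans (le_of_eq ?_)
    field_simp
    ring
  obtain ⟨f1, f2, f3⟩ := ZigB_main (j := j) (t := 2 * T * i) hT hV1 hV2 hD0 e3 hw hζ hj j3
    (by nlinarith) (by nlinarith)
    (fun k s s0 s1 s2 s3 => ZigB_aff hT hV0.le hm0 h hi k s0 s1 s2 s3) hr hY hE
  have f4 := abs_le.1 ((abs_re_le_norm _).trans f3)
  rw [(bf_hasDerivAt hw h0 ht).deriv, norm_exp, ← Real.exp_neg]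
  refine ⟨f1, le_trans (le_of_eq ?_) f2, (hY _ ⟨ht, le_rfl⟩).trans (by linarith),
    Real.exp_le_exp.2 f4.1, Real.exp_le_exp.2 f4.2⟩
  field_simp
  ring

end Vale.Agent.P164
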